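/-
S0096, helper84's blueprint L8, matrix core (helper92): the gain of the middle step dominates the
scalar square function of the twisted kernel, by testing `gap_main` with an off-diagonal matrix.
No SVD, no Lemma A.
-/
import Crest.Agent.TriH.Energy

set_option autoImplicit false

namespace Crest.Agent.TriRL.Aniso

open Matrix Crest.Agent.TriH
open scoped ComplexOrder

variable {𝕜 : Type*} [RCLike 𝕜]
variable {n : Type*} [Fintype n] [DecidableEq n]
variable {p q m : Type*} [Fintype p] [Fintype q] [Fintype m]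
  [DecidableEq p] [DecidableEq q] [DecidableEq m]

/-- `T ≤ (Tr T) · 1` for PSD `T`. -/
lemma trace_smul_one_sub_psd {T : Matrix n n 𝕜} (hT : T.PosSemidef) :
    ((rtr T : ℝ) • (1 : Matrix n n 𝕜) - T).PosSemidef := by
  classical
  set h := hT.1 with hh
  set U : Matrix n n 𝕜 := (h.eigenvectorUnitary : Matrix n n 𝕜) with hU
  have hsp : T = U * diagonal (RCLike.ofReal ∘ h.eigenvalues) * Uᴴ := by
    have := h.spectral_theorem
    rw [Unitary.conjStarAlgAut_apply] at this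
    simpa [hU, star_eq_conjTranspose] using this
  have hUU : U * Uᴴ = 1 := by
    have := Unitary.coe_mul_star_self h.eigenvectorUnitary
    simpa [hU, star_eq_conjTranspose] using this
  have htr : rtr T = ∑ i, h.eigenvalues i := by
    have := h.trace_eq_sum_eigenvalues
    simp only [rtr]
    rw [this]
    simp
  have hnn : ∀ i, 0 ≤ h.eigenvalues i := fun i => hT.eigenvalues_nonneg i
  have hle : ∀ i, h.eigenvalues i ≤ rtr T := by
    intro i
    rw [htr]
    exact Finset.single_le_sum (fun j _ => hnn j) (Finset.mem_univ i)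
  set d : n → 𝕜 := fun i => ((rtr T - h.eigenvalues i : ℝ) : 𝕜) with hd
  have key : (rtr T : ℝ) • (1 : Matrix n n 𝕜) - T = U * diagonal d * Uᴴ := by
    have e1 : diagonal d = (rtr T : ℝ) • (1 : Matrix n n 𝕜) - diagonal (RCLike.ofReal ∘ h.eigenvalues) := by
      ext i j
      by_cases hij : i = j
      · subst hij
        simp [hd, Matrix.one_apply, RCLike.real_smul_eq_coe_mul]
      · simp [hij, Matrix.one_apply]
    rw [e1, Matrix.mul_sub, Matrix.sub_mul, ← hsp, Matrix.mul_smul, Matrix.smul_mul, Matrix.mul_one, hUU]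
  rw [key]
  apply PosSemidef.mul_mul_conjTranspose_same
  apply PosSemidef.diagonal
  intro i
  have : (0 : ℝ) ≤ rtr T - h.eigenvalues i := sub_nonneg.mpr (hle i)
  simp only [hd]
  exact RCLike.ofReal_nonneg.mpr this

/-- `rtr (√T Y Y) ≤ √(Tr T) rtr (Y Y)`. -/
lemma rtr_rt_le {T Y : Matrix n n 𝕜} (hT : T.PosSemidef) (hY : Y.IsHermitian) :
    rtr (rt T * Y * Y) ≤ Real.sqrt (rtr T) * rtr (Y * Y) := by
  have hS := rt_psd hT
  have htr : 0 ≤ rtr T := by
    have := hT.trace_nonneg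
    exact (RCLike.nonneg_iff.mp this).1
  set s := Real.sqrt (rtr T) with hs
  have hs0 : 0 ≤ s := Real.sqrt_nonneg _
  have hss : s * s = rtr T := Real.mul_self_sqrt htr
  set D : Matrix n n 𝕜 := (s / 2 : ℝ) • (1 : Matrix n n 𝕜) with hD
  have hDp : D.PosSemidef := PosSemidef.one.smul (by positivity)
  have hDD : (2 : ℝ) • (2 : ℝ) • (D * D) - rt T * rt T = (rtr T : ℝ) • (1 : Matrix n n 𝕜) - T := by
    rw [rt_mul_self hT]
    congr 1
    rw [hD, Matrix.smul_mul, Matrix.mul_smul, Matrix.one_mul, smul_smul, smul_smul, smul_smul, ← hss]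
    congr 1
    ring
  have h := rtr_root_le hS hDp hY (by rw [hDD]; exact trace_smul_one_sub_psd hT)
  have e : 2 * rtr (D * Y * Y) = s * rtr (Y * Y) := by
    rw [hD, Matrix.smul_mul, Matrix.smul_mul, Matrix.one_mul]
    simp only [rtr, Matrix.trace_smul, RCLike.smul_re]
    ring
  linarith

omit [DecidableEq p] [DecidableEq q] in
lemma offdiag_herm (Z : Matrix q p 𝕜) :
    (Matrix.fromBlocks (0 : Matrix p p 𝕜) Zᴴ Z (0 : Matrix q q 𝕜)).IsHermitian := by
  apply IsHermitian.fromBlocks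
  · simp
  · simp
  · simp

omit [DecidableEq p] [DecidableEq q] in
/-- trace of a Hermitian matrix against the off-diagonal test. -/
lemma rtr_offdiag (W : Matrix (p ⊕ q) (p ⊕ q) 𝕜) (hW : W.IsHermitian) (Z : Matrix q p 𝕜) :
    rtr (W * Matrix.fromBlocks (0 : Matrix p p 𝕜) Zᴴ Z (0 : Matrix q q 𝕜)) =
      2 * ∑ x, ∑ y, RCLike.re (W (Sum.inl x) (Sum.inr y) * Z y x) := by
  have hsymm : ∀ x y, W (Sum.inr y) (Sum.inl x) = star (W (Sum.inl x) (Sum.inr y)) := by
    intro x y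
    have := congrFun (congrFun hW (Sum.inr y)) (Sum.inl x)
    simpa [Matrix.conjTranspose_apply] using this.symm
  simp only [rtr, Matrix.trace, Matrix.diag_apply, Matrix.mul_apply, Fintype.sum_sum_type,
    Matrix.fromBlocks_apply₁₁, Matrix.fromBlocks_apply₁₂, Matrix.fromBlocks_apply₂₁,
    Matrix.fromBlocks_apply₂₂, Matrix.zero_apply, mul_zero, Finset.sum_const_zero, zero_add, add_zero,
    map_add, map_sum, Matrix.conjTranspose_apply, hsymm]
  rw [two_mul]
  congr 1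
  rw [Finset.sum_comm]
  refine Finset.sum_congr rfl fun x _ => Finset.sum_congr rfl fun y _ => ?_
  rw [← star_mul', RCLike.star_def, RCLike.conj_re]

omit [DecidableEq p] [DecidableEq q] in
/-- the square of the off-diagonal test. -/
lemma rtr_offdiag_sq (Z : Matrix q p 𝕜) :
    rtr (Matrix.fromBlocks (0 : Matrix p p 𝕜) Zᴴ Z (0 : Matrix q q 𝕜) *
        Matrix.fromBlocks (0 : Matrix p p 𝕜) Zᴴ Z (0 : Matrix q q 𝕜)) =
      2 * ∑ x, ∑ y, ‖Z y x‖ ^ 2 := by
  have h1 : ∀ y x, RCLike.re (Z y x * star (Z y x)) = ‖Z y x‖ ^ 2 := by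
    intro y x
    rw [RCLike.star_def, RCLike.mul_conj]
    norm_cast
  have h2 : ∀ y x, RCLike.re (star (Z y x) * Z y x) = ‖Z y x‖ ^ 2 := by
    intro y x
    rw [mul_comm]
    exact h1 y x
  simp only [rtr, Matrix.trace, Matrix.diag_apply, Matrix.mul_apply, Fintype.sum_sum_type,
    Matrix.fromBlocks_apply₁₁, Matrix.fromBlocks_apply₁₂, Matrix.fromBlocks_apply₂₁,
    Matrix.fromBlocks_apply₂₂, Matrix.zero_apply, mul_zero, zero_mul, Finset.sum_const_zero, zero_add,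
    add_zero, map_add, map_sum, Matrix.conjTranspose_apply, h1, h2]
  rw [two_mul]
  congr 1
  rw [Finset.sum_comm]

/-- the column operator of the pair `(F0, F1; x1)` with outer windows `v`, `w`. -/
noncomputable def col (F0 : Matrix p m 𝕜) (F1 : Matrix m q 𝕜) (v : p → ℝ) (w : q → ℝ) :
    Matrix (p ⊕ q) m 𝕜 :=
  Matrix.fromRows (fun x x1 => ((Real.sqrt (v x) : ℝ) : 𝕜) * F0 x x1)
    (fun y x1 => ((Real.sqrt (w y) : ℝ) : 𝕜) * star (F1 x1 y))

/-- `M(u) = C diag(u) Cᴴ`. -/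
noncomputable def MM (C : Matrix (p ⊕ q) m 𝕜) (u : m → ℝ) : Matrix (p ⊕ q) (p ⊕ q) 𝕜 :=
  C * Matrix.diagonal (fun x => ((u x : ℝ) : 𝕜)) * Cᴴ

omit [DecidableEq p] [DecidableEq q] in
lemma MM_apply (C : Matrix (p ⊕ q) m 𝕜) (u : m → ℝ) (i j : p ⊕ q) :
    MM C u i j = ∑ x, C i x * ((u x : ℝ) : 𝕜) * star (C j x) := by
  simp [MM, Matrix.mul_apply, Matrix.diagonal_apply, Matrix.conjTranspose_apply, Finset.sum_ite_eq]

omit [DecidableEq p] [DecidableEq q] in
lemma MM_psd (C : Matrix (p ⊕ q) m 𝕜) {u : m → ℝ} (hu : ∀ x, 0 ≤ u x) : (MM C u).PosSemidef := by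
  apply PosSemidef.mul_mul_conjTranspose_same
  apply PosSemidef.diagonal
  intro i
  exact RCLike.ofReal_nonneg.mpr (hu i)

/-- the twisted kernel. -/
noncomputable def twK (F0 : Matrix p m 𝕜) (F1 : Matrix m q 𝕜) (h : m → ℝ) (x : p) (y : q) : 𝕜 :=
  ∑ x1, F0 x x1 * ((h x1 : ℝ) : 𝕜) * F1 x1 y

/-- trace of `T = M(u)`. -/
noncomputable def trT (F0 : Matrix p m 𝕜) (F1 : Matrix m q 𝕜) (v : p → ℝ) (w : q → ℝ) (u : m → ℝ) : ℝ :=
  ∑ x1, u x1 * (∑ x, v x * ‖F0 x x1‖ ^ 2 + ∑ y, w y * ‖F1 x1 y‖ ^ 2)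

omit [DecidableEq p] [DecidableEq q] in
lemma col_inl (F0 : Matrix p m 𝕜) (F1 : Matrix m q 𝕜) (v : p → ℝ) (w : q → ℝ) (x : p) (x1 : m) :
    col F0 F1 v w (Sum.inl x) x1 = ((Real.sqrt (v x) : ℝ) : 𝕜) * F0 x x1 := rfl

omit [DecidableEq p] [DecidableEq q] in
lemma col_inr (F0 : Matrix p m 𝕜) (F1 : Matrix m q 𝕜) (v : p → ℝ) (w : q → ℝ) (y : q) (x1 : m) :
    col F0 F1 v w (Sum.inr y) x1 = ((Real.sqrt (w y) : ℝ) : 𝕜) * star (F1 x1 y) := rfl

omit [DecidableEq p] [DecidableEq q] [Fintype p] [Fintype q] [Fintype m] [DecidableEq m] in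
private lemma re_aux (s t : ℝ) (hs : 0 ≤ s) (z : 𝕜) :
    RCLike.re (((Real.sqrt s : ℝ) : 𝕜) * z * ((t : ℝ) : 𝕜) * star (((Real.sqrt s : ℝ) : 𝕜) * z)) =
      t * (s * ‖z‖ ^ 2) := by
  have e : ((Real.sqrt s : ℝ) : 𝕜) * z * ((t : ℝ) : 𝕜) * star (((Real.sqrt s : ℝ) : 𝕜) * z) =
      ((t * (Real.sqrt s * Real.sqrt s) * ‖z‖ ^ 2 : ℝ) : 𝕜) := by
    rw [star_mul', RCLike.star_def, RCLike.conj_ofReal]
    have : z * (starRingEnd 𝕜) z = ((‖z‖ ^ 2 : ℝ) : 𝕜) := by
      rw [RCLike.mul_conj]; norm_cast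
    push_cast at this ⊢
    calc _ = (t : 𝕜) * (Real.sqrt s : 𝕜) * (Real.sqrt s : 𝕜) * (z * (starRingEnd 𝕜) z) := by ring
      _ = _ := by rw [this]; ring
  rw [e, RCLike.ofReal_re, Real.mul_self_sqrt hs]
  ring

omit [DecidableEq p] [DecidableEq q] in
lemma rtr_MM_col (F0 : Matrix p m 𝕜) (F1 : Matrix m q 𝕜) {v : p → ℝ} {w : q → ℝ} (u : m → ℝ)
    (hv : ∀ x, 0 ≤ v x) (hw : ∀ y, 0 ≤ w y) :
    rtr (MM (col F0 F1 v w) u) = trT F0 F1 v w u := by
  simp only [rtr, Matrix.trace, Matrix.diag_apply, MM_apply, Fintype.sum_sum_type, map_add, map_sum,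
    col_inl, col_inr]
  simp only [trT, mul_add, Finset.mul_sum, Finset.sum_add_distrib]
  congr 1
  · rw [Finset.sum_comm]
    refine Finset.sum_congr rfl fun x1 _ => Finset.sum_congr rfl fun x _ => ?_
    exact re_aux (v x) (u x1) (hv x) (F0 x x1)
  · rw [Finset.sum_comm]
    refine Finset.sum_congr rfl fun x1 _ => Finset.sum_congr rfl fun y _ => ?_
    have := re_aux (w y) (u x1) (hw y) (star (F1 x1 y))
    rwa [norm_star] at this

omit [DecidableEq p] [DecidableEq q] in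
lemma MM_inl_inr (F0 : Matrix p m 𝕜) (F1 : Matrix m q 𝕜) (v : p → ℝ) (w : q → ℝ) (h : m → ℝ)
    (x : p) (y : q) :
    MM (col F0 F1 v w) h (Sum.inl x) (Sum.inr y) =
      ((Real.sqrt (v x) * Real.sqrt (w y) : ℝ) : 𝕜) * twK F0 F1 h x y := by
  rw [MM_apply, twK, Finset.mul_sum]
  refine Finset.sum_congr rfl fun x1 _ => ?_
  simp only [col_inl, col_inr, star_mul', star_star]
  simp only [RCLike.star_def, RCLike.conj_ofReal, RCLike.conj_conj]
  push_cast
  ring

/-- **Main matrix inequality of L8.** `Ω` any nonnegative function dominating `√Tr T` on the support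
of the outer windows. -/
theorem gain_ge (F0 : Matrix p m 𝕜) (F1 : Matrix m q 𝕜) {v : p → ℝ} {w : q → ℝ} {up um : m → ℝ}
    (hv : ∀ x, 0 ≤ v x) (hw : ∀ y, 0 ≤ w y) (hup : ∀ x, 0 ≤ up x) (hum : ∀ x, 0 ≤ um x)
    (Ω : p → q → ℝ) (hΩ0 : ∀ x y, 0 ≤ Ω x y)
    (hΩ : ∀ x y, v x ≠ 0 → w y ≠ 0 →
      trT F0 F1 v w (fun x1 => (up x1 + um x1) / 2) ≤ Ω x y ^ 2) :
    (3 / 4 : ℝ) * ∑ x, ∑ y, v x * w y *
        ‖twK F0 F1 (fun x1 => (up x1 - um x1) / 2) x y‖ ^ 2 / Ω x y ≤
      (E32 (MM (col F0 F1 v w) up) + E32 (MM (col F0 F1 v w) um)) / 2 -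
        E32 (MM (col F0 F1 v w) (fun x1 => (up x1 + um x1) / 2)) := by
  classical
  set C := col F0 F1 v w with hC
  set ub : m → ℝ := fun x1 => (up x1 + um x1) / 2 with hub
  set h : m → ℝ := fun x1 => (up x1 - um x1) / 2 with hh
  set T := MM C ub with hT
  set W := MM C h with hW
  have hubn : ∀ x, 0 ≤ ub x := fun x => by simp only [hub]; linarith [hup x, hum x]
  have hTp : T.PosSemidef := MM_psd C hubn
  have eadd : T + W = MM C up := by
    ext i j
    simp only [hT, hW, Matrix.add_apply, MM_apply, ← Finset.sum_add_distrib]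
    refine Finset.sum_congr rfl fun x _ => ?_
    have : up x = ub x + h x := by simp only [hub, hh]; ring
    rw [this]; push_cast; ring
  have esub : T - W = MM C um := by
    ext i j
    simp only [hT, hW, Matrix.sub_apply, MM_apply, ← Finset.sum_sub_distrib]
    refine Finset.sum_congr rfl fun x _ => ?_
    have : um x = ub x - h x := by simp only [hub, hh]; ring
    rw [this]; push_cast; ring
  have hWh : W.IsHermitian := by
    have hTh := hTp.1
    have h1 : (T + W).IsHermitian := by rw [eadd]; exact (MM_psd C hup).1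
    have h2 : (T - W).IsHermitian := by rw [esub]; exact (MM_psd C hum).1
    have : W = (1 / 2 : ℝ) • ((T + W) - (T - W)) := by
      rw [add_sub_sub_cancel, ← two_smul ℝ W, smul_smul]
      norm_num
    rw [this]
    exact (h1.sub h2).smul (by simp [IsSelfAdjoint])
  set K := twK F0 F1 h with hK
  set S : ℝ := ∑ x, ∑ y, v x * w y * ‖K x y‖ ^ 2 / Ω x y with hS
  -- the test matrix
  set Z : Matrix q p 𝕜 := fun y x =>
    ((Real.sqrt (v x) * Real.sqrt (w y) / (2 * Ω x y) : ℝ) : 𝕜) * star (K x y) with hZ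
  set Y := Matrix.fromBlocks (0 : Matrix p p 𝕜) Zᴴ Z (0 : Matrix q q 𝕜) with hY
  have hYh : Y.IsHermitian := offdiag_herm Z
  have hsq : ∀ x y, Real.sqrt (v x) * Real.sqrt (v x) = v x ∧ Real.sqrt (w y) * Real.sqrt (w y) = w y :=
    fun x y => ⟨Real.mul_self_sqrt (hv x), Real.mul_self_sqrt (hw y)⟩
  -- the linear term
  have hlin : rtr (W * Y) = S := by
    rw [hY, rtr_offdiag W hWh Z, hS, Finset.mul_sum]
    refine Finset.sum_congr rfl fun x _ => ?_
    rw [Finset.mul_sum]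
    refine Finset.sum_congr rfl fun y _ => ?_
    rw [hW, hC, MM_inl_inr, hZ]
    have e : ((Real.sqrt (v x) * Real.sqrt (w y) : ℝ) : 𝕜) * twK F0 F1 h x y *
        (((Real.sqrt (v x) * Real.sqrt (w y) / (2 * Ω x y) : ℝ) : 𝕜) * star (K x y)) =
        (((Real.sqrt (v x) * Real.sqrt (w y)) * (Real.sqrt (v x) * Real.sqrt (w y) / (2 * Ω x y)) *
          ‖K x y‖ ^ 2 : ℝ) : 𝕜) := by
      have : K x y * star (K x y) = ((‖K x y‖ ^ 2 : ℝ) : 𝕜) := by
        rw [RCLike.star_def, RCLike.mul_conj]; norm_cast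
      push_cast at this ⊢
      calc _ = (((Real.sqrt (v x) : ℝ) : 𝕜) * ((Real.sqrt (w y) : ℝ) : 𝕜)) *
            ((((Real.sqrt (v x) : ℝ) : 𝕜) * ((Real.sqrt (w y) : ℝ) : 𝕜)) / (2 * ((Ω x y : ℝ) : 𝕜))) *
            (K x y * star (K x y)) := by rw [hK]; ring
        _ = _ := by rw [this]
    rw [e, RCLike.ofReal_re]
    obtain ⟨h1, h2⟩ := hsq x y
    have : (Real.sqrt (v x) * Real.sqrt (w y)) * (Real.sqrt (v x) * Real.sqrt (w y)) = v x * w y := by
      calc _ = (Real.sqrt (v x) * Real.sqrt (v x)) * (Real.sqrt (w y) * Real.sqrt (w y)) := by ring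
        _ = _ := by rw [h1, h2]
    calc _ = 2 * (((Real.sqrt (v x) * Real.sqrt (w y)) * (Real.sqrt (v x) * Real.sqrt (w y))) / (2 * Ω x y)) *
          ‖K x y‖ ^ 2 := by ring
      _ = _ := by
        rw [this]
        by_cases h0 : Ω x y = 0
        · simp [h0]
        · field_simp
  -- the quadratic term
  have hquad : rtr (rt T * Y * Y) ≤ S / 2 := by
    have h1 := rtr_rt_le hTp hYh
    have h2 : rtr T = trT F0 F1 v w ub := rtr_MM_col F0 F1 ub hv hw
    rw [hY, rtr_offdiag_sq] at h1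
    refine h1.trans ?_
    have hs0 : 0 ≤ Real.sqrt (rtr T) := Real.sqrt_nonneg _
    have : Real.sqrt (rtr T) * (2 * ∑ x, ∑ y, ‖Z y x‖ ^ 2) =
        2 * ∑ x, ∑ y, Real.sqrt (rtr T) * ‖Z y x‖ ^ 2 := by
      simp only [Finset.mul_sum]
      refine Finset.sum_congr rfl fun x _ => Finset.sum_congr rfl fun y _ => ?_
      ring
    rw [this, hS, Finset.sum_div]
    have key : ∀ x y, 2 * (Real.sqrt (rtr T) * ‖Z y x‖ ^ 2) ≤ v x * w y * ‖K x y‖ ^ 2 / Ω x y / 2 := by
      intro x y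
      have hnz : ‖Z y x‖ ^ 2 = v x * w y / (4 * Ω x y ^ 2) * ‖K x y‖ ^ 2 := by
        rw [hZ]
        simp only [norm_mul, norm_star, RCLike.norm_ofReal]
        rw [mul_pow, sq_abs, div_pow, mul_pow, mul_pow, Real.sq_sqrt (hv x), Real.sq_sqrt (hw y)]
        norm_num
      rw [hnz]
      by_cases hvx : v x = 0
      · simp [hvx]
      by_cases hwy : w y = 0
      · simp [hwy]
      by_cases h0 : Ω x y = 0
      · simp [h0]
      have hΩp : 0 < Ω x y := lt_of_le_of_ne (hΩ0 x y) (Ne.symm h0)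
      have hle : Real.sqrt (rtr T) ≤ Ω x y := by
        rw [h2]
        exact Real.sqrt_le_iff.mpr ⟨hΩ0 x y, hΩ x y hvx hwy⟩
      have hvw : 0 ≤ v x * w y * ‖K x y‖ ^ 2 := by
        have := hv x; have := hw y; positivity
      have : 2 * (Real.sqrt (rtr T) * (v x * w y / (4 * Ω x y ^ 2) * ‖K x y‖ ^ 2)) =
          Real.sqrt (rtr T) * (v x * w y * ‖K x y‖ ^ 2) / (2 * Ω x y ^ 2) := by
        field_simp
        ring
      rw [this]
      have h3 : v x * w y * ‖K x y‖ ^ 2 / Ω x y / 2 = Ω x y * (v x * w y * ‖K x y‖ ^ 2) / (2 * Ω x y ^ 2) := by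
        field_simp
      rw [h3]
      apply div_le_div_of_nonneg_right _ (by positivity)
      exact mul_le_mul_of_nonneg_right hle hvw
    calc 2 * ∑ x, ∑ y, Real.sqrt (rtr T) * ‖Z y x‖ ^ 2
        = ∑ x, ∑ y, 2 * (Real.sqrt (rtr T) * ‖Z y x‖ ^ 2) := by
          simp only [Finset.mul_sum]
      _ ≤ ∑ x, ∑ y, v x * w y * ‖K x y‖ ^ 2 / Ω x y / 2 :=
          Finset.sum_le_sum fun x _ => Finset.sum_le_sum fun y _ => key x y
      _ = _ := by
          simp only [Finset.sum_div]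
  -- conclusion
  have hgap := gap_main (T := T) (W := W) (Y := Y)
    (by rw [eadd]; exact MM_psd C hup) (by rw [esub]; exact MM_psd C hum) hYh
  rw [eadd, esub, hlin] at hgap
  linarith

end Crest.Agent.TriRL.Aniso
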