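/-
S0096 (helper84's blueprint, L5-L7): the common definitions of the ladder kernels (helper73).
Only definitions and the statement `TBStatement` of the output of L5 are here.
-/
import Mathlib

set_option autoImplicit false

namespace Crest.Agent.TriRL

open Finset

/-- The Haar function of width `2τ` on `ℤ`: `+1/(2τ)` on `[0,τ)`, `-1/(2τ)` on `[-τ,0)`.
It is `(U(x-τ/2) - U(x+τ/2))/2` for `U = Box τ`. -/
noncomputable def haarZ (τ : ℕ) (x : ℤ) : ℝ :=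
  if 0 ≤ x ∧ x < τ then 1 / (2 * τ) else if -(τ : ℤ) ≤ x ∧ x < 0 then -1 / (2 * τ) else 0

/-- The image of `haarZ` on `ZMod N`. -/
noncomputable def haarG (N τ : ℕ) (x : ZMod N) : ℝ := haarZ τ x.valMinAbs

/-- The triple convolution `h * h * h` on `ZMod N`. -/
noncomputable def kappaG (N τ : ℕ) [NeZero N] (ξ : ZMod N) : ℝ :=
  ∑ a : ZMod N, ∑ b : ZMod N, haarG N τ a * haarG N τ b * haarG N τ (ξ - a - b)

/-- The triple convolution `h * h * h` on `ℤ`. -/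
noncomputable def kappaZ (τ : ℕ) (u : ℤ) : ℝ :=
  ∑ a ∈ Finset.Ico (-(τ : ℤ)) τ, ∑ b ∈ Finset.Ico (-(τ : ℤ)) τ,
    haarZ τ a * haarZ τ b * haarZ τ (u - a - b)

/-- The cube of the `ℓ³` norm of a complex function of two variables on finite types. -/
noncomputable def S3 {A B : Type*} [Fintype A] [Fintype B] (F : A → B → ℂ) : ℝ :=
  ∑ x, ∑ y, ‖F x y‖ ^ 3

/-- The cube of the `ℓ³` norm of a real function of two variables on finite types. -/
noncomputable def S3r {A B : Type*} [Fintype A] [Fintype B] (F : A → B → ℝ) : ℝ :=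
  ∑ x, ∑ y, |F x y| ^ 3

/-- **The output of L5** (`T_B`), with the constant `C`: ladder `τ_i = 2^i τ₀` with `8 ∣ τ₀`. -/
def TBStatement (C : ℝ) : Prop :=
  ∀ (N τ₀ I : ℕ) [NeZero N], 8 ∣ τ₀ → 0 < τ₀ → 2 ^ (I + 10) * τ₀ ≤ N →
    ∀ (F0 F1 : ZMod N → ZMod N → ℂ) (X : ℕ → ZMod N → ZMod N → ℂ) (Y : ZMod N → ZMod N → ℝ),
      (∀ i u v, ‖X i u v‖ ≤ Y u v) →
      ∑ i ∈ Finset.range I,
          ‖∑ x0 : ZMod N, ∑ x1 : ZMod N, ∑ x2 : ZMod N,
            F0 x0 x1 * F1 x1 x2 * X i x2 x0 * (kappaG N (2 ^ i * τ₀) (x0 + x1 + x2) : ℂ)‖ ≤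
        C * (S3 F0 + S3 F1 + S3r Y) +
          C * (∑ u : ZMod N, ∑ v : ZMod N,
                (∑ i ∈ Finset.range I, ‖X (i + 1) u v - X i u v‖) ^ 3) ^ ((1 : ℝ) / 3) *
            (S3r Y) ^ ((1 : ℝ) / 3) *
              ((S3r Y) ^ ((1 : ℝ) / 3) + (S3 F0) ^ ((1 : ℝ) / 3) + (S3 F1) ^ ((1 : ℝ) / 3))

end Crest.Agent.TriRL
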