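/-
S0096, helper84's blueprint L2 and the THEOREM STEP of L3, abstract form (helper94).

`Γ` a finite additive commutative group, windows are functions `Γ → ℝ`; `tr a u` the translate.
`Data Γ X Y`: `G u v`, `P u v` are midpoint-linear in the outer window `v`, `M u v1 v2` is midpoint-linear
in the middle window `u`, `f (G u v1 + P u v2) = fY (M u v1 v2)`, midpoint convexity of `f`, `fY`, the mixed
inequality as a hypothesis.  Conclusion `Data.step`:  `Q(U⁺,O⁺) + ∑ gain ≤ Q(U,O)`.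
-/
import Mathlib

set_option autoImplicit false

namespace Crest.Agent.TriRL.PlaneStep

open Finset

variable {Γ : Type*} [AddCommGroup Γ]

/-- The translate `u(· - a)`. -/
def tr (a : Γ) (u : Γ → ℝ) : Γ → ℝ := fun x => u (x - a)

/-- The midpoint of two windows. -/
noncomputable def mid (u v : Γ → ℝ) : Γ → ℝ := fun x => (u x + v x) / 2

/-- Averaging of the two translates by `±e`: `x ↦ (u(x-e)+u(x+e))/2`. -/
noncomputable def avg (e : Γ) (u : Γ → ℝ) : Γ → ℝ := mid (tr e u) (tr (-e) u)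

lemma tr_tr (a b : Γ) (u : Γ → ℝ) : tr a (tr b u) = tr (a + b) u := by
  funext x
  simp only [tr]
  congr 1
  abel

lemma tr_mid (a : Γ) (u v : Γ → ℝ) : tr a (mid u v) = mid (tr a u) (tr a v) := rfl

lemma tr_avg (a e : Γ) (u : Γ → ℝ) : tr a (avg e u) = mid (tr (a + e) u) (tr (a - e) u) := by
  simp only [avg, tr_mid, tr_tr, sub_eq_add_neg]

lemma tr_nonneg {a : Γ} {u : Γ → ℝ} (hu : ∀ x, 0 ≤ u x) : ∀ x, 0 ≤ tr a u x := fun _ => hu _

lemma mid_nonneg {u v : Γ → ℝ} (hu : ∀ x, 0 ≤ u x) (hv : ∀ x, 0 ≤ v x) : ∀ x, 0 ≤ mid u v x :=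
  fun x => by
    simp only [mid]
    linarith [hu x, hv x]

lemma avg_nonneg {e : Γ} {u : Γ → ℝ} (hu : ∀ x, 0 ≤ u x) : ∀ x, 0 ≤ avg e u x :=
  mid_nonneg (tr_nonneg hu) (tr_nonneg hu)

/-- The abstract data. -/
structure Data (Γ X Y : Type*) [AddCommGroup X] [Module ℝ X] [AddCommGroup Y] [Module ℝ Y] where
  G : (Γ → ℝ) → (Γ → ℝ) → X
  P : (Γ → ℝ) → (Γ → ℝ) → X
  M : (Γ → ℝ) → (Γ → ℝ) → (Γ → ℝ) → Y
  f : X → ℝ
  fY : Y → ℝ
  S : Set X
  SY : Set Y
  add_mem : ∀ {x y}, x ∈ S → y ∈ S → x + y ∈ S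
  G_mem : ∀ {u v}, (∀ x, 0 ≤ u x) → (∀ x, 0 ≤ v x) → G u v ∈ S
  P_mem : ∀ {u v}, (∀ x, 0 ≤ u x) → (∀ x, 0 ≤ v x) → P u v ∈ S
  M_mem : ∀ {u v w}, (∀ x, 0 ≤ u x) → (∀ x, 0 ≤ v x) → (∀ x, 0 ≤ w x) → M u v w ∈ SY
  G_mid : ∀ u v v', G u (mid v v') = (1 / 2 : ℝ) • (G u v + G u v')
  P_mid : ∀ u v v', P u (mid v v') = (1 / 2 : ℝ) • (P u v + P u v')
  M_mid : ∀ u u' v w, M (mid u u') v w = (1 / 2 : ℝ) • (M u v w + M u' v w)
  /-- the two forms of the energy -/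
  fM : ∀ {u v w}, (∀ x, 0 ≤ u x) → (∀ x, 0 ≤ v x) → (∀ x, 0 ≤ w x) →
    f (G u v + P u w) = fY (M u v w)
  /-- the energies of one block are `M`-energies with the other outer window `0`. -/
  fG : ∀ {u v}, (∀ x, 0 ≤ u x) → (∀ x, 0 ≤ v x) → f (G u v) = fY (M u v 0)
  fP : ∀ {u v}, (∀ x, 0 ≤ u x) → (∀ x, 0 ≤ v x) → f (P u v) = fY (M u 0 v)
  conv : ∀ {x y}, x ∈ S → y ∈ S → f ((1 / 2 : ℝ) • (x + y)) ≤ (f x + f y) / 2
  convY : ∀ {x y}, x ∈ SY → y ∈ SY → fY ((1 / 2 : ℝ) • (x + y)) ≤ (fY x + fY y) / 2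
  /-- the mixed difference inequality (`e` of L1), with the constant of the blueprint -/
  mixed : ∀ {g₁ g₂ p₁ p₂}, g₁ ∈ S → g₂ ∈ S → p₁ ∈ S → p₂ ∈ S →
    f (g₁ + p₁) + f (g₂ + p₂) - f (g₁ + p₂) - f (g₂ + p₁) ≤
      12 * (((f g₁ + f g₂) / 2 - f ((1 / 2 : ℝ) • (g₁ + g₂))) +
        ((f p₁ + f p₂) / 2 - f ((1 / 2 : ℝ) • (p₁ + p₂))))

namespace Data

variable {X Y : Type*} [AddCommGroup X] [Module ℝ X] [AddCommGroup Y] [Module ℝ Y]
variable (D : Data Γ X Y) [Fintype Γ]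

/-- `V(U,O)(s) = ∑_{a,b} f(G(U_a,O_b) + P(U_a,O_{s-a-b}))`. -/
noncomputable def V (U O : Γ → ℝ) (s : Γ) : ℝ :=
  ∑ a, ∑ b, D.f (D.G (tr a U) (tr b O) + D.P (tr a U) (tr (s - a - b) O))

/-- `E_g(U,O) = ∑_{a,b} f(G(U_a,O_b))`. -/
noncomputable def Eg (U O : Γ → ℝ) : ℝ := ∑ a, ∑ b, D.f (D.G (tr a U) (tr b O))

/-- `E_p(U,O) = ∑_{a,c} f(P(U_a,O_c))`. -/
noncomputable def Ep (U O : Γ → ℝ) : ℝ := ∑ a, ∑ c, D.f (D.P (tr a U) (tr c O))

/-- The Bellman function. -/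
noncomputable def Q (U O : Γ → ℝ) : ℝ := D.V U O 0 + 6 * D.Eg U O + 6 * D.Ep U O

/-- The gain of the middle step at the triple `(a,b,c)`, `c = -a-b`. -/
noncomputable def gain (U O : Γ → ℝ) (d a b : Γ) : ℝ :=
  (D.fY (D.M (tr (a + d) U) (tr b O) (tr (-a - b) O)) +
      D.fY (D.M (tr (a - d) U) (tr b O) (tr (-a - b) O))) / 2 -
    D.fY (D.M (tr a (avg d U)) (tr b O) (tr (-a - b) O))

omit [Fintype Γ] in
lemma gain_nonneg {U O : Γ → ℝ} (hU : ∀ x, 0 ≤ U x) (hO : ∀ x, 0 ≤ O x) (d a b : Γ) :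
    0 ≤ D.gain U O d a b := by
  have h1 : tr a (avg d U) = mid (tr (a + d) U) (tr (a - d) U) := tr_avg a d U
  have h2 := D.convY (D.M_mem (tr_nonneg (a := a + d) hU) (tr_nonneg (a := b) hO)
      (tr_nonneg (a := -a - b) hO))
    (D.M_mem (tr_nonneg (a := a - d) hU) (tr_nonneg (a := b) hO) (tr_nonneg (a := -a - b) hO))
  simp only [gain]
  rw [h1, D.M_mid]
  linarith

/-- Re-indexing of a sum. -/
lemma sum_shift (d : Γ) (F : Γ → ℝ) : ∑ a, F (a + d) = ∑ a, F a :=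
  Equiv.sum_comp (Equiv.addRight d) F

lemma sum_neg_sub (a : Γ) (F : Γ → ℝ) : ∑ b, F (a - b) = ∑ b, F b :=
  Equiv.sum_comp (Equiv.subLeft a) F

/-- The sum of the gains: `∑ gain + V(U⁺,O)(0) = (V(U,O)(d) + V(U,O)(-d))/2`. -/
theorem sum_gain {U O : Γ → ℝ} (hU : ∀ x, 0 ≤ U x) (hO : ∀ x, 0 ≤ O x) (d : Γ) :
    ∑ a, ∑ b, D.gain U O d a b + D.V (avg d U) O 0 = (D.V U O d + D.V U O (-d)) / 2 := by
  have hplus : D.V (avg d U) O 0 =
      ∑ a, ∑ b, D.fY (D.M (tr a (avg d U)) (tr b O) (tr (-a - b) O)) := by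
    refine Finset.sum_congr rfl fun a _ => Finset.sum_congr rfl fun b _ => ?_
    have h0 : (0 : Γ) - a - b = -a - b := by abel
    rw [h0, D.fM (tr_nonneg (avg_nonneg hU)) (tr_nonneg hO) (tr_nonneg hO)]
  have hVd : ∀ e : Γ, D.V U O e =
      ∑ a, ∑ b, D.fY (D.M (tr (a + e) U) (tr b O) (tr (-a - b) O)) := by
    intro e
    rw [V, ← sum_shift e]
    refine Finset.sum_congr rfl fun a _ => Finset.sum_congr rfl fun b _ => ?_
    have h0 : e - (a + e) - b = -a - b := by abel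
    rw [h0, D.fM (tr_nonneg hU) (tr_nonneg hO) (tr_nonneg hO)]
  have hVm : D.V U O (-d) =
      ∑ a, ∑ b, D.fY (D.M (tr (a - d) U) (tr b O) (tr (-a - b) O)) := by
    rw [hVd (-d)]
    simp only [sub_eq_add_neg]
  rw [hplus, hVd d, hVm]
  simp only [gain, add_div, Finset.sum_sub_distrib, Finset.sum_add_distrib, ← Finset.sum_div]
  ring

/-- **L2 identity + mixed inequality**. -/
theorem second_diff {U O : Γ → ℝ} (hU : ∀ x, 0 ≤ U x) (hO : ∀ x, 0 ≤ O x) {d m : Γ}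
    (hdm : d = m + m) :
    D.V U O d + D.V U O (-d) - 2 * D.V U O 0 ≤
      12 * ((D.Eg U O - D.Eg U (avg m O)) + (D.Ep U O - D.Ep U (avg m O))) := by
  -- the pointwise inequality
  have hpt : ∀ a b : Γ,
      D.f (D.G (tr a U) (tr (b + m) O) + D.P (tr a U) (tr (-a - b + m) O)) +
      D.f (D.G (tr a U) (tr (b - m) O) + D.P (tr a U) (tr (-a - b - m) O)) -
      D.f (D.G (tr a U) (tr (b + m) O) + D.P (tr a U) (tr (-a - b - m) O)) -
      D.f (D.G (tr a U) (tr (b - m) O) + D.P (tr a U) (tr (-a - b + m) O)) ≤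
      12 * (((D.f (D.G (tr a U) (tr (b + m) O)) + D.f (D.G (tr a U) (tr (b - m) O))) / 2 -
          D.f (D.G (tr a U) (tr b (avg m O)))) +
        ((D.f (D.P (tr a U) (tr (-a - b + m) O)) + D.f (D.P (tr a U) (tr (-a - b - m) O))) / 2 -
          D.f (D.P (tr a U) (tr (-a - b) (avg m O))))) := by
    intro a b
    have h := D.mixed (D.G_mem (tr_nonneg (a := a) hU) (tr_nonneg (a := b + m) hO))
      (D.G_mem (tr_nonneg (a := a) hU) (tr_nonneg (a := b - m) hO))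
      (D.P_mem (tr_nonneg (a := a) hU) (tr_nonneg (a := -a - b + m) hO))
      (D.P_mem (tr_nonneg (a := a) hU) (tr_nonneg (a := -a - b - m) hO))
    rw [tr_avg, tr_avg, D.G_mid, D.P_mid]
    exact h
  -- the four sums
  have e1 : ∀ a : Γ, ∑ b, D.f (D.G (tr a U) (tr (b + m) O) + D.P (tr a U) (tr (-a - b + m) O)) =
      ∑ b, D.f (D.G (tr a U) (tr b O) + D.P (tr a U) (tr (d - a - b) O)) := by
    intro a
    rw [← sum_shift m (fun b => D.f (D.G (tr a U) (tr b O) + D.P (tr a U) (tr (d - a - b) O)))]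
    refine Finset.sum_congr rfl fun b _ => ?_
    have h0 : d - a - (b + m) = -a - b + m := by rw [hdm]; abel
    rw [h0]
  have e2 : ∀ a : Γ, ∑ b, D.f (D.G (tr a U) (tr (b - m) O) + D.P (tr a U) (tr (-a - b - m) O)) =
      ∑ b, D.f (D.G (tr a U) (tr b O) + D.P (tr a U) (tr (-d - a - b) O)) := by
    intro a
    rw [← sum_shift (-m) (fun b => D.f (D.G (tr a U) (tr b O) + D.P (tr a U) (tr (-d - a - b) O)))]
    refine Finset.sum_congr rfl fun b _ => ?_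
    have h0 : -d - a - (b + -m) = -a - b - m := by rw [hdm]; abel
    rw [h0, sub_eq_add_neg b m]
  have e3 : ∀ a : Γ, ∑ b, D.f (D.G (tr a U) (tr (b + m) O) + D.P (tr a U) (tr (-a - b - m) O)) =
      ∑ b, D.f (D.G (tr a U) (tr b O) + D.P (tr a U) (tr (0 - a - b) O)) := by
    intro a
    rw [← sum_shift m (fun b => D.f (D.G (tr a U) (tr b O) + D.P (tr a U) (tr (0 - a - b) O)))]
    refine Finset.sum_congr rfl fun b _ => ?_
    have h0 : 0 - a - (b + m) = -a - b - m := by abel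
    rw [h0]
  have e4 : ∀ a : Γ, ∑ b, D.f (D.G (tr a U) (tr (b - m) O) + D.P (tr a U) (tr (-a - b + m) O)) =
      ∑ b, D.f (D.G (tr a U) (tr b O) + D.P (tr a U) (tr (0 - a - b) O)) := by
    intro a
    rw [← sum_shift (-m) (fun b => D.f (D.G (tr a U) (tr b O) + D.P (tr a U) (tr (0 - a - b) O)))]
    refine Finset.sum_congr rfl fun b _ => ?_
    have h0 : 0 - a - (b + -m) = -a - b + m := by abel
    rw [h0, sub_eq_add_neg b m]
  -- the energies
  have e5 : ∀ a : Γ, ∑ b, D.f (D.G (tr a U) (tr (b + m) O)) = ∑ b, D.f (D.G (tr a U) (tr b O)) :=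
    fun a => sum_shift m (fun b => D.f (D.G (tr a U) (tr b O)))
  have e6 : ∀ a : Γ, ∑ b, D.f (D.G (tr a U) (tr (b - m) O)) = ∑ b, D.f (D.G (tr a U) (tr b O)) := by
    intro a
    rw [← sum_shift (-m) (fun b => D.f (D.G (tr a U) (tr b O)))]
    simp only [sub_eq_add_neg]
  have e7 : ∀ a : Γ, ∑ b, D.f (D.P (tr a U) (tr (-a - b + m) O)) =
      ∑ c, D.f (D.P (tr a U) (tr c O)) := by
    intro a
    rw [← sum_neg_sub (-a + m) (fun c => D.f (D.P (tr a U) (tr c O)))]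
    refine Finset.sum_congr rfl fun b _ => ?_
    have h0 : -a + m - b = -a - b + m := by abel
    rw [h0]
  have e8 : ∀ a : Γ, ∑ b, D.f (D.P (tr a U) (tr (-a - b - m) O)) =
      ∑ c, D.f (D.P (tr a U) (tr c O)) := by
    intro a
    rw [← sum_neg_sub (-a - m) (fun c => D.f (D.P (tr a U) (tr c O)))]
    refine Finset.sum_congr rfl fun b _ => ?_
    have h0 : -a - m - b = -a - b - m := by abel
    rw [h0]
  have e9 : ∀ a : Γ, ∑ b, D.f (D.P (tr a U) (tr (-a - b) (avg m O))) =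
      ∑ c, D.f (D.P (tr a U) (tr c (avg m O))) := by
    intro a
    rw [← sum_neg_sub (-a) (fun c => D.f (D.P (tr a U) (tr c (avg m O))))]
  have hsum := Finset.sum_le_sum (fun a (_ : a ∈ (Finset.univ : Finset Γ)) =>
    Finset.sum_le_sum (fun b (_ : b ∈ (Finset.univ : Finset Γ)) => hpt a b))
  simp only [add_div, Finset.sum_sub_distrib, Finset.sum_add_distrib, ← Finset.mul_sum,
    ← Finset.sum_div, e1, e2, e3, e4, e5, e6, e7, e8, e9] at hsum
  simp only [V, Eg, Ep]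
  linarith

/-- **Anticorrelated Jensen**: averaging the two outer windows does not increase `V`. -/
theorem V_avg_le {U O : Γ → ℝ} (hU : ∀ x, 0 ≤ U x) (hO : ∀ x, 0 ≤ O x) (e s : Γ) :
    D.V U (avg e O) s ≤ D.V U O s := by
  have hpt : ∀ a b : Γ,
      D.f (D.G (tr a U) (tr b (avg e O)) + D.P (tr a U) (tr (s - a - b) (avg e O))) ≤
        (D.f (D.G (tr a U) (tr (b + e) O) + D.P (tr a U) (tr (s - a - b - e) O)) +
          D.f (D.G (tr a U) (tr (b - e) O) + D.P (tr a U) (tr (s - a - b + e) O))) / 2 := by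
    intro a b
    have h := D.conv
      (D.add_mem (D.G_mem (tr_nonneg (a := a) hU) (tr_nonneg (a := b + e) hO))
        (D.P_mem (tr_nonneg (a := a) hU) (tr_nonneg (a := s - a - b - e) hO)))
      (D.add_mem (D.G_mem (tr_nonneg (a := a) hU) (tr_nonneg (a := b - e) hO))
        (D.P_mem (tr_nonneg (a := a) hU) (tr_nonneg (a := s - a - b + e) hO)))
    rw [tr_avg, tr_avg, D.G_mid, D.P_mid]
    have h2 : (1 / 2 : ℝ) • (D.G (tr a U) (tr (b + e) O) + D.G (tr a U) (tr (b - e) O)) +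
        (1 / 2 : ℝ) • (D.P (tr a U) (tr (s - a - b + e) O) + D.P (tr a U) (tr (s - a - b - e) O)) =
        (1 / 2 : ℝ) • (D.G (tr a U) (tr (b + e) O) + D.P (tr a U) (tr (s - a - b - e) O) +
          (D.G (tr a U) (tr (b - e) O) + D.P (tr a U) (tr (s - a - b + e) O))) := by
      simp only [smul_add]
      abel
    rw [h2]
    exact h
  have e1 : ∀ a : Γ, ∑ b, D.f (D.G (tr a U) (tr (b + e) O) + D.P (tr a U) (tr (s - a - b - e) O)) =
      ∑ b, D.f (D.G (tr a U) (tr b O) + D.P (tr a U) (tr (s - a - b) O)) := by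
    intro a
    rw [← sum_shift e (fun b => D.f (D.G (tr a U) (tr b O) + D.P (tr a U) (tr (s - a - b) O)))]
    refine Finset.sum_congr rfl fun b _ => ?_
    have h0 : s - a - (b + e) = s - a - b - e := by abel
    rw [h0]
  have e2 : ∀ a : Γ, ∑ b, D.f (D.G (tr a U) (tr (b - e) O) + D.P (tr a U) (tr (s - a - b + e) O)) =
      ∑ b, D.f (D.G (tr a U) (tr b O) + D.P (tr a U) (tr (s - a - b) O)) := by
    intro a
    rw [← sum_shift (-e) (fun b => D.f (D.G (tr a U) (tr b O) + D.P (tr a U) (tr (s - a - b) O)))]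
    refine Finset.sum_congr rfl fun b _ => ?_
    have h0 : s - a - (b + -e) = s - a - b + e := by abel
    rw [h0, sub_eq_add_neg b e]
  have hsum := Finset.sum_le_sum (fun a (_ : a ∈ (Finset.univ : Finset Γ)) =>
    Finset.sum_le_sum (fun b (_ : b ∈ (Finset.univ : Finset Γ)) => hpt a b))
  simp only [add_div, Finset.sum_add_distrib, ← Finset.sum_div, e1, e2] at hsum
  simp only [V]
  linarith

/-- Averaging the outer window does not increase `E_g`. -/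
theorem Eg_avg_le {U O : Γ → ℝ} (hU : ∀ x, 0 ≤ U x) (hO : ∀ x, 0 ≤ O x) (e : Γ) :
    D.Eg U (avg e O) ≤ D.Eg U O := by
  have hpt : ∀ a b : Γ, D.f (D.G (tr a U) (tr b (avg e O))) ≤
      (D.f (D.G (tr a U) (tr (b + e) O)) + D.f (D.G (tr a U) (tr (b - e) O))) / 2 := by
    intro a b
    rw [tr_avg, D.G_mid]
    exact D.conv (D.G_mem (tr_nonneg (a := a) hU) (tr_nonneg (a := b + e) hO))
      (D.G_mem (tr_nonneg (a := a) hU) (tr_nonneg (a := b - e) hO))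
  have e1 : ∀ a : Γ, ∑ b, D.f (D.G (tr a U) (tr (b + e) O)) = ∑ b, D.f (D.G (tr a U) (tr b O)) :=
    fun a => sum_shift e (fun b => D.f (D.G (tr a U) (tr b O)))
  have e2 : ∀ a : Γ, ∑ b, D.f (D.G (tr a U) (tr (b - e) O)) = ∑ b, D.f (D.G (tr a U) (tr b O)) := by
    intro a
    rw [← sum_shift (-e) (fun b => D.f (D.G (tr a U) (tr b O)))]
    simp only [sub_eq_add_neg]
  have hsum := Finset.sum_le_sum (fun a (_ : a ∈ (Finset.univ : Finset Γ)) =>
    Finset.sum_le_sum (fun b (_ : b ∈ (Finset.univ : Finset Γ)) => hpt a b))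
  simp only [add_div, Finset.sum_add_distrib, ← Finset.sum_div, e1, e2] at hsum
  simp only [Eg]
  linarith

/-- Averaging the outer window does not increase `E_p`. -/
theorem Ep_avg_le {U O : Γ → ℝ} (hU : ∀ x, 0 ≤ U x) (hO : ∀ x, 0 ≤ O x) (e : Γ) :
    D.Ep U (avg e O) ≤ D.Ep U O := by
  have hpt : ∀ a b : Γ, D.f (D.P (tr a U) (tr b (avg e O))) ≤
      (D.f (D.P (tr a U) (tr (b + e) O)) + D.f (D.P (tr a U) (tr (b - e) O))) / 2 := by
    intro a b
    rw [tr_avg, D.P_mid]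
    exact D.conv (D.P_mem (tr_nonneg (a := a) hU) (tr_nonneg (a := b + e) hO))
      (D.P_mem (tr_nonneg (a := a) hU) (tr_nonneg (a := b - e) hO))
  have e1 : ∀ a : Γ, ∑ b, D.f (D.P (tr a U) (tr (b + e) O)) = ∑ b, D.f (D.P (tr a U) (tr b O)) :=
    fun a => sum_shift e (fun b => D.f (D.P (tr a U) (tr b O)))
  have e2 : ∀ a : Γ, ∑ b, D.f (D.P (tr a U) (tr (b - e) O)) = ∑ b, D.f (D.P (tr a U) (tr b O)) := by
    intro a
    rw [← sum_shift (-e) (fun b => D.f (D.P (tr a U) (tr b O)))]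
    simp only [sub_eq_add_neg]
  have hsum := Finset.sum_le_sum (fun a (_ : a ∈ (Finset.univ : Finset Γ)) =>
    Finset.sum_le_sum (fun b (_ : b ∈ (Finset.univ : Finset Γ)) => hpt a b))
  simp only [add_div, Finset.sum_add_distrib, ← Finset.sum_div, e1, e2] at hsum
  simp only [Ep]
  linarith

/-- Averaging the middle window does not increase `E_g` (Jensen in the `M`-form). -/
theorem Eg_plus_le {U O : Γ → ℝ} (hU : ∀ x, 0 ≤ U x) (hO : ∀ x, 0 ≤ O x) (d : Γ) :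
    D.Eg (avg d U) O ≤ D.Eg U O := by
  have h00 : ∀ x : Γ, 0 ≤ (0 : Γ → ℝ) x := fun _ => le_rfl
  have hpt : ∀ a b : Γ, D.f (D.G (tr a (avg d U)) (tr b O)) ≤
      (D.f (D.G (tr (a + d) U) (tr b O)) + D.f (D.G (tr (a - d) U) (tr b O))) / 2 := by
    intro a b
    rw [D.fG (tr_nonneg (avg_nonneg hU)) (tr_nonneg hO), D.fG (tr_nonneg hU) (tr_nonneg hO),
      D.fG (tr_nonneg hU) (tr_nonneg hO), tr_avg, D.M_mid]
    exact D.convY (D.M_mem (tr_nonneg (a := a + d) hU) (tr_nonneg (a := b) hO) h00)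
      (D.M_mem (tr_nonneg (a := a - d) hU) (tr_nonneg (a := b) hO) h00)
  have e1 : ∑ a, ∑ b, D.f (D.G (tr (a + d) U) (tr b O)) = ∑ a, ∑ b, D.f (D.G (tr a U) (tr b O)) :=
    sum_shift d (fun a => ∑ b, D.f (D.G (tr a U) (tr b O)))
  have e2 : ∑ a, ∑ b, D.f (D.G (tr (a - d) U) (tr b O)) = ∑ a, ∑ b, D.f (D.G (tr a U) (tr b O)) := by
    rw [← sum_shift (-d) (fun a => ∑ b, D.f (D.G (tr a U) (tr b O)))]
    simp only [sub_eq_add_neg]
  have hsum := Finset.sum_le_sum (fun a (_ : a ∈ (Finset.univ : Finset Γ)) =>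
    Finset.sum_le_sum (fun b (_ : b ∈ (Finset.univ : Finset Γ)) => hpt a b))
  simp only [add_div, Finset.sum_add_distrib, ← Finset.sum_div, e1, e2] at hsum
  simp only [Eg]
  linarith

/-- Averaging the middle window does not increase `E_p`. -/
theorem Ep_plus_le {U O : Γ → ℝ} (hU : ∀ x, 0 ≤ U x) (hO : ∀ x, 0 ≤ O x) (d : Γ) :
    D.Ep (avg d U) O ≤ D.Ep U O := by
  have h00 : ∀ x : Γ, 0 ≤ (0 : Γ → ℝ) x := fun _ => le_rfl
  have hpt : ∀ a b : Γ, D.f (D.P (tr a (avg d U)) (tr b O)) ≤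
      (D.f (D.P (tr (a + d) U) (tr b O)) + D.f (D.P (tr (a - d) U) (tr b O))) / 2 := by
    intro a b
    rw [D.fP (tr_nonneg (avg_nonneg hU)) (tr_nonneg hO), D.fP (tr_nonneg hU) (tr_nonneg hO),
      D.fP (tr_nonneg hU) (tr_nonneg hO), tr_avg, D.M_mid]
    exact D.convY (D.M_mem (tr_nonneg (a := a + d) hU) h00 (tr_nonneg (a := b) hO))
      (D.M_mem (tr_nonneg (a := a - d) hU) h00 (tr_nonneg (a := b) hO))
  have e1 : ∑ a, ∑ b, D.f (D.P (tr (a + d) U) (tr b O)) = ∑ a, ∑ b, D.f (D.P (tr a U) (tr b O)) :=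
    sum_shift d (fun a => ∑ b, D.f (D.P (tr a U) (tr b O)))
  have e2 : ∑ a, ∑ b, D.f (D.P (tr (a - d) U) (tr b O)) = ∑ a, ∑ b, D.f (D.P (tr a U) (tr b O)) := by
    rw [← sum_shift (-d) (fun a => ∑ b, D.f (D.P (tr a U) (tr b O)))]
    simp only [sub_eq_add_neg]
  have hsum := Finset.sum_le_sum (fun a (_ : a ∈ (Finset.univ : Finset Γ)) =>
    Finset.sum_le_sum (fun b (_ : b ∈ (Finset.univ : Finset Γ)) => hpt a b))
  simp only [add_div, Finset.sum_add_distrib, ← Finset.sum_div, e1, e2] at hsum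
  simp only [Ep]
  linarith

/-- **THEOREM STEP**: with `d = 2m`, `U⁺ = avg d U`, `O' = avg m O`, `O⁺ = avg e O'`,
`Q(U⁺,O⁺) + ∑_{a,b} gain(a,b,-a-b) ≤ Q(U,O)`. -/
theorem step {U O : Γ → ℝ} (hU : ∀ x, 0 ≤ U x) (hO : ∀ x, 0 ≤ O x) {d m : Γ} (hdm : d = m + m)
    (e : Γ) :
    D.Q (avg d U) (avg e (avg m O)) + ∑ a, ∑ b, D.gain U O d a b ≤ D.Q U O := by
  have hU' := avg_nonneg (e := d) hU
  have hO' := avg_nonneg (e := m) hO
  have h1 := D.V_avg_le hU' hO' e 0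
  have h2 := D.V_avg_le hU' hO m 0
  have h3 := D.Eg_avg_le hU' hO' e
  have h4 := D.Eg_plus_le hU hO' d
  have h5 := D.Ep_avg_le hU' hO' e
  have h6 := D.Ep_plus_le hU hO' d
  have h7 := D.sum_gain hU hO d
  have h8 := D.second_diff hU hO hdm
  simp only [Q]
  linarith

end Data

end Crest.Agent.TriRL.PlaneStep
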