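/-
S0096, helper84's blueprint L6, window part (helper92): the box windows on `ZMod N` and the ladder
`U i = Box(4·2^i q)`, `O i = Box(2·2^i q) * Box(2^(l+2)·2^i q)` (widths; half widths `2 q_i`, `q_i`,
`2^(l+1) q_i`, `q_i = 2^i q`).  Here `τ_i = 4 q_i`, digits `d_i = 2 q_i`, `m_i = q_i`, `e_i = 2^(l+1) q_i`.
-/
import Crest.Agent.TriRL.PlaneStep
import Crest.Agent.TriRL.Defs

set_option autoImplicit false

namespace Crest.Agent.TriRL.BoxChain

open Finset Crest.Agent.TriRL.PlaneStep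

/-! ### `valMinAbs` -/

section lift

variable {N : ℕ} [NeZero N]

/-- a small integer is its own `valMinAbs`. -/
lemma valMinAbs_cast {t : ℤ} (h : 2 * |t| < N) : ((t : ZMod N)).valMinAbs = t := by
  rw [ZMod.valMinAbs_spec]
  refine ⟨rfl, ?_⟩
  have h1 := le_abs_self t
  have h2 := neg_abs_le t
  rw [Set.mem_Ioc]
  constructor <;> linarith

lemma two_abs_valMinAbs_le (x : ZMod N) : 2 * |x.valMinAbs| ≤ N := by
  have h := ZMod.natAbs_valMinAbs_le x
  have : |x.valMinAbs| = (x.valMinAbs.natAbs : ℤ) := Int.abs_eq_natAbs _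
  rw [this]
  have h2 : x.valMinAbs.natAbs * 2 ≤ N := by
    have := Nat.div_mul_le_self N 2
    omega
  exact_mod_cast (by omega : 2 * x.valMinAbs.natAbs ≤ N)

/-- Transport of a translation through `valMinAbs` for a function with small support. -/
lemma comp_valMinAbs_sub (f : ℤ → ℝ) {R : ℕ} (hf : ∀ t : ℤ, (R : ℤ) ≤ |t| → f t = 0) (x : ZMod N) (e : ℤ)
    (he : 2 * ((R : ℤ) + |e|) < N) :
    f ((x - (e : ZMod N)).valMinAbs) = f (x.valMinAbs - e) := by
  set t := x.valMinAbs - e with ht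
  have hcast : (t : ZMod N) = x - (e : ZMod N) := by
    rw [ht]; push_cast; simp
  by_cases h1 : (R : ℤ) ≤ |t|
  · rw [hf t h1]
    apply hf
    by_contra h2
    push Not at h2
    -- t' = val is small, t ≡ t' mod N, so they agree
    set t' := (x - (e : ZMod N)).valMinAbs with ht'
    have hc' : (t' : ZMod N) = (t : ZMod N) := by rw [ht', ZMod.coe_valMinAbs, hcast]
    have hdvd : (N : ℤ) ∣ t - t' := by
      rw [← ZMod.intCast_eq_intCast_iff_dvd_sub]
      exact hc'
    have hx := two_abs_valMinAbs_le x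
    have hb : |t - t'| < N := by
      have h3 : |t - t'| ≤ |t| + |t'| := abs_sub _ _
      have h4 : |t| ≤ |x.valMinAbs| + |e| := by
        rw [ht]; exact abs_sub _ _
      have h5 : (0 : ℤ) ≤ |e| := abs_nonneg e
      linarith
    have h0 : t - t' = 0 := Int.eq_zero_of_abs_lt_dvd hdvd hb
    have : t = t' := by linarith
    rw [this] at h1
    linarith
  · push Not at h1
    have h2 : 2 * |t| < N := by
      have h5 : (0 : ℤ) ≤ |e| := abs_nonneg e
      linarith
    rw [← hcast, valMinAbs_cast h2]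

lemma comp_valMinAbs_add (f : ℤ → ℝ) {R : ℕ} (hf : ∀ t : ℤ, (R : ℤ) ≤ |t| → f t = 0) (x : ZMod N) (e : ℤ)
    (he : 2 * ((R : ℤ) + |e|) < N) :
    f ((x + (e : ZMod N)).valMinAbs) = f (x.valMinAbs + e) := by
  have h := comp_valMinAbs_sub f hf x (-e) (by rwa [abs_neg])
  simpa [sub_eq_add_neg] using h

/-- Sum over `ZMod N` of a function with small support. -/
lemma sum_valMinAbs (f : ℤ → ℝ) (S : Finset ℤ) (hS : ∀ s ∈ S, 2 * |s| < N)
    (hf : ∀ t, t ∉ S → f t = 0) :
    ∑ x : ZMod N, f x.valMinAbs = ∑ s ∈ S, f s := by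
  classical
  have hinj : Set.InjOn (fun s : ℤ => (s : ZMod N)) S := by
    intro s hs s' hs' h
    have h1 := valMinAbs_cast (N := N) (hS s hs)
    have h2 := valMinAbs_cast (N := N) (hS s' hs')
    simp only at h
    rw [← h1, ← h2, h]
  have h1 : ∑ s ∈ S, f s = ∑ x ∈ S.image (fun s : ℤ => (s : ZMod N)), f x.valMinAbs := by
    rw [Finset.sum_image hinj]
    refine Finset.sum_congr rfl fun s hs => ?_
    rw [valMinAbs_cast (hS s hs)]
  rw [h1]
  symm
  apply Finset.sum_subset (Finset.subset_univ _)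
  intro x _ hx
  apply hf
  intro hmem
  apply hx
  rw [Finset.mem_image]
  exact ⟨_, hmem, ZMod.coe_valMinAbs x⟩

end lift

/-! ### Boxes -/

/-- The box of half width `k`: `1/(2k)` on `[-k,k)`. -/
noncomputable def boxK (k : ℕ) (x : ℤ) : ℝ := if -(k : ℤ) ≤ x ∧ x < k then 1 / (2 * (k : ℝ)) else 0

lemma boxK_nonneg (k : ℕ) (x : ℤ) : 0 ≤ boxK k x := by
  unfold boxK
  split_ifs <;> positivity

lemma boxK_le (k : ℕ) (x : ℤ) : boxK k x ≤ 1 / (2 * (k : ℝ)) := by
  unfold boxK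
  split_ifs
  · exact le_rfl
  · positivity

lemma boxK_eq_zero {k : ℕ} {x : ℤ} (h : (k : ℤ) < |x|) : boxK k x = 0 := by
  unfold boxK
  rw [if_neg]
  rintro ⟨h1, h2⟩
  have := abs_le.mpr ⟨h1, h2.le⟩
  linarith

lemma boxK_support {k : ℕ} {x : ℤ} (h : boxK k x ≠ 0) : |x| ≤ k := by
  by_contra h1
  exact h (boxK_eq_zero (not_le.mp h1))

lemma boxK_of_mem {k : ℕ} {x : ℤ} (h1 : -(k : ℤ) ≤ x) (h2 : x < k) : boxK k x = 1 / (2 * (k : ℝ)) := by
  unfold boxK
  rw [if_pos ⟨h1, h2⟩]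

/-- `Box(2k)(x) = (Box(k)(x-k) + Box(k)(x+k))/2`. -/
lemma boxK_double {k : ℕ} (hk : 0 < k) (x : ℤ) :
    boxK (2 * k) x = (boxK k (x - k) + boxK k (x + k)) / 2 := by
  unfold boxK
  have hk' : (0 : ℝ) < k := by exact_mod_cast hk
  have hk'' : (0 : ℤ) < k := by exact_mod_cast hk
  push_cast
  by_cases h1 : 0 ≤ x ∧ x < 2 * k
  · rw [if_pos (by constructor <;> linarith [h1.1, h1.2]), if_pos (by constructor <;> linarith [h1.1, h1.2]),
      if_neg (by rintro ⟨_, h3⟩; linarith [h1.1])]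
    field_simp
    ring
  · by_cases h2 : -(2 * (k : ℤ)) ≤ x ∧ x < 0
    · rw [if_pos (by constructor <;> linarith [h2.1, h2.2]), if_neg (by rintro ⟨h3, _⟩; linarith [h2.2]),
        if_pos (by constructor <;> linarith [h2.1, h2.2])]
      field_simp
      ring
    · rw [if_neg, if_neg, if_neg]
      · simp
      · rintro ⟨h3, h4⟩
        exact h2 ⟨by linarith, by linarith⟩
      · rintro ⟨h3, h4⟩
        exact h1 ⟨by linarith, by linarith⟩
      · rintro ⟨h3, h4⟩
        by_cases h5 : 0 ≤ x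
        · exact h1 ⟨h5, h4⟩
        · exact h2 ⟨h3, by linarith⟩

/-- `(Box(k)(x-k) - Box(k)(x+k))/2` is the Haar function of width `4k`. -/
lemma boxK_twist {k : ℕ} (hk : 0 < k) (x : ℤ) :
    (boxK k (x - k) - boxK k (x + k)) / 2 = haarZ (2 * k) x := by
  unfold boxK haarZ
  have hk' : (0 : ℝ) < k := by exact_mod_cast hk
  have hk'' : (0 : ℤ) < k := by exact_mod_cast hk
  push_cast
  by_cases h1 : 0 ≤ x ∧ x < 2 * k
  · rw [if_pos (by constructor <;> linarith [h1.1, h1.2]),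
      if_neg (by rintro ⟨_, h3⟩; linarith [h1.1]), if_pos h1]
    field_simp
    ring
  · by_cases h2 : -(2 * (k : ℤ)) ≤ x ∧ x < 0
    · rw [if_neg (by rintro ⟨h3, _⟩; linarith [h2.2]),
        if_pos (by constructor <;> linarith [h2.1, h2.2]), if_neg h1, if_pos h2]
      field_simp
      ring
    · rw [if_neg, if_neg, if_neg h1, if_neg h2]
      · simp
      · rintro ⟨h3, h4⟩
        exact h2 ⟨by linarith, by linarith⟩
      · rintro ⟨h3, h4⟩
        exact h1 ⟨by linarith, by linarith⟩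

variable {N : ℕ} [NeZero N]

/-- The box on `ZMod N`. -/
noncomputable def boxG (N k : ℕ) (x : ZMod N) : ℝ := boxK k x.valMinAbs

lemma boxG_nonneg (k : ℕ) (x : ZMod N) : 0 ≤ boxG N k x := boxK_nonneg _ _

lemma boxG_le (k : ℕ) (x : ZMod N) : boxG N k x ≤ 1 / (2 * (k : ℝ)) := boxK_le _ _

lemma boxG_support {k : ℕ} {x : ZMod N} (h : boxG N k x ≠ 0) : |x.valMinAbs| ≤ k := boxK_support h

/-- Mass one. -/
lemma boxG_sum {k : ℕ} (hk : 0 < k) (hN : 2 * k < N) : ∑ x : ZMod N, boxG N k x = 1 := by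
  have hk' : (k : ℝ) ≠ 0 := by exact_mod_cast hk.ne'
  have h := sum_valMinAbs (N := N) (boxK k) (Finset.Ico (-(k : ℤ)) k)
    (by
      intro s hs
      rw [Finset.mem_Ico] at hs
      have : |s| ≤ k := abs_le.mpr ⟨hs.1, hs.2.le⟩
      have hN' : (2 * (k : ℤ)) < N := by exact_mod_cast hN
      linarith)
    (by
      intro t ht
      unfold boxK
      rw [if_neg]
      rintro ⟨h1, h2⟩
      exact ht (Finset.mem_Ico.mpr ⟨h1, h2⟩))
  unfold boxG
  rw [h, Finset.sum_congr rfl (fun s hs => boxK_of_mem (Finset.mem_Ico.mp hs).1 (Finset.mem_Ico.mp hs).2)]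
  rw [Finset.sum_const, Int.card_Ico]
  have : ((k : ℤ) - -(k : ℤ)).toNat = 2 * k := by omega
  rw [this, nsmul_eq_mul]
  push_cast
  field_simp

lemma boxK_small {k : ℕ} (t : ℤ) (ht : ((k + 1 : ℕ) : ℤ) ≤ |t|) : boxK k t = 0 := by
  apply boxK_eq_zero
  push_cast at ht
  linarith

/-- `avg k` of the box of half width `k` is the box of half width `2k`. -/
lemma avg_boxG {k : ℕ} (hk : 0 < k) (hN : 4 * k + 2 < N) :
    avg ((k : ℤ) : ZMod N) (boxG N k) = boxG N (2 * k) := by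
  funext x
  have he : 2 * (((k + 1 : ℕ) : ℤ) + |(k : ℤ)|) < N := by
    rw [abs_of_nonneg (by positivity)]
    push_cast
    have : (4 * (k : ℤ)) + 2 < N := by exact_mod_cast hN
    linarith
  simp only [avg, mid, tr, boxG]
  rw [comp_valMinAbs_sub (boxK k) boxK_small x k he, sub_neg_eq_add,
    comp_valMinAbs_add (boxK k) boxK_small x k he, boxK_double hk]

/-- The twist of a box is the Haar function. -/
lemma twist_boxG {k : ℕ} (hk : 0 < k) (hN : 4 * k + 2 < N) (a x : ZMod N) :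
    (tr (a + ((k : ℤ) : ZMod N)) (boxG N k) x - tr (a - ((k : ℤ) : ZMod N)) (boxG N k) x) / 2 =
      haarG N (2 * k) (x - a) := by
  have he : 2 * (((k + 1 : ℕ) : ℤ) + |(k : ℤ)|) < N := by
    rw [abs_of_nonneg (by positivity)]
    push_cast
    have : (4 * (k : ℤ)) + 2 < N := by exact_mod_cast hN
    linarith
  simp only [tr, boxG, haarG]
  have e1 : x - (a + ((k : ℤ) : ZMod N)) = (x - a) - ((k : ℤ) : ZMod N) := by abel
  have e2 : x - (a - ((k : ℤ) : ZMod N)) = (x - a) + ((k : ℤ) : ZMod N) := by abel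
  rw [e1, e2, comp_valMinAbs_sub (boxK k) boxK_small (x - a) k he,
    comp_valMinAbs_add (boxK k) boxK_small (x - a) k he, boxK_twist hk]

/-! ### Convolution on `ZMod N` -/

section conv

variable {Γ : Type*} [AddCommGroup Γ] [Fintype Γ]

/-- Convolution. -/
noncomputable def conv (f g : Γ → ℝ) (x : Γ) : ℝ := ∑ y, f y * g (x - y)

lemma conv_nonneg {f g : Γ → ℝ} (hf : ∀ x, 0 ≤ f x) (hg : ∀ x, 0 ≤ g x) (x : Γ) : 0 ≤ conv f g x :=
  Finset.sum_nonneg fun y _ => mul_nonneg (hf y) (hg _)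

lemma sum_conv (f g : Γ → ℝ) : ∑ x, conv f g x = (∑ x, f x) * ∑ x, g x := by
  simp only [conv, Finset.sum_mul_sum]
  rw [Finset.sum_comm]
  refine Finset.sum_congr rfl fun y _ => ?_
  exact Equiv.sum_comp (Equiv.subRight y) (fun z => f y * g z)

lemma tr_conv_left (e : Γ) (f g : Γ → ℝ) : tr e (conv f g) = conv (tr e f) g := by
  funext x
  simp only [tr, conv]
  rw [← Equiv.sum_comp (Equiv.addRight e) (fun y => f (y - e) * g (x - y))]
  refine Finset.sum_congr rfl fun y _ => ?_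
  simp only [Equiv.coe_addRight, add_sub_cancel_right]
  congr 2
  abel

lemma tr_conv_right (e : Γ) (f g : Γ → ℝ) : tr e (conv f g) = conv f (tr e g) := by
  funext x
  simp only [tr, conv]
  refine Finset.sum_congr rfl fun y _ => ?_
  congr 2
  abel

lemma mid_conv_left (f f' g : Γ → ℝ) : mid (conv f g) (conv f' g) = conv (mid f f') g := by
  funext x
  simp only [mid, conv, ← Finset.sum_add_distrib, Finset.sum_div]
  refine Finset.sum_congr rfl fun y _ => ?_
  ring

lemma mid_conv_right (f g g' : Γ → ℝ) : mid (conv f g) (conv f g') = conv f (mid g g') := by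
  funext x
  simp only [mid, conv, ← Finset.sum_add_distrib, Finset.sum_div]
  refine Finset.sum_congr rfl fun y _ => ?_
  ring

lemma avg_conv_left (e : Γ) (f g : Γ → ℝ) : avg e (conv f g) = conv (avg e f) g := by
  simp only [avg, tr_conv_left, mid_conv_left]

lemma avg_conv_right (e : Γ) (f g : Γ → ℝ) : avg e (conv f g) = conv f (avg e g) := by
  simp only [avg, tr_conv_right, mid_conv_right]

lemma conv_le {f g : Γ → ℝ} {c : ℝ} (hf : ∀ x, 0 ≤ f x) (hf1 : ∑ x, f x = 1) (hg : ∀ x, g x ≤ c) (x : Γ) :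
    conv f g x ≤ c := by
  calc conv f g x ≤ ∑ y, f y * c := Finset.sum_le_sum fun y _ => mul_le_mul_of_nonneg_left (hg _) (hf y)
    _ = c := by rw [← Finset.sum_mul, hf1, one_mul]

end conv

/-! ### The ladder -/

/-- half-width parameter -/
def qq (q i : ℕ) : ℕ := 2 ^ i * q

/-- The middle window of the ladder, half width `2 q_i`. -/
noncomputable def UU (N q i : ℕ) : ZMod N → ℝ := boxG N (2 * qq q i)

/-- The outer window of the ladder: half widths `q_i` and `2^(l+1) q_i`. -/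
noncomputable def OO (N q l i : ℕ) [NeZero N] : ZMod N → ℝ :=
  conv (boxG N (qq q i)) (boxG N (2 ^ (l + 1) * qq q i))

/-- The digits. -/
def dd (N q i : ℕ) : ZMod N := ((2 * qq q i : ℕ) : ℤ)
def mm (N q i : ℕ) : ZMod N := ((qq q i : ℕ) : ℤ)
def ee (N q l i : ℕ) : ZMod N := ((2 ^ (l + 1) * qq q i : ℕ) : ℤ)

lemma dd_eq (q i : ℕ) : dd N q i = mm N q i + mm N q i := by
  simp only [dd, mm]
  push_cast
  ring

lemma qq_succ (q i : ℕ) : qq q (i + 1) = 2 * qq q i := by
  simp only [qq]; ring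

lemma qq_pos {q : ℕ} (hq : 0 < q) (i : ℕ) : 0 < qq q i := by
  simp only [qq]; positivity

lemma UU_nonneg (q i : ℕ) (x : ZMod N) : 0 ≤ UU N q i x := boxG_nonneg _ _

lemma OO_nonneg (q l i : ℕ) (x : ZMod N) : 0 ≤ OO N q l i x :=
  conv_nonneg (fun x => boxG_nonneg _ x) (fun x => boxG_nonneg _ x) x

/-- size condition of the ladder: everything fits in `ZMod N`. -/
def Fits (N q l i : ℕ) : Prop := 2 ^ (l + 4) * qq q i < N

lemma UU_sum {q l i : ℕ} (hq : 0 < q) (h : Fits N q l i) : ∑ x : ZMod N, UU N q i x = 1 := by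
  have h1 : 0 < qq q i := qq_pos hq i
  have h2 : 2 ^ (l + 4) = 16 * 2 ^ l := by ring
  have h3 : 1 ≤ 2 ^ l := Nat.one_le_two_pow
  unfold Fits at h
  rw [h2] at h
  apply boxG_sum (by omega)
  nlinarith

lemma OO_sum {q l i : ℕ} (hq : 0 < q) (h : Fits N q l i) : ∑ x : ZMod N, OO N q l i x = 1 := by
  have h1 : 0 < qq q i := qq_pos hq i
  have h2 : 2 ^ (l + 4) = 16 * 2 ^ l := by ring
  have h3 : 1 ≤ 2 ^ l := Nat.one_le_two_pow
  unfold Fits at h
  rw [h2] at h
  unfold OO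
  rw [sum_conv, boxG_sum h1 (by nlinarith), boxG_sum (by positivity) ?_, one_mul]
  have : 2 ^ (l + 1) = 2 * 2 ^ l := by ring
  rw [this]
  nlinarith

/-- The middle step. -/
lemma avg_UU {q l i : ℕ} (hq : 0 < q) (h : Fits N q l i) :
    avg (dd N q i) (UU N q i) = UU N q (i + 1) := by
  have h1 : 0 < qq q i := qq_pos hq i
  have h2 : 2 ^ (l + 4) = 16 * 2 ^ l := by ring
  have h3 : 1 ≤ 2 ^ l := Nat.one_le_two_pow
  unfold Fits at h
  rw [h2] at h
  have := avg_boxG (N := N) (k := 2 * qq q i) (by omega) (by nlinarith)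
  simp only [UU, dd, qq_succ]
  exact this

/-- The outer step. -/
lemma avg_OO {q l i : ℕ} (hq : 0 < q) (h : Fits N q l i) :
    avg (ee N q l i) (avg (mm N q i) (OO N q l i)) = OO N q l (i + 1) := by
  have h1 : 0 < qq q i := qq_pos hq i
  have h2 : 2 ^ (l + 4) = 16 * 2 ^ l := by ring
  have h3 : 1 ≤ 2 ^ l := Nat.one_le_two_pow
  unfold Fits at h
  rw [h2] at h
  have h4 := avg_boxG (N := N) (k := qq q i) h1 (by nlinarith)
  have h5 := avg_boxG (N := N) (k := 2 ^ (l + 1) * qq q i) (by positivity) (by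
    have : 2 ^ (l + 1) = 2 * 2 ^ l := by ring
    rw [this]
    nlinarith)
  unfold OO
  rw [avg_conv_left, avg_conv_right]
  simp only [mm, ee]
  rw [h4, h5, qq_succ]
  congr 2
  ring

/-- The twist of the ladder. -/
lemma twist_UU {q l i : ℕ} (hq : 0 < q) (h : Fits N q l i) (a x : ZMod N) :
    (tr (a + dd N q i) (UU N q i) x - tr (a - dd N q i) (UU N q i) x) / 2 =
      haarG N (4 * qq q i) (x - a) := by
  have h1 : 0 < qq q i := qq_pos hq i
  have h2 : 2 ^ (l + 4) = 16 * 2 ^ l := by ring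
  have h3 : 1 ≤ 2 ^ l := Nat.one_le_two_pow
  unfold Fits at h
  rw [h2] at h
  have := twist_boxG (N := N) (k := 2 * qq q i) (by omega) (by nlinarith) a x
  have e : 2 * (2 * qq q i) = 4 * qq q i := by ring
  rw [e] at this
  exact this

/-! ### Sizes of the windows -/

lemma valMinAbs_sub_small {x y : ZMod N} (h : 2 * |x.valMinAbs - y.valMinAbs| < N) :
    (x - y).valMinAbs = x.valMinAbs - y.valMinAbs := by
  have h1 : (((x.valMinAbs - y.valMinAbs : ℤ)) : ZMod N) = x - y := by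
    push_cast
    simp
  rw [← h1, valMinAbs_cast h]

lemma valMinAbs_add_small {x y : ZMod N} (h : 2 * |x.valMinAbs + y.valMinAbs| < N) :
    (x + y).valMinAbs = x.valMinAbs + y.valMinAbs := by
  have h1 : (((x.valMinAbs + y.valMinAbs : ℤ)) : ZMod N) = x + y := by
    push_cast
    simp
  rw [← h1, valMinAbs_cast h]

lemma fits_aux {q l i : ℕ} (h : Fits N q l i) : 8 * (2 ^ (l + 1) * qq q i) < N := by
  unfold Fits at h
  have : 2 ^ (l + 4) * qq q i = 8 * (2 ^ (l + 1) * qq q i) := by ring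
  omega

lemma UU_succ_le (q i : ℕ) (x : ZMod N) : UU N q (i + 1) x ≤ 1 / (8 * (qq q i : ℝ)) := by
  have h := boxG_le (N := N) (2 * qq q (i + 1)) x
  have e : (2 * (((2 * qq q (i + 1) : ℕ)) : ℝ)) = 8 * (qq q i : ℝ) := by
    rw [qq_succ]; push_cast; ring
  rw [e] at h
  exact h

lemma UU_succ_support {q i : ℕ} {x : ZMod N} (h : UU N q (i + 1) x ≠ 0) :
    |x.valMinAbs| ≤ 4 * (qq q i : ℤ) := by
  have h1 := boxG_support h
  rw [qq_succ] at h1
  push_cast at h1
  linarith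

lemma OO_le {q l i : ℕ} (hq : 0 < q) (h : Fits N q l i) (x : ZMod N) :
    OO N q l i x ≤ 1 / (2 * ((2 ^ (l + 1) * qq q i : ℕ) : ℝ)) := by
  have h1 : 0 < qq q i := qq_pos hq i
  have h2 := fits_aux h
  have h3 : 1 ≤ 2 ^ (l + 1) := Nat.one_le_two_pow
  unfold OO
  apply conv_le (fun x => boxG_nonneg _ x) (boxG_sum h1 (by nlinarith)) (fun x => boxG_le _ x)

lemma OO_support {q l i : ℕ} (hq : 0 < q) (h : Fits N q l i) {x : ZMod N} (hx : OO N q l i x ≠ 0) :
    |x.valMinAbs| ≤ (2 ^ (l + 1) * (qq q i : ℤ)) + qq q i := by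
  have h1 : 0 < qq q i := qq_pos hq i
  have h2 := fits_aux h
  have h3 : 1 ≤ 2 ^ (l + 1) := Nat.one_le_two_pow
  unfold OO conv at hx
  obtain ⟨y, -, hy⟩ := Finset.exists_ne_zero_of_sum_ne_zero hx
  have hy1 : boxG N (qq q i) y ≠ 0 := left_ne_zero_of_mul hy
  have hy2 : boxG N (2 ^ (l + 1) * qq q i) (x - y) ≠ 0 := right_ne_zero_of_mul hy
  have hy1' := boxG_support hy1
  have hy2' := boxG_support hy2
  have e : x = y + (x - y) := by abel
  have hN : (8 : ℤ) * (2 ^ (l + 1) * (qq q i : ℤ)) < N := by exact_mod_cast h2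
  have hpos : (0 : ℤ) < qq q i := by exact_mod_cast h1
  have h3' : (1 : ℤ) ≤ 2 ^ (l + 1) := by exact_mod_cast h3
  have h4 : |y.valMinAbs + (x - y).valMinAbs| ≤ (2 ^ (l + 1) * (qq q i : ℤ)) + qq q i := by
    refine (abs_add_le _ _).trans ?_
    push_cast at hy2'
    linarith
  have h5 : 2 * |y.valMinAbs + (x - y).valMinAbs| < N := by nlinarith
  have h6 := valMinAbs_add_small h5
  rw [← e] at h6
  rw [h6]
  exact h4

/-- the flat part of the outer window. -/
lemma OO_flat {q l i : ℕ} (hq : 0 < q) (h : Fits N q l i) {x : ZMod N}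
    (hx : |x.valMinAbs| + (qq q i : ℤ) < 2 ^ (l + 1) * (qq q i : ℤ)) :
    OO N q l i x = 1 / (2 * ((2 ^ (l + 1) * qq q i : ℕ) : ℝ)) := by
  have h1 : 0 < qq q i := qq_pos hq i
  have h2 := fits_aux h
  have h3 : 1 ≤ 2 ^ (l + 1) := Nat.one_le_two_pow
  have hN : (8 : ℤ) * (2 ^ (l + 1) * (qq q i : ℤ)) < N := by exact_mod_cast h2
  unfold OO conv
  have hs : ∑ y : ZMod N, boxG N (qq q i) y = 1 := boxG_sum h1 (by nlinarith)
  have key : ∀ y : ZMod N, boxG N (qq q i) y * boxG N (2 ^ (l + 1) * qq q i) (x - y) =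
      boxG N (qq q i) y * (1 / (2 * ((2 ^ (l + 1) * qq q i : ℕ) : ℝ))) := by
    intro y
    by_cases hy : boxG N (qq q i) y = 0
    · simp [hy]
    have hy' := boxG_support hy
    congr 1
    have h4 : |x.valMinAbs - y.valMinAbs| ≤ |x.valMinAbs| + qq q i := by
      refine (abs_sub _ _).trans ?_
      linarith
    have h5 : 2 * |x.valMinAbs - y.valMinAbs| < N := by nlinarith [abs_nonneg x.valMinAbs]
    unfold boxG
    rw [valMinAbs_sub_small h5]
    apply boxK_of_mem
    · have := (abs_le.mp (le_refl |x.valMinAbs|)).1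
      have := abs_le.mp hy'
      push_cast
      linarith [this.2]
    · have := (abs_le.mp (le_refl |x.valMinAbs|)).2
      have := abs_le.mp hy'
      push_cast
      linarith [this.1]
  rw [Finset.sum_congr rfl fun y _ => key y, ← Finset.sum_mul, hs, one_mul]

/-- For `l = 2` the next middle window is dominated by twice the outer window. -/
lemma UU_le_two_OO {q i : ℕ} (hq : 0 < q) (h : Fits N q 2 i) (x : ZMod N) :
    UU N q (i + 1) x ≤ 2 * OO N q 2 i x := by
  by_cases hx : UU N q (i + 1) x = 0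
  · rw [hx]
    exact mul_nonneg (by norm_num) (OO_nonneg _ _ _ _)
  have h1 : 0 < qq q i := qq_pos hq i
  have hpos : (0 : ℤ) < qq q i := by exact_mod_cast h1
  have hs := UU_succ_support hx
  have hflat := OO_flat hq h (x := x) (by norm_num; linarith)
  rw [hflat]
  refine (UU_succ_le q i x).trans (le_of_eq ?_)
  have : ((qq q i : ℕ) : ℝ) ≠ 0 := by exact_mod_cast h1.ne'
  push_cast
  field_simp

/-- The autocorrelation of the outer window: lower bound on the aperture. -/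
lemma conv_OO_ge {q l i : ℕ} (hq : 0 < q) (h : Fits N q (l + 1) i) {s : ZMod N}
    (hs : |s.valMinAbs| ≤ 2 * (2 ^ l * (qq q i : ℤ))) :
    1 / (64 * ((2 ^ l * qq q i : ℕ) : ℝ)) ≤ conv (OO N q (l + 1) i) (OO N q (l + 1) i) s := by
  classical
  have h1 : 0 < qq q i := qq_pos hq i
  have hpos : (0 : ℤ) < qq q i := by exact_mod_cast h1
  have h2 := fits_aux h
  have hN : (8 : ℤ) * (2 ^ (l + 1 + 1) * (qq q i : ℤ)) < N := by exact_mod_cast h2
  set r : ℤ := 2 ^ l * (qq q i : ℤ) with hr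
  have hl1 : (1 : ℤ) ≤ 2 ^ l := by exact_mod_cast (Nat.one_le_two_pow (n := l))
  have hrq : (qq q i : ℤ) ≤ r := by rw [hr]; nlinarith
  have hr0 : 0 < r := by linarith
  have hQ : (2 : ℤ) ^ (l + 1 + 1) * (qq q i : ℤ) = 4 * r := by rw [hr]; ring
  rw [hQ] at hN
  set c : ℝ := 1 / (2 * ((2 ^ (l + 1 + 1) * qq q i : ℕ) : ℝ)) with hc
  have hc0 : 0 ≤ c := by rw [hc]; positivity
  set Y : Finset ℤ := Finset.Ioo (-r) r with hY
  have hinj : Set.InjOn (fun t : ℤ => (t : ZMod N)) Y := by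
    intro t ht t' ht' htt
    rw [Finset.mem_coe, hY, Finset.mem_Ioo] at ht ht'
    have h3 : 2 * |t| < N := by
      have := abs_lt.mpr ⟨ht.1, ht.2⟩
      linarith
    have h4 : 2 * |t'| < N := by
      have := abs_lt.mpr ⟨ht'.1, ht'.2⟩
      linarith
    rw [← valMinAbs_cast (N := N) h3, ← valMinAbs_cast (N := N) h4]
    simp only at htt
    rw [htt]
  have hterm : ∀ t ∈ Y, c * c ≤ OO N q (l + 1) i (t : ZMod N) * OO N q (l + 1) i (s - (t : ZMod N)) := by
    intro t ht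
    rw [hY, Finset.mem_Ioo] at ht
    have h3 : 2 * |t| < N := by
      have := abs_lt.mpr ⟨ht.1, ht.2⟩
      linarith
    have hv : ((t : ZMod N)).valMinAbs = t := valMinAbs_cast h3
    have ht' : |t| < r := abs_lt.mpr ⟨ht.1, ht.2⟩
    have e1 : OO N q (l + 1) i (t : ZMod N) = c := by
      apply OO_flat hq h
      rw [hv, hQ]
      linarith
    have hb : |s.valMinAbs - t| < 3 * r := by
      refine lt_of_le_of_lt (abs_sub _ _) ?_
      rw [hr] at ht' ⊢
      linarith
    have h5 : 2 * |s.valMinAbs - ((t : ZMod N)).valMinAbs| < N := by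
      rw [hv]; linarith
    have hv2 : (s - (t : ZMod N)).valMinAbs = s.valMinAbs - t := by
      rw [valMinAbs_sub_small h5, hv]
    have e2 : OO N q (l + 1) i (s - (t : ZMod N)) = c := by
      apply OO_flat hq h
      rw [hv2, hQ]
      linarith
    rw [e1, e2]
  have hsum : ∑ t ∈ Y, c * c ≤ conv (OO N q (l + 1) i) (OO N q (l + 1) i) s := by
    unfold conv
    calc ∑ t ∈ Y, c * c ≤ ∑ t ∈ Y, OO N q (l + 1) i (t : ZMod N) * OO N q (l + 1) i (s - (t : ZMod N)) :=
          Finset.sum_le_sum hterm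
      _ = ∑ y ∈ Y.image (fun t : ℤ => (t : ZMod N)), OO N q (l + 1) i y * OO N q (l + 1) i (s - y) := by
          rw [Finset.sum_image hinj]
      _ ≤ _ := by
          apply Finset.sum_le_sum_of_subset_of_nonneg (Finset.subset_univ _)
          intro y _ _
          exact mul_nonneg (OO_nonneg _ _ _ _) (OO_nonneg _ _ _ _)
  refine le_trans ?_ hsum
  rw [Finset.sum_const, nsmul_eq_mul, hY, Int.card_Ioo]
  have hcard : ((r - -r - 1).toNat : ℝ) = 2 * (r : ℝ) - 1 := by
    have : (r - -r - 1).toNat = (2 * r - 1).toNat := by congr 1; ring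
    rw [this]
    have h6 : ((2 * r - 1).toNat : ℤ) = 2 * r - 1 := Int.toNat_of_nonneg (by linarith)
    calc (((2 * r - 1).toNat : ℕ) : ℝ) = (((2 * r - 1).toNat : ℤ) : ℝ) := (Int.cast_natCast _).symm
      _ = ((2 * r - 1 : ℤ) : ℝ) := by rw [h6]
      _ = _ := by push_cast; ring
  rw [hcard]
  have hrR : (r : ℝ) = ((2 ^ l * qq q i : ℕ) : ℝ) := by rw [hr]; push_cast; ring
  rw [hc, ← hrR]
  have hQR : (((2 ^ (l + 1 + 1) * qq q i : ℕ)) : ℝ) = 4 * (r : ℝ) := by
    have := hQ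
    have h8 : (((2 ^ (l + 1 + 1) * qq q i : ℕ) : ℤ) : ℝ) = ((4 * r : ℤ) : ℝ) := by
      rw [← this]; push_cast; ring
    push_cast at h8 ⊢
    exact h8
  rw [hQR]
  have hrp : (1 : ℝ) ≤ (r : ℝ) := by exact_mod_cast (by linarith : (1 : ℤ) ≤ r)
  have hr' : (0 : ℝ) < r := by linarith
  rw [show (1 : ℝ) / (2 * (4 * (r : ℝ))) = 1 / (8 * r) by ring_nf]
  rw [div_mul_div_comm, mul_one, ← mul_div_assoc, mul_one, div_le_div_iff₀ (by positivity) (by positivity)]
  nlinarith

end Crest.Agent.TriRL.BoxChain
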