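import Crest.Agent.TriH.MaxFn

/-!
# Hardy--Littlewood bookkeeping on `ℤ × ℤ`

Fibre maximal operators, the strong (rectangle) maximal operator, Hoelder in `ℓ^{3/2}`,
and the `Dom` bound of the real line blueprint (L5), the `Msimple`, `Mq` bounds (L9) and
the `Omega` bound (L8).  Everything is in `ℝ≥0∞` with `tsum`.
-/

set_option autoImplicit false

namespace Crest.Agent.TriRL.MaxOps

open Crest.Agent.TriH.MaxFn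
open scoped ENNReal

/-- Fibre maximal operator in the first coordinate. -/
noncomputable def Mx (F : ℤ × ℤ → ℝ≥0∞) (z : ℤ × ℤ) : ℝ≥0∞ := maxZ (fun x' => F (x', z.2)) z.1

/-- Fibre maximal operator in the second coordinate. -/
noncomputable def My (F : ℤ × ℤ → ℝ≥0∞) (z : ℤ × ℤ) : ℝ≥0∞ := maxZ (fun y' => F (z.1, y')) z.2

/-- Strong maximal operator. -/
noncomputable def Msq (F : ℤ × ℤ → ℝ≥0∞) : ℤ × ℤ → ℝ≥0∞ := Mx (My F)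

/-- `ℝ≥0∞` constant of the maximal theorem. -/
noncomputable def cM (p : ℝ) : ℝ≥0∞ := ENNReal.ofReal (cZ p)

theorem cM_ne_top (p : ℝ) : cM p ≠ ∞ := ENNReal.ofReal_ne_top

theorem tsum_Mx_rpow_le {p : ℝ} (hp : 1 < p) (F : ℤ × ℤ → ℝ≥0∞) :
    ∑' z, (Mx F z) ^ p ≤ cM p * ∑' z, F z ^ p := by
  rw [← (Equiv.prodComm ℤ ℤ).tsum_eq (fun z => (Mx F z) ^ p),
    ← (Equiv.prodComm ℤ ℤ).tsum_eq (fun z => F z ^ p)]
  rw [ENNReal.tsum_prod', ENNReal.tsum_prod', ← ENNReal.tsum_mul_left]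
  apply ENNReal.tsum_le_tsum
  intro y
  exact maxZ_bound hp (fun x' => F (x', y))

theorem tsum_My_rpow_le {p : ℝ} (hp : 1 < p) (F : ℤ × ℤ → ℝ≥0∞) :
    ∑' z, (My F z) ^ p ≤ cM p * ∑' z, F z ^ p := by
  rw [ENNReal.tsum_prod', ENNReal.tsum_prod', ← ENNReal.tsum_mul_left]
  apply ENNReal.tsum_le_tsum
  intro x
  exact maxZ_bound hp (fun y' => F (x, y'))

theorem tsum_Msq_rpow_le {p : ℝ} (hp : 1 < p) (F : ℤ × ℤ → ℝ≥0∞) :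
    ∑' z, (Msq F z) ^ p ≤ cM p * cM p * ∑' z, F z ^ p := by
  calc ∑' z, (Msq F z) ^ p ≤ cM p * ∑' z, (My F z) ^ p := tsum_Mx_rpow_le hp _
    _ ≤ cM p * (cM p * ∑' z, F z ^ p) := by gcongr; exact tsum_My_rpow_le hp _
    _ = _ := by rw [mul_assoc]

/-- Sum over a centered interval in the first variable. -/
theorem sum_Icc_le_Mx (F : ℤ × ℤ → ℝ≥0∞) (z : ℤ × ℤ) (r : ℕ) :
    ∑ i ∈ Finset.Icc (-(r : ℤ)) r, F (z.1 + i, z.2) ≤ (2 * (r : ℝ≥0∞) + 1) * Mx F z :=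
  sum_Icc_le_maxZ (fun x' => F (x', z.2)) z.1 r

theorem sum_Icc_le_My (F : ℤ × ℤ → ℝ≥0∞) (z : ℤ × ℤ) (r : ℕ) :
    ∑ j ∈ Finset.Icc (-(r : ℤ)) r, F (z.1, z.2 + j) ≤ (2 * (r : ℝ≥0∞) + 1) * My F z :=
  sum_Icc_le_maxZ (fun y' => F (z.1, y')) z.2 r

/-- Sum over a centered rectangle. -/
theorem sum_rect_le_Msq (F : ℤ × ℤ → ℝ≥0∞) (z : ℤ × ℤ) (r s : ℕ) :
    ∑ i ∈ Finset.Icc (-(r : ℤ)) r, ∑ j ∈ Finset.Icc (-(s : ℤ)) s, F (z.1 + i, z.2 + j) ≤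
      (2 * (r : ℝ≥0∞) + 1) * (2 * (s : ℝ≥0∞) + 1) * Msq F z := by
  calc ∑ i ∈ Finset.Icc (-(r : ℤ)) r, ∑ j ∈ Finset.Icc (-(s : ℤ)) s, F (z.1 + i, z.2 + j)
      ≤ ∑ i ∈ Finset.Icc (-(r : ℤ)) r, (2 * (s : ℝ≥0∞) + 1) * My F (z.1 + i, z.2) := by
        apply Finset.sum_le_sum
        intro i _
        exact sum_Icc_le_My F (z.1 + i, z.2) s
    _ = (2 * (s : ℝ≥0∞) + 1) * ∑ i ∈ Finset.Icc (-(r : ℤ)) r, My F (z.1 + i, z.2) := by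
        rw [Finset.mul_sum]
    _ ≤ (2 * (s : ℝ≥0∞) + 1) * ((2 * (r : ℝ≥0∞) + 1) * Msq F z) := by
        gcongr
        exact sum_Icc_le_Mx (My F) z r
    _ = _ := by ring

/-! ### Hoelder for `tsum` in `ℝ≥0∞` -/

theorem tsum_mul_le_Lp {ι : Type*} {p q : ℝ} (hpq : p.HolderConjugate q) (a b : ι → ℝ≥0∞) :
    ∑' i, a i * b i ≤ (∑' i, a i ^ p) ^ (1 / p) * (∑' i, b i ^ q) ^ (1 / q) := by
  rw [ENNReal.tsum_eq_iSup_sum]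
  apply iSup_le
  intro s
  calc ∑ i ∈ s, a i * b i
      ≤ (∑ i ∈ s, a i ^ p) ^ (1 / p) * (∑ i ∈ s, b i ^ q) ^ (1 / q) :=
        ENNReal.inner_le_Lp_mul_Lq s a b hpq
    _ ≤ _ := by
        have h1 : 0 ≤ 1 / p := by have := hpq.pos; positivity
        have h2 : 0 ≤ 1 / q := by have := hpq.symm.pos; positivity
        gcongr <;> exact ENNReal.sum_le_tsum _


/-- Three term Hoelder in `ℓ³`. -/
theorem tsum_mul3_le {ι : Type*} (a b c : ι → ℝ≥0∞) :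
    ∑' i, a i * b i * c i ≤ (∑' i, a i ^ (3 : ℝ)) ^ (1 / 3 : ℝ) *
      (∑' i, b i ^ (3 : ℝ)) ^ (1 / 3 : ℝ) * (∑' i, c i ^ (3 : ℝ)) ^ (1 / 3 : ℝ) := by
  have hh1 : (3 / 2 : ℝ).HolderConjugate 3 := by
    refine ⟨?_, by norm_num, by norm_num⟩
    norm_num
  have hh2 : (2 : ℝ).HolderConjugate 2 := by
    refine ⟨?_, by norm_num, by norm_num⟩
    norm_num
  have h1 := tsum_mul_le_Lp hh1 (fun i => a i * b i) c
  have h2 : ∑' i, (a i * b i) ^ (3 / 2 : ℝ) ≤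
      (∑' i, a i ^ (3 : ℝ)) ^ (1 / 2 : ℝ) * (∑' i, b i ^ (3 : ℝ)) ^ (1 / 2 : ℝ) := by
    have h3 := tsum_mul_le_Lp hh2 (fun i => a i ^ (3 / 2 : ℝ)) (fun i => b i ^ (3 / 2 : ℝ))
    have e1 : ∀ x : ℝ≥0∞, (x ^ (3 / 2 : ℝ)) ^ (2 : ℝ) = x ^ (3 : ℝ) := by
      intro x
      rw [← ENNReal.rpow_mul]
      norm_num
    simp only [e1] at h3
    calc ∑' i, (a i * b i) ^ (3 / 2 : ℝ)
        = ∑' i, a i ^ (3 / 2 : ℝ) * b i ^ (3 / 2 : ℝ) := by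
          congr 1
          ext i
          exact ENNReal.mul_rpow_of_nonneg _ _ (by norm_num)
      _ ≤ _ := h3
  calc ∑' i, a i * b i * c i
      ≤ (∑' i, (a i * b i) ^ (3 / 2 : ℝ)) ^ (1 / (3 / 2) : ℝ) *
          (∑' i, c i ^ (3 : ℝ)) ^ (1 / 3 : ℝ) := h1
    _ ≤ ((∑' i, a i ^ (3 : ℝ)) ^ (1 / 2 : ℝ) * (∑' i, b i ^ (3 : ℝ)) ^ (1 / 2 : ℝ)) ^
          (1 / (3 / 2) : ℝ) * (∑' i, c i ^ (3 : ℝ)) ^ (1 / 3 : ℝ) := by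
        gcongr
    _ = _ := by
        rw [ENNReal.mul_rpow_of_nonneg _ _ (by norm_num), ← ENNReal.rpow_mul, ← ENNReal.rpow_mul]
        norm_num

/-- `(A + B)^{3/2}` summed. -/
theorem tsum_add_rpow_le {ι : Type*} {p : ℝ} (hp : 1 ≤ p) (A B : ι → ℝ≥0∞) :
    ∑' i, (A i + B i) ^ p ≤ 2 ^ (p - 1) * (∑' i, A i ^ p + ∑' i, B i ^ p) := by
  calc ∑' i, (A i + B i) ^ p ≤ ∑' i, 2 ^ (p - 1) * (A i ^ p + B i ^ p) :=
        ENNReal.tsum_le_tsum fun i => ENNReal.rpow_add_le_mul_rpow_add_rpow _ _ hp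
    _ = _ := by rw [ENNReal.tsum_mul_left, ENNReal.tsum_add]

/-! ### Maximal functions of powers -/

/-- `M[F^a]` in `ℓ^p`, when `a p = r`: fibres in the first coordinate. -/
theorem tsum_Mx_pow_le {p a r : ℝ} (hp : 1 < p) (h : a * p = r) (F : ℤ × ℤ → ℝ≥0∞) :
    ∑' z, (Mx (fun w => F w ^ a) z) ^ p ≤ cM p * ∑' z, F z ^ r := by
  have := tsum_Mx_rpow_le hp (fun w => F w ^ a)
  simpa only [← ENNReal.rpow_mul, h] using this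

theorem tsum_My_pow_le {p a r : ℝ} (hp : 1 < p) (h : a * p = r) (F : ℤ × ℤ → ℝ≥0∞) :
    ∑' z, (My (fun w => F w ^ a) z) ^ p ≤ cM p * ∑' z, F z ^ r := by
  have := tsum_My_rpow_le hp (fun w => F w ^ a)
  simpa only [← ENNReal.rpow_mul, h] using this

theorem tsum_Msq_pow_le {p a r : ℝ} (hp : 1 < p) (h : a * p = r) (F : ℤ × ℤ → ℝ≥0∞) :
    ∑' z, (Msq (fun w => F w ^ a) z) ^ p ≤ cM p * cM p * ∑' z, F z ^ r := by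
  have := tsum_Msq_rpow_le hp (fun w => F w ^ a)
  simpa only [← ENNReal.rpow_mul, h] using this

/-! ### The `Dom` bound (L5 of the blueprint) -/

/-- Pull back under a bijection of the plane does not change a sum. -/
theorem tsum_comp_equiv (e : ℤ × ℤ ≃ ℤ × ℤ) (G : ℤ × ℤ → ℝ≥0∞) :
    ∑' z, G (e z) = ∑' z, G z := e.tsum_eq G

/-- Generic form of the `Dom` bound: three factors, with two of them being square roots of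
functions controlled in `ℓ^{3/2}`. -/
theorem dom_core (A B W : ℤ × ℤ → ℝ≥0∞) :
    ∑' z, (A z) ^ (1 / 2 : ℝ) * (B z) ^ (1 / 2 : ℝ) * W z ≤
      (∑' z, (A z) ^ (3 / 2 : ℝ)) ^ (1 / 3 : ℝ) * (∑' z, (B z) ^ (3 / 2 : ℝ)) ^ (1 / 3 : ℝ) *
        (∑' z, W z ^ (3 : ℝ)) ^ (1 / 3 : ℝ) := by
  have := tsum_mul3_le (fun z => (A z) ^ (1 / 2 : ℝ)) (fun z => (B z) ^ (1 / 2 : ℝ)) W
  have e : ∀ x : ℝ≥0∞, (x ^ (1 / 2 : ℝ)) ^ (3 : ℝ) = x ^ (3 / 2 : ℝ) := by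
    intro x
    rw [← ENNReal.rpow_mul]
    norm_num
  simpa only [e] using this

/-- The term `Mx[Y²](z) + M₁[F²](e z)` of `Dom` in `ℓ^{3/2}`. -/
theorem tsum_dom_second_le (Y F : ℤ × ℤ → ℝ≥0∞) (e : ℤ × ℤ ≃ ℤ × ℤ)
    (M₁ : (ℤ × ℤ → ℝ≥0∞) → ℤ × ℤ → ℝ≥0∞)
    (hM₁ : ∑' z, (M₁ (fun w => F w ^ (2 : ℝ)) z) ^ (3 / 2 : ℝ) ≤ cM (3 / 2) * ∑' z, F z ^ (3 : ℝ)) :
    ∑' z, (Mx (fun w => Y w ^ (2 : ℝ)) z + M₁ (fun w => F w ^ (2 : ℝ)) (e z)) ^ (3 / 2 : ℝ) ≤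
      2 * cM (3 / 2) * (∑' z, Y z ^ (3 : ℝ) + ∑' z, F z ^ (3 : ℝ)) := by
  have h1 := tsum_add_rpow_le (p := 3 / 2) (by norm_num)
    (fun z => Mx (fun w => Y w ^ (2 : ℝ)) z) (fun z => M₁ (fun w => F w ^ (2 : ℝ)) (e z))
  have h2 := tsum_Mx_pow_le (p := 3 / 2) (a := 2) (r := 3) (by norm_num)
    (by norm_num) Y
  rw [tsum_comp_equiv e (fun z => (M₁ (fun w => F w ^ (2 : ℝ)) z) ^ (3 / 2 : ℝ))] at h1
  have h3 : (2 : ℝ≥0∞) ^ ((3 / 2 : ℝ) - 1) ≤ 2 := by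
    calc (2 : ℝ≥0∞) ^ ((3 / 2 : ℝ) - 1) ≤ (2 : ℝ≥0∞) ^ (1 : ℝ) :=
          ENNReal.rpow_le_rpow_of_exponent_le (by norm_num) (by norm_num)
      _ = 2 := by simp
  calc _ ≤ 2 ^ ((3 / 2 : ℝ) - 1) * (∑' z, (Mx (fun w => Y w ^ (2 : ℝ)) z) ^ (3 / 2 : ℝ) +
            ∑' z, (M₁ (fun w => F w ^ (2 : ℝ)) z) ^ (3 / 2 : ℝ)) := h1
    _ ≤ 2 * (cM (3 / 2) * ∑' z, Y z ^ (3 : ℝ) + cM (3 / 2) * ∑' z, F z ^ (3 : ℝ)) := by
        gcongr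
    _ = _ := by ring

/-- The bound for one term of `Dom`: for all `W ≥ 0`,
`∑ My[Y²]^{1/2} (Mx[Y²] + M₁[F²]∘e)^{1/2} W ≤ C ‖Y‖₃ (‖Y‖₃³ + ‖F‖₃³)^{1/3} ‖W‖₃`, where
`C³ = 2 cM(3/2)²`. -/
theorem dom_bound (Y F W : ℤ × ℤ → ℝ≥0∞) (e : ℤ × ℤ ≃ ℤ × ℤ)
    (M₁ : (ℤ × ℤ → ℝ≥0∞) → ℤ × ℤ → ℝ≥0∞)
    (hM₁ : ∑' z, (M₁ (fun w => F w ^ (2 : ℝ)) z) ^ (3 / 2 : ℝ) ≤ cM (3 / 2) * ∑' z, F z ^ (3 : ℝ)) :
    ∑' z, (My (fun w => Y w ^ (2 : ℝ)) z) ^ (1 / 2 : ℝ) *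
        (Mx (fun w => Y w ^ (2 : ℝ)) z + M₁ (fun w => F w ^ (2 : ℝ)) (e z)) ^ (1 / 2 : ℝ) * W z ≤
      (cM (3 / 2) * ∑' z, Y z ^ (3 : ℝ)) ^ (1 / 3 : ℝ) *
        (2 * cM (3 / 2) * (∑' z, Y z ^ (3 : ℝ) + ∑' z, F z ^ (3 : ℝ))) ^ (1 / 3 : ℝ) *
        (∑' z, W z ^ (3 : ℝ)) ^ (1 / 3 : ℝ) := by
  refine (dom_core _ _ W).trans ?_
  gcongr
  · exact tsum_My_pow_le (p := 3 / 2) (a := 2) (r := 3) (by norm_num)
      (by norm_num) Y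
  · exact tsum_dom_second_le Y F e M₁ hM₁

/-! ### Hoelder for the pointwise product `f(x+m,y) g(x,y+m)` (L9 of the blueprint) -/

/-- The diagonal product: `∑_{|m| ≤ r} f(x+m,y) g(x,y+m)` is bounded by the geometric mean of
the fibre maximal functions of `f²`, `g²`. -/
theorem sum_phi_le (f g : ℤ × ℤ → ℝ≥0∞) (z : ℤ × ℤ) (r : ℕ) :
    ∑ m ∈ Finset.Icc (-(r : ℤ)) r, f (z.1 + m, z.2) * g (z.1, z.2 + m) ≤
      (2 * (r : ℝ≥0∞) + 1) * ((Mx (fun w => f w ^ (2 : ℝ)) z) ^ (1 / 2 : ℝ) *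
        (My (fun w => g w ^ (2 : ℝ)) z) ^ (1 / 2 : ℝ)) := by
  have hh2 : (2 : ℝ).HolderConjugate 2 := by
    refine ⟨?_, by norm_num, by norm_num⟩
    norm_num
  have h := ENNReal.inner_le_Lp_mul_Lq (Finset.Icc (-(r : ℤ)) r)
    (fun m => f (z.1 + m, z.2)) (fun m => g (z.1, z.2 + m)) hh2
  refine h.trans ?_
  have h1 := sum_Icc_le_Mx (fun w => f w ^ (2 : ℝ)) z r
  have h2 := sum_Icc_le_My (fun w => g w ^ (2 : ℝ)) z r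
  set c : ℝ≥0∞ := 2 * (r : ℝ≥0∞) + 1 with hc
  calc (∑ m ∈ Finset.Icc (-(r : ℤ)) r, f (z.1 + m, z.2) ^ (2 : ℝ)) ^ (1 / 2 : ℝ) *
        (∑ m ∈ Finset.Icc (-(r : ℤ)) r, g (z.1, z.2 + m) ^ (2 : ℝ)) ^ (1 / 2 : ℝ)
      ≤ (c * Mx (fun w => f w ^ (2 : ℝ)) z) ^ (1 / 2 : ℝ) *
          (c * My (fun w => g w ^ (2 : ℝ)) z) ^ (1 / 2 : ℝ) := by
        gcongr
    _ = (c ^ (1 / 2 : ℝ) * c ^ (1 / 2 : ℝ)) * ((Mx (fun w => f w ^ (2 : ℝ)) z) ^ (1 / 2 : ℝ) *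
          (My (fun w => g w ^ (2 : ℝ)) z) ^ (1 / 2 : ℝ)) := by
        rw [ENNReal.mul_rpow_of_nonneg _ _ (by norm_num),
          ENNReal.mul_rpow_of_nonneg _ _ (by norm_num)]
        ring
    _ = _ := by
        congr 1
        rw [← ENNReal.rpow_add_of_nonneg _ _ (by norm_num) (by norm_num)]
        norm_num

/-- Same at exponent `q`: `∑_{|m| ≤ r} (f(x+m,y) g(x,y+m))^q`. -/
theorem sum_phi_rpow_le {q : ℝ} (hq : 0 ≤ q) (f g : ℤ × ℤ → ℝ≥0∞) (z : ℤ × ℤ) (r : ℕ) :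
    ∑ m ∈ Finset.Icc (-(r : ℤ)) r, (f (z.1 + m, z.2) * g (z.1, z.2 + m)) ^ q ≤
      (2 * (r : ℝ≥0∞) + 1) * ((Mx (fun w => f w ^ (2 * q)) z) ^ (1 / 2 : ℝ) *
        (My (fun w => g w ^ (2 * q)) z) ^ (1 / 2 : ℝ)) := by
  have h := sum_phi_le (fun w => f w ^ q) (fun w => g w ^ q) z r
  simp only [← ENNReal.rpow_mul] at h
  have e : ∀ m, (f (z.1 + m, z.2) * g (z.1, z.2 + m)) ^ q =
      f (z.1 + m, z.2) ^ q * g (z.1, z.2 + m) ^ q := fun m =>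
    ENNReal.mul_rpow_of_nonneg _ _ hq
  simp only [e]
  have e2 : q * 2 = 2 * q := by ring
  rw [e2] at h
  exact h

/-- `Dq`: the pointwise maximal bound for the product on the diagonal. -/
noncomputable def Dq (q : ℝ) (f g : ℤ × ℤ → ℝ≥0∞) (z : ℤ × ℤ) : ℝ≥0∞ :=
  (Mx (fun w => f w ^ (2 * q)) z) ^ (1 / (2 * q)) * (My (fun w => g w ^ (2 * q)) z) ^ (1 / (2 * q))

/-- Averages of `(f g)^q` are bounded by `Dq^q`. -/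
theorem avg_phi_le {q : ℝ} (hq : 0 < q) (f g : ℤ × ℤ → ℝ≥0∞) (z : ℤ × ℤ) (r : ℕ) :
    ∑ m ∈ Finset.Icc (-(r : ℤ)) r, (f (z.1 + m, z.2) * g (z.1, z.2 + m)) ^ q ≤
      (2 * (r : ℝ≥0∞) + 1) * (Dq q f g z) ^ q := by
  refine (sum_phi_rpow_le hq.le f g z r).trans ?_
  gcongr
  unfold Dq
  rw [ENNReal.mul_rpow_of_nonneg _ _ hq.le, ← ENNReal.rpow_mul, ← ENNReal.rpow_mul]
  have : 1 / (2 * q) * q = 1 / 2 := by field_simp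
  rw [this]

/-- The `ℓ^{3/2}` bound of `Dq`, for `1 ≤ q < 3/2`. -/
theorem tsum_Dq_le {q : ℝ} (hq : 0 < q) (hq' : q < 3 / 2) (f g : ℤ × ℤ → ℝ≥0∞) :
    ∑' z, (Dq q f g z) ^ (3 / 2 : ℝ) ≤
      cM (3 / (2 * q)) * ((∑' z, f z ^ (3 : ℝ)) ^ (1 / 2 : ℝ) *
        (∑' z, g z ^ (3 : ℝ)) ^ (1 / 2 : ℝ)) := by
  have hp : 1 < 3 / (2 * q) := by
    rw [lt_div_iff₀ (by positivity)]
    linarith
  have hh2 : (2 : ℝ).HolderConjugate 2 := by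
    refine ⟨?_, by norm_num, by norm_num⟩
    norm_num
  set p := 3 / (2 * q) with hpdef
  have hpq : (2 * q) * p = 3 := by
    rw [hpdef]; field_simp
  have e1 : ∀ x : ℝ≥0∞, (x ^ (1 / (2 * q))) ^ (3 / 2 : ℝ) = (x ^ p) ^ (1 / 2 : ℝ) := by
    intro x
    rw [← ENNReal.rpow_mul, ← ENNReal.rpow_mul]
    congr 1
    rw [hpdef]; field_simp
  have h1 : ∑' z, (Dq q f g z) ^ (3 / 2 : ℝ) =
      ∑' z, (Mx (fun w => f w ^ (2 * q)) z ^ p) ^ (1 / 2 : ℝ) *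
        (My (fun w => g w ^ (2 * q)) z ^ p) ^ (1 / 2 : ℝ) := by
    congr 1
    ext z
    unfold Dq
    rw [ENNReal.mul_rpow_of_nonneg _ _ (by norm_num), e1, e1]
  rw [h1]
  have h2 := tsum_mul_le_Lp hh2 (fun z => (Mx (fun w => f w ^ (2 * q)) z ^ p) ^ (1 / 2 : ℝ))
    (fun z => (My (fun w => g w ^ (2 * q)) z ^ p) ^ (1 / 2 : ℝ))
  have e2 : ∀ x : ℝ≥0∞, (x ^ (1 / 2 : ℝ)) ^ (2 : ℝ) = x := by
    intro x
    rw [← ENNReal.rpow_mul]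
    norm_num
  simp only [e2] at h2
  refine h2.trans ?_
  have h3 := tsum_Mx_pow_le hp hpq f
  have h4 := tsum_My_pow_le hp hpq g
  calc _ ≤ (cM p * ∑' z, f z ^ (3 : ℝ)) ^ (1 / 2 : ℝ) * (cM p * ∑' z, g z ^ (3 : ℝ)) ^ (1 / 2 : ℝ) := by
        gcongr
    _ = (cM p ^ (1 / 2 : ℝ) * cM p ^ (1 / 2 : ℝ)) * ((∑' z, f z ^ (3 : ℝ)) ^ (1 / 2 : ℝ) *
          (∑' z, g z ^ (3 : ℝ)) ^ (1 / 2 : ℝ)) := by
        rw [ENNReal.mul_rpow_of_nonneg _ _ (by norm_num),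
          ENNReal.mul_rpow_of_nonneg _ _ (by norm_num)]
        ring
    _ = _ := by
        congr 1
        rw [← ENNReal.rpow_add_of_nonneg _ _ (by norm_num) (by norm_num)]
        norm_num

/-! ### Rectangles with an offset: the loss through Hoelder (L8 of the blueprint) -/

/-- A rectangle `I × J` inside the square of radius `ρ` centered at `z`:
`∑_{I × J} F ≤ (|I| |J|)^{1-1/q} ((2ρ+1)² Msq[F^q](z))^{1/q}`. -/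
theorem rect_le_Msq {q q' : ℝ} (hq : q.HolderConjugate q') (F : ℤ × ℤ → ℝ≥0∞) (z : ℤ × ℤ)
    (ρ : ℕ) (I J : Finset ℤ) (hI : I ⊆ Finset.Icc (-(ρ : ℤ)) ρ) (hJ : J ⊆ Finset.Icc (-(ρ : ℤ)) ρ) :
    ∑ i ∈ I, ∑ j ∈ J, F (z.1 + i, z.2 + j) ≤
      (((I.card : ℝ≥0∞) * J.card) ^ (1 / q')) *
        ((2 * (ρ : ℝ≥0∞) + 1) * (2 * (ρ : ℝ≥0∞) + 1) *
          Msq (fun w => F w ^ q) z) ^ (1 / q) := by
  have hq0 : 0 < q := hq.pos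
  have hq'0 : 0 < q' := hq.symm.pos
  rw [← Finset.sum_product']
  have h := ENNReal.inner_le_Lp_mul_Lq (I ×ˢ J) (fun p : ℤ × ℤ => F (z.1 + p.1, z.2 + p.2))
    (fun _ => 1) hq
  simp only [mul_one, ENNReal.one_rpow, Finset.sum_const, Finset.card_product, nsmul_eq_mul] at h
  refine h.trans ?_
  rw [mul_comm]
  have e : (((I.card * J.card : ℕ) : ℝ≥0∞)) = (I.card : ℝ≥0∞) * J.card := by push_cast; ring
  rw [e]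
  gcongr
  have h1 := sum_rect_le_Msq (fun w => F w ^ q) z ρ ρ
  refine le_trans ?_ h1
  rw [← Finset.sum_product']
  exact Finset.sum_le_sum_of_subset (Finset.product_subset_product hI hJ)

/-- The rectangle bound at `q = 6/5` for `F²`: this is the blueprint's `Ω_l` estimate. -/
theorem rect_sq_le (F : ℤ × ℤ → ℝ≥0∞) (z : ℤ × ℤ) (ρ : ℕ) (I J : Finset ℤ)
    (hI : I ⊆ Finset.Icc (-(ρ : ℤ)) ρ) (hJ : J ⊆ Finset.Icc (-(ρ : ℤ)) ρ) :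
    ∑ i ∈ I, ∑ j ∈ J, F (z.1 + i, z.2 + j) ^ (2 : ℝ) ≤
      (((I.card : ℝ≥0∞) * J.card) ^ (1 / 6 : ℝ)) *
        ((2 * (ρ : ℝ≥0∞) + 1) * (2 * (ρ : ℝ≥0∞) + 1) *
          Msq (fun w => F w ^ (12 / 5 : ℝ)) z) ^ (5 / 6 : ℝ) := by
  have hh : (6 / 5 : ℝ).HolderConjugate 6 := by
    refine ⟨?_, by norm_num, by norm_num⟩
    norm_num
  have h := rect_le_Msq hh (fun w => F w ^ (2 : ℝ)) z ρ I J hI hJ
  simp only [← ENNReal.rpow_mul] at h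
  have e1 : (2 : ℝ) * (6 / 5) = 12 / 5 := by norm_num
  have e2 : (1 / (6 / 5) : ℝ) = 5 / 6 := by norm_num
  rw [e1, e2] at h
  exact h

/-- The blueprint's `Ω` in `ℓ³`: `∑ ((Msq |F|^{12/5})^{5/12} ∘ e)³ ≤ cM(5/4)² ∑ F³`. -/
theorem tsum_Omega_le (F : ℤ × ℤ → ℝ≥0∞) (e : ℤ × ℤ ≃ ℤ × ℤ) :
    ∑' z, ((Msq (fun w => F w ^ (12 / 5 : ℝ)) (e z)) ^ (5 / 12 : ℝ)) ^ (3 : ℝ) ≤
      cM (5 / 4) * cM (5 / 4) * ∑' z, F z ^ (3 : ℝ) := by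
  have h := tsum_Msq_pow_le (p := 5 / 4) (a := 12 / 5) (r := 3) (by norm_num) (by norm_num) F
  have e1 : ∀ x : ℝ≥0∞, (x ^ (5 / 12 : ℝ)) ^ (3 : ℝ) = x ^ (5 / 4 : ℝ) := by
    intro x
    rw [← ENNReal.rpow_mul]
    norm_num
  simp only [e1]
  rw [tsum_comp_equiv e (fun z => (Msq (fun w => F w ^ (12 / 5 : ℝ)) z) ^ (5 / 4 : ℝ))]
  exact h

/-- Finite values: a function in `ℓ^p`, `p > 1`, has finite maximal function. -/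
theorem maxZ_ne_top {p : ℝ} (hp : 1 < p) (f : ℤ → ℝ≥0∞) (hf : ∑' k, f k ^ p ≠ ∞) (n : ℤ) :
    maxZ f n ≠ ∞ := by
  have hp0 : 0 < p := by linarith
  have h1 : (maxZ f n) ^ p ≤ ∑' m, (maxZ f m) ^ p := ENNReal.le_tsum n
  have h2 := maxZ_bound hp f
  have h3 : (maxZ f n) ^ p ≠ ∞ :=
    ne_top_of_le_ne_top (ENNReal.mul_ne_top ENNReal.ofReal_ne_top hf) (h1.trans h2)
  intro htop
  rw [htop] at h3
  simp [hp0] at h3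

/-- Real valued bridge: sums of nonnegative reals over a centered interval. -/
theorem sum_Icc_le_toReal_maxZ {p : ℝ} (hp : 1 < p) (a : ℤ → ℝ) (ha : ∀ k, 0 ≤ a k)
    (hf : ∑' k, (ENNReal.ofReal (a k)) ^ p ≠ ∞) (n : ℤ) (r : ℕ) :
    ∑ k ∈ Finset.Icc (-(r : ℤ)) r, a (n + k) ≤
      (2 * (r : ℝ) + 1) * (maxZ (fun k => ENNReal.ofReal (a k)) n).toReal := by
  have h := sum_Icc_le_maxZ (fun k => ENNReal.ofReal (a k)) n r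
  have hne := maxZ_ne_top hp _ hf n
  have h1 : ∑ k ∈ Finset.Icc (-(r : ℤ)) r, ENNReal.ofReal (a (n + k)) =
      ENNReal.ofReal (∑ k ∈ Finset.Icc (-(r : ℤ)) r, a (n + k)) :=
    (ENNReal.ofReal_sum_of_nonneg fun k _ => ha _).symm
  rw [h1] at h
  have h2 : (2 * (r : ℝ≥0∞) + 1) * maxZ (fun k => ENNReal.ofReal (a k)) n =
      ENNReal.ofReal ((2 * (r : ℝ) + 1) *
        (maxZ (fun k => ENNReal.ofReal (a k)) n).toReal) := by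
    rw [ENNReal.ofReal_mul (by positivity), ENNReal.ofReal_toReal hne]
    congr 1
    rw [ENNReal.ofReal_add (by positivity) (by norm_num), ENNReal.ofReal_mul (by norm_num)]
    simp
  rw [h2] at h
  exact (ENNReal.ofReal_le_ofReal_iff (by positivity)).mp h

end Crest.Agent.TriRL.MaxOps
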