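/-
S0096 (helper92): the strong maximal function on `ZMod N × ZMod N`, by the cut periodic extension to `ℤ²`
and helper98's `MaxOps.Msq`.
-/
import Crest.Agent.TriRL.MaxOps
import Crest.Agent.TriRL.BoxChain

set_option autoImplicit false

namespace Crest.Agent.TriRL.MaxG

open Crest.Agent.TriRL.MaxOps Crest.Agent.TriRL.BoxChain
open scoped ENNReal

variable {N : ℕ} [NeZero N]

/-- sum over an integer interval on which the projection to `ZMod N` is injective -/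
lemma sum_image_le (g : ZMod N → ℝ≥0∞) (S : Finset ℤ)
    (hS : ∀ s ∈ S, ∀ s' ∈ S, |s - s'| < N) :
    ∑ s ∈ S, g (s : ZMod N) ≤ ∑ x, g x := by
  classical
  have hinj : Set.InjOn (fun s : ℤ => (s : ZMod N)) S := by
    intro s hs s' hs' h
    have hdvd : (N : ℤ) ∣ s - s' := by
      rw [← ZMod.intCast_eq_intCast_iff_dvd_sub]
      exact h.symm
    have := Int.eq_zero_of_abs_lt_dvd hdvd (hS s hs s' hs')
    linarith
  rw [← Finset.sum_image (f := g) hinj]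
  exact Finset.sum_le_sum_of_subset (Finset.subset_univ _)

/-- The two-period interval covers `ZMod N` twice. -/
lemma sum_Ico_le (g : ZMod N → ℝ≥0∞) :
    ∑ s ∈ Finset.Ico (-(N : ℤ)) N, g (s : ZMod N) ≤ 2 * ∑ x, g x := by
  have hN : (0 : ℤ) ≤ N := by positivity
  have h1 : Finset.Ico (-(N : ℤ)) N = Finset.Ico (-(N : ℤ)) 0 ∪ Finset.Ico 0 (N : ℤ) :=
    (Finset.Ico_union_Ico_eq_Ico (by linarith) hN).symm
  rw [h1, Finset.sum_union (Finset.Ico_disjoint_Ico_consecutive _ _ _), two_mul]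
  gcongr
  · apply sum_image_le
    intro s hs s' hs'
    rw [Finset.mem_Ico] at hs hs'
    rw [abs_lt]
    constructor <;> linarith [hs.1, hs.2, hs'.1, hs'.2]
  · apply sum_image_le
    intro s hs s' hs'
    rw [Finset.mem_Ico] at hs hs'
    rw [abs_lt]
    constructor <;> linarith [hs.1, hs.2, hs'.1, hs'.2]

/-- the cut periodic extension of a nonnegative function on `(ZMod N)²`. -/
noncomputable def hat (f : ZMod N → ZMod N → ℝ) (z : ℤ × ℤ) : ℝ≥0∞ :=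
  if z.1 ∈ Finset.Ico (-(N : ℤ)) N ∧ z.2 ∈ Finset.Ico (-(N : ℤ)) N then
    ENNReal.ofReal (f (z.1 : ZMod N) (z.2 : ZMod N)) else 0

/-- The cyclic strong maximal function (in `ℝ≥0∞`). -/
noncomputable def MGe (f : ZMod N → ZMod N → ℝ) (x y : ZMod N) : ℝ≥0∞ :=
  Msq (hat f) (x.valMinAbs, y.valMinAbs)

/-- The cyclic strong maximal function. -/
noncomputable def MG (f : ZMod N → ZMod N → ℝ) (x y : ZMod N) : ℝ := (MGe f x y).toReal

lemma tsum_hat_le {p : ℝ} (hp : 0 < p) (f : ZMod N → ZMod N → ℝ) :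
    ∑' z, hat f z ^ p ≤ 4 * ∑ x, ∑ y, ENNReal.ofReal (f x y) ^ p := by
  classical
  have hsupp : ∀ z ∉ (Finset.Ico (-(N : ℤ)) N ×ˢ Finset.Ico (-(N : ℤ)) N), hat f z ^ p = 0 := by
    intro z hz
    rw [Finset.mem_product] at hz
    simp only [hat, if_neg hz]
    exact ENNReal.zero_rpow_of_pos hp
  rw [tsum_eq_sum hsupp, Finset.sum_product]
  have h1 : ∀ s ∈ Finset.Ico (-(N : ℤ)) N, ∀ t ∈ Finset.Ico (-(N : ℤ)) N,
      hat f (s, t) ^ p = ENNReal.ofReal (f (s : ZMod N) (t : ZMod N)) ^ p := by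
    intro s hs t ht
    simp only [hat, if_pos (And.intro hs ht)]
  calc ∑ s ∈ Finset.Ico (-(N : ℤ)) N, ∑ t ∈ Finset.Ico (-(N : ℤ)) N, hat f (s, t) ^ p
      = ∑ s ∈ Finset.Ico (-(N : ℤ)) N, ∑ t ∈ Finset.Ico (-(N : ℤ)) N,
          ENNReal.ofReal (f (s : ZMod N) (t : ZMod N)) ^ p :=
        Finset.sum_congr rfl fun s hs => Finset.sum_congr rfl fun t ht => h1 s hs t ht
    _ ≤ ∑ s ∈ Finset.Ico (-(N : ℤ)) N, 2 * ∑ y, ENNReal.ofReal (f (s : ZMod N) y) ^ p :=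
        Finset.sum_le_sum fun s _ => sum_Ico_le _
    _ = 2 * ∑ s ∈ Finset.Ico (-(N : ℤ)) N, ∑ y, ENNReal.ofReal (f (s : ZMod N) y) ^ p := by
        rw [Finset.mul_sum]
    _ ≤ 2 * (2 * ∑ x, ∑ y, ENNReal.ofReal (f x y) ^ p) := by
        gcongr
        exact sum_Ico_le (fun x => ∑ y, ENNReal.ofReal (f x y) ^ p)
    _ = _ := by rw [← mul_assoc]; norm_num

/-- The maximal theorem on `(ZMod N)²`, `ℝ≥0∞` form. -/
theorem sum_MGe_le {p : ℝ} (hp : 1 < p) (f : ZMod N → ZMod N → ℝ) :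
    ∑ x, ∑ y, MGe f x y ^ p ≤ cM p * cM p * (4 * ∑ x, ∑ y, ENNReal.ofReal (f x y) ^ p) := by
  classical
  have hp0 : 0 < p := by linarith
  have h1 : ∑ x : ZMod N, ∑ y : ZMod N, MGe f x y ^ p ≤ ∑' z, Msq (hat f) z ^ p := by
    rw [← Finset.sum_product']
    have hinj : Set.InjOn (fun z : ZMod N × ZMod N => (z.1.valMinAbs, z.2.valMinAbs))
        ((Finset.univ ×ˢ Finset.univ : Finset (ZMod N × ZMod N)) : Set (ZMod N × ZMod N)) := by
      intro z _ z' _ h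
      simp only [Prod.mk.injEq] at h
      have e1 : z.1 = z'.1 := by
        rw [← ZMod.coe_valMinAbs z.1, ← ZMod.coe_valMinAbs z'.1, h.1]
      have e2 : z.2 = z'.2 := by
        rw [← ZMod.coe_valMinAbs z.2, ← ZMod.coe_valMinAbs z'.2, h.2]
      exact Prod.ext e1 e2
    calc ∑ z ∈ (Finset.univ ×ˢ Finset.univ : Finset (ZMod N × ZMod N)), MGe f z.1 z.2 ^ p
        = ∑ w ∈ (Finset.univ ×ˢ Finset.univ : Finset (ZMod N × ZMod N)).image
            (fun z : ZMod N × ZMod N => (z.1.valMinAbs, z.2.valMinAbs)), Msq (hat f) w ^ p := by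
          rw [Finset.sum_image hinj]
          rfl
      _ ≤ _ := ENNReal.sum_le_tsum _
  refine h1.trans ((tsum_Msq_rpow_le hp (hat f)).trans ?_)
  gcongr
  exact tsum_hat_le hp0 f

lemma MGe_ne_top {p : ℝ} (hp : 1 < p) (f : ZMod N → ZMod N → ℝ) (x y : ZMod N) : MGe f x y ≠ ∞ := by
  have hp0 : 0 < p := by linarith
  have h := sum_MGe_le hp f
  have hfin : cM p * cM p * (4 * ∑ x, ∑ y, ENNReal.ofReal (f x y) ^ p) ≠ ∞ := by
    refine ENNReal.mul_ne_top (ENNReal.mul_ne_top (cM_ne_top p) (cM_ne_top p))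
      (ENNReal.mul_ne_top (by norm_num) ?_)
    refine ENNReal.sum_ne_top.mpr fun a _ => ENNReal.sum_ne_top.mpr fun b _ => ?_
    exact ENNReal.rpow_ne_top_of_nonneg hp0.le ENNReal.ofReal_ne_top
  have h1 : MGe f x y ^ p ≤ ∑ x, ∑ y, MGe f x y ^ p := by
    calc MGe f x y ^ p ≤ ∑ y', MGe f x y' ^ p :=
          Finset.single_le_sum (f := fun y' => MGe f x y' ^ p) (fun _ _ => zero_le) (Finset.mem_univ y)
      _ ≤ _ := Finset.single_le_sum (f := fun x' => ∑ y', MGe f x' y' ^ p) (fun _ _ => zero_le)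
            (Finset.mem_univ x)
  have h2 := ne_top_of_le_ne_top hfin (h1.trans h)
  intro htop
  rw [htop, ENNReal.top_rpow_of_pos hp0] at h2
  exact h2 rfl

lemma MG_nonneg (f : ZMod N → ZMod N → ℝ) (x y : ZMod N) : 0 ≤ MG f x y := ENNReal.toReal_nonneg

/-- **The maximal theorem on `(ZMod N)²`** at exponent `3/2`, real form. -/
theorem sum_MG_le (f : ZMod N → ZMod N → ℝ) (hf : ∀ x y, 0 ≤ f x y) :
    ∑ x, ∑ y, MG f x y ^ (3 / 2 : ℝ) ≤ 1024 * ∑ x, ∑ y, f x y ^ (3 / 2 : ℝ) := by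
  have hp : (1 : ℝ) < 3 / 2 := by norm_num
  have h := sum_MGe_le hp f
  have hc : cM (3 / 2) = 16 := by
    simp only [cM, Crest.Agent.TriH.MaxFn.cZ, Crest.Agent.TriH.MaxFn.cF]
    have : (2 : ℝ) ^ (3 / 2 : ℝ) * (2 ^ (3 / 2 : ℝ) / (3 / 2 - 1)) = 16 := by
      have e : (2 : ℝ) ^ (3 / 2 : ℝ) * 2 ^ (3 / 2 : ℝ) = 8 := by
        rw [← Real.rpow_add (by norm_num)]
        norm_num
      calc _ = ((2 : ℝ) ^ (3 / 2 : ℝ) * 2 ^ (3 / 2 : ℝ)) / (3 / 2 - 1) := by ring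
        _ = _ := by rw [e]; norm_num
    rw [this]
    norm_num
  rw [hc] at h
  have e1 : ∑ x, ∑ y, MGe f x y ^ (3 / 2 : ℝ) =
      ENNReal.ofReal (∑ x, ∑ y, MG f x y ^ (3 / 2 : ℝ)) := by
    rw [ENNReal.ofReal_sum_of_nonneg]
    · refine Finset.sum_congr rfl fun x _ => ?_
      rw [ENNReal.ofReal_sum_of_nonneg]
      · refine Finset.sum_congr rfl fun y _ => ?_
        rw [MG, ← ENNReal.ofReal_rpow_of_nonneg ENNReal.toReal_nonneg (by norm_num),
          ENNReal.ofReal_toReal (MGe_ne_top hp f x y)]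
      · intro y _
        exact Real.rpow_nonneg (MG_nonneg _ _ _) _
    · intro x _
      exact Finset.sum_nonneg fun y _ => Real.rpow_nonneg (MG_nonneg _ _ _) _
  have e2 : ∑ x, ∑ y, ENNReal.ofReal (f x y) ^ (3 / 2 : ℝ) =
      ENNReal.ofReal (∑ x, ∑ y, f x y ^ (3 / 2 : ℝ)) := by
    rw [ENNReal.ofReal_sum_of_nonneg]
    · refine Finset.sum_congr rfl fun x _ => ?_
      rw [ENNReal.ofReal_sum_of_nonneg]
      · refine Finset.sum_congr rfl fun y _ => ?_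
        rw [ENNReal.ofReal_rpow_of_nonneg (hf x y) (by norm_num)]
      · intro y _
        exact Real.rpow_nonneg (hf x y) _
    · intro x _
      exact Finset.sum_nonneg fun y _ => Real.rpow_nonneg (hf x y) _
  rw [e1, e2] at h
  have e3 : (16 : ℝ≥0∞) * 16 * (4 * ENNReal.ofReal (∑ x, ∑ y, f x y ^ (3 / 2 : ℝ))) =
      ENNReal.ofReal (1024 * ∑ x, ∑ y, f x y ^ (3 / 2 : ℝ)) := by
    rw [ENNReal.ofReal_mul (by norm_num)]
    rw [← mul_assoc]
    congr 1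
    norm_num
  rw [e3] at h
  have h0 : 0 ≤ 1024 * ∑ x, ∑ y, f x y ^ (3 / 2 : ℝ) := by
    have : 0 ≤ ∑ x, ∑ y, f x y ^ (3 / 2 : ℝ) :=
      Finset.sum_nonneg fun x _ => Finset.sum_nonneg fun y _ => Real.rpow_nonneg (hf x y) _
    positivity
  exact (ENNReal.ofReal_le_ofReal_iff h0).mp h

/-- Rectangle bound: the sum over a square of radius `R` centered at `(x,y)`. -/
theorem sum_rect_le (f : ZMod N → ZMod N → ℝ) (hf : ∀ x y, 0 ≤ f x y) (x y : ZMod N) (R : ℕ)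
    (hR : 2 * R < N) :
    ∑ s ∈ Finset.Icc (-(R : ℤ)) R, ∑ t ∈ Finset.Icc (-(R : ℤ)) R,
        f (x + (s : ZMod N)) (y + (t : ZMod N)) ≤ (2 * (R : ℝ) + 1) * (2 * (R : ℝ) + 1) * MG f x y := by
  have hp : (1 : ℝ) < 3 / 2 := by norm_num
  have h := sum_rect_le_Msq (hat f) (x.valMinAbs, y.valMinAbs) R R
  have hbox : ∀ (u : ZMod N) (s : ℤ), s ∈ Finset.Icc (-(R : ℤ)) R →
      u.valMinAbs + s ∈ Finset.Ico (-(N : ℤ)) N := by
    intro u s hs
    rw [Finset.mem_Icc] at hs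
    have h1 := two_abs_valMinAbs_le u
    have h2 := abs_le.mp (le_refl |u.valMinAbs|)
    have hR' : 2 * (R : ℤ) < N := by exact_mod_cast hR
    have hNpos : (0 : ℤ) < N := by exact_mod_cast (NeZero.pos N)
    rw [Finset.mem_Ico]
    constructor <;> linarith [hs.1, hs.2, h2.1, h2.2]
  have e1 : ∑ s ∈ Finset.Icc (-(R : ℤ)) R, ∑ t ∈ Finset.Icc (-(R : ℤ)) R,
      hat f ((x.valMinAbs, y.valMinAbs).1 + s, (x.valMinAbs, y.valMinAbs).2 + t) =
      ENNReal.ofReal (∑ s ∈ Finset.Icc (-(R : ℤ)) R, ∑ t ∈ Finset.Icc (-(R : ℤ)) R,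
        f (x + (s : ZMod N)) (y + (t : ZMod N))) := by
    rw [ENNReal.ofReal_sum_of_nonneg (fun s _ => Finset.sum_nonneg fun t _ => hf _ _)]
    refine Finset.sum_congr rfl fun s hs => ?_
    rw [ENNReal.ofReal_sum_of_nonneg (fun t _ => hf _ _)]
    refine Finset.sum_congr rfl fun t ht => ?_
    simp only [hat]
    rw [if_pos ⟨hbox x s hs, hbox y t ht⟩]
    simp only [Int.cast_add, ZMod.coe_valMinAbs]
  rw [e1] at h
  have hne := MGe_ne_top hp f x y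
  have e2 : (2 * (R : ℝ≥0∞) + 1) * (2 * (R : ℝ≥0∞) + 1) * Msq (hat f) (x.valMinAbs, y.valMinAbs) =
      ENNReal.ofReal ((2 * (R : ℝ) + 1) * (2 * (R : ℝ) + 1) * MG f x y) := by
    rw [ENNReal.ofReal_mul (by positivity), MG, ENNReal.ofReal_toReal hne, MGe,
      ENNReal.ofReal_mul (by positivity)]
    have e3 : ENNReal.ofReal (2 * (R : ℝ) + 1) = 2 * (R : ℝ≥0∞) + 1 := by
      rw [ENNReal.ofReal_add (by positivity) (by norm_num), ENNReal.ofReal_mul (by norm_num)]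
      simp
    rw [e3]
  rw [e2] at h
  have h0 : 0 ≤ (2 * (R : ℝ) + 1) * (2 * (R : ℝ) + 1) * MG f x y :=
    mul_nonneg (by positivity) (MG_nonneg _ _ _)
  exact (ENNReal.ofReal_le_ofReal_iff h0).mp h

end Crest.Agent.TriRL.MaxG
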