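import Crest.Agent.TriH.Mix

/-!
# Energy bounds: `L1(f)` and the row/column bound

* `E32_smul`       : `f(c X) = c^{3/2} f(X)`.
* `E32_add_le`     : `f(X+Y) ≤ √2 (f X + f Y)`.
* `E32_le_rowcol`  : `f(AᴴA) ≤ Σ_{x,y} |A x y| r_x c_y` (`r`, `c` the row and column `ℓ²` norms).
* `E32_window_le`  : for probability weights `v`, `u`, and `A = diag(√v) F diag(√u)`,
  `f(AᴴA) ≤ Σ_{x,y} v x * u y * |F x y|³`.
-/

set_option linter.unusedSectionVars false

namespace Crest.Agent.TriRL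

open Matrix Crest.Agent.TriH
open scoped ComplexOrder

variable {𝕜 : Type*} [RCLike 𝕜] {m n : Type*} [Fintype m] [Fintype n] [DecidableEq m]
  [DecidableEq n]

lemma E32_smul {X : Matrix n n 𝕜} (hX : X.PosSemidef) {c : ℝ} (hc : 0 ≤ c) :
    E32 (c • X) = c * Real.sqrt c * E32 X := by
  have hS := rt_psd hX
  have hS' : (Real.sqrt c • rt X).PosSemidef := hS.smul (Real.sqrt_nonneg c)
  have hmul : (Real.sqrt c • rt X) * (Real.sqrt c • rt X) = c • X := by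
    rw [Matrix.smul_mul, Matrix.mul_smul, smul_smul, Real.mul_self_sqrt hc, rt_mul_self hX]
  have e : rtr (X * rt X) = E32 X := by
    have : rtr (rt X * rt X * rt X) = E32 X := rfl
    rwa [rt_mul_self hX] at this
  rw [E32_eq_of_root hS' hmul, hmul, Matrix.smul_mul, rtr_smul_real, Matrix.mul_smul,
    rtr_smul_real, e]
  ring

/-- midpoint convexity -/
lemma E32_mid_le {X Y : Matrix n n 𝕜} (hX : X.PosSemidef) (hY : Y.PosSemidef) :
    E32 ((1 / 2 : ℝ) • (X + Y)) ≤ (E32 X + E32 Y) / 2 := by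
  have h1 := le_Jf hX hY
  have h2 := Hf_nonneg hX hY
  rw [Jf] at h1
  linarith

/-- `L1(f)`. -/
theorem E32_add_le {X Y : Matrix n n 𝕜} (hX : X.PosSemidef) (hY : Y.PosSemidef) :
    E32 (X + Y) ≤ Real.sqrt 2 * (E32 X + E32 Y) := by
  have h2X : ((2 : ℝ) • X).PosSemidef := hX.smul (by norm_num)
  have h2Y : ((2 : ℝ) • Y).PosSemidef := hY.smul (by norm_num)
  have h := E32_mid_le h2X h2Y
  have e : (1 / 2 : ℝ) • ((2 : ℝ) • X + (2 : ℝ) • Y) = X + Y := by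
    rw [smul_add, smul_smul, smul_smul]
    norm_num
  rw [e, E32_smul hX (by norm_num), E32_smul hY (by norm_num)] at h
  calc E32 (X + Y) ≤ _ := h
    _ = Real.sqrt 2 * (E32 X + E32 Y) := by ring

/-- the row norm -/
noncomputable def rowN (A : Matrix m n 𝕜) (x : m) : ℝ := Real.sqrt (∑ y, ‖A x y‖ ^ 2)

/-- the column norm -/
noncomputable def colN (A : Matrix m n 𝕜) (y : n) : ℝ := Real.sqrt (∑ x, ‖A x y‖ ^ 2)

lemma diag_conjTranspose_mul_self (A : Matrix m n 𝕜) (y : n) :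
    (Aᴴ * A) y y = ((∑ x, ‖A x y‖ ^ 2 : ℝ) : 𝕜) := by
  rw [Matrix.mul_apply]
  push_cast
  apply Finset.sum_congr rfl
  intro x _
  rw [conjTranspose_apply, RCLike.star_def, RCLike.conj_mul]

lemma norm_mul_apply_le {l : Type*} [Fintype l] (A : Matrix m n 𝕜) (B : Matrix n l 𝕜)
    (x : m) (y : l) : ‖(A * B) x y‖ ≤ rowN A x * colN B y := by
  rw [Matrix.mul_apply, rowN, colN]
  calc ‖∑ k, A x k * B k y‖ ≤ ∑ k, ‖A x k * B k y‖ := norm_sum_le _ _
    _ = ∑ k, ‖A x k‖ * ‖B k y‖ := by simp only [norm_mul]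
    _ ≤ _ := by
      rw [← Real.sqrt_mul (Finset.sum_nonneg fun _ _ => by positivity)]
      apply Real.le_sqrt_of_sq_le
      exact Finset.sum_mul_sq_le_sq_mul_sq _ _ _

/-- **Row/column bound.** -/
theorem E32_le_rowcol (A : Matrix m n 𝕜) :
    E32 (Aᴴ * A) ≤ ∑ x, ∑ y, ‖A x y‖ * rowN A x * colN A y := by
  have hP : (Aᴴ * A).PosSemidef := posSemidef_conjTranspose_mul_self A
  have hS := rt_psd hP
  have hSS : rt (Aᴴ * A) * rt (Aᴴ * A) = Aᴴ * A := rt_mul_self hP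
  have hE : E32 (Aᴴ * A) = rtr (rt (Aᴴ * A) * rt (Aᴴ * A) * rt (Aᴴ * A)) := rfl
  rw [hE]
  generalize rt (Aᴴ * A) = S at *
  have hcol : ∀ y, colN S y = colN A y := by
    intro y
    have h1 : (Sᴴ * S) y y = ((∑ x, ‖S x y‖ ^ 2 : ℝ) : 𝕜) := diag_conjTranspose_mul_self S y
    have h2 : (Aᴴ * A) y y = ((∑ x, ‖A x y‖ ^ 2 : ℝ) : 𝕜) := diag_conjTranspose_mul_self A y
    rw [hS.1.eq, hSS, h2] at h1
    have h3 : (∑ x, ‖S x y‖ ^ 2 : ℝ) = ∑ x, ‖A x y‖ ^ 2 := by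
      exact_mod_cast h1.symm
    rw [colN, colN, h3]
  rw [hSS]
  have e : rtr (Aᴴ * A * S) = RCLike.re (∑ x, ∑ y, star (A x y) * (A * S) x y) := by
    rw [rtr, Matrix.trace]
    simp only [Matrix.diag_apply]
    rw [Matrix.mul_assoc]
    simp only [Matrix.mul_apply, conjTranspose_apply]
    rw [Finset.sum_comm]
  rw [e]
  calc RCLike.re (∑ x, ∑ y, star (A x y) * (A * S) x y)
      ≤ ‖∑ x, ∑ y, star (A x y) * (A * S) x y‖ := RCLike.re_le_norm _
    _ ≤ ∑ x, ‖∑ y, star (A x y) * (A * S) x y‖ := norm_sum_le _ _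
    _ ≤ ∑ x, ∑ y, ‖star (A x y) * (A * S) x y‖ :=
        Finset.sum_le_sum (fun x _ => norm_sum_le _ _)
    _ ≤ ∑ x, ∑ y, ‖A x y‖ * rowN A x * colN A y := by
        apply Finset.sum_le_sum; intro x _
        apply Finset.sum_le_sum; intro y _
        rw [norm_mul, norm_star, mul_assoc]
        apply mul_le_mul_of_nonneg_left _ (norm_nonneg _)
        rw [← hcol y]
        exact norm_mul_apply_le A S x y

/-- Jensen for the `3/2`-power of an average of squares. -/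
lemma sqrt_cube_le {ι : Type*} [Fintype ι] (w a : ι → ℝ) (hw : ∀ i, 0 ≤ w i)
    (hw1 : ∑ i, w i = 1) (ha : ∀ i, 0 ≤ a i) :
    Real.sqrt (∑ i, w i * a i ^ 2) ^ 3 ≤ ∑ i, w i * a i ^ 3 := by
  have h := Real.rpow_arith_mean_le_arith_mean_rpow Finset.univ w (fun i => a i ^ 2)
    (fun i _ => hw i) hw1 (fun i _ => by positivity) (p := 3 / 2) (by norm_num)
  have e1 : ∀ i, (a i ^ 2) ^ (3 / 2 : ℝ) = a i ^ 3 := by
    intro i
    rw [← Real.rpow_natCast (a i) 2, ← Real.rpow_mul (ha i), ← Real.rpow_natCast (a i) 3]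
    norm_num
  simp only [e1] at h
  have hS : 0 ≤ ∑ i, w i * a i ^ 2 := Finset.sum_nonneg (fun i _ => mul_nonneg (hw i) (by positivity))
  have e2 : Real.sqrt (∑ i, w i * a i ^ 2) ^ 3 = (∑ i, w i * a i ^ 2) ^ (3 / 2 : ℝ) := by
    rw [Real.sqrt_eq_rpow, ← Real.rpow_natCast, ← Real.rpow_mul hS]
    norm_num
  rw [e2]
  exact h

/-- **The window bound** (`L3 BOUND`): `A = diag(√v) F diag(√u)`. -/
theorem E32_window_le (F : Matrix m n 𝕜) (v : m → ℝ) (u : n → ℝ)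
    (hv : ∀ x, 0 ≤ v x) (hu : ∀ y, 0 ≤ u y) (hv1 : ∑ x, v x = 1) (hu1 : ∑ y, u y = 1) :
    E32 ((Matrix.of fun x y => ((Real.sqrt (v x) : ℝ) : 𝕜) * F x y * ((Real.sqrt (u y) : ℝ) : 𝕜))ᴴ *
        (Matrix.of fun x y => ((Real.sqrt (v x) : ℝ) : 𝕜) * F x y * ((Real.sqrt (u y) : ℝ) : 𝕜))) ≤
      ∑ x, ∑ y, v x * u y * ‖F x y‖ ^ 3 := by
  set A : Matrix m n 𝕜 := Matrix.of fun x y =>
    ((Real.sqrt (v x) : ℝ) : 𝕜) * F x y * ((Real.sqrt (u y) : ℝ) : 𝕜) with hA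
  have hnA : ∀ x y, ‖A x y‖ ^ 2 = v x * u y * ‖F x y‖ ^ 2 := by
    intro x y
    simp only [hA, Matrix.of_apply, norm_mul, RCLike.norm_ofReal, abs_of_nonneg (Real.sqrt_nonneg _)]
    rw [mul_pow, mul_pow, Real.sq_sqrt (hv x), Real.sq_sqrt (hu y)]
    ring
  have hnA1 : ∀ x y, ‖A x y‖ = Real.sqrt (v x) * Real.sqrt (u y) * ‖F x y‖ := by
    intro x y
    simp only [hA, Matrix.of_apply, norm_mul, RCLike.norm_ofReal, abs_of_nonneg (Real.sqrt_nonneg _)]
    ring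
  -- the row/column averages
  set R : m → ℝ := fun x => Real.sqrt (∑ y, u y * ‖F x y‖ ^ 2) with hR
  set C : n → ℝ := fun y => Real.sqrt (∑ x, v x * ‖F x y‖ ^ 2) with hC
  have hrow : ∀ x, rowN A x = Real.sqrt (v x) * R x := by
    intro x
    rw [rowN, hR]
    simp only [hnA]
    rw [← Real.sqrt_mul (hv x)]
    congr 1
    rw [Finset.mul_sum]
    apply Finset.sum_congr rfl
    intro y _
    ring
  have hcol : ∀ y, colN A y = Real.sqrt (u y) * C y := by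
    intro y
    rw [colN, hC]
    simp only [hnA]
    rw [← Real.sqrt_mul (hu y)]
    congr 1
    rw [Finset.mul_sum]
    apply Finset.sum_congr rfl
    intro x _
    ring
  have hR3 : ∀ x, R x ^ 3 ≤ ∑ y, u y * ‖F x y‖ ^ 3 := fun x =>
    sqrt_cube_le u (fun y => ‖F x y‖) hu hu1 (fun _ => norm_nonneg _)
  have hC3 : ∀ y, C y ^ 3 ≤ ∑ x, v x * ‖F x y‖ ^ 3 := fun y =>
    sqrt_cube_le v (fun x => ‖F x y‖) hv hv1 (fun _ => norm_nonneg _)
  have hR0 : ∀ x, 0 ≤ R x := fun x => Real.sqrt_nonneg _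
  have hC0 : ∀ y, 0 ≤ C y := fun y => Real.sqrt_nonneg _
  -- pointwise AM-GM
  have hpt : ∀ x y, ‖A x y‖ * rowN A x * colN A y ≤
      v x * u y * ((‖F x y‖ ^ 3 + R x ^ 3 + C y ^ 3) / 3) := by
    intro x y
    rw [hnA1, hrow, hcol]
    have e : Real.sqrt (v x) * Real.sqrt (u y) * ‖F x y‖ * (Real.sqrt (v x) * R x) *
        (Real.sqrt (u y) * C y) =
        (Real.sqrt (v x) * Real.sqrt (v x)) * (Real.sqrt (u y) * Real.sqrt (u y)) *
          (‖F x y‖ * R x * C y) := by ring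
    rw [e, Real.mul_self_sqrt (hv x), Real.mul_self_sqrt (hu y)]
    apply mul_le_mul_of_nonneg_left _ (mul_nonneg (hv x) (hu y))
    have a := norm_nonneg (F x y)
    have b := hR0 x
    have c := hC0 y
    generalize ‖F x y‖ = p at *
    generalize R x = q at *
    generalize C y = s at *
    nlinarith [mul_nonneg (add_nonneg (add_nonneg a b) c)
      (add_nonneg (add_nonneg (sq_nonneg (p - q)) (sq_nonneg (q - s))) (sq_nonneg (p - s)))]
  have hmain := E32_le_rowcol A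
  refine hmain.trans ?_
  refine (Finset.sum_le_sum fun x _ => Finset.sum_le_sum fun y _ => hpt x y).trans ?_
  -- the three sums
  have s1 : ∑ x, ∑ y, v x * u y * R x ^ 3 ≤ ∑ x, ∑ y, v x * u y * ‖F x y‖ ^ 3 := by
    have e : ∀ x, ∑ y, v x * u y * R x ^ 3 = v x * R x ^ 3 := by
      intro x
      have : ∑ y, v x * u y * R x ^ 3 = v x * (∑ y, u y) * R x ^ 3 := by
        rw [Finset.mul_sum, Finset.sum_mul]
      rw [this, hu1, mul_one]
    simp only [e]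
    apply Finset.sum_le_sum
    intro x _
    rw [← Finset.sum_congr rfl (fun y _ => (mul_assoc (v x) (u y) (‖F x y‖ ^ 3)).symm),
      ← Finset.mul_sum]
    exact mul_le_mul_of_nonneg_left (hR3 x) (hv x)
  have s2 : ∑ x, ∑ y, v x * u y * C y ^ 3 ≤ ∑ x, ∑ y, v x * u y * ‖F x y‖ ^ 3 := by
    rw [Finset.sum_comm, Finset.sum_comm (f := fun x y => v x * u y * ‖F x y‖ ^ 3)]
    have e : ∀ y, ∑ x, v x * u y * C y ^ 3 = u y * C y ^ 3 := by
      intro y
      have : ∑ x, v x * u y * C y ^ 3 = (∑ x, v x) * u y * C y ^ 3 := by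
        rw [Finset.sum_mul, Finset.sum_mul]
      rw [this, hv1, one_mul]
    simp only [e]
    apply Finset.sum_le_sum
    intro y _
    have e2 : ∑ x, v x * u y * ‖F x y‖ ^ 3 = u y * ∑ x, v x * ‖F x y‖ ^ 3 := by
      rw [Finset.mul_sum]
      apply Finset.sum_congr rfl
      intro x _
      ring
    rw [e2]
    exact mul_le_mul_of_nonneg_left (hC3 y) (hu y)
  have s0 : ∑ x, ∑ y, v x * u y * ((‖F x y‖ ^ 3 + R x ^ 3 + C y ^ 3) / 3) =
      (∑ x, ∑ y, v x * u y * ‖F x y‖ ^ 3 + ∑ x, ∑ y, v x * u y * R x ^ 3 +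
        ∑ x, ∑ y, v x * u y * C y ^ 3) / 3 := by
    simp only [← Finset.sum_add_distrib, Finset.sum_div]
    apply Finset.sum_congr rfl
    intro x _
    apply Finset.sum_congr rfl
    intro y _
    ring
  rw [s0]
  linarith

end Crest.Agent.TriRL
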