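/-
S0096, helper84's blueprint L3 (helper94): the concrete instance of `PlaneStep.Data` on matrices.

For a pair `A` (rows `x₂`, columns the middle variable `x₀`) and `B` (rows `x₀`, columns `x₁`), windows
`u` (middle), `v₁`, `v₂` (outer):
* `G u v₁ = diag√u · B · diag v₁ · Bᴴ · diag√u` (`= A₀A₀ᴴ`, `A₀ = diag√u B diag√v₁`),
* `P u v₂ = diag√u · Aᴴ · diag v₂ · A · diag√u` (`= A₂ᴴA₂`, `A₂ = diag√v₂ A diag√u`),
* `M u v₁ v₂ = C · diag u · Cᴴ`, `C = fromRows (diag√v₂ A) (diag√v₁ Bᴴ)`.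
`f = fY = E32`.  `pairData A B : Data Γ _ _` and `Windows.step`.
-/
import Crest.Agent.TriRL.PlaneStep
import Crest.Agent.TriH.Mix
import Crest.Agent.TriH.SVD

set_option autoImplicit false
set_option linter.unusedSectionVars false

namespace Crest.Agent.TriRL.Windows

open Matrix Crest.Agent.TriH Crest.Agent.TriRL.PlaneStep
open scoped ComplexOrder

variable {𝕜 : Type*} [RCLike 𝕜] {Γ : Type*} [Fintype Γ] [DecidableEq Γ]

/-- `diag √u`. -/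
noncomputable def sq (u : Γ → ℝ) : Matrix Γ Γ 𝕜 :=
  diagonal fun x => ((Real.sqrt (u x) : ℝ) : 𝕜)

/-- `diag u`. -/
noncomputable def dr (u : Γ → ℝ) : Matrix Γ Γ 𝕜 :=
  diagonal fun x => ((u x : ℝ) : 𝕜)

lemma sq_conj (u : Γ → ℝ) : (sq u : Matrix Γ Γ 𝕜)ᴴ = sq u := by
  simp [sq, diagonal_conjTranspose]

lemma dr_conj (u : Γ → ℝ) : (dr u : Matrix Γ Γ 𝕜)ᴴ = dr u := by
  simp [dr, diagonal_conjTranspose]

lemma sq_mul_sq {u : Γ → ℝ} (hu : ∀ x, 0 ≤ u x) : (sq u : Matrix Γ Γ 𝕜) * sq u = dr u := by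
  simp only [sq, dr, diagonal_mul_diagonal]
  congr 1
  funext x
  rw [← RCLike.ofReal_mul, Real.mul_self_sqrt (hu x)]

lemma dr_mid (u u' : Γ → ℝ) :
    (dr (mid u u') : Matrix Γ Γ 𝕜) = (1 / 2 : ℝ) • (dr u + dr u') := by
  ext x y
  simp only [dr, mid, Matrix.smul_apply, Matrix.add_apply, diagonal_apply]
  split_ifs
  · simp only [RCLike.real_smul_eq_coe_mul]
    push_cast
    ring
  · simp

lemma dr_zero : (dr (0 : Γ → ℝ) : Matrix Γ Γ 𝕜) = 0 := by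
  simp [dr]

lemma dr_psd {u : Γ → ℝ} (hu : ∀ x, 0 ≤ u x) : (dr u : Matrix Γ Γ 𝕜).PosSemidef := by
  rw [← sq_mul_sq hu]
  have := posSemidef_conjTranspose_mul_self (sq u : Matrix Γ Γ 𝕜)
  rwa [sq_conj] at this

variable (A B : Matrix Γ Γ 𝕜)

/-- `G u v = diag√u B diag v Bᴴ diag√u`. -/
noncomputable def GG (u v : Γ → ℝ) : Matrix Γ Γ 𝕜 := sq u * B * dr v * Bᴴ * sq u

/-- `P u v = diag√u Aᴴ diag v A diag√u`. -/
noncomputable def PP (u v : Γ → ℝ) : Matrix Γ Γ 𝕜 := sq u * Aᴴ * dr v * A * sq u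

/-- The column `C = fromRows (diag√v₂ A) (diag√v₁ Bᴴ)`. -/
noncomputable def CC (v₁ v₂ : Γ → ℝ) : Matrix (Γ ⊕ Γ) Γ 𝕜 :=
  fromRows (sq v₂ * A) (sq v₁ * Bᴴ)

/-- `M u v₁ v₂ = C diag u Cᴴ`. -/
noncomputable def MM (u v₁ v₂ : Γ → ℝ) : Matrix (Γ ⊕ Γ) (Γ ⊕ Γ) 𝕜 :=
  CC A B v₁ v₂ * (dr u : Matrix Γ Γ 𝕜) * (CC A B v₁ v₂)ᴴ

lemma GG_mid (u v v' : Γ → ℝ) :
    GG B u (mid v v') = (1 / 2 : ℝ) • (GG B u v + GG B u v') := by
  simp only [GG, dr_mid, Matrix.smul_mul, Matrix.mul_smul, Matrix.add_mul, Matrix.mul_add, smul_add]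

lemma PP_mid (u v v' : Γ → ℝ) :
    PP A u (mid v v') = (1 / 2 : ℝ) • (PP A u v + PP A u v') := by
  simp only [PP, dr_mid, Matrix.smul_mul, Matrix.mul_smul, Matrix.add_mul, Matrix.mul_add, smul_add]

lemma MM_mid (u u' v w : Γ → ℝ) :
    MM A B (mid u u') v w = (1 / 2 : ℝ) • (MM A B u v w + MM A B u' v w) := by
  simp only [MM, dr_mid, Matrix.smul_mul, Matrix.mul_smul, Matrix.add_mul, Matrix.mul_add, smul_add]

lemma GG_psd {u v : Γ → ℝ} (hv : ∀ x, 0 ≤ v x) : (GG B u v).PosSemidef := by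
  have h := (dr_psd (𝕜 := 𝕜) hv).mul_mul_conjTranspose_same (sq u * B)
  have e : sq u * B * dr v * (sq u * B)ᴴ = GG B u v := by
    rw [conjTranspose_mul, sq_conj]
    simp only [GG, Matrix.mul_assoc]
  rwa [e] at h

lemma PP_psd {u v : Γ → ℝ} (hv : ∀ x, 0 ≤ v x) : (PP A u v).PosSemidef := by
  have h := (dr_psd (𝕜 := 𝕜) hv).mul_mul_conjTranspose_same (sq u * Aᴴ)
  have e : sq u * Aᴴ * dr v * (sq u * Aᴴ)ᴴ = PP A u v := by
    rw [conjTranspose_mul, sq_conj, conjTranspose_conjTranspose]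
    simp only [PP, Matrix.mul_assoc]
  rwa [e] at h

lemma MM_psd {u : Γ → ℝ} (hu : ∀ x, 0 ≤ u x) (v w : Γ → ℝ) : (MM A B u v w).PosSemidef :=
  (dr_psd hu).mul_mul_conjTranspose_same _

lemma CC_conj_mul {v w : Γ → ℝ} (hv : ∀ x, 0 ≤ v x) (hw : ∀ x, 0 ≤ w x) :
    (CC A B v w)ᴴ * CC A B v w = Aᴴ * dr w * A + B * dr v * Bᴴ := by
  simp only [CC]
  rw [conjTranspose_fromRows_eq_fromCols_conjTranspose, fromCols_mul_fromRows, conjTranspose_mul,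
    conjTranspose_mul, sq_conj, sq_conj, conjTranspose_conjTranspose, ← sq_mul_sq hv,
    ← sq_mul_sq hw]
  simp only [Matrix.mul_assoc]

/-- `Jᴴ J = G + P`, `J J ᴴ = M` for `J = C diag√u`. -/
theorem E32_M {u v w : Γ → ℝ} (hu : ∀ x, 0 ≤ u x) (hv : ∀ x, 0 ≤ v x) (hw : ∀ x, 0 ≤ w x) :
    E32 (GG B u v + PP A u w) = E32 (MM A B u v w) := by
  have hJ : ∃ J : Matrix (Γ ⊕ Γ) Γ 𝕜, J = CC A B v w * (sq u : Matrix Γ Γ 𝕜) := ⟨_, rfl⟩
  obtain ⟨J, hJ⟩ := hJ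
  have h1 : J * Jᴴ = MM A B u v w := by
    rw [hJ, MM, conjTranspose_mul, sq_conj, ← sq_mul_sq hu]
    simp only [Matrix.mul_assoc]
  have h2 : Jᴴ * J = GG B u v + PP A u w := by
    rw [hJ, conjTranspose_mul, sq_conj, Matrix.mul_assoc, ← Matrix.mul_assoc _ _ (sq u),
      CC_conj_mul A B hv hw, add_comm (GG B u v)]
    simp only [GG, PP, Matrix.add_mul, Matrix.mul_add, Matrix.mul_assoc]
  rw [← h1, ← h2]
  exact E32_conj_comm J

/-- The concrete data of a pair. -/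
noncomputable def pairData : Data Γ (Matrix Γ Γ 𝕜) (Matrix (Γ ⊕ Γ) (Γ ⊕ Γ) 𝕜) where
  G := GG B
  P := PP A
  M := MM A B
  f := E32
  fY := E32
  S := {X | X.PosSemidef}
  SY := {X | X.PosSemidef}
  add_mem := fun hx hy => PosSemidef.add hx hy
  G_mem := fun _ hv => GG_psd B hv
  P_mem := fun _ hv => PP_psd A hv
  M_mem := fun hu _ _ => MM_psd A B hu _ _
  G_mid := GG_mid B
  P_mid := PP_mid A
  M_mid := MM_mid A B
  fM := fun hu hv hw => E32_M A B hu hv hw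
  fG := fun {u v} hu hv => by
    have h := E32_M A B hu hv (w := 0) (fun _ => le_rfl)
    have h0 : PP A u 0 = 0 := by simp [PP, dr_zero]
    rwa [h0, add_zero] at h
  fP := fun {u v} hu hv => by
    have h := E32_M A B hu (v := 0) (fun _ => le_rfl) hv
    have h0 : GG B u 0 = 0 := by simp [GG, dr_zero]
    rwa [h0, zero_add] at h
  conv := fun {x y} hx hy => by
    have h1 := Hf_nonneg (X := x) (Y := y) hx hy
    have h2 := le_Jf (X := x) (Y := y) hx hy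
    have h3 : Jf x y = (E32 x + E32 y) / 2 - E32 ((1 / 2 : ℝ) • (x + y)) := rfl
    linarith
  convY := fun {x y} hx hy => by
    have h1 := Hf_nonneg (X := x) (Y := y) hx hy
    have h2 := le_Jf (X := x) (Y := y) hx hy
    have h3 : Jf x y = (E32 x + E32 y) / 2 - E32 ((1 / 2 : ℝ) • (x + y)) := rfl
    linarith
  mixed := fun h1 h2 h3 h4 => mixed_le h1 h2 h3 h4

/-- **Step for a concrete pair.** -/
theorem step {U O : Γ → ℝ} [AddCommGroup Γ] (hU : ∀ x, 0 ≤ U x) (hO : ∀ x, 0 ≤ O x) {d m : Γ}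
    (hdm : d = m + m) (e : Γ) :
    (pairData A B : Data Γ _ _).Q (avg d U) (avg e (avg m O)) +
      ∑ a, ∑ b, (pairData A B : Data Γ _ _).gain U O d a b ≤ (pairData A B : Data Γ _ _).Q U O :=
  Data.step _ hU hO hdm e

end Crest.Agent.TriRL.Windows
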