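/-
S0096, helper84's blueprint L3 BOUND (helper92): for probability windows the Bellman function of a pair
is bounded by the `ℓ³` norms:  `Q U O ≤ (√2 + 6) (‖A‖₃³ + ‖B‖₃³)`, `Q ≥ 0`, and telescoping along a ladder.
-/
import Crest.Agent.TriRL.Windows
import Crest.Agent.TriRL.Bound
import Crest.Agent.TriRL.Defs

set_option autoImplicit false
set_option linter.unusedSectionVars false

namespace Crest.Agent.TriRL.QBound

open Matrix Crest.Agent.TriH Crest.Agent.TriRL.PlaneStep Crest.Agent.TriRL.Windows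
open scoped ComplexOrder

variable {𝕜 : Type*} [RCLike 𝕜] {Γ : Type*} [Fintype Γ] [DecidableEq Γ]

lemma sq_mul_mul_sq_apply (u v : Γ → ℝ) (F : Matrix Γ Γ 𝕜) (x y : Γ) :
    (((Windows.sq u : Matrix Γ Γ 𝕜) * F * Windows.sq v : Matrix Γ Γ 𝕜)) x y =
      ((Real.sqrt (u x) : ℝ) : 𝕜) * F x y * ((Real.sqrt (v y) : ℝ) : 𝕜) := by
  simp [Windows.sq, Matrix.diagonal_mul, Matrix.mul_diagonal]

lemma ofMat_eq (u v : Γ → ℝ) (F : Matrix Γ Γ 𝕜) :
    (Matrix.of fun x y => ((Real.sqrt (u x) : ℝ) : 𝕜) * F x y * ((Real.sqrt (v y) : ℝ) : 𝕜)) =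
      (Windows.sq u : Matrix Γ Γ 𝕜) * F * Windows.sq v := by
  ext x y
  rw [sq_mul_mul_sq_apply]
  rfl

/-- `E32 (P u v) ≤ ∑ v x u y |A x y|³`. -/
lemma E32_PP_le (A : Matrix Γ Γ 𝕜) {u v : Γ → ℝ} (hu : ∀ x, 0 ≤ u x) (hv : ∀ x, 0 ≤ v x)
    (hu1 : ∑ x, u x = 1) (hv1 : ∑ x, v x = 1) :
    E32 (PP A u v) ≤ ∑ x, ∑ y, v x * u y * ‖A x y‖ ^ 3 := by
  have h := E32_window_le A v u hv hu hv1 hu1
  rw [ofMat_eq] at h
  have e : ((Windows.sq v : Matrix Γ Γ 𝕜) * A * Windows.sq u)ᴴ * (Windows.sq v * A * Windows.sq u) = PP A u v := by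
    rw [conjTranspose_mul, conjTranspose_mul, sq_conj, sq_conj, PP, ← sq_mul_sq hv]
    simp only [Matrix.mul_assoc]
  rwa [e] at h

/-- `E32 (G u v) ≤ ∑ u x v y |B x y|³`. -/
lemma E32_GG_le (B : Matrix Γ Γ 𝕜) {u v : Γ → ℝ} (hu : ∀ x, 0 ≤ u x) (hv : ∀ x, 0 ≤ v x)
    (hu1 : ∑ x, u x = 1) (hv1 : ∑ x, v x = 1) :
    E32 (GG B u v) ≤ ∑ x, ∑ y, u x * v y * ‖B x y‖ ^ 3 := by
  have h := E32_window_le B u v hu hv hu1 hv1
  rw [ofMat_eq] at h
  have e : ((Windows.sq u : Matrix Γ Γ 𝕜) * B * Windows.sq v) * ((Windows.sq u : Matrix Γ Γ 𝕜) * B * Windows.sq v)ᴴ = GG B u v := by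
    rw [conjTranspose_mul, conjTranspose_mul, sq_conj, sq_conj, GG, ← sq_mul_sq hv]
    simp only [Matrix.mul_assoc]
  rw [← e, ← E32_conj_comm]
  exact h

variable [AddCommGroup Γ]

lemma sum_tr (u : Γ → ℝ) (x : Γ) : ∑ a, tr a u x = ∑ y, u y :=
  Equiv.sum_comp (Equiv.subLeft x) u

lemma sum_tr_mul (U O : Γ → ℝ) (G : Γ → Γ → ℝ) :
    ∑ a, ∑ b, ∑ x, ∑ y, tr a U x * tr b O y * G x y =
      (∑ y, U y) * (∑ y, O y) * ∑ x, ∑ y, G x y := by
  have h1 : ∀ x y, ∑ a, ∑ b, tr a U x * tr b O y * G x y = (∑ y, U y) * (∑ y, O y) * G x y := by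
    intro x y
    rw [← sum_tr U x, ← sum_tr O y, Finset.sum_mul_sum, Finset.sum_mul]
    refine Finset.sum_congr rfl fun a _ => ?_
    rw [Finset.sum_mul]
  have h2 : (∑ y, U y) * (∑ y, O y) * ∑ x, ∑ y, G x y =
      ∑ x, ∑ y, ∑ a, ∑ b, tr a U x * tr b O y * G x y := by
    rw [Finset.mul_sum]
    refine Finset.sum_congr rfl fun x _ => ?_
    rw [Finset.mul_sum]
    refine Finset.sum_congr rfl fun y _ => (h1 x y).symm
  rw [h2]
  calc ∑ a, ∑ b, ∑ x, ∑ y, tr a U x * tr b O y * G x y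
      = ∑ a, ∑ x, ∑ b, ∑ y, tr a U x * tr b O y * G x y :=
        Finset.sum_congr rfl fun a _ => Finset.sum_comm
    _ = ∑ x, ∑ a, ∑ b, ∑ y, tr a U x * tr b O y * G x y := Finset.sum_comm
    _ = ∑ x, ∑ a, ∑ y, ∑ b, tr a U x * tr b O y * G x y :=
        Finset.sum_congr rfl fun x _ => Finset.sum_congr rfl fun a _ => Finset.sum_comm
    _ = ∑ x, ∑ y, ∑ a, ∑ b, tr a U x * tr b O y * G x y :=
        Finset.sum_congr rfl fun x _ => Finset.sum_comm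

variable {U O : Γ → ℝ}

/-- The energy `E_g` is bounded by the `ℓ³` norm of `B`. -/
theorem Eg_le (A B : Matrix Γ Γ 𝕜) (hU : ∀ x, 0 ≤ U x) (hO : ∀ x, 0 ≤ O x) (hU1 : ∑ x, U x = 1)
    (hO1 : ∑ x, O x = 1) :
    (pairData A B).Eg U O ≤ ∑ x, ∑ y, ‖B x y‖ ^ 3 := by
  have hsum : ∀ a (u : Γ → ℝ), ∑ x, u x = 1 → ∑ x, tr a u x = 1 := by
    intro a u hu
    rw [← hu]
    exact Equiv.sum_comp (Equiv.subRight a) u
  unfold Data.Eg
  calc ∑ a, ∑ b, (pairData A B).f ((pairData A B).G (tr a U) (tr b O))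
      ≤ ∑ a, ∑ b, ∑ x, ∑ y, tr a U x * tr b O y * ‖B x y‖ ^ 3 := by
        refine Finset.sum_le_sum fun a _ => Finset.sum_le_sum fun b _ => ?_
        exact E32_GG_le B (tr_nonneg hU) (tr_nonneg hO) (hsum a U hU1) (hsum b O hO1)
    _ = _ := by
        rw [sum_tr_mul, hU1, hO1]
        simp

/-- The energy `E_p` is bounded by the `ℓ³` norm of `A`. -/
theorem Ep_le (A B : Matrix Γ Γ 𝕜) (hU : ∀ x, 0 ≤ U x) (hO : ∀ x, 0 ≤ O x) (hU1 : ∑ x, U x = 1)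
    (hO1 : ∑ x, O x = 1) :
    (pairData A B).Ep U O ≤ ∑ x, ∑ y, ‖A x y‖ ^ 3 := by
  have hsum : ∀ a (u : Γ → ℝ), ∑ x, u x = 1 → ∑ x, tr a u x = 1 := by
    intro a u hu
    rw [← hu]
    exact Equiv.sum_comp (Equiv.subRight a) u
  unfold Data.Ep
  calc ∑ a, ∑ c, (pairData A B).f ((pairData A B).P (tr a U) (tr c O))
      ≤ ∑ a, ∑ c, ∑ y, ∑ x, tr a U y * tr c O x * ‖A x y‖ ^ 3 := by
        refine Finset.sum_le_sum fun a _ => Finset.sum_le_sum fun c _ => ?_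
        refine (E32_PP_le A (tr_nonneg hU) (tr_nonneg hO) (hsum a U hU1) (hsum c O hO1)).trans
          (le_of_eq ?_)
        rw [Finset.sum_comm]
        refine Finset.sum_congr rfl fun y _ => Finset.sum_congr rfl fun x _ => ?_
        ring
    _ = ∑ y, ∑ x, ‖A x y‖ ^ 3 := by
        rw [sum_tr_mul, hU1, hO1]
        simp
    _ = _ := Finset.sum_comm

/-- `V ≤ √2 (E_g + E_p)`. -/
theorem V_le (A B : Matrix Γ Γ 𝕜) (hU : ∀ x, 0 ≤ U x) (hO : ∀ x, 0 ≤ O x) :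
    (pairData A B).V U O 0 ≤ Real.sqrt 2 * ((pairData A B).Eg U O + (pairData A B).Ep U O) := by
  unfold Data.V Data.Eg Data.Ep
  have h1 : ∀ a : Γ, ∑ b, (pairData A B).f ((pairData A B).P (tr a U) (tr (0 - a - b) O)) =
      ∑ c, (pairData A B).f ((pairData A B).P (tr a U) (tr c O)) := fun a =>
    Equiv.sum_comp (Equiv.subLeft (0 - a)) (fun c => (pairData A B).f ((pairData A B).P (tr a U) (tr c O)))
  rw [← Finset.sum_add_distrib, Finset.mul_sum]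
  refine Finset.sum_le_sum fun a _ => ?_
  rw [← h1 a, ← Finset.sum_add_distrib, Finset.mul_sum]
  refine Finset.sum_le_sum fun b _ => ?_
  exact E32_add_le (GG_psd B (tr_nonneg hO)) (PP_psd A (tr_nonneg hO))

/-- `Q ≥ 0`. -/
theorem Q_nonneg (A B : Matrix Γ Γ 𝕜) (hU : ∀ x, 0 ≤ U x) (hO : ∀ x, 0 ≤ O x) :
    0 ≤ (pairData A B).Q U O := by
  unfold Data.Q Data.V Data.Eg Data.Ep
  have h1 : 0 ≤ ∑ a, ∑ b, (pairData A B).f ((pairData A B).G (tr a U) (tr b O) +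
      (pairData A B).P (tr a U) (tr (0 - a - b) O)) :=
    Finset.sum_nonneg fun a _ => Finset.sum_nonneg fun b _ =>
      E32_nonneg ((GG_psd B (tr_nonneg hO)).add (PP_psd A (tr_nonneg hO)))
  have h2 : 0 ≤ ∑ a, ∑ b, (pairData A B).f ((pairData A B).G (tr a U) (tr b O)) :=
    Finset.sum_nonneg fun a _ => Finset.sum_nonneg fun b _ => E32_nonneg (GG_psd B (tr_nonneg hO))
  have h3 : 0 ≤ ∑ a, ∑ c, (pairData A B).f ((pairData A B).P (tr a U) (tr c O)) :=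
    Finset.sum_nonneg fun a _ => Finset.sum_nonneg fun b _ => E32_nonneg (PP_psd A (tr_nonneg hO))
  linarith

/-- **BOUND.** `Q U O ≤ 8 (‖A‖₃³ + ‖B‖₃³)`. -/
theorem Q_le (A B : Matrix Γ Γ 𝕜) (hU : ∀ x, 0 ≤ U x) (hO : ∀ x, 0 ≤ O x) (hU1 : ∑ x, U x = 1)
    (hO1 : ∑ x, O x = 1) :
    (pairData A B).Q U O ≤ 8 * (∑ x, ∑ y, ‖A x y‖ ^ 3 + ∑ x, ∑ y, ‖B x y‖ ^ 3) := by
  unfold Data.Q
  have h1 := V_le A B hU hO
  have h2 := Eg_le A B hU hO hU1 hO1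
  have h3 := Ep_le A B hU hO hU1 hO1
  have h4 : Real.sqrt 2 ≤ 2 := by
    rw [Real.sqrt_le_left (by norm_num)]
    norm_num
  have h5 : 0 ≤ (pairData A B).Eg U O := Finset.sum_nonneg fun a _ => Finset.sum_nonneg fun b _ =>
    E32_nonneg (GG_psd B (tr_nonneg hO))
  have h6 : 0 ≤ (pairData A B).Ep U O := Finset.sum_nonneg fun a _ => Finset.sum_nonneg fun b _ =>
    E32_nonneg (PP_psd A (tr_nonneg hO))
  nlinarith

/-- **Telescoping along a ladder.** -/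
theorem sum_gain_le (A B : Matrix Γ Γ 𝕜) (U O : ℕ → Γ → ℝ) (d m e : ℕ → Γ) (I : ℕ)
    (hU : ∀ i, ∀ x, 0 ≤ U i x) (hO : ∀ i, ∀ x, 0 ≤ O i x)
    (hdm : ∀ i, i < I → d i = m i + m i)
    (hUs : ∀ i, i < I → avg (d i) (U i) = U (i + 1))
    (hOs : ∀ i, i < I → avg (e i) (avg (m i) (O i)) = O (i + 1)) :
    ∑ i ∈ Finset.range I, ∑ a, ∑ b, (pairData A B).gain (U i) (O i) (d i) a b ≤
      (pairData A B).Q (U 0) (O 0) := by
  have key : ∀ J, J ≤ I → ∑ i ∈ Finset.range J, ∑ a, ∑ b, (pairData A B).gain (U i) (O i) (d i) a b +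
      (pairData A B).Q (U J) (O J) ≤ (pairData A B).Q (U 0) (O 0) := by
    intro J
    induction J with
    | zero => intro _; simp
    | succ J ih =>
      intro hJ
      have h1 := ih (by omega)
      have h2 := Windows.step A B (hU J) (hO J) (hdm J (by omega)) (e J)
      rw [hUs J (by omega), hOs J (by omega)] at h2
      rw [Finset.sum_range_succ]
      linarith
  have h := key I le_rfl
  have h0 := Q_nonneg A B (hU I) (hO I)
  linarith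

end Crest.Agent.TriRL.QBound
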