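/-
S0096, helper84's blueprint L8 (helper92): the anisotropic square function on `ZMod N`.
-/
import Crest.Agent.TriRL.AnisoGain
import Crest.Agent.TriRL.QBound
import Crest.Agent.TriRL.BoxChain
import Crest.Agent.TriRL.MaxG

set_option autoImplicit false
set_option linter.unusedSectionVars false

namespace Crest.Agent.TriRL.Aniso

open Matrix Crest.Agent.TriH Crest.Agent.TriRL.PlaneStep Crest.Agent.TriRL.BoxChain
  Crest.Agent.TriRL.MaxG
open scoped ComplexOrder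

section general

variable {𝕜 : Type*} [RCLike 𝕜] {Γ : Type*} [Fintype Γ] [DecidableEq Γ]

lemma win_col (A B : Matrix Γ Γ 𝕜) (v₁ v₂ : Γ → ℝ) :
    Windows.CC A B v₁ v₂ = col A B v₂ v₁ := by
  ext i x1
  rcases i with x | y
  · rw [col_inl]
    simp [Windows.CC, Windows.sq, Matrix.diagonal_mul]
  · rw [col_inr]
    simp [Windows.CC, Windows.sq, Matrix.diagonal_mul, Matrix.conjTranspose_apply]

lemma win_MM (A B : Matrix Γ Γ 𝕜) (u v₁ v₂ : Γ → ℝ) :
    Windows.MM A B u v₁ v₂ = MM (col A B v₂ v₁) u := by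
  rw [Windows.MM, win_col]
  rfl

variable [AddCommGroup Γ]

/-- The gain of the pair dominates the scalar square function. -/
theorem gain_pair_ge (F0 F1 : Matrix Γ Γ 𝕜) {U O : Γ → ℝ} (hU : ∀ x, 0 ≤ U x) (hO : ∀ x, 0 ≤ O x)
    (d a b : Γ) (Ω : Γ → Γ → ℝ) (hΩ0 : ∀ x y, 0 ≤ Ω x y)
    (hΩ : ∀ x y, tr (-a - b) O x ≠ 0 → tr b O y ≠ 0 →
      trT F0 F1 (tr (-a - b) O) (tr b O) (tr a (avg d U)) ≤ Ω x y ^ 2) :
    (3 / 4 : ℝ) * ∑ x, ∑ y, tr (-a - b) O x * tr b O y *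
        ‖twK F0 F1 (fun x1 => (tr (a + d) U x1 - tr (a - d) U x1) / 2) x y‖ ^ 2 / Ω x y ≤
      (Windows.pairData F0 F1).gain U O d a b := by
  have hub : (fun x1 => (tr (a + d) U x1 + tr (a - d) U x1) / 2) = tr a (avg d U) := by
    rw [tr_avg]
    rfl
  have h := gain_ge (𝕜 := 𝕜) F0 F1 (v := tr (-a - b) O) (w := tr b O) (up := tr (a + d) U)
    (um := tr (a - d) U) (tr_nonneg hO) (tr_nonneg hO) (tr_nonneg hU) (tr_nonneg hU) Ω hΩ0
    (by rw [hub]; exact hΩ)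
  rw [hub] at h
  have e : (Windows.pairData F0 F1).gain U O d a b =
      (E32 (MM (col F0 F1 (tr (-a - b) O) (tr b O)) (tr (a + d) U)) +
        E32 (MM (col F0 F1 (tr (-a - b) O) (tr b O)) (tr (a - d) U))) / 2 -
      E32 (MM (col F0 F1 (tr (-a - b) O) (tr b O)) (tr a (avg d U))) := by
    simp only [Data.gain, Windows.pairData, win_MM]
  rw [e]
  exact h

end general

section cyclic

variable {N : ℕ} [NeZero N]

lemma abs_valMinAbs_add_le (x y : ZMod N) : |(x + y).valMinAbs| ≤ |x.valMinAbs| + |y.valMinAbs| := by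
  have h := ZMod.natAbs_valMinAbs_add_le x y
  have h1 : |(x + y).valMinAbs| = ((x + y).valMinAbs.natAbs : ℤ) := Int.abs_eq_natAbs _
  have h2 : |x.valMinAbs + y.valMinAbs| = ((x.valMinAbs + y.valMinAbs).natAbs : ℤ) := Int.abs_eq_natAbs _
  have h3 : ((x + y).valMinAbs.natAbs : ℤ) ≤ ((x.valMinAbs + y.valMinAbs).natAbs : ℤ) := by
    exact_mod_cast h
  calc |(x + y).valMinAbs| ≤ |x.valMinAbs + y.valMinAbs| := by rw [h1, h2]; exact h3
    _ ≤ _ := abs_add_le _ _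

lemma abs_valMinAbs_neg (x : ZMod N) : |(-x).valMinAbs| = |x.valMinAbs| := by
  rw [Int.abs_eq_natAbs, Int.abs_eq_natAbs, ZMod.natAbs_valMinAbs_neg]

lemma abs_valMinAbs_sub_le (x y : ZMod N) : |(x - y).valMinAbs| ≤ |x.valMinAbs| + |y.valMinAbs| := by
  rw [sub_eq_add_neg]
  refine (abs_valMinAbs_add_le _ _).trans ?_
  rw [abs_valMinAbs_neg]

/-- A sum over `ZMod N` of a function vanishing far from `0` is a sum over an integer interval. -/
lemma sum_small (φ : ZMod N → ℝ) (R : ℕ) (hR : 2 * R < N)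
    (hφ : ∀ u : ZMod N, (R : ℤ) < |u.valMinAbs| → φ u = 0) :
    ∑ u, φ u = ∑ s ∈ Finset.Icc (-(R : ℤ)) R, φ (s : ZMod N) := by
  classical
  have hmem : ∀ s ∈ Finset.Icc (-(R : ℤ)) R, 2 * |s| < N := by
    intro s hs
    rw [Finset.mem_Icc] at hs
    have : |s| ≤ R := abs_le.mpr hs
    have hR' : 2 * (R : ℤ) < N := by exact_mod_cast hR
    linarith
  have h := sum_valMinAbs (N := N)
    (fun s : ℤ => if s ∈ Finset.Icc (-(R : ℤ)) R then φ (s : ZMod N) else 0)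
    (Finset.Icc (-(R : ℤ)) R) hmem (fun t ht => by simp [ht])
  have e1 : ∀ x : ZMod N, (fun s : ℤ => if s ∈ Finset.Icc (-(R : ℤ)) R then φ (s : ZMod N) else 0)
      x.valMinAbs = φ x := by
    intro x
    simp only [ZMod.coe_valMinAbs]
    split_ifs with hx
    · rfl
    · rw [hφ x]
      by_contra hc
      push Not at hc
      exact hx (Finset.mem_Icc.mpr (abs_le.mp hc))
  simp only [e1] at h
  rw [h]
  exact Finset.sum_congr rfl fun s hs => by simp [hs]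

/-- The double sum against the strong maximal function. -/
lemma rect_sum_le {f g : ZMod N → ZMod N → ℝ} (hf : ∀ x y, 0 ≤ f x y) (x y : ZMod N) (R : ℕ)
    (hR : 2 * R < N) {c : ℝ} (hc : 0 ≤ c)
    (h1 : ∀ s t : ZMod N, (R : ℤ) < |s.valMinAbs| → g s t = 0)
    (h2 : ∀ s t : ZMod N, (R : ℤ) < |t.valMinAbs| → g s t = 0)
    (hle : ∀ s t, g s t ≤ c * f (x + s) (y + t)) :
    ∑ s, ∑ t, g s t ≤ c * ((2 * (R : ℝ) + 1) * (2 * (R : ℝ) + 1) * MG f x y) := by
  rw [sum_small (fun s => ∑ t, g s t) R hR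
    (fun u hu => Finset.sum_eq_zero fun t _ => h1 u t hu)]
  have e : ∀ s : ℤ, ∑ t, g (s : ZMod N) t = ∑ t ∈ Finset.Icc (-(R : ℤ)) R, g (s : ZMod N) (t : ZMod N) :=
    fun s => sum_small (fun t => g (s : ZMod N) t) R hR (fun u hu => h2 _ u hu)
  simp only [e]
  calc ∑ s ∈ Finset.Icc (-(R : ℤ)) R, ∑ t ∈ Finset.Icc (-(R : ℤ)) R, g (s : ZMod N) (t : ZMod N)
      ≤ ∑ s ∈ Finset.Icc (-(R : ℤ)) R, ∑ t ∈ Finset.Icc (-(R : ℤ)) R,
          c * f (x + (s : ZMod N)) (y + (t : ZMod N)) :=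
        Finset.sum_le_sum fun s _ => Finset.sum_le_sum fun t _ => hle _ _
    _ = c * ∑ s ∈ Finset.Icc (-(R : ℤ)) R, ∑ t ∈ Finset.Icc (-(R : ℤ)) R,
          f (x + (s : ZMod N)) (y + (t : ZMod N)) := by
        simp only [Finset.mul_sum]
    _ ≤ _ := mul_le_mul_of_nonneg_left (sum_rect_le f hf x y R hR) hc

/-- **The trace bound.** -/
theorem trT_le (F0 F1 : Matrix (ZMod N) (ZMod N) ℂ) {O U' : ZMod N → ℝ} {A B : ℝ} {ρ σ R : ℕ}
    (hO0 : ∀ x, 0 ≤ O x) (hU0 : ∀ x, 0 ≤ U' x) (hA : 0 ≤ A) (hB : 0 ≤ B)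
    (hOB : ∀ x, O x ≤ B) (hUA : ∀ x, U' x ≤ A)
    (hOs : ∀ x, O x ≠ 0 → |x.valMinAbs| ≤ ρ) (hUs : ∀ x, U' x ≠ 0 → |x.valMinAbs| ≤ σ)
    (hρ : 2 * ρ ≤ R) (hσ : σ + 2 * ρ ≤ R) (hR : 2 * R < N) (a b x0 x2 : ZMod N)
    (hv : tr (-a - b) O x0 ≠ 0) (hw : tr b O x2 ≠ 0) :
    trT F0 F1 (tr (-a - b) O) (tr b O) (tr a U') ≤
      A * B * ((2 * (R : ℝ) + 1) * (2 * (R : ℝ) + 1)) *
        (MG (fun x y => ‖F0 x y‖ ^ 2) x0 (-x0 - x2) + MG (fun x y => ‖F1 x y‖ ^ 2) (-x0 - x2) x2) := by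
  set y0 : ZMod N := -x0 - x2 with hy0
  set f0 : ZMod N → ZMod N → ℝ := fun x y => ‖F0 x y‖ ^ 2 with hf0
  set f1 : ZMod N → ZMod N → ℝ := fun x y => ‖F1 x y‖ ^ 2 with hf1
  have hf0n : ∀ x y, 0 ≤ f0 x y := fun x y => by simp only [hf0]; positivity
  have hf1n : ∀ x y, 0 ≤ f1 x y := fun x y => by simp only [hf1]; positivity
  have hAB : 0 ≤ A * B := mul_nonneg hA hB
  have hx0 : |(x0 - (-a - b)).valMinAbs| ≤ ρ := hOs _ hv
  have hx2 : |(x2 - b).valMinAbs| ≤ ρ := hOs _ hw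
  -- the shift of the centre of the middle window
  have hay : |(a - y0).valMinAbs| ≤ 2 * (ρ : ℤ) := by
    have e : a - y0 = (x0 - (-a - b)) + (x2 - b) := by rw [hy0]; abel
    rw [e]
    refine (abs_valMinAbs_add_le _ _).trans ?_
    linarith
  have hmid : ∀ t : ZMod N, tr a U' (y0 + t) ≠ 0 → |t.valMinAbs| ≤ R := by
    intro t ht
    have h1 : |(y0 + t - a).valMinAbs| ≤ σ := hUs _ ht
    have e : t = (y0 + t - a) + (a - y0) := by abel
    have h2 := abs_valMinAbs_add_le (y0 + t - a) (a - y0)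
    rw [← e] at h2
    have hcast : ((σ : ℤ) + 2 * (ρ : ℤ)) ≤ R := by exact_mod_cast hσ
    linarith
  have hout : ∀ (c w s : ZMod N), tr c O (w + s) ≠ 0 → |(w - c).valMinAbs| ≤ ρ →
      |s.valMinAbs| ≤ R := by
    intro c w s hs hw'
    have h1 : |(w + s - c).valMinAbs| ≤ ρ := hOs _ hs
    have e : s = (w + s - c) - (w - c) := by abel
    have h2 := abs_valMinAbs_sub_le (w + s - c) (w - c)
    rw [← e] at h2
    have hcast : (2 * (ρ : ℤ)) ≤ R := by exact_mod_cast hρ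
    linarith
  have hpart1 : ∑ x1, ∑ x, tr a U' x1 * (tr (-a - b) O x * ‖F0 x x1‖ ^ 2) ≤
      A * B * ((2 * (R : ℝ) + 1) * (2 * (R : ℝ) + 1) * MG f0 x0 y0) := by
    have e1 : ∑ x1, ∑ x, tr a U' x1 * (tr (-a - b) O x * ‖F0 x x1‖ ^ 2) =
        ∑ s, ∑ t, tr a U' (y0 + t) * (tr (-a - b) O (x0 + s) * f0 (x0 + s) (y0 + t)) := by
      rw [Finset.sum_comm]
      rw [← Equiv.sum_comp (Equiv.addLeft x0)]
      refine Finset.sum_congr rfl fun s _ => ?_
      rw [← Equiv.sum_comp (Equiv.addLeft y0)]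
      rfl
    rw [e1]
    apply rect_sum_le hf0n x0 y0 R hR hAB
    · intro s t hs
      by_contra hne
      have h3 : tr (-a - b) O (x0 + s) ≠ 0 := by
        intro h0
        apply hne
        rw [h0]
        ring
      have := hout _ _ _ h3 hx0
      linarith
    · intro s t ht
      by_contra hne
      have h3 : tr a U' (y0 + t) ≠ 0 := by
        intro h0
        apply hne
        rw [h0]
        ring
      have := hmid _ h3
      linarith
    · intro s t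
      have h3 : tr a U' (y0 + t) ≤ A := hUA _
      have h4 : tr (-a - b) O (x0 + s) ≤ B := hOB _
      have h5 : 0 ≤ tr (-a - b) O (x0 + s) := hO0 _
      have h6 : 0 ≤ tr a U' (y0 + t) := hU0 _
      have h7 := hf0n (x0 + s) (y0 + t)
      calc tr a U' (y0 + t) * (tr (-a - b) O (x0 + s) * f0 (x0 + s) (y0 + t))
          ≤ A * (B * f0 (x0 + s) (y0 + t)) := by gcongr
        _ = _ := by ring
  have hpart2 : ∑ x1, ∑ y, tr a U' x1 * (tr b O y * ‖F1 x1 y‖ ^ 2) ≤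
      A * B * ((2 * (R : ℝ) + 1) * (2 * (R : ℝ) + 1) * MG f1 y0 x2) := by
    have e1 : ∑ x1, ∑ y, tr a U' x1 * (tr b O y * ‖F1 x1 y‖ ^ 2) =
        ∑ t, ∑ s, tr a U' (y0 + t) * (tr b O (x2 + s) * f1 (y0 + t) (x2 + s)) := by
      rw [← Equiv.sum_comp (Equiv.addLeft y0)]
      refine Finset.sum_congr rfl fun t _ => ?_
      rw [← Equiv.sum_comp (Equiv.addLeft x2)]
      rfl
    rw [e1]
    apply rect_sum_le hf1n y0 x2 R hR hAB
    · intro t s ht
      by_contra hne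
      have h3 : tr a U' (y0 + t) ≠ 0 := by
        intro h0
        apply hne
        rw [h0]
        ring
      have := hmid _ h3
      linarith
    · intro t s hs
      by_contra hne
      have h3 : tr b O (x2 + s) ≠ 0 := by
        intro h0
        apply hne
        rw [h0]
        ring
      have := hout _ _ _ h3 hx2
      linarith
    · intro t s
      have h3 : tr a U' (y0 + t) ≤ A := hUA _
      have h4 : tr b O (x2 + s) ≤ B := hOB _
      have h5 : 0 ≤ tr b O (x2 + s) := hO0 _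
      have h6 : 0 ≤ tr a U' (y0 + t) := hU0 _
      have h7 := hf1n (y0 + t) (x2 + s)
      calc tr a U' (y0 + t) * (tr b O (x2 + s) * f1 (y0 + t) (x2 + s))
          ≤ A * (B * f1 (y0 + t) (x2 + s)) := by gcongr
        _ = _ := by ring
  have e : trT F0 F1 (tr (-a - b) O) (tr b O) (tr a U') =
      ∑ x1, ∑ x, tr a U' x1 * (tr (-a - b) O x * ‖F0 x x1‖ ^ 2) +
        ∑ x1, ∑ y, tr a U' x1 * (tr b O y * ‖F1 x1 y‖ ^ 2) := by
    unfold trT
    simp only [mul_add, Finset.sum_add_distrib, Finset.mul_sum]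
  have e2 : A * B * ((2 * (R : ℝ) + 1) * (2 * (R : ℝ) + 1)) * (MG f0 x0 y0 + MG f1 y0 x2) =
      A * B * ((2 * (R : ℝ) + 1) * (2 * (R : ℝ) + 1) * MG f0 x0 y0) +
        A * B * ((2 * (R : ℝ) + 1) * (2 * (R : ℝ) + 1) * MG f1 y0 x2) := by ring
  rw [e, e2]
  exact add_le_add hpart1 hpart2

end cyclic

end Crest.Agent.TriRL.Aniso
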