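/-
S0096, helper84's blueprint L8 (helper92): the anisotropic square function on `ZMod N`: the ladder.
-/
import Crest.Agent.TriRL.Aniso

set_option autoImplicit false
set_option linter.unusedSectionVars false

namespace Crest.Agent.TriRL.Aniso

open Matrix Crest.Agent.TriH Crest.Agent.TriRL.PlaneStep Crest.Agent.TriRL.BoxChain
  Crest.Agent.TriRL.MaxG
open scoped ComplexOrder

variable {N : ℕ} [NeZero N]

/-- The size function dominating the trace. -/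
noncomputable def Om0 (F0 F1 : Matrix (ZMod N) (ZMod N) ℂ) (l : ℕ) (x y : ZMod N) : ℝ :=
  36 * 2 ^ l * (MG (fun x y => ‖F0 x y‖ ^ 2) x (-x - y) + MG (fun x y => ‖F1 x y‖ ^ 2) (-x - y) y)

lemma Om0_nonneg (F0 F1 : Matrix (ZMod N) (ZMod N) ℂ) (l : ℕ) (x y : ZMod N) : 0 ≤ Om0 F0 F1 l x y :=
  mul_nonneg (by positivity) (add_nonneg (MG_nonneg _ _ _) (MG_nonneg _ _ _))

/-- The trace bound for the ladder. -/
theorem trT_ladder (F0 F1 : Matrix (ZMod N) (ZMod N) ℂ) {q l i : ℕ} (hq : 0 < q)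
    (h : Fits N q (l + 1) i) (a b x0 x2 : ZMod N)
    (hv : tr (-a - b) (OO N q (l + 1) i) x0 ≠ 0) (hw : tr b (OO N q (l + 1) i) x2 ≠ 0) :
    trT F0 F1 (tr (-a - b) (OO N q (l + 1) i)) (tr b (OO N q (l + 1) i)) (tr a (UU N q (i + 1))) ≤
      Om0 F0 F1 l x0 x2 := by
  have hq1 : 0 < qq q i := qq_pos hq i
  have hfit := fits_aux h
  set Q := 2 ^ (l + 1 + 1) * qq q i with hQ
  have hl : 1 ≤ 2 ^ l := Nat.one_le_two_pow
  have hQ4 : 4 * qq q i ≤ Q := by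
    rw [hQ]
    have : 2 ^ (l + 1 + 1) = 4 * 2 ^ l := by ring
    rw [this]
    nlinarith
  have key := trT_le F0 F1 (O := OO N q (l + 1) i) (U' := UU N q (i + 1))
    (A := 1 / (8 * (qq q i : ℝ))) (B := 1 / (2 * (Q : ℝ))) (ρ := Q + qq q i) (σ := 4 * qq q i)
    (R := 4 * Q)
    (OO_nonneg _ _ _) (UU_nonneg _ _) (by positivity) (by positivity) (OO_le hq h) (UU_succ_le q i)
    (fun x hx => by
      have := OO_support hq h hx
      rw [hQ]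
      push_cast
      linarith)
    (fun x hx => by
      have := UU_succ_support hx
      push_cast
      linarith)
    (by omega) (by omega) (by omega) a b x0 x2 hv hw
  refine key.trans ?_
  unfold Om0
  apply mul_le_mul_of_nonneg_right _ (add_nonneg (MG_nonneg _ _ _) (MG_nonneg _ _ _))
  have hq0 : (0 : ℝ) < qq q i := by exact_mod_cast hq1
  have hQr : (Q : ℝ) = 4 * 2 ^ l * qq q i := by
    rw [hQ]
    push_cast
    ring
  have hQ1 : (1 : ℝ) ≤ Q := by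
    have : 1 ≤ Q := by omega
    exact_mod_cast this
  have hQ0 : (0 : ℝ) < Q := by linarith
  have hR1 : (2 * ((4 * Q : ℕ) : ℝ) + 1) ≤ 9 * Q := by
    push_cast
    linarith
  have hR0 : (0 : ℝ) ≤ 2 * ((4 * Q : ℕ) : ℝ) + 1 := by positivity
  have h1 : (2 * ((4 * Q : ℕ) : ℝ) + 1) * (2 * ((4 * Q : ℕ) : ℝ) + 1) ≤ 81 * (Q : ℝ) ^ 2 := by
    nlinarith
  calc 1 / (8 * (qq q i : ℝ)) * (1 / (2 * (Q : ℝ))) * ((2 * ((4 * Q : ℕ) : ℝ) + 1) * (2 * ((4 * Q : ℕ) : ℝ) + 1))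
      ≤ 1 / (8 * (qq q i : ℝ)) * (1 / (2 * (Q : ℝ))) * (81 * (Q : ℝ) ^ 2) := by
        apply mul_le_mul_of_nonneg_left h1
        positivity
    _ = 81 / 4 * 2 ^ l := by
        rw [hQr]
        field_simp
        ring
    _ ≤ 36 * 2 ^ l := by
        have : (0 : ℝ) < 2 ^ l := by positivity
        linarith

/-- The Haar coefficient of the pair at `β`. -/
noncomputable def aCo (F0 F1 : Matrix (ZMod N) (ZMod N) ℂ) (τ : ℕ) (β x y : ZMod N) : ℂ :=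
  ∑ x1, F0 x x1 * ((haarG N τ (x1 + x + y - β) : ℝ) : ℂ) * F1 x1 y

/-- The lower bound of the gain of one rung. -/
theorem gain_ladder (F0 F1 : Matrix (ZMod N) (ZMod N) ℂ) {q l i : ℕ} (hq : 0 < q)
    (h : Fits N q (l + 1) i) (Ω : ZMod N → ZMod N → ℝ) (hΩ0 : ∀ x y, 0 ≤ Ω x y)
    (hΩ : ∀ x y, Om0 F0 F1 l x y ≤ Ω x y ^ 2) (a b : ZMod N) :
    (3 / 4 : ℝ) * ∑ x, ∑ y, tr (-a - b) (OO N q (l + 1) i) x * tr b (OO N q (l + 1) i) y *
        ‖aCo F0 F1 (4 * qq q i) (x + y + a) x y‖ ^ 2 / Ω x y ≤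
      (Windows.pairData F0 F1).gain (UU N q i) (OO N q (l + 1) i) (dd N q i) a b := by
  have key := gain_pair_ge (𝕜 := ℂ) F0 F1 (U := UU N q i) (O := OO N q (l + 1) i)
    (UU_nonneg _ _) (OO_nonneg _ _ _) (dd N q i) a b Ω hΩ0
    (by
      intro x y hv hw
      rw [avg_UU hq h]
      exact (trT_ladder F0 F1 hq h a b x y hv hw).trans (hΩ x y))
  refine le_trans (le_of_eq ?_) key
  congr 1
  refine Finset.sum_congr rfl fun x _ => Finset.sum_congr rfl fun y _ => ?_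
  have e : aCo F0 F1 (4 * qq q i) (x + y + a) x y =
      twK F0 F1 (fun x1 => (tr (a + dd N q i) (UU N q i) x1 - tr (a - dd N q i) (UU N q i) x1) / 2) x y := by
    unfold aCo twK
    refine Finset.sum_congr rfl fun x1 _ => ?_
    have e2 : x1 + x + y - (x + y + a) = x1 - a := by abel
    simp only []
    rw [twist_UU hq h, e2]
    rfl
  rw [e]

/-- The window identity. -/
lemma sum_window (O : ZMod N → ℝ) (V : ZMod N → ZMod N → ZMod N → ℝ) :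
    ∑ a, ∑ b, ∑ x, ∑ y, tr (-a - b) O x * tr b O y * V (x + y + a) x y =
      ∑ x, ∑ y, ∑ β, conv O O β * V β x y := by
  have e1 : ∑ a, ∑ b, ∑ x, ∑ y, tr (-a - b) O x * tr b O y * V (x + y + a) x y =
      ∑ x, ∑ y, ∑ a, ∑ b, tr (-a - b) O x * tr b O y * V (x + y + a) x y := by
    calc _ = ∑ a, ∑ x, ∑ y, ∑ b, tr (-a - b) O x * tr b O y * V (x + y + a) x y := by
          refine Finset.sum_congr rfl fun a _ => ?_
          rw [Finset.sum_comm]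
          refine Finset.sum_congr rfl fun x _ => ?_
          rw [Finset.sum_comm]
      _ = _ := by
          rw [Finset.sum_comm]
          refine Finset.sum_congr rfl fun x _ => ?_
          rw [Finset.sum_comm]
  rw [e1]
  refine Finset.sum_congr rfl fun x _ => Finset.sum_congr rfl fun y _ => ?_
  rw [← Equiv.sum_comp (Equiv.addLeft (x + y)) (fun β => conv O O β * V β x y)]
  refine Finset.sum_congr rfl fun a _ => ?_
  rw [← Finset.sum_mul]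
  simp only [Equiv.coe_addLeft]
  congr 1
  unfold conv
  rw [← Equiv.sum_comp (Equiv.subLeft y) (fun w => O w * O (x + y + a - w))]
  refine Finset.sum_congr rfl fun b _ => ?_
  simp only [Equiv.subLeft_apply, tr]
  rw [mul_comm]
  congr 2 <;> abel

/-- The half width of the aperture at the `i`th rung. -/
def Rr (q l i : ℕ) : ℕ := 2 * (2 ^ l * qq q i)

/-- One level of the square function. -/
noncomputable def lev (F0 F1 : Matrix (ZMod N) (ZMod N) ℂ) (q l i : ℕ) (x y : ZMod N) : ℝ :=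
  ((Rr q l i : ℝ))⁻¹ * ∑ s ∈ Finset.Icc (-(Rr q l i : ℤ)) (Rr q l i),
    ‖aCo F0 F1 (4 * qq q i) (s : ZMod N) x y‖ ^ 2

/-- The square function. -/
noncomputable def Asq (F0 F1 : Matrix (ZMod N) (ZMod N) ℂ) (q l I : ℕ) (x y : ZMod N) : ℝ :=
  ∑ i ∈ Finset.range I, lev F0 F1 q l i x y

lemma lev_nonneg (F0 F1 : Matrix (ZMod N) (ZMod N) ℂ) (q l i : ℕ) (x y : ZMod N) :
    0 ≤ lev F0 F1 q l i x y :=
  mul_nonneg (by positivity) (Finset.sum_nonneg fun _ _ => by positivity)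

lemma Asq_nonneg (F0 F1 : Matrix (ZMod N) (ZMod N) ℂ) (q l I : ℕ) (x y : ZMod N) :
    0 ≤ Asq F0 F1 q l I x y :=
  Finset.sum_nonneg fun _ _ => lev_nonneg _ _ _ _ _ _ _

/-- The autocorrelation dominates the aperture average. -/
lemma conv_sum_ge {q l i : ℕ} (hq : 0 < q) (h : Fits N q (l + 1) i) {V : ZMod N → ℝ}
    (hV : ∀ β, 0 ≤ V β) :
    (1 / 32 : ℝ) * (((Rr q l i : ℝ))⁻¹ * ∑ s ∈ Finset.Icc (-(Rr q l i : ℤ)) (Rr q l i), V (s : ZMod N)) ≤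
      ∑ β, conv (OO N q (l + 1) i) (OO N q (l + 1) i) β * V β := by
  classical
  have hq1 : 0 < qq q i := qq_pos hq i
  have hfit := fits_aux h
  have hR : 2 * Rr q l i < N := by
    unfold Rr
    have : 8 * (2 ^ (l + 1 + 1) * qq q i) = 32 * (2 ^ l * qq q i) := by ring
    have h3 : 0 < 2 ^ l * qq q i := by positivity
    omega
  have hsmall : ∀ s ∈ Finset.Icc (-(Rr q l i : ℤ)) (Rr q l i), ((s : ZMod N)).valMinAbs = s := by
    intro s hs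
    rw [Finset.mem_Icc] at hs
    apply valMinAbs_cast
    have h1 : |s| ≤ Rr q l i := abs_le.mpr hs
    have h2 : 2 * (Rr q l i : ℤ) < N := by exact_mod_cast hR
    linarith
  have hinj : Set.InjOn (fun s : ℤ => (s : ZMod N)) (Finset.Icc (-(Rr q l i : ℤ)) (Rr q l i)) := by
    intro s hs s' hs' hss
    rw [← hsmall s hs, ← hsmall s' hs']
    simp only at hss
    rw [hss]
  have hconv0 : ∀ β : ZMod N, 0 ≤ conv (OO N q (l + 1) i) (OO N q (l + 1) i) β :=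
    conv_nonneg (OO_nonneg _ _ _) (OO_nonneg _ _ _)
  calc (1 / 32 : ℝ) * (((Rr q l i : ℝ))⁻¹ * ∑ s ∈ Finset.Icc (-(Rr q l i : ℤ)) (Rr q l i), V (s : ZMod N))
      = ∑ s ∈ Finset.Icc (-(Rr q l i : ℤ)) (Rr q l i), (1 / (64 * ((2 ^ l * qq q i : ℕ) : ℝ))) * V (s : ZMod N) := by
        rw [← mul_assoc, Finset.mul_sum]
        refine Finset.sum_congr rfl fun s _ => ?_
        congr 1
        unfold Rr
        have : ((2 ^ l * qq q i : ℕ) : ℝ) ≠ 0 := by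
          have : 0 < 2 ^ l * qq q i := by positivity
          exact_mod_cast this.ne'
        push_cast at this ⊢
        field_simp
        norm_num
    _ ≤ ∑ s ∈ Finset.Icc (-(Rr q l i : ℤ)) (Rr q l i),
          conv (OO N q (l + 1) i) (OO N q (l + 1) i) (s : ZMod N) * V (s : ZMod N) := by
        refine Finset.sum_le_sum fun s hs => mul_le_mul_of_nonneg_right ?_ (hV _)
        apply conv_OO_ge hq h
        rw [hsmall s hs]
        rw [Finset.mem_Icc] at hs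
        have h1 : |s| ≤ Rr q l i := abs_le.mpr hs
        refine h1.trans (le_of_eq ?_)
        unfold Rr
        push_cast
        ring
    _ = ∑ β ∈ (Finset.Icc (-(Rr q l i : ℤ)) (Rr q l i)).image (fun s : ℤ => (s : ZMod N)),
          conv (OO N q (l + 1) i) (OO N q (l + 1) i) β * V β := by
        rw [Finset.sum_image hinj]
    _ ≤ _ := by
        apply Finset.sum_le_sum_of_subset_of_nonneg (Finset.subset_univ _)
        intro β _ _
        exact mul_nonneg (hconv0 β) (hV β)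

lemma Fits_mono {q l i j : ℕ} (hij : i ≤ j) (h : Fits N q l j) : Fits N q l i := by
  unfold Fits at h ⊢
  have : qq q i ≤ qq q j := by
    unfold qq
    exact Nat.mul_le_mul_right _ (Nat.pow_le_pow_right (by norm_num) hij)
  have h2 : 2 ^ (l + 4) * qq q i ≤ 2 ^ (l + 4) * qq q j := Nat.mul_le_mul_left _ this
  omega

/-- **The square function, weighted form.** -/
theorem Asq_div_le (F0 F1 : Matrix (ZMod N) (ZMod N) ℂ) {q l I : ℕ} (hq : 0 < q)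
    (hfit : Fits N q (l + 1) I) (Ω : ZMod N → ZMod N → ℝ) (hΩ0 : ∀ x y, 0 ≤ Ω x y)
    (hΩ : ∀ x y, Om0 F0 F1 l x y ≤ Ω x y ^ 2) :
    ∑ x, ∑ y, Asq F0 F1 q l I x y / Ω x y ≤
      (1024 / 3) * (∑ x, ∑ y, ‖F0 x y‖ ^ 3 + ∑ x, ∑ y, ‖F1 x y‖ ^ 3) := by
  have hf : ∀ i, i ≤ I → Fits N q (l + 1) i := fun i hi => Fits_mono hi hfit
  have hlev : ∀ i, i < I → (3 / 128 : ℝ) * ∑ x, ∑ y, lev F0 F1 q l i x y / Ω x y ≤
      ∑ a, ∑ b, (Windows.pairData F0 F1).gain (UU N q i) (OO N q (l + 1) i) (dd N q i) a b := by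
    intro i hi
    have hi' := hf i hi.le
    have h1 : ∑ a, ∑ b, (3 / 4 : ℝ) * ∑ x, ∑ y, tr (-a - b) (OO N q (l + 1) i) x *
          tr b (OO N q (l + 1) i) y * (‖aCo F0 F1 (4 * qq q i) (x + y + a) x y‖ ^ 2 / Ω x y) ≤
        ∑ a, ∑ b, (Windows.pairData F0 F1).gain (UU N q i) (OO N q (l + 1) i) (dd N q i) a b := by
      refine Finset.sum_le_sum fun a _ => Finset.sum_le_sum fun b _ => ?_
      refine le_trans (le_of_eq ?_) (gain_ladder F0 F1 hq hi' Ω hΩ0 hΩ a b)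
      congr 1
      refine Finset.sum_congr rfl fun x _ => Finset.sum_congr rfl fun y _ => ?_
      ring
    refine le_trans ?_ h1
    simp only [← Finset.mul_sum]
    rw [sum_window (OO N q (l + 1) i) (fun β x y => ‖aCo F0 F1 (4 * qq q i) β x y‖ ^ 2 / Ω x y)]
    have e : (3 / 128 : ℝ) = 3 / 4 * (1 / 32) := by norm_num
    rw [e, mul_assoc]
    apply mul_le_mul_of_nonneg_left _ (by norm_num)
    rw [Finset.mul_sum]
    refine Finset.sum_le_sum fun x _ => ?_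
    rw [Finset.mul_sum]
    refine Finset.sum_le_sum fun y _ => ?_
    have h2 := conv_sum_ge hq hi' (V := fun β => ‖aCo F0 F1 (4 * qq q i) β x y‖ ^ 2 / Ω x y)
      (fun β => div_nonneg (by positivity) (hΩ0 _ _))
    refine le_trans (le_of_eq ?_) h2
    unfold lev
    simp only [Finset.sum_div, mul_div_assoc]
  have h2 := QBound.sum_gain_le (𝕜 := ℂ) F0 F1 (fun i => UU N q i) (fun i => OO N q (l + 1) i)
    (fun i => dd N q i) (fun i => mm N q i) (fun i => ee N q (l + 1) i) I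
    (fun i x => UU_nonneg _ _ _) (fun i x => OO_nonneg _ _ _ _)
    (fun i _ => dd_eq q i) (fun i hi => avg_UU hq (hf i hi.le)) (fun i hi => avg_OO hq (hf i hi.le))
  have h3 := QBound.Q_le (𝕜 := ℂ) F0 F1 (U := UU N q 0) (O := OO N q (l + 1) 0)
    (fun x => UU_nonneg _ _ _) (fun x => OO_nonneg _ _ _ _)
    (UU_sum hq (hf 0 (Nat.zero_le _))) (OO_sum hq (hf 0 (Nat.zero_le _)))
  have h4 : (3 / 128 : ℝ) * ∑ x, ∑ y, Asq F0 F1 q l I x y / Ω x y ≤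
      ∑ i ∈ Finset.range I, ∑ a, ∑ b,
        (Windows.pairData F0 F1).gain (UU N q i) (OO N q (l + 1) i) (dd N q i) a b := by
    have e : ∑ x, ∑ y, Asq F0 F1 q l I x y / Ω x y =
        ∑ i ∈ Finset.range I, ∑ x, ∑ y, lev F0 F1 q l i x y / Ω x y := by
      unfold Asq
      simp only [Finset.sum_div]
      calc _ = ∑ x, ∑ i ∈ Finset.range I, ∑ y, lev F0 F1 q l i x y / Ω x y := by
            refine Finset.sum_congr rfl fun x _ => ?_
            rw [Finset.sum_comm]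
        _ = _ := Finset.sum_comm
    rw [e, Finset.mul_sum]
    exact Finset.sum_le_sum fun i hi => hlev i (Finset.mem_range.mp hi)
  have h5 := h4.trans (h2.trans h3)
  linarith

/-! ### Hölder and the sizes of `Ω` -/

/-- Hölder with exponents `4/3`, `4`. -/
lemma holder34 {α : Type*} [Fintype α] (A Ω : α → ℝ) (hA : ∀ i, 0 ≤ A i) (hΩ : ∀ i, 0 < Ω i) :
    ∑ i, A i ^ (3 / 4 : ℝ) ≤ (∑ i, A i / Ω i) ^ (3 / 4 : ℝ) * (∑ i, Ω i ^ 3) ^ (1 / 4 : ℝ) := by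
  have hpq : Real.HolderConjugate (4 / 3 : ℝ) 4 := by
    constructor
    · norm_num
    · norm_num
    · norm_num
  have h := Real.inner_le_Lp_mul_Lq (s := Finset.univ) (fun i => (A i / Ω i) ^ (3 / 4 : ℝ))
    (fun i => Ω i ^ (3 / 4 : ℝ)) hpq
  have e0 : ∀ i, A i ^ (3 / 4 : ℝ) = (A i / Ω i) ^ (3 / 4 : ℝ) * Ω i ^ (3 / 4 : ℝ) := by
    intro i
    rw [← Real.mul_rpow (div_nonneg (hA i) (hΩ i).le) (hΩ i).le, div_mul_cancel₀ _ (hΩ i).ne']
  have e1 : ∀ i, |(A i / Ω i) ^ (3 / 4 : ℝ)| ^ (4 / 3 : ℝ) = A i / Ω i := by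
    intro i
    have h0 : 0 ≤ A i / Ω i := div_nonneg (hA i) (hΩ i).le
    rw [abs_of_nonneg (Real.rpow_nonneg h0 _), ← Real.rpow_mul h0]
    norm_num
  have e2 : ∀ i, |Ω i ^ (3 / 4 : ℝ)| ^ (4 : ℝ) = Ω i ^ 3 := by
    intro i
    have h0 := (hΩ i).le
    rw [abs_of_nonneg (Real.rpow_nonneg h0 _), ← Real.rpow_mul h0]
    norm_num
  simp only [e1, e2] at h
  rw [Finset.sum_congr rfl fun i _ => e0 i]
  refine h.trans (le_of_eq ?_)
  norm_num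

lemma add_rpow32_le {A B : ℝ} (hA : 0 ≤ A) (hB : 0 ≤ B) :
    (A + B) ^ (3 / 2 : ℝ) ≤ 3 * (A ^ (3 / 2 : ℝ) + B ^ (3 / 2 : ℝ)) := by
  have h2 : (2 : ℝ) ^ (3 / 2 : ℝ) ≤ 3 := by
    have e : (2 : ℝ) ^ (3 / 2 : ℝ) = 2 * Real.sqrt 2 := by
      rw [show (3 / 2 : ℝ) = 1 + 1 / 2 by norm_num, Real.rpow_add (by norm_num), Real.rpow_one,
        ← Real.sqrt_eq_rpow]
    have h3 : Real.sqrt 2 ≤ 3 / 2 := by
      rw [Real.sqrt_le_left (by norm_num)]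
      norm_num
    rw [e]
    linarith
  have hA' : 0 ≤ A ^ (3 / 2 : ℝ) := Real.rpow_nonneg hA _
  have hB' : 0 ≤ B ^ (3 / 2 : ℝ) := Real.rpow_nonneg hB _
  rcases le_total A B with h | h
  · calc (A + B) ^ (3 / 2 : ℝ) ≤ (2 * B) ^ (3 / 2 : ℝ) :=
        Real.rpow_le_rpow (by positivity) (by linarith) (by norm_num)
      _ = 2 ^ (3 / 2 : ℝ) * B ^ (3 / 2 : ℝ) := Real.mul_rpow (by norm_num) hB
      _ ≤ 3 * B ^ (3 / 2 : ℝ) := mul_le_mul_of_nonneg_right h2 hB'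
      _ ≤ _ := by linarith
  · calc (A + B) ^ (3 / 2 : ℝ) ≤ (2 * A) ^ (3 / 2 : ℝ) :=
        Real.rpow_le_rpow (by positivity) (by linarith) (by norm_num)
      _ = 2 ^ (3 / 2 : ℝ) * A ^ (3 / 2 : ℝ) := Real.mul_rpow (by norm_num) hA
      _ ≤ 3 * A ^ (3 / 2 : ℝ) := mul_le_mul_of_nonneg_right h2 hA'
      _ ≤ _ := by linarith

lemma sq_rpow32 {t : ℝ} (ht : 0 ≤ t) : (t ^ 2) ^ (3 / 2 : ℝ) = t ^ 3 := by
  rw [← Real.rpow_natCast t 2, ← Real.rpow_mul ht, ← Real.rpow_natCast t 3]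
  norm_num

lemma sqrt_cube {t : ℝ} (ht : 0 ≤ t) : Real.sqrt t ^ 3 = t ^ (3 / 2 : ℝ) := by
  rw [Real.sqrt_eq_rpow, ← Real.rpow_natCast, ← Real.rpow_mul ht]
  norm_num

/-- The mass of the first maximal function. -/
lemma sum_MG_f0 (F0 : Matrix (ZMod N) (ZMod N) ℂ) :
    ∑ x, ∑ y, MG (fun x y => ‖F0 x y‖ ^ 2) x (-x - y) ^ (3 / 2 : ℝ) ≤
      1024 * ∑ x, ∑ y, ‖F0 x y‖ ^ 3 := by
  have h := sum_MG_le (fun x y => ‖F0 x y‖ ^ 2) (fun x y => by positivity)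
  simp only [sq_rpow32 (norm_nonneg _)] at h
  refine le_trans (le_of_eq ?_) h
  refine Finset.sum_congr rfl fun x _ => ?_
  exact Equiv.sum_comp (Equiv.subLeft (-x)) (fun y => MG (fun x y => ‖F0 x y‖ ^ 2) x y ^ (3 / 2 : ℝ))

/-- The mass of the second maximal function. -/
lemma sum_MG_f1 (F1 : Matrix (ZMod N) (ZMod N) ℂ) :
    ∑ x, ∑ y, MG (fun x y => ‖F1 x y‖ ^ 2) (-x - y) y ^ (3 / 2 : ℝ) ≤
      1024 * ∑ x, ∑ y, ‖F1 x y‖ ^ 3 := by
  have h := sum_MG_le (fun x y => ‖F1 x y‖ ^ 2) (fun x y => by positivity)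
  simp only [sq_rpow32 (norm_nonneg _)] at h
  refine le_trans (le_of_eq ?_) h
  rw [Finset.sum_comm, Finset.sum_comm (f := fun x y => MG (fun x y => ‖F1 x y‖ ^ 2) x y ^ (3 / 2 : ℝ))]
  refine Finset.sum_congr rfl fun y _ => ?_
  exact Equiv.sum_comp ((Equiv.neg _).trans (Equiv.subRight y))
    (fun x => MG (fun x y => ‖F1 x y‖ ^ 2) x y ^ (3 / 2 : ℝ))

/-- The `ℓ³` mass of `√Om0`. -/
theorem sum_sqrt_Om0 (F0 F1 : Matrix (ZMod N) (ZMod N) ℂ) (l : ℕ) :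
    ∑ x, ∑ y, Real.sqrt (Om0 F0 F1 l x y) ^ 3 ≤
      (36 * 2 ^ l : ℝ) ^ (3 / 2 : ℝ) * (3072 * (∑ x, ∑ y, ‖F0 x y‖ ^ 3 + ∑ x, ∑ y, ‖F1 x y‖ ^ 3)) := by
  have hc : (0 : ℝ) ≤ 36 * 2 ^ l := by positivity
  have h0 : ∀ x y : ZMod N, Real.sqrt (Om0 F0 F1 l x y) ^ 3 ≤ (36 * 2 ^ l : ℝ) ^ (3 / 2 : ℝ) *
      (3 * (MG (fun x y => ‖F0 x y‖ ^ 2) x (-x - y) ^ (3 / 2 : ℝ) +
        MG (fun x y => ‖F1 x y‖ ^ 2) (-x - y) y ^ (3 / 2 : ℝ))) := by
    intro x y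
    rw [sqrt_cube (Om0_nonneg _ _ _ _ _), Om0, Real.mul_rpow hc (add_nonneg (MG_nonneg _ _ _) (MG_nonneg _ _ _))]
    exact mul_le_mul_of_nonneg_left (add_rpow32_le (MG_nonneg _ _ _) (MG_nonneg _ _ _))
      (Real.rpow_nonneg hc _)
  calc ∑ x, ∑ y, Real.sqrt (Om0 F0 F1 l x y) ^ 3
      ≤ ∑ x : ZMod N, ∑ y : ZMod N, (36 * 2 ^ l : ℝ) ^ (3 / 2 : ℝ) *
        (3 * (MG (fun x y => ‖F0 x y‖ ^ 2) x (-x - y) ^ (3 / 2 : ℝ) +
          MG (fun x y => ‖F1 x y‖ ^ 2) (-x - y) y ^ (3 / 2 : ℝ))) :=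
        Finset.sum_le_sum fun x _ => Finset.sum_le_sum fun y _ => h0 x y
    _ = (36 * 2 ^ l : ℝ) ^ (3 / 2 : ℝ) *
        (3 * (∑ x : ZMod N, ∑ y : ZMod N, MG (fun x y => ‖F0 x y‖ ^ 2) x (-x - y) ^ (3 / 2 : ℝ) +
          ∑ x : ZMod N, ∑ y : ZMod N, MG (fun x y => ‖F1 x y‖ ^ 2) (-x - y) y ^ (3 / 2 : ℝ))) := by
        simp only [Finset.mul_sum, Finset.sum_add_distrib, mul_add]
    _ ≤ _ := by
        apply mul_le_mul_of_nonneg_left _ (Real.rpow_nonneg hc _)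
        have h1 := sum_MG_f0 F0
        have h2 := sum_MG_f1 F1
        linarith

/-- The constant. -/
noncomputable def CA0 : ℝ := (1024 / 3 : ℝ) ^ (3 / 4 : ℝ) * 12292 ^ (1 / 4 : ℝ) * 36 ^ (3 / 8 : ℝ)

lemma CA0_nonneg : 0 ≤ CA0 := by
  unfold CA0
  positivity

/-- **The square function on `ZMod N`, sum form.** -/
theorem Asq_rpow_le_sum (F0 F1 : Matrix (ZMod N) (ZMod N) ℂ) {q l I : ℕ} (hq : 0 < q)
    (hfit : Fits N q (l + 1) I)
    (hν : 0 < ∑ x, ∑ y, ‖F0 x y‖ ^ 3 + ∑ x, ∑ y, ‖F1 x y‖ ^ 3) :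
    ∑ x, ∑ y, Asq F0 F1 q l I x y ^ (3 / 4 : ℝ) ≤
      CA0 * ((2 : ℝ) ^ l) ^ (3 / 8 : ℝ) * (∑ x, ∑ y, ‖F0 x y‖ ^ 3 + ∑ x, ∑ y, ‖F1 x y‖ ^ 3) := by
  set ν := ∑ x, ∑ y, ‖F0 x y‖ ^ 3 + ∑ x, ∑ y, ‖F1 x y‖ ^ 3 with hνdef
  have hN : (0 : ℝ) < N := by exact_mod_cast NeZero.pos N
  set ε : ℝ := (ν / (N : ℝ) ^ 2) ^ (1 / 3 : ℝ) with hε
  have hε0 : 0 < ε := Real.rpow_pos_of_pos (by positivity) _
  have hε3 : (N : ℝ) ^ 2 * ε ^ 3 = ν := by
    have h0 : ε ^ 3 = ν / (N : ℝ) ^ 2 := by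
      rw [hε, ← Real.rpow_natCast ((ν / (N : ℝ) ^ 2) ^ (1 / 3 : ℝ)) 3, ← Real.rpow_mul (by positivity)]
      norm_num
    rw [h0]
    field_simp
  set Ω : ZMod N → ZMod N → ℝ := fun x y => Real.sqrt (Om0 F0 F1 l x y) + ε with hΩ
  have hΩ0 : ∀ x y, 0 < Ω x y := fun x y => add_pos_of_nonneg_of_pos (Real.sqrt_nonneg _) hε0
  have hΩ2 : ∀ x y, Om0 F0 F1 l x y ≤ Ω x y ^ 2 := by
    intro x y
    have h1 := Real.sq_sqrt (Om0_nonneg F0 F1 l x y)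
    have h2 := Real.sqrt_nonneg (Om0 F0 F1 l x y)
    simp only [hΩ]
    nlinarith
  have h1 := Asq_div_le F0 F1 hq hfit Ω (fun x y => (hΩ0 x y).le) hΩ2
  have hc : (1 : ℝ) ≤ (36 * 2 ^ l : ℝ) ^ (3 / 2 : ℝ) := by
    apply Real.one_le_rpow _ (by norm_num)
    have : (1 : ℝ) ≤ 2 ^ l := one_le_pow₀ (by norm_num)
    linarith
  have h2 : ∑ x, ∑ y, Ω x y ^ 3 ≤ 12292 * (36 * 2 ^ l : ℝ) ^ (3 / 2 : ℝ) * ν := by
    have h3 : ∀ x y, Ω x y ^ 3 ≤ 4 * Real.sqrt (Om0 F0 F1 l x y) ^ 3 + 4 * ε ^ 3 := by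
      intro x y
      simp only [hΩ]
      have h4 := Real.sqrt_nonneg (Om0 F0 F1 l x y)
      set a := Real.sqrt (Om0 F0 F1 l x y)
      nlinarith [mul_nonneg (add_nonneg h4 hε0.le) (sq_nonneg (a - ε))]
    have h5 := sum_sqrt_Om0 F0 F1 l
    have h6 : ∑ x : ZMod N, ∑ y : ZMod N, (4 * ε ^ 3) = 4 * ν := by
      simp only [Finset.sum_const, Finset.card_univ, ZMod.card, nsmul_eq_mul]
      rw [← hε3]
      ring
    calc ∑ x, ∑ y, Ω x y ^ 3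
        ≤ ∑ x, ∑ y, (4 * Real.sqrt (Om0 F0 F1 l x y) ^ 3 + 4 * ε ^ 3) :=
          Finset.sum_le_sum fun x _ => Finset.sum_le_sum fun y _ => h3 x y
      _ = 4 * ∑ x, ∑ y, Real.sqrt (Om0 F0 F1 l x y) ^ 3 + 4 * ν := by
          rw [← h6]
          simp only [Finset.sum_add_distrib, Finset.mul_sum]
      _ ≤ _ := by
          have hνp := hν.le
          nlinarith
  have hH := holder34 (α := ZMod N × ZMod N) (fun w => Asq F0 F1 q l I w.1 w.2) (fun w => Ω w.1 w.2)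
    (fun w => Asq_nonneg _ _ _ _ _ _ _) (fun w => hΩ0 _ _)
  simp only [Fintype.sum_prod_type] at hH
  refine hH.trans ?_
  have h1' : 0 ≤ ∑ x, ∑ y, Asq F0 F1 q l I x y / Ω x y :=
    Finset.sum_nonneg fun x _ => Finset.sum_nonneg fun y _ =>
      div_nonneg (Asq_nonneg _ _ _ _ _ _ _) (hΩ0 _ _).le
  have h2' : 0 ≤ ∑ x, ∑ y, Ω x y ^ 3 :=
    Finset.sum_nonneg fun x _ => Finset.sum_nonneg fun y _ => pow_nonneg (hΩ0 _ _).le _
  calc (∑ x, ∑ y, Asq F0 F1 q l I x y / Ω x y) ^ (3 / 4 : ℝ) * (∑ x, ∑ y, Ω x y ^ 3) ^ (1 / 4 : ℝ)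
      ≤ ((1024 / 3) * ν) ^ (3 / 4 : ℝ) *
          (12292 * (36 * 2 ^ l : ℝ) ^ (3 / 2 : ℝ) * ν) ^ (1 / 4 : ℝ) :=
        mul_le_mul (Real.rpow_le_rpow h1' h1 (by norm_num)) (Real.rpow_le_rpow h2' h2 (by norm_num))
          (Real.rpow_nonneg h2' _) (Real.rpow_nonneg (by positivity) _)
    _ = _ := by
        have h36 : (0 : ℝ) ≤ 36 := by norm_num
        have h2l : (0 : ℝ) ≤ 2 ^ l := by positivity
        rw [Real.mul_rpow (by norm_num) hν.le, Real.mul_rpow (by positivity) hν.le,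
          Real.mul_rpow (by norm_num) (Real.rpow_nonneg (by positivity) _), ← Real.rpow_mul (by positivity),
          Real.mul_rpow h36 h2l]
        have e3 : ν ^ (3 / 4 : ℝ) * ν ^ (1 / 4 : ℝ) = ν := by
          rw [← Real.rpow_add hν]
          norm_num
        unfold CA0
        norm_num only
        have e4 : (3 / 2 : ℝ) * (1 / 4) = 3 / 8 := by norm_num
        calc _ = (1024 / 3 : ℝ) ^ (3 / 4 : ℝ) * (12292 ^ (1 / 4 : ℝ) * (36 ^ (3 / 8 : ℝ) * ((2 : ℝ) ^ l) ^ (3 / 8 : ℝ))) *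
              (ν ^ (3 / 4 : ℝ) * ν ^ (1 / 4 : ℝ)) := by ring
          _ = _ := by rw [e3]; ring

/-! ### The product form -/

lemma aCo_eq_zero_left {F0 : Matrix (ZMod N) (ZMod N) ℂ} (F1 : Matrix (ZMod N) (ZMod N) ℂ)
    (h : ∀ x y, F0 x y = 0) (τ : ℕ) (β x y : ZMod N) : aCo F0 F1 τ β x y = 0 := by
  unfold aCo
  simp [h]

lemma aCo_eq_zero_right (F0 : Matrix (ZMod N) (ZMod N) ℂ) {F1 : Matrix (ZMod N) (ZMod N) ℂ}
    (h : ∀ x y, F1 x y = 0) (τ : ℕ) (β x y : ZMod N) : aCo F0 F1 τ β x y = 0 := by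
  unfold aCo
  simp [h]

lemma zero_of_sum_cube {F : Matrix (ZMod N) (ZMod N) ℂ} (h : ∑ x, ∑ y, ‖F x y‖ ^ 3 = 0) (x y : ZMod N) :
    F x y = 0 := by
  have h1 := (Finset.sum_eq_zero_iff_of_nonneg (fun x _ =>
    Finset.sum_nonneg fun y _ => by positivity)).mp h x (Finset.mem_univ _)
  have h2 := (Finset.sum_eq_zero_iff_of_nonneg (fun y _ => by positivity)).mp h1 y (Finset.mem_univ _)
  simpa using h2

lemma sum_rpow_of_aCo_zero {F0 F1 : Matrix (ZMod N) (ZMod N) ℂ} (q l I : ℕ)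
    (h : ∀ τ β x y, aCo F0 F1 τ β x y = 0) :
    ∑ x, ∑ y, Asq F0 F1 q l I x y ^ (3 / 4 : ℝ) = 0 := by
  have : ∀ x y, Asq F0 F1 q l I x y = 0 := by
    intro x y
    unfold Asq lev
    simp [h]
  simp only [this]
  rw [Real.zero_rpow (by norm_num)]
  simp

/-- **The anisotropic square function on `ZMod N`.** -/
theorem Asq_rpow_le (F0 F1 : Matrix (ZMod N) (ZMod N) ℂ) {q l I : ℕ} (hq : 0 < q)
    (hfit : Fits N q (l + 1) I) :
    ∑ x, ∑ y, Asq F0 F1 q l I x y ^ (3 / 4 : ℝ) ≤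
      2 * CA0 * ((2 : ℝ) ^ l) ^ (3 / 8 : ℝ) * (∑ x, ∑ y, ‖F0 x y‖ ^ 3) ^ (1 / 2 : ℝ) *
        (∑ x, ∑ y, ‖F1 x y‖ ^ 3) ^ (1 / 2 : ℝ) := by
  have hC := CA0_nonneg
  set S0 := ∑ x, ∑ y, ‖F0 x y‖ ^ 3 with hS0
  set S1 := ∑ x, ∑ y, ‖F1 x y‖ ^ 3 with hS1
  have hS0n : 0 ≤ S0 := Finset.sum_nonneg fun x _ => Finset.sum_nonneg fun y _ => by positivity
  have hS1n : 0 ≤ S1 := Finset.sum_nonneg fun x _ => Finset.sum_nonneg fun y _ => by positivity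
  have hR : 0 ≤ 2 * CA0 * ((2 : ℝ) ^ l) ^ (3 / 8 : ℝ) * S0 ^ (1 / 2 : ℝ) * S1 ^ (1 / 2 : ℝ) := by
    positivity
  rcases hS0n.eq_or_lt with h0 | h0
  · rw [sum_rpow_of_aCo_zero q l I (fun τ β x y => aCo_eq_zero_left F1 (zero_of_sum_cube h0.symm) τ β x y)]
    exact hR
  rcases hS1n.eq_or_lt with h1 | h1
  · rw [sum_rpow_of_aCo_zero q l I (fun τ β x y => aCo_eq_zero_right F0 (zero_of_sum_cube h1.symm) τ β x y)]
    exact hR
  set a := S0 ^ (1 / 2 : ℝ) with ha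
  set b := S1 ^ (1 / 2 : ℝ) with hb
  have ha0 : 0 < a := Real.rpow_pos_of_pos h0 _
  have hb0 : 0 < b := Real.rpow_pos_of_pos h1 _
  have ha2 : a ^ 2 = S0 := by
    rw [ha, ← Real.rpow_natCast, ← Real.rpow_mul hS0n]
    norm_num
  have hb2 : b ^ 2 = S1 := by
    rw [hb, ← Real.rpow_natCast, ← Real.rpow_mul hS1n]
    norm_num
  set lam : ℝ := (b / a) ^ (1 / 3 : ℝ) with hlam
  have hlam0 : 0 < lam := Real.rpow_pos_of_pos (div_pos hb0 ha0) _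
  have hlam3 : lam ^ 3 = b / a := by
    rw [hlam, ← Real.rpow_natCast, ← Real.rpow_mul (div_pos hb0 ha0).le]
    norm_num
  set G0 : Matrix (ZMod N) (ZMod N) ℂ := fun x y => (lam : ℂ) * F0 x y with hG0
  set G1 : Matrix (ZMod N) (ZMod N) ℂ := fun x y => ((lam⁻¹ : ℝ) : ℂ) * F1 x y with hG1
  have hco : ∀ τ β x y, aCo G0 G1 τ β x y = aCo F0 F1 τ β x y := by
    intro τ β x y
    unfold aCo
    refine Finset.sum_congr rfl fun x1 _ => ?_
    simp only [hG0, hG1]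
    have hne : (lam : ℂ) ≠ 0 := by exact_mod_cast hlam0.ne'
    push_cast
    field_simp
  have hAsq : ∀ x y, Asq G0 G1 q l I x y = Asq F0 F1 q l I x y := by
    intro x y
    unfold Asq lev
    simp only [hco]
  have hnormG0 : ∑ x, ∑ y, ‖G0 x y‖ ^ 3 = a * b := by
    have : ∀ x y, ‖G0 x y‖ ^ 3 = lam ^ 3 * ‖F0 x y‖ ^ 3 := by
      intro x y
      simp only [hG0, norm_mul, Complex.norm_real, Real.norm_eq_abs, abs_of_pos hlam0]
      ring
    simp only [this, ← Finset.mul_sum]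
    rw [← hS0, ← ha2, hlam3]
    field_simp
  have hnormG1 : ∑ x, ∑ y, ‖G1 x y‖ ^ 3 = a * b := by
    have : ∀ x y, ‖G1 x y‖ ^ 3 = (lam ^ 3)⁻¹ * ‖F1 x y‖ ^ 3 := by
      intro x y
      simp only [hG1, norm_mul, Complex.norm_real, Real.norm_eq_abs, abs_of_pos (inv_pos.mpr hlam0)]
      rw [mul_pow, inv_pow]
    simp only [this, ← Finset.mul_sum]
    rw [← hS1, ← hb2, hlam3]
    field_simp
  have h := Asq_rpow_le_sum G0 G1 hq hfit (by
    rw [hnormG0, hnormG1]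
    positivity)
  rw [hnormG0, hnormG1] at h
  simp only [hAsq] at h
  refine h.trans (le_of_eq ?_)
  ring

end Crest.Agent.TriRL.Aniso
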