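import Mathlib

/-!
# Box Calderón reproducing formula on `ℤ` and the block estimate (L9 of the S0096 blueprint)

Pure one-dimensional lattice analysis, no matrices.

* `avgF s f b` : forward average of `f` over `[b, b+s)`.
* `haarC p f b` : Haar coefficient of width `2^(p+1)` centred at `b`,
  `(1/2^(p+1)) (∑_{[b,b+2^p)} f - ∑_{[b-2^p,b)} f)`.
* `pairing s k φ` : `∑' b, avgF s k b * avgF s φ b`;  `pairing 1 k φ = ∑' v, k v * φ v`.
* `calderon` : `pairing (2^p₀) k φ = pairing (2^q) k φ + ∑_{p₀≤p<q} ∑' b, haarC p k b * haarC p φ b`.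
-/

set_option autoImplicit false

namespace Crest.Agent.TriRL.Cal

open Finset

/-- forward average of `f` over `[b, b+s)`. -/
noncomputable def avgF (s : ℕ) (f : ℤ → ℂ) (b : ℤ) : ℂ :=
  (s : ℂ)⁻¹ * ∑ i ∈ range s, f (b + i)

/-- Haar coefficient at step `s` (width `2s`). -/
noncomputable def haarS (s : ℕ) (f : ℤ → ℂ) (b : ℤ) : ℂ :=
  (avgF s f b - avgF s f (b - s)) / 2

/-- Haar coefficient of width `2^(p+1)` centred at `b`. -/
noncomputable def haarC (p : ℕ) (f : ℤ → ℂ) (b : ℤ) : ℂ := haarS (2 ^ p) f b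

/-- The smoothed pairing. -/
noncomputable def pairing (s : ℕ) (k φ : ℤ → ℂ) : ℂ := ∑' b, avgF s k b * avgF s φ b

lemma avgF_one (f : ℤ → ℂ) (b : ℤ) : avgF 1 f b = f b := by
  simp [avgF]

lemma pairing_one (k φ : ℤ → ℂ) : pairing 1 k φ = ∑' v, k v * φ v := by
  simp [pairing, avgF_one]

lemma avgF_double (s : ℕ) (hs : 0 < s) (f : ℤ → ℂ) (b : ℤ) :
    avgF (2 * s) f b = (avgF s f b + avgF s f (b + s)) / 2 := by
  have hs' : (s : ℂ) ≠ 0 := by exact_mod_cast hs.ne'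
  unfold avgF
  rw [two_mul, Finset.sum_range_add]
  have : ∀ x, f (b + ((s + x : ℕ) : ℤ)) = f (b + (s : ℤ) + (x : ℤ)) := by
    intro x; congr 1; push_cast; ring
  simp only [this]
  push_cast
  field_simp
  ring

/-- Abstract reproducing identity for a shift `c`. -/
lemma tsum_shift_identity (u v : ℤ → ℂ) (c : ℤ) (hu : (Function.support u).Finite) :
    ∑' b, u b * v b = ∑' b, ((u b + u (b + c)) / 2) * ((v b + v (b + c)) / 2)
      + ∑' b, ((u b - u (b - c)) / 2) * ((v b - v (b - c)) / 2) := by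
  have hfin : ∀ d e : ℤ, Summable fun b => u (b + d) * v (b + e) := by
    intro d e
    apply summable_of_hasFiniteSupport
    have : (Function.support fun b => u (b + d) * v (b + e)) ⊆
        (fun x => x - d) '' (Function.support u) := by
      intro b hb
      simp only [Function.mem_support, ne_eq, mul_eq_zero, not_or] at hb
      exact ⟨b + d, hb.1, by ring⟩
    exact (hu.image _).subset this
  have shift : ∀ d e f : ℤ, ∑' b, u (b + d + f) * v (b + e + f) = ∑' b, u (b + d) * v (b + e) := by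
    intro d e f
    have := (Equiv.addRight f).tsum_eq fun b => u (b + d) * v (b + e)
    rw [← this]
    apply tsum_congr
    intro b
    simp only [Equiv.coe_addRight]
    congr 2 <;> ring
  set S := ∑' b, u b * v b with hS
  set X := ∑' b, u (b + c) * v b with hX
  set Y := ∑' b, u b * v (b + c) with hY
  have e0 : ∑' b, u (b + c) * v (b + c) = S := by
    have := shift 0 0 c
    simpa using this
  have e1 : ∑' b, u b * v (b - c) = X := by
    have := shift c 0 (-c)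
    simpa [sub_eq_add_neg, add_assoc] using this
  have e2 : ∑' b, u (b - c) * v b = Y := by
    have := shift 0 c (-c)
    simpa [sub_eq_add_neg, add_assoc] using this
  have e3 : ∑' b, u (b - c) * v (b - c) = S := by
    have := shift 0 0 (-c)
    simpa [sub_eq_add_neg] using this
  have h0 := hfin 0 0
  have hc0 := hfin c 0
  have h0c := hfin 0 c
  have hcc := hfin c c
  have hm1 := hfin 0 (-c)
  have hm2 := hfin (-c) 0
  have hm3 := hfin (-c) (-c)
  simp only [add_zero] at h0 hc0 h0c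
  simp only [← sub_eq_add_neg] at hm1 hm2 hm3
  simp only [add_zero] at hm1 hm2
  have first : ∑' b, ((u b + u (b + c)) / 2) * ((v b + v (b + c)) / 2)
      = (S + Y + X + S) / 4 := by
    have : ∀ b, ((u b + u (b + c)) / 2) * ((v b + v (b + c)) / 2)
        = (u b * v b + u b * v (b + c) + u (b + c) * v b + u (b + c) * v (b + c)) / 4 := by
      intro b; ring
    simp only [this]
    rw [tsum_div_const, (((h0.add h0c).add hc0)).tsum_add hcc, ((h0.add h0c)).tsum_add hc0,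
      h0.tsum_add h0c, e0]
  have second : ∑' b, ((u b - u (b - c)) / 2) * ((v b - v (b - c)) / 2)
      = (S - X - Y + S) / 4 := by
    have : ∀ b, ((u b - u (b - c)) / 2) * ((v b - v (b - c)) / 2)
        = (u b * v b - u b * v (b - c) - u (b - c) * v b + u (b - c) * v (b - c)) / 4 := by
      intro b; ring
    simp only [this]
    rw [tsum_div_const, (((h0.sub hm1).sub hm2)).tsum_add hm3, ((h0.sub hm1)).tsum_sub hm2,
      h0.tsum_sub hm1, e1, e2, e3]
  rw [first, second]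
  ring

lemma support_avgF_finite (s : ℕ) (f : ℤ → ℂ) (hf : (Function.support f).Finite) :
    (Function.support (avgF s f)).Finite := by
  have : Function.support (avgF s f) ⊆
      ⋃ i ∈ (Finset.range s : Set ℕ), (fun x : ℤ => x - (i : ℤ)) '' Function.support f := by
    intro b hb
    simp only [Function.mem_support, avgF, ne_eq, mul_eq_zero, not_or] at hb
    obtain ⟨i, hi, hne⟩ := Finset.exists_ne_zero_of_sum_ne_zero hb.2
    simp only [Set.mem_iUnion]
    exact ⟨i, by simpa using hi, b + i, hne, by ring⟩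
  exact ((Finset.finite_toSet _).biUnion (fun i _ => hf.image _)).subset this

/-- One step of the reproducing formula. -/
lemma pairing_step (s : ℕ) (hs : 0 < s) (k φ : ℤ → ℂ) (hk : (Function.support k).Finite) :
    pairing s k φ = pairing (2 * s) k φ + ∑' b, haarS s k b * haarS s φ b := by
  unfold pairing
  rw [tsum_shift_identity (avgF s k) (avgF s φ) (s : ℤ) (support_avgF_finite s k hk)]
  congr 1
  simp only [avgF_double s hs]

/-- The Calderón reproducing formula. -/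
theorem calderon (k φ : ℤ → ℂ) (hk : (Function.support k).Finite) (p₀ q : ℕ) (h : p₀ ≤ q) :
    pairing (2 ^ p₀) k φ = pairing (2 ^ q) k φ
      + ∑ p ∈ Finset.Ico p₀ q, ∑' b, haarC p k b * haarC p φ b := by
  induction q, h using Nat.le_induction with
  | base => simp
  | succ q hq ih =>
    rw [ih, Finset.sum_Ico_succ_top hq,
      pairing_step (2 ^ q) (by positivity) k φ hk, pow_succ' 2 q]
    simp only [haarC]
    ring


/-! ### Elementary bounds for families of kernels -/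

section Family

variable {β : Type*}

lemma norm_avgF_le (s : ℕ) (f : ℤ → ℂ) (b : ℤ) :
    ‖avgF s f b‖ ≤ (s : ℝ)⁻¹ * ∑ i ∈ range s, ‖f (b + i)‖ := by
  unfold avgF
  rw [norm_mul, norm_inv, Complex.norm_natCast]
  gcongr
  exact norm_sum_le _ _

lemma fam_avg_le (I : Finset β) (κ : β → ℤ → ℂ) (B : ℝ) (hbd : ∀ v, ∑ i ∈ I, ‖κ i v‖ ≤ B)
    (s : ℕ) (hs : 0 < s) (b : ℤ) : ∑ i ∈ I, ‖avgF s (κ i) b‖ ≤ B := by
  have hs' : (s : ℝ) ≠ 0 := by exact_mod_cast hs.ne'
  calc ∑ i ∈ I, ‖avgF s (κ i) b‖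
      ≤ ∑ i ∈ I, (s : ℝ)⁻¹ * ∑ j ∈ range s, ‖κ i (b + j)‖ :=
        sum_le_sum fun i _ => norm_avgF_le _ _ _
    _ = (s : ℝ)⁻¹ * ∑ j ∈ range s, ∑ i ∈ I, ‖κ i (b + j)‖ := by rw [← mul_sum, sum_comm]
    _ ≤ (s : ℝ)⁻¹ * ∑ _j ∈ range s, B := by
        gcongr
        apply hbd
    _ = B := by
        simp only [sum_const, card_range, nsmul_eq_mul]
        field_simp

lemma norm_haarS_le (s : ℕ) (f : ℤ → ℂ) (b : ℤ) :
    ‖haarS s f b‖ ≤ (‖avgF s f b‖ + ‖avgF s f (b - s)‖) / 2 := by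
  unfold haarS
  rw [norm_div]
  simp only [Complex.norm_ofNat]
  gcongr
  exact norm_sub_le _ _

lemma fam_haar_le (I : Finset β) (κ : β → ℤ → ℂ) (B : ℝ) (hbd : ∀ v, ∑ i ∈ I, ‖κ i v‖ ≤ B)
    (s : ℕ) (hs : 0 < s) (b : ℤ) : ∑ i ∈ I, ‖haarS s (κ i) b‖ ≤ B := by
  calc ∑ i ∈ I, ‖haarS s (κ i) b‖
      ≤ ∑ i ∈ I, (‖avgF s (κ i) b‖ + ‖avgF s (κ i) (b - s)‖) / 2 :=
        sum_le_sum fun i _ => norm_haarS_le _ _ _
    _ = (∑ i ∈ I, ‖avgF s (κ i) b‖ + ∑ i ∈ I, ‖avgF s (κ i) (b - s)‖) / 2 := by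
        rw [← sum_add_distrib, sum_div]
    _ ≤ (B + B) / 2 := by
        gcongr
        · exact fam_avg_le I κ B hbd s hs b
        · exact fam_avg_le I κ B hbd s hs (b - s)
    _ = B := by ring

lemma haarS_eq (s : ℕ) (hs : 0 < s) (f : ℤ → ℂ) (b : ℤ) :
    haarS s f b = ((2 : ℂ) * s)⁻¹ * ∑ j ∈ range s, (f (b + j) - f (b - s + j)) := by
  have hs' : (s : ℂ) ≠ 0 := by exact_mod_cast hs.ne'
  unfold haarS avgF
  rw [sum_sub_distrib]
  field_simp

lemma fam_haar_slope (I : Finset β) (κ : β → ℤ → ℂ) (D : ℝ) (s : ℕ) (hs : 0 < s) (b : ℤ)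
    (h : ∀ j < s, ∑ i ∈ I, ‖κ i (b + j) - κ i (b - s + j)‖ ≤ D) :
    ∑ i ∈ I, ‖haarS s (κ i) b‖ ≤ D / 2 := by
  have hs' : (s : ℝ) ≠ 0 := by exact_mod_cast hs.ne'
  have hs2 : (0 : ℝ) < 2 * s := by positivity
  have one : ∀ i ∈ I, ‖haarS s (κ i) b‖ ≤
      ((2 : ℝ) * s)⁻¹ * ∑ j ∈ range s, ‖κ i (b + j) - κ i (b - s + j)‖ := by
    intro i _
    rw [haarS_eq s hs, norm_mul, norm_inv, norm_mul, Complex.norm_ofNat, Complex.norm_natCast]
    gcongr
    exact norm_sum_le _ _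
  calc ∑ i ∈ I, ‖haarS s (κ i) b‖
      ≤ ∑ i ∈ I, ((2 : ℝ) * s)⁻¹ * ∑ j ∈ range s, ‖κ i (b + j) - κ i (b - s + j)‖ :=
        sum_le_sum one
    _ = ((2 : ℝ) * s)⁻¹ * ∑ j ∈ range s, ∑ i ∈ I, ‖κ i (b + j) - κ i (b - s + j)‖ := by
        rw [← mul_sum, sum_comm]
    _ ≤ ((2 : ℝ) * s)⁻¹ * ∑ _j ∈ range s, D := by
        gcongr with j hj
        exact h j (mem_range.mp hj)
    _ = D / 2 := by
        simp only [sum_const, card_range, nsmul_eq_mul]
        field_simp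

/-- Rewrite a range sum as an interval sum. -/
lemma sum_range_eq_Ico {M : Type*} [AddCommMonoid M] (f : ℤ → M) (b : ℤ) (s : ℕ) :
    ∑ j ∈ range s, f (b + j) = ∑ v ∈ Finset.Ico b (b + s), f v := by
  refine Finset.sum_nbij (fun j : ℕ => b + j) ?_ ?_ ?_ ?_
  · intro j hj
    have := mem_range.mp hj
    simp only [Finset.mem_Ico]
    omega
  · intro x _ y _ h
    simpa using h
  · intro v hv
    simp only [Finset.coe_Ico, Set.mem_Ico] at hv
    refine ⟨(v - b).toNat, ?_, ?_⟩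
    · simp only [coe_range, Set.mem_Iio]
      omega
    · simp only
      omega
  · intro j _
    rfl

/-- If the window misses the support then the average vanishes. -/
lemma avgF_eq_zero_of_disjoint (s : ℕ) (f : ℤ → ℂ) (b : ℤ)
    (h : ∀ j < s, f (b + j) = 0) : avgF s f b = 0 := by
  unfold avgF
  rw [sum_eq_zero, mul_zero]
  intro j hj
  exact h j (mem_range.mp hj)

/-- Support of an average of a mean-zero kernel supported in `[-R, R]`. -/
lemma avgF_ne_zero_imp (R : ℤ) (s : ℕ) (f : ℤ → ℂ)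
    (hsupp : ∀ v, f v ≠ 0 → |v| ≤ R)
    (hmean : ∑ v ∈ Finset.Icc (-R) R, f v = 0) (b : ℤ) (hne : avgF s f b ≠ 0) :
    (-R < b ∧ b ≤ R) ∨ (-R < b + s ∧ b + s ≤ R) := by
  by_contra hcon
  push Not at hcon
  apply hne
  by_cases h1 : b ≤ -R
  · by_cases h2 : b + s ≤ -R
    · apply avgF_eq_zero_of_disjoint
      intro j hj
      by_contra hj0
      have := hsupp _ hj0
      rw [abs_le] at this
      omega
    · have h3 : R < b + s := by
        by_contra h4
        push Not at h4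
        have := hcon.2 (by omega)
        omega
      unfold avgF
      rw [sum_range_eq_Ico f b s]
      have : ∑ v ∈ Finset.Ico b (b + s), f v = ∑ v ∈ Finset.Icc (-R) R, f v := by
        symm
        apply Finset.sum_subset
        · intro v hv
          simp only [Finset.mem_Icc, Finset.mem_Ico] at hv ⊢
          omega
        · intro v _ hv
          by_contra hv0
          have := hsupp v hv0
          rw [abs_le] at this
          simp only [Finset.mem_Icc] at hv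
          omega
      rw [this, hmean, mul_zero]
  · have h2 : R < b := by
      by_contra h4
      push Not at h4
      have := hcon.1 (by omega)
      omega
    apply avgF_eq_zero_of_disjoint
    intro j hj
    by_contra hj0
    have := hsupp _ hj0
    rw [abs_le] at this
    omega

/-- Support of the Haar coefficients of a mean-zero kernel supported in `[-R, R]`. -/
lemma haarS_ne_zero_imp (R : ℤ) (s : ℕ) (f : ℤ → ℂ)
    (hsupp : ∀ v, f v ≠ 0 → |v| ≤ R)
    (hmean : ∑ v ∈ Finset.Icc (-R) R, f v = 0) (b : ℤ) (hne : haarS s f b ≠ 0) :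
    (-R < b ∧ b ≤ R) ∨ (-R < b + s ∧ b + s ≤ R) ∨ (-R < b - s ∧ b - s ≤ R) := by
  by_contra hcon
  push Not at hcon
  apply hne
  have h1 : avgF s f b = 0 := by
    by_contra h
    rcases avgF_ne_zero_imp R s f hsupp hmean b h with h | h
    · have := hcon.1 h.1; omega
    · have := hcon.2.1 h.1; omega
  have h2 : avgF s f (b - s) = 0 := by
    by_contra h
    rcases avgF_ne_zero_imp R s f hsupp hmean (b - s) h with h | h
    · have := hcon.2.2 h.1; omega
    · have h' := h.1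
      have h'' := h.2
      have e : b - (s : ℤ) + s = b := by ring
      rw [e] at h' h''
      have := hcon.1 h'
      omega
  simp [haarS, h1, h2]


/-- Cauchy-Schwarz over `b` for a family, given a support bound. -/
lemma level_cs (I : Finset β) (κ : β → ℤ → ℂ) (φ : ℤ → ℂ) (s : ℕ) (B : ℤ)
    (hB : ∀ i ∈ I, ∀ b, haarS s (κ i) b ≠ 0 → |b| ≤ B) :
    ∑ i ∈ I, ‖∑' b, haarS s (κ i) b * haarS s φ b‖ ≤
      Real.sqrt (∑ b ∈ Finset.Icc (-B) B, (∑ i ∈ I, ‖haarS s (κ i) b‖) ^ 2) *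
        Real.sqrt (∑ b ∈ Finset.Icc (-B) B, ‖haarS s φ b‖ ^ 2) := by
  have one : ∀ i ∈ I, ‖∑' b, haarS s (κ i) b * haarS s φ b‖ ≤
      ∑ b ∈ Finset.Icc (-B) B, ‖haarS s (κ i) b‖ * ‖haarS s φ b‖ := by
    intro i hi
    rw [tsum_eq_sum (s := Finset.Icc (-B) B)]
    · refine (norm_sum_le _ _).trans (le_of_eq ?_)
      simp only [norm_mul]
    · intro b hb
      have : haarS s (κ i) b = 0 := by
        by_contra h
        have := hB i hi b h
        rw [abs_le] at this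
        exact hb (Finset.mem_Icc.mpr this)
      simp [this]
  calc ∑ i ∈ I, ‖∑' b, haarS s (κ i) b * haarS s φ b‖
      ≤ ∑ i ∈ I, ∑ b ∈ Finset.Icc (-B) B, ‖haarS s (κ i) b‖ * ‖haarS s φ b‖ :=
        sum_le_sum one
    _ = ∑ b ∈ Finset.Icc (-B) B, (∑ i ∈ I, ‖haarS s (κ i) b‖) * ‖haarS s φ b‖ := by
        rw [sum_comm]
        simp only [sum_mul]
    _ ≤ _ := Real.sum_mul_le_sqrt_mul_sqrt _ _ _

/-- Block hypotheses for a family of kernels at scale `K`. -/
structure BlockHyp (K : ℕ) (I : Finset β) (κ : β → ℤ → ℂ) (J : Finset ℤ) (c₂ c₃ : ℝ) : Prop where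
  /-- support in `[-3K, 3K]` -/
  supp : ∀ i ∈ I, ∀ v, κ i v ≠ 0 → |v| ≤ 3 * (K : ℤ)
  /-- mean zero -/
  mean : ∀ i ∈ I, ∑ v ∈ Finset.Icc (-(3 * (K : ℤ))) (3 * (K : ℤ)), κ i v = 0
  /-- size: disjoint supports, size `c₂ / K` -/
  bd : ∀ v, ∑ i ∈ I, ‖κ i v‖ ≤ c₂ / K
  /-- slope `c₃ / K²` away from the jump set `J` (a jump at `t` separates `t - 1` from `t`) -/
  slope : ∀ u u' : ℤ, u ≤ u' → (∀ t ∈ J, ¬ (u < t ∧ t ≤ u')) →
      ∑ i ∈ I, ‖κ i u' - κ i u‖ ≤ c₃ * ((u' - u : ℤ) : ℝ) / (K : ℝ) ^ 2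

variable {K : ℕ} {I : Finset β} {κ : β → ℤ → ℂ} {J : Finset ℤ} {c₂ c₃ : ℝ}

/-- The "bad" set at step `s`: centres whose window contains a jump. -/
noncomputable def badSet (J : Finset ℤ) (s : ℕ) : Finset ℤ :=
  J.biUnion fun t => Finset.Ioo (t - s) (t + s)

lemma card_badSet_le (J : Finset ℤ) (s : ℕ) : (badSet J s).card ≤ J.card * (2 * s) := by
  unfold badSet
  refine (Finset.card_biUnion_le).trans ?_
  calc ∑ t ∈ J, (Finset.Ioo (t - s) (t + s)).card ≤ ∑ _t ∈ J, 2 * s := by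
        apply sum_le_sum
        intro t _
        rw [Int.card_Ioo]
        omega
    _ = J.card * (2 * s) := by simp

lemma BlockHyp.haar_slope (h : BlockHyp K I κ J c₂ c₃) (s : ℕ) (hs : 0 < s) (b : ℤ)
    (hb : b ∉ badSet J s) :
    ∑ i ∈ I, ‖haarS s (κ i) b‖ ≤ (c₃ * s / (K : ℝ) ^ 2) / 2 := by
  apply fam_haar_slope I κ _ s hs b
  intro j hj
  have := h.slope (b - s + j) (b + j) (by omega) ?_
  · convert this using 2
    push_cast
    ring_nf
  · intro t ht ⟨h1, h2⟩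
    apply hb
    unfold badSet
    rw [Finset.mem_biUnion]
    refine ⟨t, ht, ?_⟩
    rw [Finset.mem_Ioo]
    omega

lemma BlockHyp.haar_supp (h : BlockHyp K I κ J c₂ c₃) (s : ℕ) (i : β) (hi : i ∈ I) (b : ℤ)
    (hne : haarS s (κ i) b ≠ 0) :
    (-(3 * (K : ℤ)) < b ∧ b ≤ 3 * K) ∨ (-(3 * (K : ℤ)) < b + s ∧ b + s ≤ 3 * K) ∨
      (-(3 * (K : ℤ)) < b - s ∧ b - s ≤ 3 * K) :=
  haarS_ne_zero_imp (3 * (K : ℤ)) s (κ i) (h.supp i hi) (h.mean i hi) b hne

/-- Fine levels. `K = s * Λ`. -/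
lemma BlockHyp.fine_level (h : BlockHyp K I κ J c₂ c₃)
    (s Λ : ℕ) (hs : 0 < s) (hΛ : 0 < Λ) (hK : K = s * Λ) (φ : ℤ → ℂ) :
    ∑ i ∈ I, ‖∑' b, haarS s (κ i) b * haarS s φ b‖ ≤
      Real.sqrt (8 * J.card * c₂ ^ 2 / Λ + 9 * c₃ ^ 2 / Λ ^ 2) *
        Real.sqrt (((4 * K : ℕ) : ℝ)⁻¹ *
          ∑ b ∈ Finset.Icc (-(4 * (K : ℤ))) (4 * (K : ℤ)), ‖haarS s φ b‖ ^ 2) := by
  have hKpos : 0 < K := by rw [hK]; positivity
  have hKR : (0 : ℝ) < K := by exact_mod_cast hKpos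
  have hsR : (0 : ℝ) < s := by exact_mod_cast hs
  have hΛR : (0 : ℝ) < Λ := by exact_mod_cast hΛ
  have hsK : s ≤ K := by rw [hK]; exact Nat.le_mul_of_pos_right s hΛ
  set B : ℤ := 4 * (K : ℤ) with hB
  have hsupp : ∀ i ∈ I, ∀ b, haarS s (κ i) b ≠ 0 → |b| ≤ B := by
    intro i hi b hne
    have := h.haar_supp s i hi b hne
    rw [abs_le]
    have hsK' : (s : ℤ) ≤ K := by exact_mod_cast hsK
    rcases this with h1 | h1 | h1 <;> constructor <;> omega
  refine (level_cs I κ φ s B hsupp).trans ?_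
  set C : ℤ → ℝ := fun b => ∑ i ∈ I, ‖haarS s (κ i) b‖ with hC
  have hC0 : ∀ b, 0 ≤ C b := fun b => sum_nonneg fun i _ => norm_nonneg _
  have hC1 : ∀ b, C b ≤ c₂ / K := fun b => fam_haar_le I κ _ h.bd s hs b
  have hC2 : ∀ b, b ∉ badSet J s → C b ≤ (c₃ * s / (K : ℝ) ^ 2) / 2 :=
    fun b hb => h.haar_slope s hs b hb
  have hterm : ∀ b, C b ^ 2 ≤ (if b ∈ badSet J s then (c₂ / K) ^ 2 else 0) +
      ((c₃ * s / (K : ℝ) ^ 2) / 2) ^ 2 := by
    intro b
    split_ifs with hb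
    · have := pow_le_pow_left₀ (hC0 b) (hC1 b) 2
      have h3 : 0 ≤ ((c₃ * s / (K : ℝ) ^ 2) / 2) ^ 2 := sq_nonneg _
      linarith
    · have := pow_le_pow_left₀ (hC0 b) (hC2 b hb) 2
      linarith
  have hX : ∑ b ∈ Finset.Icc (-B) B, C b ^ 2 ≤
      (J.card * (2 * s) : ℕ) * (c₂ / K) ^ 2 + (9 * K : ℕ) * ((c₃ * s / (K : ℝ) ^ 2) / 2) ^ 2 := by
    calc ∑ b ∈ Finset.Icc (-B) B, C b ^ 2
        ≤ ∑ b ∈ Finset.Icc (-B) B, ((if b ∈ badSet J s then (c₂ / K) ^ 2 else 0) +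
            ((c₃ * s / (K : ℝ) ^ 2) / 2) ^ 2) := sum_le_sum fun b _ => hterm b
      _ = ∑ b ∈ Finset.Icc (-B) B, (if b ∈ badSet J s then (c₂ / K) ^ 2 else 0) +
            ((Finset.Icc (-B) B).card : ℝ) * ((c₃ * s / (K : ℝ) ^ 2) / 2) ^ 2 := by
          rw [sum_add_distrib]
          simp
      _ ≤ (J.card * (2 * s) : ℕ) * (c₂ / K) ^ 2 +
            (9 * K : ℕ) * ((c₃ * s / (K : ℝ) ^ 2) / 2) ^ 2 := by
          apply add_le_add
          · rw [← Finset.sum_filter]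
            rw [sum_const, nsmul_eq_mul]
            gcongr
            refine le_trans (Finset.card_le_card ?_) (card_badSet_le J s)
            intro x hx
            exact (Finset.mem_filter.mp hx).2
          · gcongr
            rw [Int.card_Icc, hB]
            omega
  have hmain : ((4 * K : ℕ) : ℝ) * ∑ b ∈ Finset.Icc (-B) B, C b ^ 2 ≤
      8 * J.card * c₂ ^ 2 / Λ + 9 * c₃ ^ 2 / Λ ^ 2 := by
    have h4 : (0 : ℝ) ≤ ((4 * K : ℕ) : ℝ) := by positivity
    refine (mul_le_mul_of_nonneg_left hX h4).trans (le_of_eq ?_)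
    have hKs : (K : ℝ) = s * Λ := by rw [hK]; push_cast; ring
    push_cast
    rw [hKs]
    field_simp
    ring
  have hF : (0 : ℝ) < ((4 * K : ℕ) : ℝ) := by positivity
  have hnn : 0 ≤ ∑ b ∈ Finset.Icc (-B) B, C b ^ 2 := sum_nonneg fun b _ => sq_nonneg _
  have hnn2 : 0 ≤ ∑ b ∈ Finset.Icc (-B) B, ‖haarS s φ b‖ ^ 2 := sum_nonneg fun b _ => sq_nonneg _
  have key : Real.sqrt (∑ b ∈ Finset.Icc (-B) B, C b ^ 2) *
      Real.sqrt (∑ b ∈ Finset.Icc (-B) B, ‖haarS s φ b‖ ^ 2) =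
      Real.sqrt (((4 * K : ℕ) : ℝ) * ∑ b ∈ Finset.Icc (-B) B, C b ^ 2) *
      Real.sqrt (((4 * K : ℕ) : ℝ)⁻¹ * ∑ b ∈ Finset.Icc (-B) B, ‖haarS s φ b‖ ^ 2) := by
    rw [← Real.sqrt_mul hnn, ← Real.sqrt_mul (by positivity)]
    congr 1
    field_simp
  rw [key]
  exact mul_le_mul_of_nonneg_right (Real.sqrt_le_sqrt hmain) (Real.sqrt_nonneg _)


/-- Any average of the family is at most `7 c₂ / s`. -/
lemma BlockHyp.fam_avg_coarse (h : BlockHyp K I κ J c₂ c₃) (hK : 0 < K) (hc₂ : 0 ≤ c₂)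
    (s : ℕ) (hs : 0 < s) (b : ℤ) : ∑ i ∈ I, ‖avgF s (κ i) b‖ ≤ 7 * c₂ / s := by
  have hsR : (0 : ℝ) < s := by exact_mod_cast hs
  have hKR : (0 : ℝ) < K := by exact_mod_cast hK
  set g : ℤ → ℝ := fun v => ∑ i ∈ I, ‖κ i v‖ with hg
  have hg0 : ∀ v, 0 ≤ g v := fun v => sum_nonneg fun i _ => norm_nonneg _
  have hgout : ∀ v, v ∉ Finset.Icc (-(3 * (K : ℤ))) (3 * (K : ℤ)) → g v = 0 := by
    intro v hv
    apply sum_eq_zero
    intro i hi
    have : κ i v = 0 := by
      by_contra h0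
      have := h.supp i hi v h0
      rw [abs_le] at this
      exact hv (Finset.mem_Icc.mpr this)
    simp [this]
  have hsum : ∑ j ∈ range s, g (b + j) ≤ 7 * c₂ := by
    rw [sum_range_eq_Ico g b s]
    calc ∑ v ∈ Finset.Ico b (b + s), g v
        = ∑ v ∈ (Finset.Ico b (b + s)).filter
            (fun v => v ∈ Finset.Icc (-(3 * (K : ℤ))) (3 * (K : ℤ))), g v := by
          symm
          apply Finset.sum_subset (Finset.filter_subset _ _)
          intro v hv hv2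
          apply hgout
          intro hv3
          exact hv2 (Finset.mem_filter.mpr ⟨hv, hv3⟩)
      _ ≤ ∑ v ∈ Finset.Icc (-(3 * (K : ℤ))) (3 * (K : ℤ)), g v := by
          apply Finset.sum_le_sum_of_subset_of_nonneg
          · intro v hv
            exact (Finset.mem_filter.mp hv).2
          · intro v _ _
            exact hg0 v
      _ ≤ ∑ _v ∈ Finset.Icc (-(3 * (K : ℤ))) (3 * (K : ℤ)), (c₂ / K) :=
          sum_le_sum fun v _ => h.bd v
      _ = ((6 * K + 1 : ℕ) : ℝ) * (c₂ / K) := by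
          simp only [sum_const, nsmul_eq_mul]
          congr 2
          rw [Int.card_Icc]
          omega
      _ ≤ ((7 * K : ℕ) : ℝ) * (c₂ / K) := by
          gcongr
          omega
      _ = 7 * c₂ := by
          push_cast
          field_simp
  calc ∑ i ∈ I, ‖avgF s (κ i) b‖
      ≤ ∑ i ∈ I, (s : ℝ)⁻¹ * ∑ j ∈ range s, ‖κ i (b + j)‖ :=
        sum_le_sum fun i _ => norm_avgF_le _ _ _
    _ = (s : ℝ)⁻¹ * ∑ j ∈ range s, g (b + j) := by
        rw [← mul_sum, sum_comm]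
    _ ≤ (s : ℝ)⁻¹ * (7 * c₂) := by gcongr
    _ = 7 * c₂ / s := by field_simp

lemma BlockHyp.fam_haar_coarse (h : BlockHyp K I κ J c₂ c₃) (hK : 0 < K) (hc₂ : 0 ≤ c₂)
    (s : ℕ) (hs : 0 < s) (b : ℤ) : ∑ i ∈ I, ‖haarS s (κ i) b‖ ≤ 7 * c₂ / s := by
  calc ∑ i ∈ I, ‖haarS s (κ i) b‖
      ≤ ∑ i ∈ I, (‖avgF s (κ i) b‖ + ‖avgF s (κ i) (b - s)‖) / 2 :=
        sum_le_sum fun i _ => norm_haarS_le _ _ _
    _ = (∑ i ∈ I, ‖avgF s (κ i) b‖ + ∑ i ∈ I, ‖avgF s (κ i) (b - s)‖) / 2 := by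
        rw [← sum_add_distrib, sum_div]
    _ ≤ (7 * c₂ / s + 7 * c₂ / s) / 2 := by
        gcongr
        · exact h.fam_avg_coarse hK hc₂ s hs b
        · exact h.fam_avg_coarse hK hc₂ s hs (b - s)
    _ = 7 * c₂ / s := by ring

/-- Coarse levels: `s = K * Θ`. -/
lemma BlockHyp.coarse_level (h : BlockHyp K I κ J c₂ c₃) (hK : 0 < K) (hc₂ : 0 ≤ c₂)
    (Θ : ℕ) (hΘ : 0 < Θ) (s : ℕ) (hs : s = K * Θ) (φ : ℤ → ℂ) :
    ∑ i ∈ I, ‖∑' b, haarS s (κ i) b * haarS s φ b‖ ≤
      Real.sqrt (3528 * c₂ ^ 2 / Θ) *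
        Real.sqrt (((4 * s : ℕ) : ℝ)⁻¹ *
          ∑ b ∈ Finset.Icc (-(4 * (s : ℤ))) (4 * (s : ℤ)), ‖haarS s φ b‖ ^ 2) := by
  have hs0 : 0 < s := by rw [hs]; positivity
  have hKR : (0 : ℝ) < K := by exact_mod_cast hK
  have hsR : (0 : ℝ) < s := by exact_mod_cast hs0
  have hΘR : (0 : ℝ) < Θ := by exact_mod_cast hΘ
  have hKs : K ≤ s := by rw [hs]; exact Nat.le_mul_of_pos_right K hΘ
  have hKs' : (K : ℤ) ≤ s := by exact_mod_cast hKs
  set B : ℤ := 4 * (s : ℤ) with hB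
  have hsupp : ∀ i ∈ I, ∀ b, haarS s (κ i) b ≠ 0 → |b| ≤ B := by
    intro i hi b hne
    have := h.haar_supp s i hi b hne
    rw [abs_le]
    rcases this with h1 | h1 | h1 <;> constructor <;> omega
  refine (level_cs I κ φ s B hsupp).trans ?_
  set C : ℤ → ℝ := fun b => ∑ i ∈ I, ‖haarS s (κ i) b‖ with hC
  have hC0 : ∀ b, 0 ≤ C b := fun b => sum_nonneg fun i _ => norm_nonneg _
  have hC1 : ∀ b, C b ≤ 7 * c₂ / s := fun b => h.fam_haar_coarse hK hc₂ s hs0 b
  set R : ℤ := 3 * (K : ℤ) with hR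
  set S : Finset ℤ := Finset.Ioc (-R) R ∪ Finset.Ioc (-R - s) (R - s) ∪
    Finset.Ioc (-R + s) (R + s) with hS
  have hSmem : ∀ b, C b ≠ 0 → b ∈ S := by
    intro b hb
    obtain ⟨i, hi, hne⟩ := Finset.exists_ne_zero_of_sum_ne_zero hb
    have hne' : haarS s (κ i) b ≠ 0 := by simpa using hne
    have := h.haar_supp s i hi b hne'
    simp only [hS, Finset.mem_union, Finset.mem_Ioc]
    rcases this with h1 | h1 | h1
    · left; left; exact h1
    · left; right; constructor <;> omega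
    · right; constructor <;> omega
  have hScard : S.card ≤ 18 * K := by
    have h1 : (Finset.Ioc (-R) R).card = (6 * K : ℕ) := by
      rw [Int.card_Ioc, hR]; omega
    have h2 : (Finset.Ioc (-R - s) (R - s)).card = (6 * K : ℕ) := by
      rw [Int.card_Ioc, hR]; omega
    have h3 : (Finset.Ioc (-R + s) (R + s)).card = (6 * K : ℕ) := by
      rw [Int.card_Ioc, hR]; omega
    calc S.card ≤ (Finset.Ioc (-R) R ∪ Finset.Ioc (-R - s) (R - s)).card +
          (Finset.Ioc (-R + s) (R + s)).card := Finset.card_union_le _ _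
      _ ≤ (Finset.Ioc (-R) R).card + (Finset.Ioc (-R - s) (R - s)).card +
          (Finset.Ioc (-R + s) (R + s)).card := by
          gcongr
          exact Finset.card_union_le _ _
      _ = 18 * K := by rw [h1, h2, h3]; ring
  have hterm : ∀ b, C b ^ 2 ≤ if b ∈ S then (7 * c₂ / s) ^ 2 else 0 := by
    intro b
    split_ifs with hb
    · exact pow_le_pow_left₀ (hC0 b) (hC1 b) 2
    · have : C b = 0 := by
        by_contra h0
        exact hb (hSmem b h0)
      simp [this]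
  have hX : ∑ b ∈ Finset.Icc (-B) B, C b ^ 2 ≤ (18 * K : ℕ) * (7 * c₂ / s) ^ 2 := by
    calc ∑ b ∈ Finset.Icc (-B) B, C b ^ 2
        ≤ ∑ b ∈ Finset.Icc (-B) B, (if b ∈ S then (7 * c₂ / s) ^ 2 else 0) :=
          sum_le_sum fun b _ => hterm b
      _ ≤ (18 * K : ℕ) * (7 * c₂ / s) ^ 2 := by
          rw [← Finset.sum_filter, sum_const, nsmul_eq_mul]
          gcongr
          refine le_trans (Finset.card_le_card ?_) hScard
          intro x hx
          exact (Finset.mem_filter.mp hx).2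
  have hmain : ((4 * s : ℕ) : ℝ) * ∑ b ∈ Finset.Icc (-B) B, C b ^ 2 ≤ 3528 * c₂ ^ 2 / Θ := by
    have h4 : (0 : ℝ) ≤ ((4 * s : ℕ) : ℝ) := by positivity
    refine (mul_le_mul_of_nonneg_left hX h4).trans (le_of_eq ?_)
    have hKs'' : (s : ℝ) = K * Θ := by rw [hs]; push_cast; ring
    push_cast
    rw [hKs'']
    field_simp
    ring
  have hF : (0 : ℝ) < ((4 * s : ℕ) : ℝ) := by positivity
  have hnn : 0 ≤ ∑ b ∈ Finset.Icc (-B) B, C b ^ 2 := sum_nonneg fun b _ => sq_nonneg _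
  have hnn2 : 0 ≤ ∑ b ∈ Finset.Icc (-B) B, ‖haarS s φ b‖ ^ 2 := sum_nonneg fun b _ => sq_nonneg _
  have key : Real.sqrt (∑ b ∈ Finset.Icc (-B) B, C b ^ 2) *
      Real.sqrt (∑ b ∈ Finset.Icc (-B) B, ‖haarS s φ b‖ ^ 2) =
      Real.sqrt (((4 * s : ℕ) : ℝ) * ∑ b ∈ Finset.Icc (-B) B, C b ^ 2) *
      Real.sqrt (((4 * s : ℕ) : ℝ)⁻¹ * ∑ b ∈ Finset.Icc (-B) B, ‖haarS s φ b‖ ^ 2) := by
    rw [← Real.sqrt_mul hnn, ← Real.sqrt_mul (by positivity)]
    congr 1
    field_simp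
  rw [key]
  exact mul_le_mul_of_nonneg_right (Real.sqrt_le_sqrt hmain) (Real.sqrt_nonneg _)

/-- The final smoothed pairing at a very coarse scale `s = K * Θ`, `Θ ≥ 4`. -/
lemma BlockHyp.pairing_rem (h : BlockHyp K I κ J c₂ c₃) (hK : 0 < K) (hc₂ : 0 ≤ c₂)
    (Θ : ℕ) (hΘ : 4 ≤ Θ) (s : ℕ) (hs : s = K * Θ) (φ : ℤ → ℂ) (m : ℝ) (hm0 : 0 ≤ m)
    (hm : ∀ T : ℕ, ∑ t ∈ Finset.Icc (-(T : ℤ)) T, ‖φ t‖ ≤ m * (2 * T + 1)) :
    ∑ i ∈ I, ‖pairing s (κ i) φ‖ ≤ 378 * c₂ * m / Θ := by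
  have hΘ0 : 0 < Θ := by omega
  have hs0 : 0 < s := by rw [hs]; positivity
  have hKR : (0 : ℝ) < K := by exact_mod_cast hK
  have hsR : (0 : ℝ) < s := by exact_mod_cast hs0
  have hΘR : (0 : ℝ) < Θ := by exact_mod_cast hΘ0
  have h4Ks : 4 * K ≤ s := by
    rw [hs]; nlinarith
  set R : ℤ := 3 * (K : ℤ) with hR
  set T₀ : Finset ℤ := Finset.Ioc (-R) R ∪ Finset.Ioc (-R - s) (R - s) with hT₀
  have hT₀card : T₀.card ≤ 12 * K := by
    have h1 : (Finset.Ioc (-R) R).card = (6 * K : ℕ) := by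
      rw [Int.card_Ioc, hR]; omega
    have h2 : (Finset.Ioc (-R - s) (R - s)).card = (6 * K : ℕ) := by
      rw [Int.card_Ioc, hR]; omega
    calc T₀.card ≤ (Finset.Ioc (-R) R).card + (Finset.Ioc (-R - s) (R - s)).card :=
          Finset.card_union_le _ _
      _ = 12 * K := by rw [h1, h2]; ring
  have hφ : ∀ b ∈ T₀, ‖avgF s φ b‖ ≤ (9 / 2) * m := by
    intro b hb
    have hb' : -R - s < b ∧ b + s ≤ R + s := by
      simp only [hT₀, Finset.mem_union, Finset.mem_Ioc] at hb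
      rcases hb with h1 | h1 <;> constructor <;> omega
    have h1 := norm_avgF_le s φ b
    have hT : (R + s).toNat = 3 * K + s := by
      rw [hR]; omega
    have h2 : ∑ j ∈ range s, ‖φ (b + j)‖ ≤ m * (2 * ((3 * K + s : ℕ) : ℝ) + 1) := by
      rw [sum_range_eq_Ico (fun t => ‖φ t‖) b s]
      refine le_trans ?_ (hm (3 * K + s))
      apply Finset.sum_le_sum_of_subset_of_nonneg
      · intro v hv
        simp only [Finset.mem_Ico, Finset.mem_Icc] at hv ⊢
        push_cast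
        omega
      · intro v _ _
        exact norm_nonneg _
    have h3 : m * (2 * ((3 * K + s : ℕ) : ℝ) + 1) ≤ m * ((9 / 2) * s) := by
      apply mul_le_mul_of_nonneg_left _ hm0
      have h4 : (4 : ℝ) * K ≤ s := by exact_mod_cast h4Ks
      have h5 : (1 : ℝ) ≤ s := by exact_mod_cast hs0
      push_cast
      linarith
    calc ‖avgF s φ b‖ ≤ (s : ℝ)⁻¹ * ∑ i ∈ range s, ‖φ (b + i)‖ := h1
      _ ≤ (s : ℝ)⁻¹ * (m * ((9 / 2) * s)) := by
          gcongr
          exact h2.trans h3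
      _ = (9 / 2) * m := by field_simp
  have one : ∀ i ∈ I, ‖pairing s (κ i) φ‖ ≤ ∑ b ∈ T₀, ‖avgF s (κ i) b‖ * ((9 / 2) * m) := by
    intro i hi
    unfold pairing
    rw [tsum_eq_sum (s := T₀)]
    · refine (norm_sum_le _ _).trans ?_
      apply sum_le_sum
      intro b hb
      rw [norm_mul]
      exact mul_le_mul_of_nonneg_left (hφ b hb) (norm_nonneg _)
    · intro b hb
      have : avgF s (κ i) b = 0 := by
        by_contra h0
        have := avgF_ne_zero_imp R s (κ i) (h.supp i hi) (h.mean i hi) b h0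
        apply hb
        simp only [hT₀, Finset.mem_union, Finset.mem_Ioc]
        rcases this with h1 | h1
        · left; exact h1
        · right; constructor <;> omega
      simp [this]
  calc ∑ i ∈ I, ‖pairing s (κ i) φ‖
      ≤ ∑ i ∈ I, ∑ b ∈ T₀, ‖avgF s (κ i) b‖ * ((9 / 2) * m) := sum_le_sum one
    _ = ∑ b ∈ T₀, (∑ i ∈ I, ‖avgF s (κ i) b‖) * ((9 / 2) * m) := by
        rw [sum_comm]
        simp only [sum_mul]
    _ ≤ ∑ _b ∈ T₀, (7 * c₂ / s) * ((9 / 2) * m) := by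
        apply sum_le_sum
        intro b _
        apply mul_le_mul_of_nonneg_right (h.fam_avg_coarse hK hc₂ s hs0 b) (by positivity)
    _ = (T₀.card : ℝ) * ((7 * c₂ / s) * ((9 / 2) * m)) := by
        simp
    _ ≤ ((12 * K : ℕ) : ℝ) * ((7 * c₂ / s) * ((9 / 2) * m)) := by
        gcongr
    _ = 378 * c₂ * m / Θ := by
        have hKs'' : (s : ℝ) = K * Θ := by rw [hs]; push_cast; ring
        push_cast
        rw [hKs'']
        field_simp
        ring

end Family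


/-! ### The square functions and the main pointwise bound -/

/-- One level of the aperture square function: `2^-(p+n) ∑_{|b| ≤ 2^(p+n)} |haarC p φ b|²`. -/
noncomputable def zq (n p : ℕ) (φ : ℤ → ℂ) : ℝ :=
  ((2 : ℝ) ^ (p + n))⁻¹ *
    ∑ b ∈ Finset.Icc (-(2 : ℤ) ^ (p + n)) ((2 : ℤ) ^ (p + n)), ‖haarC p φ b‖ ^ 2

/-- The aperture square function (squared) of `φ` at aperture exponent `n`, levels `P`. -/
noncomputable def sqf (n : ℕ) (P : Finset ℕ) (φ : ℤ → ℂ) : ℝ := ∑ p ∈ P, zq n p φ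

lemma zq_nonneg (n p : ℕ) (φ : ℤ → ℂ) : 0 ≤ zq n p φ :=
  mul_nonneg (by positivity) (sum_nonneg fun _ _ => sq_nonneg _)

lemma sqf_nonneg (n : ℕ) (P : Finset ℕ) (φ : ℤ → ℂ) : 0 ≤ sqf n P φ :=
  sum_nonneg fun _ _ => zq_nonneg _ _ _

/-- `ρ = √(1/2)`. -/
noncomputable def rho : ℝ := Real.sqrt (1 / 2)

lemma rho_nonneg : 0 ≤ rho := Real.sqrt_nonneg _

lemma rho_le : rho ≤ 3 / 4 := by
  unfold rho
  rw [Real.sqrt_le_left (by norm_num)]
  norm_num

lemma rho_pow (l : ℕ) : rho ^ l = Real.sqrt (1 / 2 ^ l) := by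
  induction l with
  | zero => simp
  | succ l ih =>
    rw [pow_succ, ih, rho, ← Real.sqrt_mul (by positivity)]
    congr 1
    rw [pow_succ]
    field_simp

lemma sqrt_div_two_pow (A : ℝ) (hA : 0 ≤ A) (l : ℕ) :
    Real.sqrt (A / 2 ^ l) = Real.sqrt A * rho ^ l := by
  rw [rho_pow, ← Real.sqrt_mul hA]
  congr 1
  field_simp

lemma sum_rho_pow_le (L : ℕ) : ∑ j ∈ Finset.Ico 1 L, rho ^ j ≤ 4 := by
  by_cases hL : 1 ≤ L
  · have : ∑ j ∈ Finset.Ico 1 L, rho ^ j + 4 * rho ^ L ≤ 4 := by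
      induction L, hL using Nat.le_induction with
      | base =>
        simp only [Finset.Ico_self, sum_empty, zero_add, pow_one]
        have := rho_le
        linarith
      | succ L hL ih =>
        rw [Finset.sum_Ico_succ_top hL, pow_succ]
        have h1 := rho_le
        have h2 : 0 ≤ rho ^ L := pow_nonneg rho_nonneg L
        nlinarith
    have h2 : 0 ≤ rho ^ L := pow_nonneg rho_nonneg L
    linarith
  · rw [Finset.Ico_eq_empty (by omega)]
    simp

section Main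

variable {β : Type*}

/-- Fine level in the dyadic form, `k = p + l`. -/
lemma fine_level_dyadic {I : Finset β} {κ : β → ℤ → ℂ} {J : Finset ℤ} {c₂ c₃ : ℝ}
    (p l : ℕ) (h : BlockHyp (2 ^ (p + l)) I κ J c₂ c₃) (φ : ℤ → ℂ) :
    ∑ i ∈ I, ‖∑' b, haarC p (κ i) b * haarC p φ b‖ ≤
      (Real.sqrt (8 * J.card * c₂ ^ 2 + 9 * c₃ ^ 2) * rho ^ l) *
        Real.sqrt (zq (l + 2) p φ) := by
  have h1 := h.fine_level (2 ^ p) (2 ^ l) (by positivity) (by positivity) (pow_add 2 p l) φ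
  have h2 : ((4 * 2 ^ (p + l) : ℕ) : ℝ)⁻¹ *
      ∑ b ∈ Finset.Icc (-(4 * ((2 ^ (p + l) : ℕ) : ℤ))) (4 * ((2 ^ (p + l) : ℕ) : ℤ)),
        ‖haarS (2 ^ p) φ b‖ ^ 2 = zq (l + 2) p φ := by
    unfold zq haarC
    have e1 : ((4 * 2 ^ (p + l) : ℕ) : ℝ) = (2 : ℝ) ^ (p + (l + 2)) := by
      push_cast; ring
    have e2 : 4 * ((2 ^ (p + l) : ℕ) : ℤ) = (2 : ℤ) ^ (p + (l + 2)) := by
      push_cast; ring
    rw [e1, e2]
  rw [h2] at h1
  refine h1.trans ?_
  apply mul_le_mul_of_nonneg_right _ (Real.sqrt_nonneg _)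
  rw [← sqrt_div_two_pow _ (by positivity)]
  apply Real.sqrt_le_sqrt
  push_cast
  have hΛ : (1 : ℝ) ≤ 2 ^ l := one_le_pow₀ (by norm_num)
  have hc : 0 ≤ 9 * c₃ ^ 2 := by positivity
  have : 9 * c₃ ^ 2 / ((2 : ℝ) ^ l) ^ 2 ≤ 9 * c₃ ^ 2 / 2 ^ l := by
    apply div_le_div_of_nonneg_left hc (by positivity)
    nlinarith
  rw [add_div]
  linarith

/-- Coarse level in the dyadic form, `p = k + j`. -/
lemma coarse_level_dyadic {I : Finset β} {κ : β → ℤ → ℂ} {J : Finset ℤ} {c₂ c₃ : ℝ}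
    (hc₂ : 0 ≤ c₂) (k j : ℕ) (h : BlockHyp (2 ^ k) I κ J c₂ c₃) (φ : ℤ → ℂ) :
    ∑ i ∈ I, ‖∑' b, haarC (k + j) (κ i) b * haarC (k + j) φ b‖ ≤
      (60 * c₂ * rho ^ j) * Real.sqrt (zq 2 (k + j) φ) := by
  have h1 := h.coarse_level (by positivity) hc₂ (2 ^ j) (by positivity) (2 ^ (k + j))
    (pow_add 2 k j) φ
  have h2 : ((4 * 2 ^ (k + j) : ℕ) : ℝ)⁻¹ *
      ∑ b ∈ Finset.Icc (-(4 * ((2 ^ (k + j) : ℕ) : ℤ))) (4 * ((2 ^ (k + j) : ℕ) : ℤ)),
        ‖haarS (2 ^ (k + j)) φ b‖ ^ 2 = zq 2 (k + j) φ := by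
    unfold zq haarC
    have e1 : ((4 * 2 ^ (k + j) : ℕ) : ℝ) = (2 : ℝ) ^ (k + j + 2) := by
      push_cast; ring
    have e2 : 4 * ((2 ^ (k + j) : ℕ) : ℤ) = (2 : ℤ) ^ (k + j + 2) := by
      push_cast; ring
    rw [e1, e2]
  rw [h2] at h1
  refine h1.trans ?_
  apply mul_le_mul_of_nonneg_right _ (Real.sqrt_nonneg _)
  have e3 : Real.sqrt (3528 * c₂ ^ 2 / ((2 ^ j : ℕ) : ℝ)) = Real.sqrt (3528 * c₂ ^ 2) * rho ^ j := by
    rw [← sqrt_div_two_pow _ (by positivity)]
    push_cast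
    rfl
  rw [e3]
  apply mul_le_mul_of_nonneg_right _ (pow_nonneg rho_nonneg j)
  rw [Real.sqrt_le_left (by positivity)]
  nlinarith [sq_nonneg c₂]

/-- **L9, main pointwise bound.** `Ks` is a finite set of block exponents; at block `k` we have a
finite family of mean zero kernels at scale `2^k` with jump set `J k`. -/
theorem block_sum_bound (Ks : Finset ℕ) (I : ℕ → Finset β) (κ : ℕ → β → ℤ → ℂ)
    (J : ℕ → Finset ℤ) (c₂ c₃ : ℝ) (hc₂ : 0 ≤ c₂)
    (hblock : ∀ k ∈ Ks, BlockHyp (2 ^ k) (I k) (κ k) (J k) c₂ c₃)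
    (φ : ℤ → ℂ) (m : ℝ) (hm0 : 0 ≤ m)
    (hm : ∀ T : ℕ, ∑ t ∈ Finset.Icc (-(T : ℤ)) T, ‖φ t‖ ≤ m * (2 * T + 1))
    (p₀ L q : ℕ) (hL : 2 ≤ L) (hp₀ : ∀ k ∈ Ks, p₀ ≤ k) (hq : ∀ k ∈ Ks, k + L ≤ q) :
    ∑ k ∈ Ks, ∑ i ∈ I k, ‖pairing (2 ^ p₀) (κ k i) φ‖ ≤
      (Real.sqrt (8 * (∑ k ∈ Ks, ((J k).card : ℝ)) * c₂ ^ 2 + 9 * c₃ ^ 2 * Ks.card) +
          240 * c₂ * Real.sqrt Ks.card) *
        (∑ l ∈ range q, rho ^ l * Real.sqrt (sqf (l + 2) (Finset.Ico p₀ q) φ)) +
      378 * c₂ * m * Ks.card / 2 ^ L := by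
  classical
  set Z : ℕ → ℝ := fun l => Real.sqrt (sqf (l + 2) (Finset.Ico p₀ q) φ) with hZ
  have hZ0 : ∀ l, 0 ≤ Z l := fun l => Real.sqrt_nonneg _
  -- the per-level quantity
  set D : ℕ → ℕ → ℝ := fun k p => ∑ i ∈ I k, ‖∑' b, haarC p (κ k i) b * haarC p φ b‖ with hD
  set A : ℕ → ℝ := fun k => 8 * ((J k).card : ℝ) * c₂ ^ 2 + 9 * c₃ ^ 2 with hA
  have hA0 : ∀ k, 0 ≤ A k := fun k => by positivity
  -- per block
  have hblock1 : ∀ k ∈ Ks, ∑ i ∈ I k, ‖pairing (2 ^ p₀) (κ k i) φ‖ ≤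
      378 * c₂ * m / 2 ^ L + ∑ p ∈ Finset.Ico p₀ (k + L), D k p := by
    intro k hk
    have hb := hblock k hk
    have hfin : ∀ i ∈ I k, (Function.support (κ k i)).Finite := by
      intro i hi
      apply (Finset.finite_toSet (Finset.Icc (-(3 * ((2 ^ k : ℕ) : ℤ))) (3 * ((2 ^ k : ℕ) : ℤ)))).subset
      intro v hv
      have := hb.supp i hi v hv
      rw [abs_le] at this
      simpa using this
    have hp : p₀ ≤ k + L := (hp₀ k hk).trans (Nat.le_add_right _ _)
    have hone : ∀ i ∈ I k, ‖pairing (2 ^ p₀) (κ k i) φ‖ ≤ ‖pairing (2 ^ (k + L)) (κ k i) φ‖ +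
        ∑ p ∈ Finset.Ico p₀ (k + L), ‖∑' b, haarC p (κ k i) b * haarC p φ b‖ := by
      intro i hi
      rw [calderon (κ k i) φ (hfin i hi) p₀ (k + L) hp]
      exact (norm_add_le _ _).trans (by gcongr; exact norm_sum_le _ _)
    calc ∑ i ∈ I k, ‖pairing (2 ^ p₀) (κ k i) φ‖
        ≤ ∑ i ∈ I k, (‖pairing (2 ^ (k + L)) (κ k i) φ‖ +
            ∑ p ∈ Finset.Ico p₀ (k + L), ‖∑' b, haarC p (κ k i) b * haarC p φ b‖) :=
          sum_le_sum hone
      _ = ∑ i ∈ I k, ‖pairing (2 ^ (k + L)) (κ k i) φ‖ +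
            ∑ p ∈ Finset.Ico p₀ (k + L), D k p := by
          rw [sum_add_distrib]
          congr 1
          rw [sum_comm]
      _ ≤ 378 * c₂ * m / 2 ^ L + ∑ p ∈ Finset.Ico p₀ (k + L), D k p := by
          gcongr
          have := hb.pairing_rem (by positivity) hc₂ (2 ^ L)
            (by calc 4 = 2 ^ 2 := rfl
                  _ ≤ 2 ^ L := Nat.pow_le_pow_right (by norm_num) hL)
            (2 ^ (k + L)) (pow_add 2 k L) φ m hm0 hm
          simpa using this
  -- split levels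
  have hsplit : ∀ k ∈ Ks, ∑ p ∈ Finset.Ico p₀ (k + L), D k p =
      ∑ p ∈ Finset.Ico p₀ (k + 1), D k p + ∑ p ∈ Finset.Ico (k + 1) (k + L), D k p := by
    intro k hk
    rw [Finset.sum_Ico_consecutive _ (by have := hp₀ k hk; omega) (by omega)]
  -- fine part
  have hfine : ∑ k ∈ Ks, ∑ p ∈ Finset.Ico p₀ (k + 1), D k p ≤
      Real.sqrt (∑ k ∈ Ks, A k) * ∑ l ∈ range q, rho ^ l * Z l := by
    have h1 : ∀ k ∈ Ks, ∑ p ∈ Finset.Ico p₀ (k + 1), D k p ≤
        ∑ l ∈ range q, if p₀ + l ≤ k then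
          (Real.sqrt (A k) * rho ^ l) * Real.sqrt (zq (l + 2) (k - l) φ) else 0 := by
      intro k hk
      have hkq : k < q := by have := hq k hk; omega
      rw [← Finset.sum_filter]
      have : ∑ p ∈ Finset.Ico p₀ (k + 1), D k p =
          ∑ l ∈ (range q).filter (fun l => p₀ + l ≤ k), D k (k - l) := by
        symm
        refine Finset.sum_nbij' (fun l => k - l) (fun p => k - p) ?_ ?_ ?_ ?_ ?_
        · intro l hl
          simp only [Finset.mem_filter, mem_range] at hl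
          simp only [Finset.mem_Ico]
          omega
        · intro p hp
          simp only [Finset.mem_Ico] at hp
          simp only [Finset.mem_filter, mem_range]
          omega
        · intro l hl
          simp only [Finset.mem_filter, mem_range] at hl
          omega
        · intro p hp
          simp only [Finset.mem_Ico] at hp
          omega
        · intro l _
          rfl
      rw [this]
      apply sum_le_sum
      intro l hl
      simp only [Finset.mem_filter, mem_range] at hl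
      have hkl : k - l + l = k := by omega
      have hb : BlockHyp (2 ^ (k - l + l)) (I k) (κ k) (J k) c₂ c₃ := by
        rw [hkl]; exact hblock k hk
      exact fine_level_dyadic (k - l) l hb φ
    calc ∑ k ∈ Ks, ∑ p ∈ Finset.Ico p₀ (k + 1), D k p
        ≤ ∑ k ∈ Ks, ∑ l ∈ range q, (if p₀ + l ≤ k then
            (Real.sqrt (A k) * rho ^ l) * Real.sqrt (zq (l + 2) (k - l) φ) else 0) :=
          sum_le_sum h1
      _ = ∑ l ∈ range q, ∑ k ∈ Ks, (if p₀ + l ≤ k then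
            (Real.sqrt (A k) * rho ^ l) * Real.sqrt (zq (l + 2) (k - l) φ) else 0) := sum_comm
      _ ≤ ∑ l ∈ range q, Real.sqrt (∑ k ∈ Ks, A k) * (rho ^ l * Z l) := by
          apply sum_le_sum
          intro l _
          rw [← Finset.sum_filter]
          have e : ∀ k ∈ Ks.filter (fun k => p₀ + l ≤ k),
              (Real.sqrt (A k) * rho ^ l) * Real.sqrt (zq (l + 2) (k - l) φ) =
              rho ^ l * (Real.sqrt (A k) * Real.sqrt (zq (l + 2) (k - l) φ)) := by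
            intro k _; ring
          rw [Finset.sum_congr rfl e, ← mul_sum]
          have hcs := Real.sum_sqrt_mul_sqrt_le (Ks.filter (fun k => p₀ + l ≤ k))
            (f := A) (g := fun k => zq (l + 2) (k - l) φ) hA0 (fun k => zq_nonneg _ _ _)
          have hsub : ∑ k ∈ Ks.filter (fun k => p₀ + l ≤ k), zq (l + 2) (k - l) φ ≤
              sqf (l + 2) (Finset.Ico p₀ q) φ := by
            unfold sqf
            have hinj : Set.InjOn (fun k => k - l) (Ks.filter (fun k => p₀ + l ≤ k) : Finset ℕ) := by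
              intro a ha b hb hab
              simp only [Finset.coe_filter, Set.mem_ofPred_eq] at ha hb
              simp only at hab
              omega
            rw [← Finset.sum_image (f := fun p => zq (l + 2) p φ) hinj]
            apply Finset.sum_le_sum_of_subset_of_nonneg
            · intro p hp
              rw [Finset.mem_image] at hp
              obtain ⟨k, hk, rfl⟩ := hp
              rw [Finset.mem_filter] at hk
              have := hq k hk.1
              rw [Finset.mem_Ico]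
              omega
            · intro p _ _
              exact zq_nonneg _ _ _
          have hA1 : ∑ k ∈ Ks.filter (fun k => p₀ + l ≤ k), A k ≤ ∑ k ∈ Ks, A k :=
            Finset.sum_le_sum_of_subset_of_nonneg (Finset.filter_subset _ _)
              (fun k _ _ => hA0 k)
          calc rho ^ l * ∑ k ∈ Ks.filter (fun k => p₀ + l ≤ k),
                (Real.sqrt (A k) * Real.sqrt (zq (l + 2) (k - l) φ))
              ≤ rho ^ l * (Real.sqrt (∑ k ∈ Ks, A k) * Z l) := by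
                apply mul_le_mul_of_nonneg_left _ (pow_nonneg rho_nonneg l)
                refine hcs.trans ?_
                apply mul_le_mul (Real.sqrt_le_sqrt hA1) (Real.sqrt_le_sqrt hsub)
                  (Real.sqrt_nonneg _) (Real.sqrt_nonneg _)
            _ = Real.sqrt (∑ k ∈ Ks, A k) * (rho ^ l * Z l) := by ring
      _ = Real.sqrt (∑ k ∈ Ks, A k) * ∑ l ∈ range q, rho ^ l * Z l := by
          rw [mul_sum]
  -- coarse part
  have hcoarse : ∑ k ∈ Ks, ∑ p ∈ Finset.Ico (k + 1) (k + L), D k p ≤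
      240 * c₂ * Real.sqrt Ks.card * Z 0 := by
    have h1 : ∀ k ∈ Ks, ∑ p ∈ Finset.Ico (k + 1) (k + L), D k p ≤
        ∑ j ∈ Finset.Ico 1 L, (60 * c₂ * rho ^ j) * Real.sqrt (zq 2 (k + j) φ) := by
      intro k hk
      have : ∑ p ∈ Finset.Ico (k + 1) (k + L), D k p = ∑ j ∈ Finset.Ico 1 L, D k (k + j) := by
        symm
        refine Finset.sum_nbij' (fun j => k + j) (fun p => p - k) ?_ ?_ ?_ ?_ ?_
        · intro j hj
          simp only [Finset.mem_Ico] at hj ⊢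
          omega
        · intro p hp
          simp only [Finset.mem_Ico] at hp ⊢
          omega
        · intro j _
          simp
        · intro p hp
          simp only [Finset.mem_Ico] at hp
          omega
        · intro j _
          rfl
      rw [this]
      apply sum_le_sum
      intro j _
      exact coarse_level_dyadic hc₂ k j (hblock k hk) φ
    calc ∑ k ∈ Ks, ∑ p ∈ Finset.Ico (k + 1) (k + L), D k p
        ≤ ∑ k ∈ Ks, ∑ j ∈ Finset.Ico 1 L, (60 * c₂ * rho ^ j) * Real.sqrt (zq 2 (k + j) φ) :=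
          sum_le_sum h1
      _ = ∑ j ∈ Finset.Ico 1 L, (60 * c₂ * rho ^ j) * ∑ k ∈ Ks, Real.sqrt (zq 2 (k + j) φ) := by
          rw [sum_comm]
          simp only [mul_sum]
      _ ≤ ∑ j ∈ Finset.Ico 1 L, (60 * c₂ * rho ^ j) * (Real.sqrt Ks.card * Z 0) := by
          apply sum_le_sum
          intro j hj
          have hj' := Finset.mem_Ico.mp hj
          apply mul_le_mul_of_nonneg_left _ (by have := rho_nonneg; positivity)
          have hcs := Real.sum_sqrt_mul_sqrt_le Ks (f := fun _ => (1 : ℝ))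
            (g := fun k => zq 2 (k + j) φ) (fun _ => zero_le_one) (fun k => zq_nonneg _ _ _)
          simp only [Real.sqrt_one, one_mul, sum_const, nsmul_eq_mul, mul_one] at hcs
          refine hcs.trans ?_
          apply mul_le_mul_of_nonneg_left _ (Real.sqrt_nonneg _)
          apply Real.sqrt_le_sqrt
          unfold sqf
          have hinj : Set.InjOn (fun k => k + j) (Ks : Finset ℕ) := by
            intro a _ b _ hab
            simp only at hab
            omega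
          rw [← Finset.sum_image (f := fun p => zq 2 p φ) hinj]
          apply Finset.sum_le_sum_of_subset_of_nonneg
          · intro p hp
            rw [Finset.mem_image] at hp
            obtain ⟨k, hk, rfl⟩ := hp
            have h3 := hq k hk
            have h4 := hp₀ k hk
            rw [Finset.mem_Ico]
            omega
          · intro p _ _
            exact zq_nonneg _ _ _
      _ = (∑ j ∈ Finset.Ico 1 L, rho ^ j) * (60 * c₂ * (Real.sqrt Ks.card * Z 0)) := by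
          rw [sum_mul]
          apply sum_congr rfl
          intro j _
          ring
      _ ≤ 4 * (60 * c₂ * (Real.sqrt Ks.card * Z 0)) := by
          apply mul_le_mul_of_nonneg_right (sum_rho_pow_le L)
          have := hZ0 0
          positivity
      _ = 240 * c₂ * Real.sqrt Ks.card * Z 0 := by ring
  -- assemble
  have hAsum : ∑ k ∈ Ks, A k = 8 * (∑ k ∈ Ks, ((J k).card : ℝ)) * c₂ ^ 2 + 9 * c₃ ^ 2 * Ks.card := by
    simp only [hA, sum_add_distrib, sum_const, nsmul_eq_mul, ← sum_mul, ← mul_sum]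
    ring
  have hZsum : Ks.Nonempty → Z 0 ≤ ∑ l ∈ range q, rho ^ l * Z l := by
    rintro ⟨k, hk⟩
    have hq0 : 0 < q := by have := hq k hk; omega
    have := Finset.single_le_sum (f := fun l => rho ^ l * Z l) (s := range q)
      (fun l _ => mul_nonneg (pow_nonneg rho_nonneg l) (hZ0 l)) (mem_range.mpr hq0)
    simpa using this
  have hsum0 : 0 ≤ ∑ l ∈ range q, rho ^ l * Z l :=
    sum_nonneg fun l _ => mul_nonneg (pow_nonneg rho_nonneg l) (hZ0 l)
  have hcoarse2 : ∑ k ∈ Ks, ∑ p ∈ Finset.Ico (k + 1) (k + L), D k p ≤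
      240 * c₂ * Real.sqrt Ks.card * ∑ l ∈ range q, rho ^ l * Z l := by
    by_cases hne : Ks.Nonempty
    · refine hcoarse.trans ?_
      apply mul_le_mul_of_nonneg_left (hZsum hne)
      positivity
    · rw [Finset.not_nonempty_iff_eq_empty] at hne
      simp only [hne, sum_empty]
      simp
  calc ∑ k ∈ Ks, ∑ i ∈ I k, ‖pairing (2 ^ p₀) (κ k i) φ‖
      ≤ ∑ k ∈ Ks, (378 * c₂ * m / 2 ^ L + (∑ p ∈ Finset.Ico p₀ (k + 1), D k p +
          ∑ p ∈ Finset.Ico (k + 1) (k + L), D k p)) := by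
        apply sum_le_sum
        intro k hk
        rw [← hsplit k hk]
        exact hblock1 k hk
    _ = Ks.card * (378 * c₂ * m / 2 ^ L) + (∑ k ∈ Ks, ∑ p ∈ Finset.Ico p₀ (k + 1), D k p +
          ∑ k ∈ Ks, ∑ p ∈ Finset.Ico (k + 1) (k + L), D k p) := by
        rw [sum_add_distrib, sum_add_distrib]
        simp
    _ ≤ Ks.card * (378 * c₂ * m / 2 ^ L) +
          (Real.sqrt (∑ k ∈ Ks, A k) * (∑ l ∈ range q, rho ^ l * Z l) +
            240 * c₂ * Real.sqrt Ks.card * ∑ l ∈ range q, rho ^ l * Z l) := by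
        gcongr
    _ = _ := by
        rw [hAsum]
        ring


/-- Version with `p₀ = 0`: the true pairing `∑' v, κ v * φ v`. -/
theorem block_sum_bound₀ (Ks : Finset ℕ) (I : ℕ → Finset β) (κ : ℕ → β → ℤ → ℂ)
    (J : ℕ → Finset ℤ) (c₂ c₃ : ℝ) (hc₂ : 0 ≤ c₂)
    (hblock : ∀ k ∈ Ks, BlockHyp (2 ^ k) (I k) (κ k) (J k) c₂ c₃)
    (φ : ℤ → ℂ) (m : ℝ) (hm0 : 0 ≤ m)
    (hm : ∀ T : ℕ, ∑ t ∈ Finset.Icc (-(T : ℤ)) T, ‖φ t‖ ≤ m * (2 * T + 1))
    (L q : ℕ) (hL : 2 ≤ L) (hq : ∀ k ∈ Ks, k + L ≤ q) :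
    ∑ k ∈ Ks, ∑ i ∈ I k, ‖∑' v, κ k i v * φ v‖ ≤
      (Real.sqrt (8 * (∑ k ∈ Ks, ((J k).card : ℝ)) * c₂ ^ 2 + 9 * c₃ ^ 2 * Ks.card) +
          240 * c₂ * Real.sqrt Ks.card) *
        (∑ l ∈ range q, rho ^ l * Real.sqrt (sqf (l + 2) (Finset.Ico 0 q) φ)) +
      378 * c₂ * m * Ks.card / 2 ^ L := by
  have := block_sum_bound Ks I κ J c₂ c₃ hc₂ hblock φ m hm0 hm 0 L q hL
    (fun _ _ => Nat.zero_le _) hq
  simpa only [pow_zero, pairing_one] using this

lemma sum_range_eight (φ : ℤ → ℂ) (c : ℤ) (s : ℕ) :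
    ∑ j ∈ range (s * 8), φ ((8 * c + (j : ℤ)) / 8) = 8 * ∑ i ∈ range s, φ (c + i) := by
  induction s with
  | zero => simp
  | succ s ih =>
    rw [Nat.succ_mul, Finset.sum_range_add, ih, Finset.sum_range_succ (fun i : ℕ => φ (c + i)) s]
    have : ∀ x ∈ range 8, φ ((8 * c + ((s * 8 + x : ℕ) : ℤ)) / 8) = φ (c + s) := by
      intro x hx
      have hx' := mem_range.mp hx
      congr 1
      push_cast
      omega
    rw [Finset.sum_congr rfl this]
    simp only [sum_const, card_range, nsmul_eq_mul]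
    push_cast
    ring

/-- The lifting used to reach the levels `p < 3`: `φ̃ T = φ (T / 8)`. -/
lemma zq_rescale (n p : ℕ) (φ : ℤ → ℂ) :
    zq n p φ ≤ 8 * zq n (p + 3) (fun T => φ (T / 8)) := by
  have hav : ∀ c : ℤ, avgF (2 ^ (p + 3)) (fun T => φ (T / 8)) (8 * c) = avgF (2 ^ p) φ c := by
    intro c
    unfold avgF
    have e : (2 : ℕ) ^ (p + 3) = 2 ^ p * 8 := by ring
    rw [e, sum_range_eight]
    push_cast
    have h2 : ((2 : ℂ) ^ p) ≠ 0 := pow_ne_zero _ two_ne_zero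
    field_simp
  have hh : ∀ b : ℤ, haarC (p + 3) (fun T => φ (T / 8)) (8 * b) = haarC p φ b := by
    intro b
    unfold haarC haarS
    have e : 8 * b - ((2 ^ (p + 3) : ℕ) : ℤ) = 8 * (b - ((2 ^ p : ℕ) : ℤ)) := by
      push_cast; ring
    rw [e, hav, hav]
  unfold zq
  have hsum : ∑ b ∈ Finset.Icc (-(2 : ℤ) ^ (p + n)) ((2 : ℤ) ^ (p + n)), ‖haarC p φ b‖ ^ 2 ≤
      ∑ B ∈ Finset.Icc (-(2 : ℤ) ^ (p + 3 + n)) ((2 : ℤ) ^ (p + 3 + n)),
        ‖haarC (p + 3) (fun T => φ (T / 8)) B‖ ^ 2 := by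
    have hinj : Set.InjOn (fun b : ℤ => 8 * b)
        (Finset.Icc (-(2 : ℤ) ^ (p + n)) ((2 : ℤ) ^ (p + n)) : Finset ℤ) := by
      intro a _ b _ hab
      simp only at hab
      omega
    have : ∑ b ∈ Finset.Icc (-(2 : ℤ) ^ (p + n)) ((2 : ℤ) ^ (p + n)), ‖haarC p φ b‖ ^ 2 =
        ∑ B ∈ (Finset.Icc (-(2 : ℤ) ^ (p + n)) ((2 : ℤ) ^ (p + n))).image (fun b : ℤ => 8 * b),
          ‖haarC (p + 3) (fun T => φ (T / 8)) B‖ ^ 2 := by
      rw [Finset.sum_image hinj]
      apply sum_congr rfl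
      intro b _
      rw [hh]
    rw [this]
    apply Finset.sum_le_sum_of_subset_of_nonneg
    · intro B hB
      rw [Finset.mem_image] at hB
      obtain ⟨b, hb, rfl⟩ := hB
      rw [Finset.mem_Icc] at hb ⊢
      have e : (2 : ℤ) ^ (p + 3 + n) = 8 * 2 ^ (p + n) := by ring
      rw [e]
      omega
    · intro B _ _
      positivity
  have e2 : (2 : ℝ) ^ (p + 3 + n) = 8 * 2 ^ (p + n) := by ring
  rw [e2]
  have h2 : (0 : ℝ) < 2 ^ (p + n) := by positivity
  calc ((2 : ℝ) ^ (p + n))⁻¹ * ∑ b ∈ Finset.Icc (-(2 : ℤ) ^ (p + n)) ((2 : ℤ) ^ (p + n)),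
        ‖haarC p φ b‖ ^ 2
      ≤ ((2 : ℝ) ^ (p + n))⁻¹ * ∑ B ∈ Finset.Icc (-(2 : ℤ) ^ (p + 3 + n)) ((2 : ℤ) ^ (p + 3 + n)),
        ‖haarC (p + 3) (fun T => φ (T / 8)) B‖ ^ 2 := by
        gcongr
    _ = _ := by
        field_simp

/-- Square function version of `zq_rescale`. -/
lemma sqf_rescale (n q : ℕ) (φ : ℤ → ℂ) :
    sqf n (Finset.Ico 0 q) φ ≤ 8 * sqf n (Finset.Ico 3 (q + 3)) (fun T => φ (T / 8)) := by
  unfold sqf
  rw [mul_sum]
  have : ∑ p ∈ Finset.Ico 3 (q + 3), 8 * zq n p (fun T => φ (T / 8)) =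
      ∑ p ∈ Finset.Ico 0 q, 8 * zq n (p + 3) (fun T => φ (T / 8)) := by
    symm
    refine Finset.sum_nbij' (fun p => p + 3) (fun p => p - 3) ?_ ?_ ?_ ?_ ?_
    · intro p hp
      simp only [Finset.mem_Ico] at hp ⊢
      omega
    · intro p hp
      simp only [Finset.mem_Ico] at hp ⊢
      omega
    · intro p _
      simp
    · intro p hp
      simp only [Finset.mem_Ico] at hp
      show p - 3 + 3 = p
      omega
    · intro p _
      rfl
  rw [this]
  exact sum_le_sum fun p _ => zq_rescale n p φ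

end Main

/-! ### Cut-off kernels -/

section Cut

/-- The kernel `1_{α ≤ |v| < β} / v`. -/
noncomputable def cutK (α β : ℤ) (v : ℤ) : ℂ :=
  if α ≤ |v| ∧ |v| < β then ((v : ℂ))⁻¹ else 0

lemma cutK_neg (α β v : ℤ) : cutK α β (-v) = - cutK α β v := by
  unfold cutK
  rw [abs_neg]
  split_ifs
  · push_cast
    rw [inv_neg]
  · simp

lemma sum_Icc_odd (R : ℤ) (f : ℤ → ℂ) (hf : ∀ v, f (-v) = - f v) :
    ∑ v ∈ Finset.Icc (-R) R, f v = 0 := by
  have h : ∑ v ∈ Finset.Icc (-R) R, f v = ∑ v ∈ Finset.Icc (-R) R, f (-v) := by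
    refine Finset.sum_nbij' (fun v => -v) (fun v => -v) ?_ ?_ ?_ ?_ ?_
    · intro v hv
      rw [Finset.mem_Icc] at hv ⊢
      omega
    · intro v hv
      rw [Finset.mem_Icc] at hv ⊢
      omega
    · intro v _
      simp
    · intro v _
      simp
    · intro v _
      simp
  simp only [hf, sum_neg_distrib] at h
  have h2 : (2 : ℂ) * ∑ v ∈ Finset.Icc (-R) R, f v = 0 := by
    rw [two_mul]
    nth_rewrite 1 [h]
    simp
  simpa using h2

variable {ι : Type*}

/-- A family of pairwise disjoint cut-offs inside the dyadic block `[K, 2K]` satisfies `BlockHyp`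
with `c₂ = c₃ = 1` and at most four jumps per piece. -/
theorem partial_blockHyp [DecidableEq ι] (K : ℕ) (hK : 0 < K) (I : Finset ι) (lo hi : ι → ℤ)
    (hlo : ∀ i ∈ I, (K : ℤ) ≤ lo i) (hhi : ∀ i ∈ I, hi i ≤ 2 * (K : ℤ))
    (hdisj : ∀ i ∈ I, ∀ i' ∈ I, i ≠ i' → hi i ≤ lo i' ∨ hi i' ≤ lo i) :
    BlockHyp K I (fun i => cutK (lo i) (hi i))
      (I.biUnion fun i => {lo i, hi i, -hi i + 1, -lo i + 1}) 1 1 := by
  have hKR : (0 : ℝ) < K := by exact_mod_cast hK
  have hKZ : (0 : ℤ) < K := by exact_mod_cast hK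
  have hact : ∀ i v, cutK (lo i) (hi i) v ≠ 0 → lo i ≤ |v| ∧ |v| < hi i := by
    intro i v h
    unfold cutK at h
    by_contra hc
    simp [hc] at h
  have hcut : ∀ i v, lo i ≤ |v| ∧ |v| < hi i → cutK (lo i) (hi i) v = ((v : ℂ))⁻¹ := by
    intro i v h
    unfold cutK
    rw [if_pos h]
  have hcut0 : ∀ i v, ¬ (lo i ≤ |v| ∧ |v| < hi i) → cutK (lo i) (hi i) v = 0 := by
    intro i v h
    unfold cutK
    rw [if_neg h]
  -- at most one active piece
  have huniq : ∀ i ∈ I, ∀ i' ∈ I, ∀ v, lo i ≤ |v| ∧ |v| < hi i → lo i' ≤ |v| ∧ |v| < hi i' →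
      i = i' := by
    intro i hi' i' hi'' v h1 h2
    by_contra hne
    rcases hdisj i hi' i' hi'' hne with h | h <;> omega
  refine ⟨?_, ?_, ?_, ?_⟩
  · intro i hiI v hv
    have := hact i v hv
    have h2 := hhi i hiI
    omega
  · intro i _
    exact sum_Icc_odd _ _ (cutK_neg _ _)
  · intro v
    by_cases hv : ∃ i ∈ I, lo i ≤ |v| ∧ |v| < hi i
    · obtain ⟨i, hiI, hiv⟩ := hv
      have hsum : ∑ j ∈ I, ‖cutK (lo j) (hi j) v‖ = ‖cutK (lo i) (hi i) v‖ := by
        apply Finset.sum_eq_single_of_mem i hiI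
        intro j hj hne
        rw [hcut0 j v]
        · simp
        · intro hjv
          exact hne (huniq j hj i hiI v hjv hiv)
      rw [hsum, hcut i v hiv, norm_inv, Complex.norm_intCast]
      have h1 := hlo i hiI
      have h3 : (K : ℤ) ≤ |v| := by omega
      have h4 : (K : ℝ) ≤ |(v : ℝ)| := by exact_mod_cast h3
      rw [one_div]
      exact inv_anti₀ hKR h4
    · push Not at hv
      have : ∑ j ∈ I, ‖cutK (lo j) (hi j) v‖ = 0 := by
        apply sum_eq_zero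
        intro j hj
        rw [hcut0 j v]
        · simp
        · intro ⟨h1, h2⟩
          have := hv j hj h1
          omega
      rw [this]
      positivity
  · intro u u' huu' hjump
    have hact_eq : ∀ i ∈ I, ((lo i ≤ |u| ∧ |u| < hi i) ↔ (lo i ≤ |u'| ∧ |u'| < hi i)) ∧
        ((lo i ≤ |u| ∧ |u| < hi i) → (0 < u ∧ 0 < u') ∨ (u < 0 ∧ u' < 0)) := by
      intro i hiI
      have hl := hlo i hiI
      have hj := hjump
      have j1 : ¬ (u < lo i ∧ lo i ≤ u') := hj (lo i) (by simp [Finset.mem_biUnion]; exact ⟨i, hiI, by simp⟩)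
      have j2 : ¬ (u < hi i ∧ hi i ≤ u') := hj (hi i) (by simp [Finset.mem_biUnion]; exact ⟨i, hiI, by simp⟩)
      have j3 : ¬ (u < -hi i + 1 ∧ -hi i + 1 ≤ u') :=
        hj (-hi i + 1) (by simp [Finset.mem_biUnion]; exact ⟨i, hiI, by simp⟩)
      have j4 : ¬ (u < -lo i + 1 ∧ -lo i + 1 ≤ u') :=
        hj (-lo i + 1) (by simp [Finset.mem_biUnion]; exact ⟨i, hiI, by simp⟩)
      constructor
      · constructor
        · intro ⟨h1, h2⟩
          rcases abs_cases u with ⟨hu1, hu2⟩ | ⟨hu1, hu2⟩ <;>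
            rcases abs_cases u' with ⟨hu3, hu4⟩ | ⟨hu3, hu4⟩ <;> omega
        · intro ⟨h1, h2⟩
          rcases abs_cases u with ⟨hu1, hu2⟩ | ⟨hu1, hu2⟩ <;>
            rcases abs_cases u' with ⟨hu3, hu4⟩ | ⟨hu3, hu4⟩ <;> omega
      · intro ⟨h1, h2⟩
        rcases abs_cases u with ⟨hu1, hu2⟩ | ⟨hu1, hu2⟩ <;>
          rcases abs_cases u' with ⟨hu3, hu4⟩ | ⟨hu3, hu4⟩ <;> omega
    have hdiff : (0 : ℝ) ≤ ((u' - u : ℤ) : ℝ) := by
      have : (0 : ℤ) ≤ u' - u := by omega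
      exact_mod_cast this
    by_cases hv : ∃ i ∈ I, lo i ≤ |u| ∧ |u| < hi i
    · obtain ⟨i, hiI, hiv⟩ := hv
      have hsum : ∑ j ∈ I, ‖cutK (lo j) (hi j) u' - cutK (lo j) (hi j) u‖ =
          ‖cutK (lo i) (hi i) u' - cutK (lo i) (hi i) u‖ := by
        apply Finset.sum_eq_single_of_mem i hiI
        intro j hj hne
        have h1 : ¬ (lo j ≤ |u| ∧ |u| < hi j) := fun hjv => hne (huniq j hj i hiI u hjv hiv)
        have h2 : ¬ (lo j ≤ |u'| ∧ |u'| < hi j) := fun hjv => h1 ((hact_eq j hj).1.2 hjv)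
        rw [hcut0 j u h1, hcut0 j u' h2]
        simp
      rw [hsum]
      have hiv' := (hact_eq i hiI).1.1 hiv
      rw [hcut i u hiv, hcut i u' hiv']
      have hl := hlo i hiI
      have hu : (K : ℤ) ≤ |u| := by omega
      have hu' : (K : ℤ) ≤ |u'| := by omega
      have huR : (K : ℝ) ≤ |(u : ℝ)| := by exact_mod_cast hu
      have hu'R : (K : ℝ) ≤ |(u' : ℝ)| := by exact_mod_cast hu'
      have hun : (u : ℝ) ≠ 0 := by
        intro h0
        rw [h0, abs_zero] at huR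
        linarith
      have hun' : (u' : ℝ) ≠ 0 := by
        intro h0
        rw [h0, abs_zero] at hu'R
        linarith
      have e : ((u' : ℂ))⁻¹ - ((u : ℂ))⁻¹ = (((u : ℝ) - u') / ((u' : ℝ) * u) : ℝ) := by
        have hunC : (u : ℂ) ≠ 0 := by exact_mod_cast hun
        have hunC' : (u' : ℂ) ≠ 0 := by exact_mod_cast hun'
        push_cast
        field_simp
      rw [e, Complex.norm_real, Real.norm_eq_abs, abs_div, abs_mul, one_mul]
      have e2 : |(u : ℝ) - u'| = ((u' - u : ℤ) : ℝ) := by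
        push_cast
        rw [abs_sub_comm]
        apply abs_of_nonneg
        have : (0 : ℤ) ≤ u' - u := by omega
        exact_mod_cast this
      rw [e2]
      apply div_le_div_of_nonneg_left hdiff (by positivity)
      rw [sq]
      exact mul_le_mul hu'R huR hKR.le (abs_nonneg _)
    · push Not at hv
      have : ∑ j ∈ I, ‖cutK (lo j) (hi j) u' - cutK (lo j) (hi j) u‖ = 0 := by
        apply sum_eq_zero
        intro j hj
        have h1 : ¬ (lo j ≤ |u| ∧ |u| < hi j) := by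
          intro ⟨h1, h2⟩
          have := hv j hj h1
          omega
        have h2 : ¬ (lo j ≤ |u'| ∧ |u'| < hi j) := fun hjv => h1 ((hact_eq j hj).1.2 hjv)
        rw [hcut0 j u h1, hcut0 j u' h2]
        simp
      rw [this]
      positivity

end Cut

end Crest.Agent.TriRL.Cal
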