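/-
S0096, helper84's blueprint L8 (helper92): the anisotropic square function on `ℤ²`, in the form of
helper18's `Cal.sqf`.
-/
import Crest.Agent.TriRL.AnisoCyc
import Crest.Agent.TriRL.Calderon

set_option autoImplicit false
set_option linter.unusedSectionVars false

namespace Crest.Agent.TriRL.Aniso

open Crest.Agent.TriRL.BoxChain

section lift

variable {N : ℕ} [NeZero N]

/-- Sum over `ZMod N` of a function with small support, in any monoid. -/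
lemma sum_valMinAbs' {M : Type*} [AddCommMonoid M] (f : ℤ → M) (S : Finset ℤ)
    (hS : ∀ s ∈ S, 2 * |s| < N) (hf : ∀ t, t ∉ S → f t = 0) :
    ∑ x : ZMod N, f x.valMinAbs = ∑ s ∈ S, f s := by
  classical
  have hinj : Set.InjOn (fun s : ℤ => (s : ZMod N)) S := by
    intro s hs s' hs' h
    have h1 := valMinAbs_cast (N := N) (hS s hs)
    have h2 := valMinAbs_cast (N := N) (hS s' hs')
    simp only at h
    rw [← h1, ← h2, h]
  have h1 : ∑ s ∈ S, f s = ∑ x ∈ S.image (fun s : ℤ => (s : ZMod N)), f x.valMinAbs := by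
    rw [Finset.sum_image hinj]
    refine Finset.sum_congr rfl fun s hs => ?_
    rw [valMinAbs_cast (hS s hs)]
  rw [h1]
  symm
  apply Finset.sum_subset (Finset.subset_univ _)
  intro x _ hx
  apply hf
  intro hmem
  apply hx
  rw [Finset.mem_image]
  exact ⟨_, hmem, ZMod.coe_valMinAbs x⟩

lemma haarZ_eq_zero_of_not {τ : ℕ} {t : ℤ} (h : ¬ (-(τ : ℤ) ≤ t ∧ t < τ)) : haarZ τ t = 0 := by
  unfold haarZ
  rw [if_neg, if_neg]
  · rintro ⟨h1, h2⟩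
    exact h ⟨h1, by omega⟩
  · rintro ⟨h1, h2⟩
    exact h ⟨by omega, h2⟩

lemma haarZ_eq_zero {τ : ℕ} {t : ℤ} (h : ((τ + 1 : ℕ) : ℤ) ≤ |t|) : haarZ τ t = 0 := by
  apply haarZ_eq_zero_of_not
  rintro ⟨h1, h2⟩
  have : |t| ≤ τ := abs_le.mpr ⟨h1, h2.le⟩
  push_cast at h
  omega

/-- The Haar coefficient of helper18 is the pairing with `haarZ`. -/
lemma haarS_eq_sum (τ : ℕ) (hτ : 0 < τ) (φ : ℤ → ℂ) (b : ℤ) :
    Cal.haarS τ φ b = ∑ t ∈ Finset.Ico (b - τ) (b + τ), φ t * ((haarZ τ (t - b) : ℝ) : ℂ) := by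
  have hτ' : (τ : ℂ) ≠ 0 := by exact_mod_cast hτ.ne'
  have hτZ : (0 : ℤ) < τ := by exact_mod_cast hτ
  have e : Finset.Ico (b - τ) (b + τ) = Finset.Ico (b - τ) (b - τ + τ) ∪ Finset.Ico b (b + τ) := by
    rw [sub_add_cancel, Finset.Ico_union_Ico_eq_Ico (by omega) (by omega)]
  have hd : Disjoint (Finset.Ico (b - τ) (b - τ + τ)) (Finset.Ico b (b + τ)) := by
    rw [sub_add_cancel]
    exact Finset.Ico_disjoint_Ico_consecutive _ _ _
  rw [e, Finset.sum_union hd]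
  have e1 : ∑ t ∈ Finset.Ico (b - τ) (b - τ + τ), φ t * ((haarZ τ (t - b) : ℝ) : ℂ) =
      ∑ t ∈ Finset.Ico (b - τ) (b - τ + τ), φ t * ((-1 / (2 * τ) : ℝ) : ℂ) := by
    refine Finset.sum_congr rfl fun t ht => ?_
    rw [Finset.mem_Ico] at ht
    congr 2
    unfold haarZ
    rw [if_neg (by omega), if_pos (by constructor <;> omega)]
  have e2 : ∑ t ∈ Finset.Ico b (b + τ), φ t * ((haarZ τ (t - b) : ℝ) : ℂ) =
      ∑ t ∈ Finset.Ico b (b + τ), φ t * ((1 / (2 * τ) : ℝ) : ℂ) := by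
    refine Finset.sum_congr rfl fun t ht => ?_
    rw [Finset.mem_Ico] at ht
    congr 2
    unfold haarZ
    rw [if_pos (by constructor <;> omega)]
  rw [e1, e2, ← Finset.sum_mul, ← Finset.sum_mul, ← Cal.sum_range_eq_Ico, ← Cal.sum_range_eq_Ico]
  unfold Cal.haarS Cal.avgF
  push_cast
  field_simp
  ring

/-- The lift of `g` to the first matrix. -/
noncomputable def Fg (g : ℤ × ℤ → ℂ) : Matrix (ZMod N) (ZMod N) ℂ :=
  fun u v => g (-u.valMinAbs, u.valMinAbs + v.valMinAbs)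

/-- The lift of `f` to the second matrix. -/
noncomputable def Ff (f : ℤ × ℤ → ℂ) : Matrix (ZMod N) (ZMod N) ℂ :=
  fun u v => f (u.valMinAbs + v.valMinAbs, -v.valMinAbs)

/-- The Haar coefficients of the pair on `ZMod N` are those of `φ_z`. -/
lemma aCo_lift (f g : ℤ × ℤ → ℂ) (z : ℤ × ℤ) {τ : ℕ} (hτ : 0 < τ) (b : ℤ) (h1 : 2 * |z.1| < N)
    (h2 : 2 * |z.2| < N) (h3 : 2 * (((τ + 1 : ℕ) : ℤ) + |z.1 + z.2 + b|) < N) :
    aCo (Fg g) (Ff f) τ (b : ZMod N) ((-z.1 : ℤ) : ZMod N) ((-z.2 : ℤ) : ZMod N) =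
      Cal.haarS τ (fun m => f (z.1 + m, z.2) * g (z.1, z.2 + m)) b := by
  set φ : ℤ → ℂ := fun m => f (z.1 + m, z.2) * g (z.1, z.2 + m) with hφ
  set c : ℤ := z.1 + z.2 with hc
  have hx : (((-z.1 : ℤ) : ZMod N)).valMinAbs = -z.1 := valMinAbs_cast (by rwa [abs_neg])
  have hy : (((-z.2 : ℤ) : ZMod N)).valMinAbs = -z.2 := valMinAbs_cast (by rwa [abs_neg])
  rw [haarS_eq_sum τ hτ φ b]
  have e1 : ∑ t ∈ Finset.Ico (b - τ) (b + τ), φ t * ((haarZ τ (t - b) : ℝ) : ℂ) =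
      ∑ t ∈ Finset.Ico (b - τ + c) (b + τ + c), φ (t - c) * ((haarZ τ (t - c - b) : ℝ) : ℂ) := by
    rw [← Finset.sum_Ico_add' (fun t => φ (t - c) * ((haarZ τ (t - c - b) : ℝ) : ℂ)) (b - τ) (b + τ) c]
    simp
  rw [e1]
  unfold aCo
  rw [← sum_valMinAbs' (N := N) (fun t => φ (t - c) * ((haarZ τ (t - c - b) : ℝ) : ℂ))
    (Finset.Ico (b - τ + c) (b + τ + c))]
  · refine Finset.sum_congr rfl fun x1 _ => ?_
    have hcast : x1 + ((-z.1 : ℤ) : ZMod N) + ((-z.2 : ℤ) : ZMod N) - (b : ZMod N) =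
        x1 - ((c + b : ℤ) : ZMod N) := by
      rw [hc]
      push_cast
      ring
    have hZ : haarG N τ (x1 + ((-z.1 : ℤ) : ZMod N) + ((-z.2 : ℤ) : ZMod N) - (b : ZMod N)) =
        haarZ τ (x1.valMinAbs - c - b) := by
      unfold haarG
      rw [hcast, comp_valMinAbs_sub (haarZ τ) (R := τ + 1) (fun t ht => haarZ_eq_zero ht) x1 (c + b) h3]
      congr 1
      ring
    rw [hZ]
    simp only [Fg, Ff, hx, hy, hφ, neg_neg]
    have e2 : z.1 + (x1.valMinAbs - c) = x1.valMinAbs + -z.2 := by rw [hc]; ring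
    have e3 : z.2 + (x1.valMinAbs - c) = -z.1 + x1.valMinAbs := by rw [hc]; ring
    rw [e2, e3]
    ring
  · intro s hs
    rw [Finset.mem_Ico] at hs
    have h4 : |s - (c + b)| ≤ τ := abs_le.mpr ⟨by omega, by omega⟩
    have h5 : |s| ≤ |s - (c + b)| + |c + b| := by
      have := abs_add_le (s - (c + b)) (c + b)
      rwa [sub_add_cancel] at this
    push_cast at h3
    have h6 := abs_nonneg (c + b)
    omega
  · intro t ht
    have : haarZ τ (t - c - b) = 0 := by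
      apply haarZ_eq_zero_of_not
      rintro ⟨h5, h6⟩
      apply ht
      rw [Finset.mem_Ico]
      omega
    simp [this]

/-- The aperture square function of `φ_z` is the square function of the pair on `ZMod N`. -/
lemma sqf_eq_Asq (f g : ℤ × ℤ → ℂ) (z : ℤ × ℤ) (n k I : ℕ) (h1 : 2 * |z.1| < N) (h2 : 2 * |z.2| < N)
    (h3 : 2 * (2 * (2 : ℤ) ^ (n + k + I + 2) + 1 + |z.1 + z.2|) < N) :
    Cal.sqf n (Finset.Ico (k + 2) (k + 2 + I)) (fun m => f (z.1 + m, z.2) * g (z.1, z.2 + m)) =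
      Asq (Fg g) (Ff f) (2 ^ k) (n + 1) I ((-z.1 : ℤ) : ZMod N) ((-z.2 : ℤ) : ZMod N) := by
  unfold Cal.sqf Asq
  rw [Finset.sum_Ico_eq_sum_range, Nat.add_sub_cancel_left]
  refine Finset.sum_congr rfl fun i hi => ?_
  have hi' : i < I := Finset.mem_range.mp hi
  unfold Cal.zq lev
  have hR : Rr (2 ^ k) (n + 1) i = 2 ^ (k + 2 + i + n) := by
    unfold Rr qq
    ring
  have hτ : 4 * qq (2 ^ k) i = 2 ^ (k + 2 + i) := by
    unfold qq
    ring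
  rw [hR, hτ]
  push_cast
  congr 1
  refine Finset.sum_congr rfl fun s hs => ?_
  rw [Finset.mem_Icc] at hs
  have hs' : |s| ≤ 2 ^ (k + 2 + i + n) := abs_le.mpr hs
  have hT1 : (2 : ℤ) ^ (k + 2 + i + n) ≤ 2 ^ (n + k + I + 2) :=
    pow_le_pow_right₀ (by norm_num) (by omega)
  have hT2 : (2 : ℤ) ^ (k + 2 + i) ≤ 2 ^ (n + k + I + 2) :=
    pow_le_pow_right₀ (by norm_num) (by omega)
  have h5 : |z.1 + z.2 + s| ≤ |z.1 + z.2| + |s| := abs_add_le _ _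
  have h6 := aCo_lift f g z (τ := 2 ^ (k + 2 + i)) (by positivity) s h1 h2 (by push_cast; linarith)
  push_cast at h6
  rw [h6]
  rfl

end lift

lemma haarC_zero (p : ℕ) (b : ℤ) : Cal.haarC p (fun _ => 0) b = 0 := by
  simp [Cal.haarC, Cal.haarS, Cal.avgF]

lemma sqf_zero (n : ℕ) (P : Finset ℕ) : Cal.sqf n P (fun _ => 0) = 0 := by
  unfold Cal.sqf Cal.zq
  simp [haarC_zero]

/-- A bound for the support. -/
lemma exists_bound (f g : ℤ × ℤ → ℂ) (hf : (Function.support f).Finite)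
    (hg : (Function.support g).Finite) :
    ∃ L : ℕ, (∀ z, f z ≠ 0 → |z.1| ≤ L ∧ |z.2| ≤ L) ∧ (∀ z, g z ≠ 0 → |z.1| ≤ L ∧ |z.2| ≤ L) := by
  classical
  refine ⟨(hf.toFinset ∪ hg.toFinset).sup (fun z => z.1.natAbs + z.2.natAbs), ?_, ?_⟩
  · intro z hz
    have h : z.1.natAbs + z.2.natAbs ≤ (hf.toFinset ∪ hg.toFinset).sup (fun z => z.1.natAbs + z.2.natAbs) :=
      Finset.le_sup (f := fun z : ℤ × ℤ => z.1.natAbs + z.2.natAbs)
        (Finset.mem_union_left _ (hf.mem_toFinset.mpr hz))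
    constructor <;> rw [Int.abs_eq_natAbs] <;> omega
  · intro z hz
    have h : z.1.natAbs + z.2.natAbs ≤ (hf.toFinset ∪ hg.toFinset).sup (fun z => z.1.natAbs + z.2.natAbs) :=
      Finset.le_sup (f := fun z : ℤ × ℤ => z.1.natAbs + z.2.natAbs)
        (Finset.mem_union_right _ (hg.mem_toFinset.mpr hz))
    constructor <;> rw [Int.abs_eq_natAbs] <;> omega

lemma phi_eq_zero {f g : ℤ × ℤ → ℂ} {L : ℕ} (hf : ∀ z, f z ≠ 0 → |z.1| ≤ L ∧ |z.2| ≤ L)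
    (hg : ∀ z, g z ≠ 0 → |z.1| ≤ L ∧ |z.2| ≤ L) {z : ℤ × ℤ}
    (hz : z ∉ Finset.Icc (-(L : ℤ)) L ×ˢ Finset.Icc (-(L : ℤ)) L) :
    (fun m => f (z.1 + m, z.2) * g (z.1, z.2 + m)) = fun _ => 0 := by
  funext m
  by_contra hne
  apply hz
  have h1 := (hf _ (left_ne_zero_of_mul hne)).2
  have h2 := (hg _ (right_ne_zero_of_mul hne)).1
  simp only at h1 h2
  rw [Finset.mem_product, Finset.mem_Icc, Finset.mem_Icc]
  exact ⟨abs_le.mp h2, abs_le.mp h1⟩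

/-- **The constant of L8.** -/
noncomputable def CA : ℝ := 4 * CA0

lemma CA_nonneg : 0 ≤ CA := by
  have := CA0_nonneg
  unfold CA
  positivity

/-- Summability of the left hand side of L8. -/
theorem summable_sqf (f g : ℤ × ℤ → ℂ) (hf : (Function.support f).Finite)
    (hg : (Function.support g).Finite) (n : ℕ) (P : Finset ℕ) :
    Summable fun z : ℤ × ℤ =>
      (Cal.sqf n P (fun m => f (z.1 + m, z.2) * g (z.1, z.2 + m))) ^ (3 / 4 : ℝ) := by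
  obtain ⟨L, hfL, hgL⟩ := exists_bound f g hf hg
  apply summable_of_ne_finset_zero (s := Finset.Icc (-(L : ℤ)) L ×ˢ Finset.Icc (-(L : ℤ)) L)
  intro z hz
  rw [phi_eq_zero hfL hgL hz, sqf_zero, Real.zero_rpow (by norm_num)]

lemma sum_cube_le (h : ℤ × ℤ → ℂ) (hh : (Function.support h).Finite) {α : Type*} [Fintype α]
    (ψ : α → ℤ × ℤ) (hψ : Function.Injective ψ) :
    ∑ w, ‖h (ψ w)‖ ^ 3 ≤ ∑' z, ‖h z‖ ^ 3 := by
  have hs : Summable fun z => ‖h z‖ ^ 3 := by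
    apply summable_of_ne_finset_zero (s := hh.toFinset)
    intro z hz
    have : h z = 0 := by
      by_contra hne
      exact hz (hh.mem_toFinset.mpr hne)
    simp [this]
  have := tsum_comp_le_tsum_of_inj hs (fun z => by positivity) hψ
  rwa [tsum_fintype] at this

/-- **L8: the anisotropic square function.** -/
theorem sqf_aniso (f g : ℤ × ℤ → ℂ) (hf : (Function.support f).Finite)
    (hg : (Function.support g).Finite) (n p₀ p₁ : ℕ) (hp₀ : 2 ≤ p₀) :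
    ∑' z : ℤ × ℤ, (Cal.sqf n (Finset.Ico p₀ p₁) (fun m => f (z.1 + m, z.2) * g (z.1, z.2 + m))) ^ (3 / 4 : ℝ) ≤
      CA * ((2 : ℝ) ^ n) ^ (3 / 8 : ℝ) * (∑' z, ‖f z‖ ^ 3) ^ (1 / 2 : ℝ) * (∑' z, ‖g z‖ ^ 3) ^ (1 / 2 : ℝ) := by
  classical
  obtain ⟨k, rfl⟩ : ∃ k, p₀ = k + 2 := ⟨p₀ - 2, by omega⟩
  set I := p₁ - (k + 2) with hI
  have hIco : Finset.Ico (k + 2) p₁ = Finset.Ico (k + 2) (k + 2 + I) := by
    rcases le_total (k + 2) p₁ with h | h
    · have : k + 2 + I = p₁ := by omega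
      rw [this]
    · rw [Finset.Ico_eq_empty (by omega), Finset.Ico_eq_empty (by omega)]
  rw [hIco]
  obtain ⟨L, hfL, hgL⟩ := exists_bound f g hf hg
  set T : ℕ := 2 ^ (n + k + I + 2) with hT
  set N : ℕ := 256 * T + 8 * L + 8 with hN
  haveI : NeZero N := ⟨by omega⟩
  have hT1 : 1 ≤ T := Nat.one_le_two_pow
  have hfit : Fits N (2 ^ k) (n + 1 + 1) I := by
    unfold Fits qq
    have : 2 ^ (n + 1 + 1 + 4) * (2 ^ I * 2 ^ k) = 16 * T := by
      rw [hT]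
      ring
    rw [this]
    omega
  set B := Finset.Icc (-(L : ℤ)) L ×ˢ Finset.Icc (-(L : ℤ)) L with hB
  set ψ : ℤ × ℤ → ZMod N × ZMod N := fun z => (((-z.1 : ℤ) : ZMod N), ((-z.2 : ℤ) : ZMod N)) with hψ
  have hNZ : (N : ℤ) = 256 * (2 : ℤ) ^ (n + k + I + 2) + 8 * L + 8 := by
    rw [hN, hT]
    push_cast
    ring
  have hsmall : ∀ z ∈ B, 2 * |z.1| < N ∧ 2 * |z.2| < N ∧
      2 * (2 * (2 : ℤ) ^ (n + k + I + 2) + 1 + |z.1 + z.2|) < N := by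
    intro z hz
    rw [hB, Finset.mem_product, Finset.mem_Icc, Finset.mem_Icc] at hz
    have h1 : |z.1| ≤ L := abs_le.mpr hz.1
    have h2 : |z.2| ≤ L := abs_le.mpr hz.2
    have h3 : |z.1 + z.2| ≤ |z.1| + |z.2| := abs_add_le _ _
    have h4 : (0 : ℤ) < (2 : ℤ) ^ (n + k + I + 2) := by positivity
    refine ⟨by omega, by omega, by omega⟩
  have hinj : Set.InjOn ψ B := by
    intro z hz z' hz' hzz
    have h1 := hsmall z hz
    have h2 := hsmall z' hz'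
    simp only [hψ, Prod.mk.injEq] at hzz
    have e1 : -z.1 = -z'.1 := by
      rw [← valMinAbs_cast (N := N) (t := -z.1) (by rw [abs_neg]; exact h1.1),
        ← valMinAbs_cast (N := N) (t := -z'.1) (by rw [abs_neg]; exact h2.1), hzz.1]
    have e2 : -z.2 = -z'.2 := by
      rw [← valMinAbs_cast (N := N) (t := -z.2) (by rw [abs_neg]; exact h1.2.1),
        ← valMinAbs_cast (N := N) (t := -z'.2) (by rw [abs_neg]; exact h2.2.1), hzz.2]
    exact Prod.ext (by linarith) (by linarith)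
  have hA0 : ∀ w : ZMod N × ZMod N,
      0 ≤ Asq (Fg g) (Ff f) (2 ^ k) (n + 1) I w.1 w.2 ^ (3 / 4 : ℝ) :=
    fun w => Real.rpow_nonneg (Asq_nonneg _ _ _ _ _ _ _) _
  have hstep1 : ∑' z : ℤ × ℤ, (Cal.sqf n (Finset.Ico (k + 2) (k + 2 + I))
      (fun m => f (z.1 + m, z.2) * g (z.1, z.2 + m))) ^ (3 / 4 : ℝ) ≤
      ∑ x : ZMod N, ∑ y : ZMod N, Asq (Fg g) (Ff f) (2 ^ k) (n + 1) I x y ^ (3 / 4 : ℝ) := by
    rw [tsum_eq_sum (s := B) (fun z hz => by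
      rw [phi_eq_zero hfL hgL hz, sqf_zero, Real.zero_rpow (by norm_num)])]
    rw [← Fintype.sum_prod_type' (f := fun x y => Asq (Fg g) (Ff f) (2 ^ k) (n + 1) I x y ^ (3 / 4 : ℝ))]
    calc ∑ z ∈ B, (Cal.sqf n (Finset.Ico (k + 2) (k + 2 + I))
          (fun m => f (z.1 + m, z.2) * g (z.1, z.2 + m))) ^ (3 / 4 : ℝ)
        = ∑ z ∈ B, Asq (Fg g) (Ff f) (2 ^ k) (n + 1) I (ψ z).1 (ψ z).2 ^ (3 / 4 : ℝ) := by
          refine Finset.sum_congr rfl fun z hz => ?_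
          obtain ⟨h1, h2, h3⟩ := hsmall z hz
          rw [sqf_eq_Asq f g z n k I h1 h2 h3]
      _ = ∑ w ∈ B.image ψ, Asq (Fg g) (Ff f) (2 ^ k) (n + 1) I w.1 w.2 ^ (3 / 4 : ℝ) := by
          rw [Finset.sum_image hinj]
      _ ≤ _ := Finset.sum_le_sum_of_subset_of_nonneg (Finset.subset_univ _) fun w _ _ => hA0 w
  have hval : ∀ {u u' : ZMod N}, u.valMinAbs = u'.valMinAbs → u = u' := by
    intro u u' h
    rw [← ZMod.coe_valMinAbs u, ← ZMod.coe_valMinAbs u', h]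
  have hS0 : ∑ x : ZMod N, ∑ y : ZMod N, ‖Fg g x y‖ ^ 3 ≤ ∑' z, ‖g z‖ ^ 3 := by
    have := sum_cube_le g hg (α := ZMod N × ZMod N)
      (fun w => (-w.1.valMinAbs, w.1.valMinAbs + w.2.valMinAbs)) (by
        rintro ⟨u, v⟩ ⟨u', v'⟩ h
        simp only [Prod.mk.injEq, neg_inj] at h
        have h1 := h.1
        have h2 := h.2
        rw [h1] at h2
        have h3 := add_left_cancel h2
        rw [hval h1, hval h3])
    rw [Fintype.sum_prod_type] at this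
    exact this
  have hS1 : ∑ x : ZMod N, ∑ y : ZMod N, ‖Ff f x y‖ ^ 3 ≤ ∑' z, ‖f z‖ ^ 3 := by
    have := sum_cube_le f hf (α := ZMod N × ZMod N)
      (fun w => (w.1.valMinAbs + w.2.valMinAbs, -w.2.valMinAbs)) (by
        rintro ⟨u, v⟩ ⟨u', v'⟩ h
        simp only [Prod.mk.injEq, neg_inj] at h
        have h1 := h.2
        have h2 := h.1
        rw [h1] at h2
        have h3 := add_right_cancel h2
        rw [hval h1, hval h3])
    rw [Fintype.sum_prod_type] at this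
    exact this
  have hS0n : 0 ≤ ∑ x : ZMod N, ∑ y : ZMod N, ‖Fg g x y‖ ^ 3 :=
    Finset.sum_nonneg fun x _ => Finset.sum_nonneg fun y _ => by positivity
  have hS1n : 0 ≤ ∑ x : ZMod N, ∑ y : ZMod N, ‖Ff f x y‖ ^ 3 :=
    Finset.sum_nonneg fun x _ => Finset.sum_nonneg fun y _ => by positivity
  have hmain := Asq_rpow_le (Fg g) (Ff f) (q := 2 ^ k) (l := n + 1) (I := I) (by positivity) hfit
  refine hstep1.trans (hmain.trans ?_)
  have hC := CA0_nonneg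
  have hTf : 0 ≤ (∑' z, ‖f z‖ ^ 3) ^ (1 / 2 : ℝ) := Real.rpow_nonneg (hS1n.trans hS1) _
  have hTg : 0 ≤ (∑' z, ‖g z‖ ^ 3) ^ (1 / 2 : ℝ) := Real.rpow_nonneg (hS0n.trans hS0) _
  have h1 := Real.rpow_le_rpow hS0n hS0 (by norm_num : (0 : ℝ) ≤ 1 / 2)
  have h2 := Real.rpow_le_rpow hS1n hS1 (by norm_num : (0 : ℝ) ≤ 1 / 2)
  have h3 : ((2 : ℝ) ^ (n + 1)) ^ (3 / 8 : ℝ) ≤ 2 * ((2 : ℝ) ^ n) ^ (3 / 8 : ℝ) := by
    rw [pow_succ, Real.mul_rpow (by positivity) (by norm_num), mul_comm]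
    apply mul_le_mul_of_nonneg_right _ (by positivity)
    calc (2 : ℝ) ^ (3 / 8 : ℝ) ≤ 2 ^ (1 : ℝ) :=
          Real.rpow_le_rpow_of_exponent_le (by norm_num) (by norm_num)
      _ = 2 := by norm_num
  have h4 : 0 ≤ ((2 : ℝ) ^ n) ^ (3 / 8 : ℝ) := by positivity
  have h5 : 0 ≤ (∑ x : ZMod N, ∑ y : ZMod N, ‖Fg g x y‖ ^ 3) ^ (1 / 2 : ℝ) := Real.rpow_nonneg hS0n _
  have h6 : 0 ≤ (∑ x : ZMod N, ∑ y : ZMod N, ‖Ff f x y‖ ^ 3) ^ (1 / 2 : ℝ) := Real.rpow_nonneg hS1n _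
  calc 2 * CA0 * ((2 : ℝ) ^ (n + 1)) ^ (3 / 8 : ℝ) * (∑ x : ZMod N, ∑ y : ZMod N, ‖Fg g x y‖ ^ 3) ^ (1 / 2 : ℝ) *
        (∑ x : ZMod N, ∑ y : ZMod N, ‖Ff f x y‖ ^ 3) ^ (1 / 2 : ℝ)
      ≤ 2 * CA0 * (2 * ((2 : ℝ) ^ n) ^ (3 / 8 : ℝ)) * (∑' z, ‖g z‖ ^ 3) ^ (1 / 2 : ℝ) *
        (∑' z, ‖f z‖ ^ 3) ^ (1 / 2 : ℝ) := by
        gcongr
    _ = _ := by
        unfold CA
        ring

end Crest.Agent.TriRL.Aniso
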