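import Crest.Agent.TriRL.Defs

/-!
# The kernel of the box-window forms (real line triangular Hilbert transform, S0096)

`R s = (s₊)²/2`, `Cc s = (s₊)³/6`.  `Phi w` is the sixth central difference of `R` with step `1/2`, with the
sign of `(2 - S - S⁻¹)³`; `A` is its primitive with `A 0 = 0`, `A = c0 = -1/8` for `|w| ≥ 3/2`.
Everything is elementary algebra.
-/

namespace Crest.Agent.TriRL.KernelProfile

/-- `s₊²/2` -/
noncomputable def R (s : ℝ) : ℝ := (max s 0) ^ 2 / 2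
/-- `s₊³/6` -/
noncomputable def Cc (s : ℝ) : ℝ := (max s 0) ^ 3 / 6

lemma R_of_nonneg {s : ℝ} (h : 0 ≤ s) : R s = s ^ 2 / 2 := by simp [R, max_eq_left h]
lemma R_of_nonpos {s : ℝ} (h : s ≤ 0) : R s = 0 := by simp [R, max_eq_right h]
lemma Cc_of_nonneg {s : ℝ} (h : 0 ≤ s) : Cc s = s ^ 3 / 6 := by simp [Cc, max_eq_left h]
lemma Cc_of_nonpos {s : ℝ} (h : s ≤ 0) : Cc s = 0 := by simp [Cc, max_eq_right h]

lemma R_nonneg (s : ℝ) : 0 ≤ R s := by unfold R; positivity

/-- `R` is Lipschitz on bounded sets -/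
lemma R_lip {x y : ℝ} (hx : |x| ≤ 5) (hy : |y| ≤ 5) : |R y - R x| ≤ 5 * |y - x| := by
  have hx' := abs_le.mp hx
  have hy' := abs_le.mp hy
  rcases le_total 0 x with h0 | h0 <;> rcases le_total 0 y with h1 | h1
  · rw [R_of_nonneg h0, R_of_nonneg h1]
    have : y ^ 2 / 2 - x ^ 2 / 2 = (y - x) * ((x + y) / 2) := by ring
    rw [this, abs_mul, abs_of_nonneg (by linarith : 0 ≤ (x + y) / 2), mul_comm]
    exact mul_le_mul_of_nonneg_right (by linarith) (abs_nonneg _)
  · rw [R_of_nonneg h0, R_of_nonpos h1]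
    have h2 : |y - x| = x - y := by rw [abs_of_nonpos (by linarith)]; ring
    rw [h2, sub_eq_add_neg, zero_add, abs_neg, abs_of_nonneg (by positivity)]
    nlinarith
  · rw [R_of_nonpos h0, R_of_nonneg h1]
    have h2 : |y - x| = y - x := abs_of_nonneg (by linarith)
    rw [h2, sub_zero, abs_of_nonneg (by positivity)]
    nlinarith
  · rw [R_of_nonpos h0, R_of_nonpos h1]
    simp only [sub_self, abs_zero]
    positivity

/-- Taylor for `Cc`. -/
lemma Cc_taylor {x y : ℝ} (hx : |x| ≤ 5) (hy : |y| ≤ 5) :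
    |Cc y - Cc x - R x * (y - x)| ≤ 5 * (y - x) ^ 2 := by
  have hx' := abs_le.mp hx
  have hy' := abs_le.mp hy
  rcases le_total 0 x with h0 | h0 <;> rcases le_total 0 y with h1 | h1
  · rw [Cc_of_nonneg h0, Cc_of_nonneg h1, R_of_nonneg h0]
    have : y ^ 3 / 6 - x ^ 3 / 6 - x ^ 2 / 2 * (y - x) = (y - x) ^ 2 * ((y + 2 * x) / 6) := by ring
    rw [this, abs_mul, abs_of_nonneg (by positivity), abs_of_nonneg (by positivity), mul_comm]
    exact mul_le_mul_of_nonneg_right (by linarith) (by positivity)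
  · rw [Cc_of_nonneg h0, Cc_of_nonpos h1, R_of_nonneg h0]
    have : 0 - x ^ 3 / 6 - x ^ 2 / 2 * (y - x) = x ^ 2 * ((2 * x - 3 * y) / 6) := by ring
    rw [this, abs_mul, abs_of_nonneg (by positivity), abs_of_nonneg (by
      have : 0 ≤ 2 * x - 3 * y := by linarith
      positivity)]
    have h2 : x ^ 2 ≤ (y - x) ^ 2 := by nlinarith
    have h3 : (2 * x - 3 * y) / 6 ≤ 5 := by linarith
    have h4 : 0 ≤ (2 * x - 3 * y) / 6 := by
      have : 0 ≤ 2 * x - 3 * y := by linarith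
      positivity
    calc x ^ 2 * ((2 * x - 3 * y) / 6) ≤ (y - x) ^ 2 * 5 :=
          mul_le_mul h2 h3 h4 (by positivity)
      _ = 5 * (y - x) ^ 2 := by ring
  · rw [Cc_of_nonpos h0, Cc_of_nonneg h1, R_of_nonpos h0]
    have : y ^ 3 / 6 - 0 - 0 * (y - x) = y ^ 2 * (y / 6) := by ring
    rw [this, abs_mul, abs_of_nonneg (by positivity), abs_of_nonneg (by positivity)]
    have h2 : y ^ 2 ≤ (y - x) ^ 2 := by nlinarith
    have h3 : y / 6 ≤ 5 := by linarith
    calc y ^ 2 * (y / 6) ≤ (y - x) ^ 2 * 5 := mul_le_mul h2 h3 (by positivity) (by positivity)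
      _ = 5 * (y - x) ^ 2 := by ring
  · rw [Cc_of_nonpos h0, Cc_of_nonpos h1, R_of_nonpos h0]
    simp only [sub_self, zero_mul, abs_zero]
    positivity

/-- the profile `Φ` -/
noncomputable def Phi (w : ℝ) : ℝ :=
  - R (w + 3 / 2) + 6 * R (w + 1) - 15 * R (w + 1 / 2) + 20 * R w - 15 * R (w - 1 / 2)
    + 6 * R (w - 1) - R (w - 3 / 2)

/-- the primitive of `Φ` vanishing at `0` -/
noncomputable def A (w : ℝ) : ℝ :=
  - Cc (w + 3 / 2) + 6 * Cc (w + 1) - 15 * Cc (w + 1 / 2) + 20 * Cc w - 15 * Cc (w - 1 / 2)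
    + 6 * Cc (w - 1) - Cc (w - 3 / 2) - 1 / 8

/-- the constant of the Hilbert kernel -/
noncomputable def c0 : ℝ := -1 / 8

lemma Phi_eq_zero_of_ge {w : ℝ} (h : 3 / 2 ≤ w) : Phi w = 0 := by
  unfold Phi
  rw [R_of_nonneg (by linarith), R_of_nonneg (by linarith), R_of_nonneg (by linarith),
    R_of_nonneg (by linarith), R_of_nonneg (by linarith), R_of_nonneg (by linarith),
    R_of_nonneg (by linarith)]
  ring

lemma Phi_eq_zero_of_le {w : ℝ} (h : w ≤ -3 / 2) : Phi w = 0 := by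
  unfold Phi
  rw [R_of_nonpos (by linarith), R_of_nonpos (by linarith), R_of_nonpos (by linarith),
    R_of_nonpos (by linarith), R_of_nonpos (by linarith), R_of_nonpos (by linarith),
    R_of_nonpos (by linarith)]
  ring

lemma Phi_eq_zero {w : ℝ} (h : 3 / 2 ≤ |w|) : Phi w = 0 := by
  rcases le_abs.mp h with h | h
  · exact Phi_eq_zero_of_ge h
  · exact Phi_eq_zero_of_le (by linarith)

lemma A_eq_of_ge {w : ℝ} (h : 3 / 2 ≤ w) : A w = c0 := by
  unfold A c0
  rw [Cc_of_nonneg (by linarith), Cc_of_nonneg (by linarith), Cc_of_nonneg (by linarith),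
    Cc_of_nonneg (by linarith), Cc_of_nonneg (by linarith), Cc_of_nonneg (by linarith),
    Cc_of_nonneg (by linarith)]
  ring

lemma A_eq_of_le {w : ℝ} (h : w ≤ -3 / 2) : A w = c0 := by
  unfold A c0
  rw [Cc_of_nonpos (by linarith), Cc_of_nonpos (by linarith), Cc_of_nonpos (by linarith),
    Cc_of_nonpos (by linarith), Cc_of_nonpos (by linarith), Cc_of_nonpos (by linarith),
    Cc_of_nonpos (by linarith)]
  ring

lemma A_eq {w : ℝ} (h : 3 / 2 ≤ |w|) : A w = c0 := by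
  rcases le_abs.mp h with h | h
  · exact A_eq_of_ge h
  · exact A_eq_of_le (by linarith)

lemma R_add_R_neg (s : ℝ) : R s + R (-s) = s ^ 2 / 2 := by
  rcases le_total 0 s with h | h
  · rw [R_of_nonneg h, R_of_nonpos (by linarith)]; ring
  · rw [R_of_nonpos h, R_of_nonneg (by linarith)]; ring

lemma Cc_sub_Cc_neg (s : ℝ) : Cc s - Cc (-s) = s ^ 3 / 6 := by
  rcases le_total 0 s with h | h
  · rw [Cc_of_nonneg h, Cc_of_nonpos (by linarith)]; ring
  · rw [Cc_of_nonpos h, Cc_of_nonneg (by linarith)]; ring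

/-- `Φ` is odd -/
lemma Phi_neg (w : ℝ) : Phi (-w) = - Phi w := by
  have h1 := R_add_R_neg (w + 3 / 2)
  have h2 := R_add_R_neg (w + 1)
  have h3 := R_add_R_neg (w + 1 / 2)
  have h4 := R_add_R_neg w
  have h5 := R_add_R_neg (w - 1 / 2)
  have h6 := R_add_R_neg (w - 1)
  have h7 := R_add_R_neg (w - 3 / 2)
  have e1 : -(w + 3 / 2) = -w - 3 / 2 := by ring
  have e2 : -(w + 1) = -w - 1 := by ring
  have e3 : -(w + 1 / 2) = -w - 1 / 2 := by ring
  have e5 : -(w - 1 / 2) = -w + 1 / 2 := by ring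
  have e6 : -(w - 1) = -w + 1 := by ring
  have e7 : -(w - 3 / 2) = -w + 3 / 2 := by ring
  rw [e1] at h1; rw [e2] at h2; rw [e3] at h3; rw [e5] at h5; rw [e6] at h6; rw [e7] at h7
  unfold Phi
  nlinarith

/-- `A` is even -/
lemma A_neg (w : ℝ) : A (-w) = A w := by
  have h1 := Cc_sub_Cc_neg (w + 3 / 2)
  have h2 := Cc_sub_Cc_neg (w + 1)
  have h3 := Cc_sub_Cc_neg (w + 1 / 2)
  have h4 := Cc_sub_Cc_neg w
  have h5 := Cc_sub_Cc_neg (w - 1 / 2)
  have h6 := Cc_sub_Cc_neg (w - 1)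
  have h7 := Cc_sub_Cc_neg (w - 3 / 2)
  have e1 : -(w + 3 / 2) = -w - 3 / 2 := by ring
  have e2 : -(w + 1) = -w - 1 := by ring
  have e3 : -(w + 1 / 2) = -w - 1 / 2 := by ring
  have e5 : -(w - 1 / 2) = -w + 1 / 2 := by ring
  have e6 : -(w - 1) = -w + 1 := by ring
  have e7 : -(w - 3 / 2) = -w + 3 / 2 := by ring
  rw [e1] at h1; rw [e2] at h2; rw [e3] at h3; rw [e5] at h5; rw [e6] at h6; rw [e7] at h7
  unfold A
  nlinarith

lemma A_zero : A 0 = 0 := by
  unfold A
  rw [Cc_of_nonneg (by norm_num), Cc_of_nonneg (by norm_num), Cc_of_nonneg (by norm_num),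
    Cc_of_nonneg (by norm_num), Cc_of_nonpos (by norm_num), Cc_of_nonpos (by norm_num),
    Cc_of_nonpos (by norm_num)]
  norm_num

lemma Phi_zero : Phi 0 = 0 := by
  have := Phi_neg 0
  simp only [neg_zero] at this
  linarith

/-- `Φ` is Lipschitz on `[-3,3]`. -/
lemma Phi_lip {x y : ℝ} (hx : |x| ≤ 3) (hy : |y| ≤ 3) : |Phi y - Phi x| ≤ 320 * |y - x| := by
  have hx' := abs_le.mp hx
  have hy' := abs_le.mp hy
  have bd : ∀ c : ℝ, |c| ≤ 3 / 2 → |R (y + c) - R (x + c)| ≤ 5 * |y - x| := by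
    intro c hc
    have hc' := abs_le.mp hc
    have := R_lip (x := x + c) (y := y + c) (abs_le.mpr ⟨by linarith, by linarith⟩)
      (abs_le.mpr ⟨by linarith, by linarith⟩)
    simpa using this
  have b1 := abs_le.mp (bd (3 / 2) (by norm_num [abs_of_pos]))
  have b2 := abs_le.mp (bd 1 (by norm_num))
  have b3 := abs_le.mp (bd (1 / 2) (by norm_num [abs_of_pos]))
  have b4 := abs_le.mp (bd 0 (by norm_num))
  have b5 := abs_le.mp (bd (-(1 / 2)) (by norm_num [abs_of_pos]))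
  have b6 := abs_le.mp (bd (-1) (by norm_num))
  have b7 := abs_le.mp (bd (-(3 / 2)) (by norm_num [abs_of_pos]))
  simp only [add_zero, ← sub_eq_add_neg] at b4 b5 b6 b7
  unfold Phi
  rw [abs_le]
  constructor <;> linarith [b1.1, b1.2, b2.1, b2.2, b3.1, b3.2, b4.1, b4.2, b5.1, b5.2, b6.1, b6.2,
    b7.1, b7.2, abs_nonneg (y - x)]

/-- `|Φ w| ≤ 320 |w|` -/
lemma abs_Phi_le (w : ℝ) : |Phi w| ≤ 320 * |w| := by
  by_cases h : 3 / 2 ≤ |w|
  · rw [Phi_eq_zero h, abs_zero]; positivity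
  · have h1 : |w| ≤ 3 := by
      have := not_le.mp h
      linarith
    have := Phi_lip (x := 0) (y := w) (by norm_num) h1
    simpa [Phi_zero] using this

/-- `Φ` is bounded -/
lemma abs_Phi_le_const (w : ℝ) : |Phi w| ≤ 480 := by
  by_cases h : 3 / 2 ≤ |w|
  · rw [Phi_eq_zero h, abs_zero]; norm_num
  · have h := not_le.mp h
    have := abs_Phi_le w
    linarith

/-- Taylor expansion of `A`. -/
lemma A_taylor {x y : ℝ} (hx : |x| ≤ 3) (hy : |y| ≤ 3) :
    |A y - A x - Phi x * (y - x)| ≤ 320 * (y - x) ^ 2 := by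
  have hx' := abs_le.mp hx
  have hy' := abs_le.mp hy
  have bd : ∀ c : ℝ, |c| ≤ 3 / 2 →
      |Cc (y + c) - Cc (x + c) - R (x + c) * (y - x)| ≤ 5 * (y - x) ^ 2 := by
    intro c hc
    have hc' := abs_le.mp hc
    have := Cc_taylor (x := x + c) (y := y + c) (abs_le.mpr ⟨by linarith, by linarith⟩)
      (abs_le.mpr ⟨by linarith, by linarith⟩)
    simpa using this
  have b1 := abs_le.mp (bd (3 / 2) (by norm_num [abs_of_pos]))
  have b2 := abs_le.mp (bd 1 (by norm_num))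
  have b3 := abs_le.mp (bd (1 / 2) (by norm_num [abs_of_pos]))
  have b4 := abs_le.mp (bd 0 (by norm_num))
  have b5 := abs_le.mp (bd (-(1 / 2)) (by norm_num [abs_of_pos]))
  have b6 := abs_le.mp (bd (-1) (by norm_num))
  have b7 := abs_le.mp (bd (-(3 / 2)) (by norm_num [abs_of_pos]))
  simp only [add_zero, ← sub_eq_add_neg] at b4 b5 b6 b7
  unfold A Phi
  rw [abs_le]
  constructor <;> nlinarith [b1.1, b1.2, b2.1, b2.2, b3.1, b3.2, b4.1, b4.2, b5.1, b5.2, b6.1, b6.2,
    b7.1, b7.2, sq_nonneg (y - x)]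

/-- `|A w| ≤ 320 w²` (for `|w| ≤ 3`), and `|A| ≤ 2880` always. -/
lemma abs_A_le {w : ℝ} (h : |w| ≤ 3) : |A w| ≤ 320 * w ^ 2 := by
  have := A_taylor (x := 0) (y := w) (by norm_num) h
  simpa [A_zero, Phi_zero] using this

lemma abs_A_le_const (w : ℝ) : |A w| ≤ 2880 := by
  by_cases h : 3 / 2 ≤ |w|
  · rw [A_eq h]; norm_num [c0, abs_of_neg]
  · have h := not_le.mp h
    have h1 : |w| ≤ 3 := by linarith
    have := abs_A_le h1
    have h2 : w ^ 2 ≤ 9 := by
      have := sq_abs w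
      nlinarith [abs_nonneg w]
    linarith

/-! ### One step of the Riemann sum -/

/-- One step of the Riemann sum for `∫ r⁻² Φ(v/r) dr = A(v/r)/v`. -/
lemma riemann_step {v r d : ℝ} (hv : v ≠ 0) (hr : 0 < r) (hd : 0 < d) (hdr : d ≤ r) :
    |(A (v / r) - A (v / (r + d))) / v - d / r ^ 2 * Phi (v / r)| ≤ 1440 * d ^ 2 / r ^ 3 := by
  have hrd : 0 < r + d := by linarith
  set x := v / r with hx
  set y := v / (r + d) with hy
  have hxy : |y| ≤ |x| := by
    rw [hx, hy, abs_div, abs_div, abs_of_pos hr, abs_of_pos hrd]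
    exact div_le_div_of_nonneg_left (abs_nonneg v) hr (by linarith)
  by_cases hlarge : 3 / 2 ≤ |y|
  · have h1 : 3 / 2 ≤ |x| := le_trans hlarge hxy
    rw [A_eq h1, A_eq hlarge, Phi_eq_zero h1]
    simp only [sub_self, zero_div, mul_zero, abs_zero]
    positivity
  · have hlarge := not_le.mp hlarge
    have hxle : |x| ≤ 3 := by
      have e : x = y * ((r + d) / r) := by
        rw [hx, hy]; field_simp
      rw [e, abs_mul, abs_of_pos (by positivity : 0 < (r + d) / r)]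
      have h2 : (r + d) / r ≤ 2 := by
        rw [div_le_iff₀ hr]; linarith
      have h3 : 0 ≤ |y| := abs_nonneg y
      nlinarith
    have hyle : |y| ≤ 3 := by linarith
    have ht := A_taylor hxle hyle
    have hdiff : x - y = v * d / (r * (r + d)) := by
      rw [hx, hy]; field_simp; ring
    set T := A y - A x - Phi x * (y - x) with hT
    have e1 : (A x - A y) / v - d / r ^ 2 * Phi x =
        - T / v - Phi x * (d ^ 2 / (r ^ 2 * (r + d))) := by
      have : A x - A y = - T + Phi x * (x - y) := by rw [hT]; ring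
      rw [this, hdiff]
      field_simp
      ring
    rw [e1]
    have hvr : |v| ≤ 3 * r := by
      have : |v| = |x| * r := by
        rw [hx, abs_div, abs_of_pos hr]; field_simp
      rw [this]
      exact mul_le_mul_of_nonneg_right hxle hr.le
    have b1 : |T / v| ≤ 960 * d ^ 2 / r ^ 3 := by
      rw [abs_div]
      have hvpos : 0 < |v| := abs_pos.mpr hv
      rw [div_le_div_iff₀ hvpos (by positivity)]
      have h5 : (y - x) ^ 2 = v ^ 2 * d ^ 2 / (r ^ 2 * (r + d) ^ 2) := by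
        have : y - x = - (v * d / (r * (r + d))) := by rw [← hdiff]; ring
        rw [this, neg_sq, div_pow, mul_pow, mul_pow]
      have h6 : (y - x) ^ 2 * r ^ 3 ≤ 3 * |v| * d ^ 2 := by
        rw [h5]
        have hv2 : v ^ 2 = |v| * |v| := by rw [sq, abs_mul_abs_self]
        have : v ^ 2 * d ^ 2 / (r ^ 2 * (r + d) ^ 2) * r ^ 3 =
            |v| * (|v| * d ^ 2 * r) / (r + d) ^ 2 := by
          rw [hv2]; field_simp
        rw [this, div_le_iff₀ (by positivity)]
        have h7 : |v| * d ^ 2 * r ≤ 3 * r * d ^ 2 * r := by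
          have := mul_le_mul_of_nonneg_right hvr (by positivity : 0 ≤ d ^ 2 * r)
          nlinarith
        have h8 : r ^ 2 ≤ (r + d) ^ 2 := by nlinarith
        have h9 : 0 ≤ |v| := abs_nonneg v
        have h10 : 3 * r * d ^ 2 * r ≤ 3 * d ^ 2 * (r + d) ^ 2 := by nlinarith [sq_nonneg d]
        nlinarith
      have h11 : |T| ≤ 320 * (y - x) ^ 2 := ht
      nlinarith [mul_le_mul_of_nonneg_right h11 (by positivity : 0 ≤ r ^ 3)]
    have b2 : |Phi x * (d ^ 2 / (r ^ 2 * (r + d)))| ≤ 480 * d ^ 2 / r ^ 3 := by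
      rw [abs_mul, abs_of_nonneg (by positivity : 0 ≤ d ^ 2 / (r ^ 2 * (r + d)))]
      have h3 : d ^ 2 / (r ^ 2 * (r + d)) ≤ d ^ 2 / r ^ 3 := by
        apply div_le_div_of_nonneg_left (by positivity) (by positivity)
        have : r ^ 3 = r ^ 2 * r := by ring
        rw [this]
        exact mul_le_mul_of_nonneg_left (by linarith) (by positivity)
      calc |Phi x| * (d ^ 2 / (r ^ 2 * (r + d))) ≤ 480 * (d ^ 2 / r ^ 3) :=
            mul_le_mul (abs_Phi_le_const x) h3 (by positivity) (by norm_num)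
        _ = 480 * d ^ 2 / r ^ 3 := by ring
    calc |- T / v - Phi x * (d ^ 2 / (r ^ 2 * (r + d)))|
        ≤ |T / v| + |Phi x * (d ^ 2 / (r ^ 2 * (r + d)))| := by
          have : - T / v = -(T / v) := by ring
          rw [this]
          have := abs_sub (-(T / v)) (Phi x * (d ^ 2 / (r ^ 2 * (r + d))))
          simpa using this
      _ ≤ 960 * d ^ 2 / r ^ 3 + 480 * d ^ 2 / r ^ 3 := add_le_add b1 b2
      _ = 1440 * d ^ 2 / r ^ 3 := by ring

/-! ### The lattice kernel -/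

/-- the unit step -/
noncomputable def st (n : ℤ) : ℝ := if 0 ≤ n then 1 else 0
/-- second primitive -/
noncomputable def c1 (n : ℤ) : ℝ := if 0 ≤ n then (n : ℝ) + 1 else 0
/-- third primitive -/
noncomputable def c2 (n : ℤ) : ℝ := if 0 ≤ n then ((n : ℝ) + 1) * ((n : ℝ) + 2) / 2 else 0

lemma c1_sub (n : ℤ) : c1 n - c1 (n - 1) = st n := by
  unfold c1 st
  rcases lt_trichotomy n 0 with h | h | h
  · rw [if_neg (by omega), if_neg (by omega), if_neg (by omega)]; ring
  · subst h; norm_num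
  · rw [if_pos (by omega), if_pos (by omega), if_pos (by omega)]; push_cast; ring

lemma c2_sub (n : ℤ) : c2 n - c2 (n - 1) = c1 n := by
  unfold c1 c2
  rcases lt_trichotomy n 0 with h | h | h
  · rw [if_neg (by omega), if_neg (by omega), if_neg (by omega)]; ring
  · subst h; norm_num
  · rw [if_pos (by omega), if_pos (by omega), if_pos (by omega)]; push_cast; ring

/-- The Haar function of width `2τ`. -/
noncomputable def hbox (τ : ℕ) (x : ℤ) : ℝ :=
  if 0 ≤ x ∧ x < τ then 1 / (2 * τ) else if -(τ : ℤ) ≤ x ∧ x < 0 then -1 / (2 * τ) else 0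

/-- `2 - S - S⁻¹` with step `τ`. -/
noncomputable def DD (τ : ℤ) (f : ℤ → ℝ) (n : ℤ) : ℝ := 2 * f n - f (n - τ) - f (n + τ)

lemma hbox_eq (τ : ℕ) (x : ℤ) : hbox τ x = 1 / (2 * τ) * DD τ st x := by
  unfold hbox DD st
  by_cases h1 : 0 ≤ x ∧ x < τ
  · rw [if_pos h1, if_pos h1.1, if_neg (by omega), if_pos (by omega)]; ring
  · rw [if_neg h1]
    by_cases h2 : -(τ : ℤ) ≤ x ∧ x < 0
    · rw [if_pos h2, if_neg (by omega), if_neg (by omega), if_pos (by omega)]; ring
    · rw [if_neg h2]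
      by_cases h3 : 0 ≤ x
      · rw [if_pos h3, if_pos (by omega), if_pos (by omega)]; ring
      · rw [if_neg h3, if_neg (by omega), if_neg (by omega)]; ring

/-- convolution with the Haar function -/
noncomputable def conv (τ : ℕ) (f : ℤ → ℝ) (u : ℤ) : ℝ :=
  ∑ b ∈ Finset.Ico (-(τ : ℤ)) τ, hbox τ b * f (u - b)

lemma sum_range_nabla {f F : ℤ → ℝ} (h : ∀ n, f n = F n - F (n - 1)) (u : ℤ) (k : ℕ) :
    ∑ i ∈ Finset.range k, f (u - i) = F u - F (u - k) := by
  induction k with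
  | zero => simp
  | succ k ih =>
    rw [Finset.sum_range_succ, ih, h]
    have : u - (k : ℤ) - 1 = u - ((k + 1 : ℕ) : ℤ) := by push_cast; ring
    rw [this]
    ring

lemma conv_of_nabla {f F : ℤ → ℝ} (h : ∀ n, f n = F n - F (n - 1)) (τ : ℕ) (u : ℤ) :
    conv τ f u = 1 / (2 * τ) * DD τ F u := by
  have hsplit : Finset.Ico (-(τ : ℤ)) τ = Finset.Ico (-(τ : ℤ)) 0 ∪ Finset.Ico (0 : ℤ) τ := by
    rw [Finset.Ico_union_Ico_eq_Ico (by omega) (by omega)]
  have hdisj : Disjoint (Finset.Ico (-(τ : ℤ)) 0) (Finset.Ico (0 : ℤ) τ) :=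
    Finset.Ico_disjoint_Ico_consecutive _ _ _
  unfold conv
  rw [hsplit, Finset.sum_union hdisj]
  have s1 : ∑ b ∈ Finset.Ico (0 : ℤ) τ, hbox τ b * f (u - b) =
      1 / (2 * τ) * ∑ i ∈ Finset.range τ, f (u - i) := by
    rw [Finset.mul_sum]
    symm
    apply Finset.sum_bij (fun (i : ℕ) _ => (i : ℤ))
    · intro i hi
      simp only [Finset.mem_range] at hi
      simp only [Finset.mem_Ico]
      omega
    · intro i _ j _ hij
      exact_mod_cast hij
    · intro b hb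
      simp only [Finset.mem_Ico] at hb
      refine ⟨b.toNat, ?_, ?_⟩
      · simp only [Finset.mem_range]; omega
      · omega
    · intro i hi
      simp only [Finset.mem_range] at hi
      unfold hbox
      rw [if_pos ⟨by omega, by omega⟩]
  have s2 : ∑ b ∈ Finset.Ico (-(τ : ℤ)) 0, hbox τ b * f (u - b) =
      -(1 / (2 * τ)) * ∑ i ∈ Finset.range τ, f (u + τ - i) := by
    rw [Finset.mul_sum]
    symm
    apply Finset.sum_bij (fun (i : ℕ) _ => (i : ℤ) - τ)
    · intro i hi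
      simp only [Finset.mem_range] at hi
      simp only [Finset.mem_Ico]
      omega
    · intro i _ j _ hij
      have : (i : ℤ) = j := by linarith
      exact_mod_cast this
    · intro b hb
      simp only [Finset.mem_Ico] at hb
      refine ⟨(b + τ).toNat, ?_, ?_⟩
      · simp only [Finset.mem_range]; omega
      · omega
    · intro i hi
      simp only [Finset.mem_range] at hi
      unfold hbox
      rw [if_neg (by omega), if_pos ⟨by omega, by omega⟩]
      have : u + (τ : ℤ) - i = u - ((i : ℤ) - τ) := by ring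
      rw [this]
      ring
  rw [s1, s2, sum_range_nabla h, sum_range_nabla h]
  unfold DD
  have e : u + (τ : ℤ) - τ = u := by ring
  rw [e]
  ring

lemma DD_nabla {f F : ℤ → ℝ} (h : ∀ n, f n = F n - F (n - 1)) (τ : ℤ) (c : ℝ) (n : ℤ) :
    c * DD τ f n = c * DD τ F n - c * DD τ F (n - 1) := by
  unfold DD
  rw [h n, h (n - τ), h (n + τ)]
  have e1 : n - 1 - τ = n - τ - 1 := by ring
  have e2 : n - 1 + τ = n + τ - 1 := by ring
  rw [e1, e2]
  ring

/-- the triple convolution of the Haar function -/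
noncomputable def kappa (τ : ℕ) (u : ℤ) : ℝ := conv τ (conv τ (hbox τ)) u

lemma kappa_eq_sum (τ : ℕ) (u : ℤ) :
    kappa τ u = ∑ a ∈ Finset.Ico (-(τ : ℤ)) τ, ∑ b ∈ Finset.Ico (-(τ : ℤ)) τ,
      hbox τ a * hbox τ b * hbox τ (u - a - b) := by
  unfold kappa conv
  apply Finset.sum_congr rfl
  intro a _
  rw [Finset.mul_sum]
  apply Finset.sum_congr rfl
  intro b _
  ring

/-- closed form of `κ`. -/
lemma kappa_eq_DD (τ : ℕ) (u : ℤ) :
    kappa τ u = (1 / (2 * τ)) ^ 3 * DD τ (DD τ (DD τ c2)) u := by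
  -- `h = ∇ ((1/2τ) DD c1)`
  have h1 : ∀ n, hbox τ n = (1 / (2 * τ) * DD τ c1 n) - (1 / (2 * τ) * DD τ c1 (n - 1)) := by
    intro n
    rw [hbox_eq]
    exact DD_nabla (fun m => (c1_sub m).symm) τ _ n
  have h2 : conv τ (hbox τ) = fun n => 1 / (2 * τ) * DD τ (fun m => 1 / (2 * τ) * DD τ c1 m) n := by
    funext n
    exact conv_of_nabla h1 τ n
  have h3 : ∀ n, DD τ (fun m => 1 / (2 * (τ : ℝ)) * DD τ c1 m) n =
      1 / (2 * τ) * DD τ (DD τ c1) n := by
    intro n; unfold DD; ring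
  have h4 : ∀ n, conv τ (hbox τ) n = (1 / (2 * τ)) ^ 2 * DD τ (DD τ c1) n := by
    intro n
    rw [h2]
    simp only [h3]
    ring
  -- `DD DD c1 = ∇ DD DD c2`
  have h5 : ∀ n, DD τ (DD τ c1) n = DD τ (DD τ c2) n - DD τ (DD τ c2) (n - 1) := by
    intro n
    have a1 : ∀ m, (1 : ℝ) * DD τ c1 m = 1 * DD τ c2 m - 1 * DD τ c2 (m - 1) :=
      fun m => DD_nabla (fun k => (c2_sub k).symm) τ 1 m
    have a2 : ∀ m, DD τ c1 m = DD τ c2 m - DD τ c2 (m - 1) := by
      intro m; simpa using a1 m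
    have := DD_nabla (f := DD τ c1) (F := DD τ c2) a2 τ 1 n
    simpa using this
  have h6 : ∀ n, conv τ (hbox τ) n = ((1 / (2 * (τ : ℝ))) ^ 2 * DD τ (DD τ c2) n) -
      ((1 / (2 * τ)) ^ 2 * DD τ (DD τ c2) (n - 1)) := by
    intro n; rw [h4, h5]; ring
  unfold kappa
  rw [conv_of_nabla h6]
  have h7 : DD τ (fun m => (1 / (2 * (τ : ℝ))) ^ 2 * DD τ (DD τ c2) m) u =
      (1 / (2 * τ)) ^ 2 * DD τ (DD τ (DD τ c2)) u := by
    unfold DD; ring
  rw [h7]
  ring

lemma c2_eq (n : ℤ) : c2 n = R ((n : ℝ) + 3 / 2) - (1 / 8) * st (n + 1) := by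
  unfold c2 st
  rcases lt_trichotomy n (-1) with h | h | h
  · have hn : (n : ℝ) ≤ -2 := by
      have : n ≤ -2 := by omega
      exact_mod_cast this
    rw [if_neg (by omega), if_neg (by omega), R_of_nonpos (by linarith)]
    ring
  · subst h
    norm_num [R_of_nonneg]
  · have hn : (0 : ℝ) ≤ n := by
      have : 0 ≤ n := by omega
      exact_mod_cast this
    rw [if_pos (by omega), if_pos (by omega), R_of_nonneg (by linarith)]
    ring

lemma R_scale {c : ℝ} (hc : 0 < c) (s : ℝ) : R (c * s) = c ^ 2 * R s := by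
  rcases le_total 0 s with h | h
  · rw [R_of_nonneg (by positivity), R_of_nonneg h]; ring
  · rw [R_of_nonpos (mul_nonpos_of_nonneg_of_nonpos hc.le h), R_of_nonpos h]; ring

/-- the small error term of the lattice kernel -/
noncomputable def ee (τ : ℕ) (u : ℤ) : ℝ :=
  - (1 / 8) * (1 / (2 * (τ : ℝ))) ^ 3 *
    (- st (u + 1 - 3 * τ) + 6 * st (u + 1 - 2 * τ) - 15 * st (u + 1 - τ) + 20 * st (u + 1)
      - 15 * st (u + 1 + τ) + 6 * st (u + 1 + 2 * τ) - st (u + 1 + 3 * τ))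

lemma DD3_eq (τ : ℤ) (f : ℤ → ℝ) (u : ℤ) :
    DD τ (DD τ (DD τ f)) u = - f (u - 3 * τ) + 6 * f (u - 2 * τ) - 15 * f (u - τ) + 20 * f u
      - 15 * f (u + τ) + 6 * f (u + 2 * τ) - f (u + 3 * τ) := by
  unfold DD
  have e1 : u - τ - τ = u - 2 * τ := by ring
  have e2 : u - τ + τ = u := by ring
  have e3 : u + τ - τ = u := by ring
  have e4 : u + τ + τ = u + 2 * τ := by ring
  have e5 : u - 2 * τ - τ = u - 3 * τ := by ring
  have e6 : u - 2 * τ + τ = u - τ := by ring
  have e7 : u + 2 * τ - τ = u + τ := by ring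
  have e8 : u + 2 * τ + τ = u + 3 * τ := by ring
  simp only [e1, e2, e3, e4, e5, e6, e7, e8]
  ring

/-- **The lattice kernel.** -/
theorem kappa_eq {τ : ℕ} (hτ : 0 < τ) (u : ℤ) :
    kappa τ u = (1 / (2 * (τ : ℝ))) * Phi (((u : ℝ) + 3 / 2) / (2 * τ)) + ee τ u := by
  have hτ' : (0 : ℝ) < τ := by exact_mod_cast hτ
  set r : ℝ := 2 * τ with hr
  have hrpos : 0 < r := by positivity
  rw [kappa_eq_DD, DD3_eq]
  simp only [c2_eq]
  set v : ℝ := (u : ℝ) + 3 / 2 with hv
  have hR : ∀ c : ℝ, R (v + c * τ) = r ^ 2 * R (v / r + c / 2) := by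
    intro c
    rw [← R_scale hrpos]
    congr 1
    rw [hr]
    field_simp
  have a0 : R ((((u : ℤ) : ℝ)) + 3 / 2) = r ^ 2 * R (v / r) := by
    rw [← R_scale hrpos]
    congr 1
    field_simp
    rw [hv]
    ring
  have a1 : R (((u - 3 * (τ : ℤ) : ℤ) : ℝ) + 3 / 2) = r ^ 2 * R (v / r - 3 / 2) := by
    have := hR (-3)
    rw [show v + -3 * (τ : ℝ) = ((u - 3 * (τ : ℤ) : ℤ) : ℝ) + 3 / 2 by rw [hv]; push_cast; ring,
      show v / r + -3 / 2 = v / r - 3 / 2 by ring] at this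
    exact this
  have a2 : R (((u - 2 * (τ : ℤ) : ℤ) : ℝ) + 3 / 2) = r ^ 2 * R (v / r - 1) := by
    have := hR (-2)
    rw [show v + -2 * (τ : ℝ) = ((u - 2 * (τ : ℤ) : ℤ) : ℝ) + 3 / 2 by rw [hv]; push_cast; ring,
      show v / r + -2 / 2 = v / r - 1 by ring] at this
    exact this
  have a3 : R (((u - (τ : ℤ) : ℤ) : ℝ) + 3 / 2) = r ^ 2 * R (v / r - 1 / 2) := by
    have := hR (-1)
    rw [show v + -1 * (τ : ℝ) = ((u - (τ : ℤ) : ℤ) : ℝ) + 3 / 2 by rw [hv]; push_cast; ring,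
      show v / r + -1 / 2 = v / r - 1 / 2 by ring] at this
    exact this
  have a4 : R (((u + (τ : ℤ) : ℤ) : ℝ) + 3 / 2) = r ^ 2 * R (v / r + 1 / 2) := by
    have := hR 1
    rw [show v + 1 * (τ : ℝ) = ((u + (τ : ℤ) : ℤ) : ℝ) + 3 / 2 by rw [hv]; push_cast; ring] at this
    exact this
  have a5 : R (((u + 2 * (τ : ℤ) : ℤ) : ℝ) + 3 / 2) = r ^ 2 * R (v / r + 1) := by
    have := hR 2
    rw [show v + 2 * (τ : ℝ) = ((u + 2 * (τ : ℤ) : ℤ) : ℝ) + 3 / 2 by rw [hv]; push_cast; ring,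
      show v / r + 2 / 2 = v / r + 1 by ring] at this
    exact this
  have a6 : R (((u + 3 * (τ : ℤ) : ℤ) : ℝ) + 3 / 2) = r ^ 2 * R (v / r + 3 / 2) := by
    have := hR 3
    rw [show v + 3 * (τ : ℝ) = ((u + 3 * (τ : ℤ) : ℤ) : ℝ) + 3 / 2 by rw [hv]; push_cast; ring] at this
    exact this
  rw [a0, a1, a2, a3, a4, a5, a6]
  have b1 : u - 3 * (τ : ℤ) + 1 = u + 1 - 3 * τ := by ring
  have b2 : u - 2 * (τ : ℤ) + 1 = u + 1 - 2 * τ := by ring
  have b3 : u - (τ : ℤ) + 1 = u + 1 - τ := by ring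
  have b4 : u + (τ : ℤ) + 1 = u + 1 + τ := by ring
  have b5 : u + 2 * (τ : ℤ) + 1 = u + 1 + 2 * τ := by ring
  have b6 : u + 3 * (τ : ℤ) + 1 = u + 1 + 3 * τ := by ring
  rw [b1, b2, b3, b4, b5, b6]
  unfold Phi ee
  rw [← hr]
  field_simp
  ring

lemma st_nonneg (n : ℤ) : 0 ≤ st n := by unfold st; split_ifs <;> norm_num
lemma st_le_one (n : ℤ) : st n ≤ 1 := by unfold st; split_ifs <;> norm_num

/-- size of the error term -/
lemma abs_ee_le {τ : ℕ} (hτ : 0 < τ) (u : ℤ) : |ee τ u| ≤ 8 * (1 / (2 * (τ : ℝ))) ^ 3 := by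
  have hτ' : (0 : ℝ) < τ := by exact_mod_cast hτ
  unfold ee
  set S := - st (u + 1 - 3 * τ) + 6 * st (u + 1 - 2 * τ) - 15 * st (u + 1 - τ) + 20 * st (u + 1)
      - 15 * st (u + 1 + τ) + 6 * st (u + 1 + 2 * τ) - st (u + 1 + 3 * τ) with hS
  have hS1 : |S| ≤ 64 := by
    rw [abs_le, hS]
    have := st_nonneg (u + 1 - 3 * τ); have := st_nonneg (u + 1 - 2 * τ)
    have := st_nonneg (u + 1 - τ); have := st_nonneg (u + 1)
    have := st_nonneg (u + 1 + τ); have := st_nonneg (u + 1 + 2 * τ)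
    have := st_nonneg (u + 1 + 3 * τ)
    have := st_le_one (u + 1 - 3 * τ); have := st_le_one (u + 1 - 2 * τ)
    have := st_le_one (u + 1 - τ); have := st_le_one (u + 1)
    have := st_le_one (u + 1 + τ); have := st_le_one (u + 1 + 2 * τ)
    have := st_le_one (u + 1 + 3 * τ)
    constructor <;> linarith
  rw [abs_mul, abs_mul, abs_of_nonneg (by positivity : 0 ≤ (1 / (2 * (τ : ℝ))) ^ 3)]
  have : |(-(1 / 8 : ℝ))| = 1 / 8 := by norm_num [abs_of_pos]
  rw [this]
  have h3 : 0 ≤ (1 / (2 * (τ : ℝ))) ^ 3 := by positivity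
  nlinarith

/-- the error term vanishes away from the support. -/
lemma ee_eq_zero {τ : ℕ} (u : ℤ) (h : 3 * (τ : ℝ) < |(u : ℝ) + 3 / 2|) : ee τ u = 0 := by
  unfold ee
  rcases lt_abs.mp h with h | h
  · have h' : (3 : ℤ) * τ - 2 < u := by
      have : ((3 * (τ : ℤ) - 2 : ℤ) : ℝ) < u := by push_cast; linarith
      exact_mod_cast this
    have a : ∀ k : ℤ, k ≥ -3 * τ → st (u + 1 + k) = 1 := by
      intro k hk
      unfold st
      rw [if_pos (by omega)]
    have e1 : st (u + 1 - 3 * τ) = 1 := by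
      have := a (-(3 * τ)) (by omega)
      rwa [show u + 1 + -(3 * (τ : ℤ)) = u + 1 - 3 * τ by ring] at this
    have e2 : st (u + 1 - 2 * τ) = 1 := by
      have := a (-(2 * τ)) (by omega)
      rwa [show u + 1 + -(2 * (τ : ℤ)) = u + 1 - 2 * τ by ring] at this
    have e3 : st (u + 1 - τ) = 1 := by
      have := a (-(τ : ℤ)) (by omega)
      rwa [show u + 1 + -(τ : ℤ) = u + 1 - τ by ring] at this
    have e4 : st (u + 1) = 1 := by
      have := a 0 (by omega)
      simpa using this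
    have e5 := a (τ : ℤ) (by omega)
    have e6 := a (2 * τ) (by omega)
    have e7 := a (3 * τ) (by omega)
    rw [e1, e2, e3, e4, e5, e6, e7]
    ring
  · have h' : u < - (3 : ℤ) * τ - 1 := by
      have : (u : ℝ) < ((- 3 * (τ : ℤ) - 1 : ℤ) : ℝ) := by push_cast; linarith
      exact_mod_cast this
    have a : ∀ k : ℤ, k ≤ 3 * τ → st (u + 1 + k) = 0 := by
      intro k hk
      unfold st
      rw [if_neg (by omega)]
    have e1 : st (u + 1 - 3 * τ) = 0 := by
      have := a (-(3 * τ)) (by omega)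
      rwa [show u + 1 + -(3 * (τ : ℤ)) = u + 1 - 3 * τ by ring] at this
    have e2 : st (u + 1 - 2 * τ) = 0 := by
      have := a (-(2 * τ)) (by omega)
      rwa [show u + 1 + -(2 * (τ : ℤ)) = u + 1 - 2 * τ by ring] at this
    have e3 : st (u + 1 - τ) = 0 := by
      have := a (-(τ : ℤ)) (by omega)
      rwa [show u + 1 + -(τ : ℤ) = u + 1 - τ by ring] at this
    have e4 : st (u + 1) = 0 := by
      have := a 0 (by omega)
      simpa using this
    have e5 := a (τ : ℤ) (by omega)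
    have e6 := a (2 * τ) (by omega)
    have e7 := a (3 * τ) (by omega)
    rw [e1, e2, e3, e4, e5, e6, e7]
    ring

/-! ### The Riemann sum on a ladder block -/

/-- One term of the Riemann sum: `r = m Δ`, `τ = r/2`. -/
lemma riemann_term {M m i : ℕ} (hM : 0 < M) (hm : M ≤ m) (u : ℤ) :
    let Δ : ℝ := 2 ^ (i + 1)
    let ρ : ℝ := M * Δ
    let v : ℝ := (u : ℝ) + 3 / 2
    |(1 / (m : ℝ)) * kappa (m * 2 ^ i) u - (A (v / (m * Δ)) - A (v / ((m + 1 : ℕ) * Δ))) / v| ≤
      1440 / ((M : ℝ) ^ 2 * ρ) + 8 / ((M : ℝ) * ρ ^ 3) := by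
  intro Δ ρ v
  have hMr : (0 : ℝ) < M := by exact_mod_cast hM
  have hm1 : (M : ℝ) ≤ m := by exact_mod_cast hm
  have hmr : (0 : ℝ) < m := by linarith
  have hΔ : 0 < Δ := by positivity
  have hρ : 0 < ρ := by positivity
  have hv0 : v ≠ 0 := by
    intro h
    have h2 : ((2 * u + 3 : ℤ) : ℝ) = 0 := by
      push_cast
      have : (u : ℝ) + 3 / 2 = 0 := h
      linarith
    have h3 : 2 * u + 3 = 0 := by exact_mod_cast h2
    omega
  have hτ : 0 < m * 2 ^ i := by
    have : 0 < m := by omega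
    positivity
  have hτr : (((m * 2 ^ i : ℕ) : ℝ)) = m * Δ / 2 := by
    simp only [Δ]; push_cast; rw [pow_succ]; ring
  set r : ℝ := m * Δ with hr
  have hrpos : 0 < r := by positivity
  have hrρ : ρ ≤ r := by
    simp only [ρ, hr]
    exact mul_le_mul_of_nonneg_right hm1 hΔ.le
  have e2 : (((m + 1 : ℕ) : ℝ)) * Δ = r + Δ := by
    rw [hr]; push_cast; ring
  rw [kappa_eq hτ, e2]
  have e3 : 2 * (((m * 2 ^ i : ℕ) : ℝ)) = r := by rw [hτr]; ring
  rw [e3]
  have hΔr : Δ ≤ r := by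
    rw [hr]
    have : (1 : ℝ) ≤ m := by
      have : 1 ≤ m := by omega
      exact_mod_cast this
    nlinarith
  have hs := riemann_step hv0 hrpos hΔ hΔr
  have e4 : (1 / (m : ℝ)) * (1 / r) = Δ / r ^ 2 := by
    rw [hr]; field_simp
  set P := Phi (v / r)
  set Dd := (A (v / r) - A (v / (r + Δ))) / v
  have e5 : (1 / (m : ℝ)) * (1 / r * P + ee (m * 2 ^ i) u) - Dd =
      - (Dd - Δ / r ^ 2 * P) + (1 / (m : ℝ)) * ee (m * 2 ^ i) u := by
    rw [← e4]; ring
  rw [e5]
  have hee := abs_ee_le hτ u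
  rw [e3] at hee
  have b1 : 1440 * Δ ^ 2 / r ^ 3 ≤ 1440 / ((M : ℝ) ^ 2 * ρ) := by
    rw [div_le_div_iff₀ (by positivity) (by positivity)]
    have h6 : (M : ℝ) ^ 2 * ρ * Δ ^ 2 ≤ r ^ 3 := by
      have h7 : r ^ 3 = r * (m * Δ) ^ 2 := by rw [hr]; ring
      rw [h7]
      have h8 : ((M : ℝ) * Δ) ^ 2 ≤ (m * Δ) ^ 2 := by
        apply pow_le_pow_left₀ (by positivity)
        exact mul_le_mul_of_nonneg_right hm1 hΔ.le
      calc (M : ℝ) ^ 2 * ρ * Δ ^ 2 = ρ * ((M : ℝ) * Δ) ^ 2 := by ring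
        _ ≤ r * (m * Δ) ^ 2 := mul_le_mul hrρ h8 (by positivity) hrpos.le
    nlinarith
  have b2 : |(1 / (m : ℝ)) * ee (m * 2 ^ i) u| ≤ 8 / ((M : ℝ) * ρ ^ 3) := by
    rw [abs_mul, abs_of_pos (by positivity : 0 < 1 / (m : ℝ))]
    have h9 : (1 / r) ^ 3 ≤ (1 / ρ) ^ 3 := by
      apply pow_le_pow_left₀ (by positivity)
      exact one_div_le_one_div_of_le hρ hrρ
    have h10 : 1 / (m : ℝ) ≤ 1 / (M : ℝ) := one_div_le_one_div_of_le hMr hm1
    calc 1 / (m : ℝ) * |ee (m * 2 ^ i) u| ≤ 1 / (M : ℝ) * (8 * (1 / ρ) ^ 3) := by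
          apply mul_le_mul h10 (hee.trans (by nlinarith)) (abs_nonneg _) (by positivity)
      _ = 8 / ((M : ℝ) * ρ ^ 3) := by field_simp
  calc |-(Dd - Δ / r ^ 2 * P) + 1 / (m : ℝ) * ee (m * 2 ^ i) u|
      ≤ |Dd - Δ / r ^ 2 * P| + |1 / (m : ℝ) * ee (m * 2 ^ i) u| := by
        have := abs_add_le (-(Dd - Δ / r ^ 2 * P)) (1 / (m : ℝ) * ee (m * 2 ^ i) u)
        simpa only [abs_neg] using this
    _ ≤ 1440 * Δ ^ 2 / r ^ 3 + 8 / ((M : ℝ) * ρ ^ 3) := add_le_add hs b2
    _ ≤ _ := by linarith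

/-- **The Riemann sum on a ladder block.** With `ρ = M 2^{i+1}`, `v = u + 3/2`:
`Σ_{m=M}^{2M-1} (1/m) κ_{m 2^i}(u) = (A(v/ρ) - A(v/(2ρ)))/v` up to `(1/ρ)(1440/M + 8/ρ²)`. -/
theorem riemann_block {M : ℕ} (i : ℕ) (hM : 0 < M) (u : ℤ) :
    let ρ : ℝ := M * 2 ^ (i + 1)
    let v : ℝ := (u : ℝ) + 3 / 2
    |∑ m ∈ Finset.Ico M (2 * M), (1 / (m : ℝ)) * kappa (m * 2 ^ i) u -
        (A (v / ρ) - A (v / (2 * ρ))) / v| ≤ (1 / ρ) * (1440 / (M : ℝ) + 8 / ρ ^ 2) := by
  intro ρ v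
  have hMr : (0 : ℝ) < M := by exact_mod_cast hM
  have hρ : 0 < ρ := by positivity
  set Δ : ℝ := 2 ^ (i + 1) with hΔ
  set g : ℕ → ℝ := fun m => A (v / (m * Δ)) / v with hg
  have tel : ∑ m ∈ Finset.Ico M (2 * M), (g m - g (m + 1)) = g M - g (2 * M) := by
    rw [Finset.sum_Ico_eq_sum_range]
    have hk : 2 * M - M = M := by omega
    rw [hk]
    have : ∀ k, ∑ j ∈ Finset.range k, (g (M + j) - g (M + j + 1)) = g M - g (M + k) := by
      intro k
      induction k with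
      | zero => simp
      | succ k ih =>
        rw [Finset.sum_range_succ, ih]
        have : M + (k + 1) = M + k + 1 := by ring
        rw [this]
        ring
    rw [this]
    congr 2
    omega
  have e1 : (A (v / ρ) - A (v / (2 * ρ))) / v = g M - g (2 * M) := by
    simp only [hg]
    have : ((2 * M : ℕ) : ℝ) * Δ = 2 * ρ := by
      simp only [ρ, hΔ]; push_cast; ring
    rw [this, sub_div]
  rw [e1, ← tel, ← Finset.sum_sub_distrib]
  have hterm : ∀ m ∈ Finset.Ico M (2 * M), |(1 / (m : ℝ)) * kappa (m * 2 ^ i) u - (g m - g (m + 1))| ≤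
      1440 / ((M : ℝ) ^ 2 * ρ) + 8 / ((M : ℝ) * ρ ^ 3) := by
    intro m hm
    have hm' := (Finset.mem_Ico.mp hm).1
    have := riemann_term (i := i) hM hm' u
    simp only [hg, ← sub_div]
    exact this
  have hsum := Finset.abs_sum_le_sum_abs (fun m : ℕ => (1 / (m : ℝ)) * kappa (m * 2 ^ i) u - (g m - g (m + 1)))
    (Finset.Ico M (2 * M))
  refine hsum.trans ?_
  refine (Finset.sum_le_card_nsmul _ _ _ hterm).trans ?_
  have hcard : (Finset.Ico M (2 * M)).card = M := by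
    rw [Nat.card_Ico]; omega
  rw [hcard, nsmul_eq_mul]
  apply le_of_eq
  field_simp

/-- Support of the block kernel. -/
theorem block_eq_zero {M : ℕ} (i : ℕ) (hM : 0 < M) (u : ℤ)
    (h : 3 * ((M : ℝ) * 2 ^ (i + 1)) ≤ |(u : ℝ) + 3 / 2|) :
    ∑ m ∈ Finset.Ico M (2 * M), (1 / (m : ℝ)) * kappa (m * 2 ^ i) u = 0 := by
  apply Finset.sum_eq_zero
  intro m hm
  have hm1 := (Finset.mem_Ico.mp hm).1
  have hm2 := (Finset.mem_Ico.mp hm).2
  have hτ : 0 < m * 2 ^ i := by
    have : 0 < m := by omega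
    positivity
  have hMr : (0 : ℝ) < M := by exact_mod_cast hM
  have hm2r : (m : ℝ) < 2 * M := by exact_mod_cast hm2
  have hpow : (0 : ℝ) < 2 ^ i := by positivity
  have hτr : (((m * 2 ^ i : ℕ) : ℝ)) = m * 2 ^ i := by push_cast; ring
  have hτlt : 3 * (((m * 2 ^ i : ℕ) : ℝ)) < |(u : ℝ) + 3 / 2| := by
    rw [hτr]
    have : (3 : ℝ) * (m * 2 ^ i) < 3 * ((M : ℝ) * 2 ^ (i + 1)) := by
      rw [pow_succ]
      nlinarith
    linarith
  rw [kappa_eq hτ, ee_eq_zero u hτlt, Phi_eq_zero]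
  · simp
  · rw [abs_div, abs_of_pos (by positivity : (0 : ℝ) < 2 * ((m * 2 ^ i : ℕ) : ℝ))]
    rw [le_div_iff₀ (by positivity)]
    rw [hτr]
    have : (3 : ℝ) / 2 * (2 * (m * 2 ^ i)) = 3 * (m * 2 ^ i) := by ring
    rw [this, ← hτr]
    exact hτlt.le

/-! ### The sharp edge profile -/

/-- The sharp-minus-smooth profile `E w = (c0 1_{|w|>1} - A w)/w`. -/
noncomputable def E (w : ℝ) : ℝ := (c0 * (if 1 < |w| then 1 else 0) - A w) / w

lemma E_neg (w : ℝ) : E (-w) = - E w := by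
  unfold E
  rw [abs_neg, A_neg, div_neg]

lemma E_eq_zero {w : ℝ} (h : 3 / 2 ≤ |w|) : E w = 0 := by
  unfold E
  rw [if_pos (by linarith), A_eq h]
  simp

lemma abs_Aw_div_le {w : ℝ} (h : |w| ≤ 3) : |A w / w| ≤ 320 * |w| := by
  by_cases h0 : w = 0
  · subst h0; simp
  · rw [abs_div, div_le_iff₀ (abs_pos.mpr h0)]
    have := abs_A_le h
    have e : 320 * |w| * |w| = 320 * w ^ 2 := by
      rw [mul_assoc, abs_mul_abs_self]; ring
    rw [e]
    exact this

/-- `E` is bounded. -/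
lemma abs_E_le (w : ℝ) : |E w| ≤ 500 := by
  by_cases h1 : 3 / 2 ≤ |w|
  · rw [E_eq_zero h1, abs_zero]; norm_num
  · have h1 := not_le.mp h1
    by_cases h2 : 1 < |w|
    · unfold E
      rw [if_pos h2, mul_one, sub_div, abs_le]
      have h3 := abs_le.mp (abs_Aw_div_le (w := w) (by linarith))
      have h0 : w ≠ 0 := by
        intro h; rw [h] at h2; simp at h2; linarith
      have h4 : |c0 / w| ≤ 1 / 8 := by
        rw [abs_div, div_le_iff₀ (abs_pos.mpr h0)]
        norm_num [c0, abs_of_neg]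
        linarith
      have h5 := abs_le.mp h4
      constructor <;> nlinarith
    · unfold E
      rw [if_neg h2, mul_zero, zero_sub, neg_div, abs_neg]
      have h3 := abs_Aw_div_le (w := w) (by linarith)
      have h2 := not_lt.mp h2
      linarith

/-- `A w / w` is Lipschitz on `[-3,3]`. -/
lemma Aw_div_lip {w w' : ℝ} (hw : |w| ≤ 3) (hw' : |w'| ≤ 3) :
    |A w / w - A w' / w'| ≤ 960 * |w - w'| := by
  wlog hle : |w'| ≤ |w| generalizing w w'
  · have := this hw' hw (le_of_lt (not_le.mp hle))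
    rwa [abs_sub_comm, abs_sub_comm w' w] at this
  by_cases h0 : w' = 0
  · subst h0
    simp only [div_zero, sub_zero]
    have := abs_Aw_div_le hw
    have h2 : (0 : ℝ) ≤ |w| := abs_nonneg w
    linarith
  · have h1 : w ≠ 0 := by
      intro h
      rw [h, abs_zero] at hle
      exact h0 (abs_nonpos_iff.mp hle)
    have ht := A_taylor hw' hw
    have ht0 := A_taylor (x := w') (y := 0) hw' (by norm_num)
    rw [A_zero] at ht0
    set T := A w - A w' - Phi w' * (w - w') with hT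
    set T' := 0 - A w' - Phi w' * (0 - w') with hT'
    have e : A w / w - A w' / w' = ((w - w') * T' + w' * T) / (w * w') := by
      have : A w = A w' + Phi w' * (w - w') + T := by rw [hT]; ring
      have h2 : A w' = Phi w' * w' - T' := by rw [hT']; ring
      rw [this, h2]
      field_simp
      ring
    rw [e, abs_div, abs_mul w w', div_le_iff₀ (by positivity)]
    have hpos : 0 < |w| := abs_pos.mpr h1
    have hpos' : 0 < |w'| := abs_pos.mpr h0
    have b1 : |T'| ≤ 320 * |w'| * |w'| := by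
      have := ht0
      rw [zero_sub, neg_sq, ← sq_abs w'] at this
      nlinarith
    have b2 : |T| ≤ 320 * |w - w'| * |w - w'| := by
      rw [mul_assoc, abs_mul_abs_self, ← sq]
      exact ht
    have b3 : |w - w'| ≤ 2 * |w| := by
      have := abs_sub w w'
      linarith
    have b4 : |(w - w') * T' + w' * T| ≤ |w - w'| * |T'| + |w'| * |T| := by
      have := abs_add_le ((w - w') * T') (w' * T)
      simpa only [abs_mul] using this
    have hd : 0 ≤ |w - w'| := abs_nonneg _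
    have c1 : |w - w'| * |T'| ≤ 320 * |w - w'| * (|w| * |w'|) := by
      have : |w - w'| * |T'| ≤ |w - w'| * (320 * |w'| * |w'|) :=
        mul_le_mul_of_nonneg_left b1 hd
      have h3 : |w'| * |w'| ≤ |w| * |w'| := mul_le_mul_of_nonneg_right hle hpos'.le
      nlinarith [mul_le_mul_of_nonneg_left h3 hd]
    have c2 : |w'| * |T| ≤ 640 * |w - w'| * (|w| * |w'|) := by
      have h4 : |T| ≤ 320 * |w - w'| * (2 * |w|) := by
        refine b2.trans ?_
        apply mul_le_mul_of_nonneg_left b3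
        positivity
      have := mul_le_mul_of_nonneg_left h4 hpos'.le
      nlinarith
    nlinarith

/-- `E` is Lipschitz inside the unit interval. -/
lemma E_lip_inner {w w' : ℝ} (hw : |w| ≤ 1) (hw' : |w'| ≤ 1) :
    |E w - E w'| ≤ 960 * |w - w'| := by
  unfold E
  rw [if_neg (by linarith), if_neg (by linarith), mul_zero, zero_sub, zero_sub, neg_div, neg_div]
  have := Aw_div_lip (w := w) (w' := w') (by linarith) (by linarith)
  rw [show -(A w / w) - -(A w' / w') = -(A w / w - A w' / w') by ring, abs_neg]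
  exact this

/-- `E` is Lipschitz on `(1,∞)`. -/
lemma E_lip_pos {w w' : ℝ} (hw : 1 < w) (hw' : 1 < w') :
    |E w - E w'| ≤ 1000 * |w - w'| := by
  -- first the case where both are `≤ 2`
  have key : ∀ {a b : ℝ}, 1 < a → 1 < b → a ≤ 2 → b ≤ 2 → |E a - E b| ≤ 1000 * |a - b| := by
    intro a b ha hb ha2 hb2
    unfold E
    rw [abs_of_pos (by linarith : 0 < a), abs_of_pos (by linarith : 0 < b), if_pos ha, if_pos hb,
      mul_one, sub_div, sub_div]
    have h1 := Aw_div_lip (w := a) (w' := b)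
      (by rw [abs_of_pos (by linarith)]; linarith) (by rw [abs_of_pos (by linarith)]; linarith)
    have h2 : |c0 / a - c0 / b| ≤ |a - b| := by
      have ha0 : a ≠ 0 := by linarith
      have hb0 : b ≠ 0 := by linarith
      have e : c0 / a - c0 / b = c0 * (b - a) / (a * b) := by field_simp
      rw [e, abs_div, abs_mul, abs_of_pos (by nlinarith : 0 < a * b), abs_sub_comm b a,
        div_le_iff₀ (by nlinarith)]
      have h3 : |c0| = 1 / 8 := by norm_num [c0, abs_of_neg]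
      rw [h3]
      nlinarith [abs_nonneg (a - b), mul_nonneg (abs_nonneg (a - b)) (by nlinarith : 0 ≤ a * b - 1)]
    have e : c0 / a - A a / a - (c0 / b - A b / b) = (c0 / a - c0 / b) - (A a / a - A b / b) := by
      ring
    rw [e]
    have := abs_sub (c0 / a - c0 / b) (A a / a - A b / b)
    have hn : 0 ≤ |a - b| := abs_nonneg _
    linarith
  -- clamp at `3/2`
  set a := min w 2 with ha
  set b := min w' 2 with hb
  have ea : E w = E a := by
    by_cases h : w ≤ 2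
    · rw [ha, min_eq_left h]
    · have h := not_le.mp h
      rw [ha, min_eq_right h.le, E_eq_zero (by rw [abs_of_pos (by linarith)]; linarith),
        E_eq_zero (by norm_num)]
  have eb : E w' = E b := by
    by_cases h : w' ≤ 2
    · rw [hb, min_eq_left h]
    · have h := not_le.mp h
      rw [hb, min_eq_right h.le, E_eq_zero (by rw [abs_of_pos (by linarith)]; linarith),
        E_eq_zero (by norm_num)]
  rw [ea, eb]
  have h1 : 1 < a := lt_min hw (by norm_num)
  have h2 : 1 < b := lt_min hw' (by norm_num)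
  have h3 : a ≤ 2 := min_le_right _ _
  have h4 : b ≤ 2 := min_le_right _ _
  have h5 : |a - b| ≤ |w - w'| := by
    have := abs_min_sub_min_le_max w 2 w' 2
    simpa using this
  have := key h1 h2 h3 h4
  nlinarith

/-! ### Bridge to `Defs` -/

lemma hbox_eq_haarZ (τ : ℕ) (x : ℤ) : hbox τ x = haarZ τ x := rfl

lemma kappaZ_eq_kappa (τ : ℕ) (u : ℤ) : kappaZ τ u = kappa τ u := by
  rw [kappa_eq_sum]; rfl

end Crest.Agent.TriRL.KernelProfile
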