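import Crest.Agent.TriRL.Sharp
import Crest.Agent.TriRL.KernelProfile

/-!
# The dyadic end point kernels in `BlockHyp` form, the ladder kernels, and the final 1D bound
-/

set_option autoImplicit false

namespace Crest.Agent.TriRL.Cal

open Finset
open Crest.Agent.TriRL.KernelProfile

/-- The end point kernel at radius `2^k`: `2^-k E((t+1/2)/2^k)`. -/
noncomputable def Ehat (k : ℕ) (t : ℤ) : ℂ :=
  (((2 : ℝ) ^ k)⁻¹ * E (((t : ℝ) + 1 / 2) / 2 ^ k) : ℝ)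

lemma Ehat_refl (k : ℕ) (t : ℤ) : Ehat k (-1 - t) = - Ehat k t := by
  unfold Ehat
  have : (((-1 - t : ℤ) : ℝ) + 1 / 2) / 2 ^ k = -(((t : ℝ) + 1 / 2) / 2 ^ k) := by
    push_cast
    ring
  rw [this, E_neg]
  push_cast
  ring

lemma Ehat_eq_zero (k : ℕ) (t : ℤ) (h : 3 * (2 : ℝ) ^ k / 2 ≤ |(t : ℝ) + 1 / 2|) : Ehat k t = 0 := by
  unfold Ehat
  have hp : (0 : ℝ) < 2 ^ k := by positivity
  have : 3 / 2 ≤ |((t : ℝ) + 1 / 2) / 2 ^ k| := by
    rw [abs_div, abs_of_pos hp, le_div_iff₀ hp]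
    linarith
  rw [E_eq_zero this]
  simp

/-- Jump set of the end point kernel. -/
noncomputable def JEk (k : ℕ) : Finset ℤ := {(2 : ℤ) ^ k, -(2 : ℤ) ^ k}

lemma JEk_card (k : ℕ) : (JEk k).card ≤ 2 := Finset.card_le_two

theorem Ehat_blockHyp (k : ℕ) :
    BlockHyp (2 ^ k) ({()} : Finset Unit) (fun _ => Ehat k) (JEk k) 500 1000 := by
  have hpR : (0 : ℝ) < 2 ^ k := by positivity
  have hpZ : (1 : ℤ) ≤ 2 ^ k := one_le_pow₀ (by norm_num)
  have hpZR : (1 : ℝ) ≤ 2 ^ k := one_le_pow₀ (by norm_num)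
  have hcast : (((2 ^ k : ℕ) : ℤ)) = (2 : ℤ) ^ k := by push_cast; rfl
  have hcastR : (((2 ^ k : ℕ) : ℝ)) = (2 : ℝ) ^ k := by push_cast; rfl
  refine ⟨?_, ?_, ?_, ?_⟩
  · intro _ _ v hv
    rw [hcast]
    by_contra hcon
    push Not at hcon
    apply hv
    apply Ehat_eq_zero
    have h1 : 3 * (2 : ℤ) ^ k + 1 ≤ |v| := by omega
    have h2 : (3 * (2 : ℝ) ^ k + 1) ≤ |(v : ℝ)| := by exact_mod_cast h1
    have h3 : |(v : ℝ)| - 1 / 2 ≤ |(v : ℝ) + 1 / 2| := by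
      have := abs_sub_abs_le_abs_sub (v : ℝ) (-(1 / 2))
      simp only [abs_neg, sub_neg_eq_add] at this
      have h4 : |(1 / 2 : ℝ)| = 1 / 2 := abs_of_pos (by norm_num)
      rwa [h4] at this
    linarith
  · intro _ _
    rw [hcast]
    set R : ℤ := 3 * (2 : ℤ) ^ k with hR
    have hzero : Ehat k (-R - 1) = 0 := by
      apply Ehat_eq_zero
      have e : (((-R - 1 : ℤ) : ℝ) + 1 / 2) = -(3 * (2 : ℝ) ^ k + 1 / 2) := by
        rw [hR]; push_cast; ring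
      rw [e, abs_neg, abs_of_pos (by positivity)]
      linarith
    have hext : ∑ v ∈ Finset.Icc (-R) R, Ehat k v = ∑ v ∈ Finset.Icc (-R - 1) R, Ehat k v := by
      have hsplit : Finset.Icc (-R - 1) R = insert (-R - 1) (Finset.Icc (-R) R) := by
        ext x
        simp only [Finset.mem_Icc, Finset.mem_insert]
        omega
      rw [hsplit, Finset.sum_insert (by simp), hzero, zero_add]
    rw [hext]
    have hrefl : ∑ v ∈ Finset.Icc (-R - 1) R, Ehat k v =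
        ∑ v ∈ Finset.Icc (-R - 1) R, Ehat k (-1 - v) := by
      refine Finset.sum_nbij' (fun v => -1 - v) (fun v => -1 - v) ?_ ?_ ?_ ?_ ?_
      · intro v hv
        rw [Finset.mem_Icc] at hv ⊢
        omega
      · intro v hv
        rw [Finset.mem_Icc] at hv ⊢
        omega
      · intro v _
        show -1 - (-1 - v) = v
        ring
      · intro v _
        show -1 - (-1 - v) = v
        ring
      · intro v _
        show Ehat k v = Ehat k (-1 - (-1 - v))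
        congr 1
        ring
    simp only [Ehat_refl, sum_neg_distrib] at hrefl
    have h2 : (2 : ℂ) * ∑ v ∈ Finset.Icc (-R - 1) R, Ehat k v = 0 := by
      rw [two_mul]
      nth_rewrite 1 [hrefl]
      simp
    simpa using h2
  · intro v
    rw [Finset.sum_singleton, hcastR]
    unfold Ehat
    rw [Complex.norm_real, Real.norm_eq_abs, abs_mul, abs_of_pos (inv_pos.mpr hpR)]
    rw [div_eq_mul_inv, mul_comm]
    exact mul_le_mul_of_nonneg_right (abs_E_le _) (inv_pos.mpr hpR).le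
  · intro u u' huu' hjump
    rw [Finset.sum_singleton, hcastR]
    have j1 : ¬ (u < (2 : ℤ) ^ k ∧ (2 : ℤ) ^ k ≤ u') := hjump _ (by simp [JEk])
    have j2 : ¬ (u < -(2 : ℤ) ^ k ∧ -(2 : ℤ) ^ k ≤ u') := hjump _ (by simp [JEk])
    set w : ℝ := ((u : ℝ) + 1 / 2) / 2 ^ k with hw
    set w' : ℝ := ((u' : ℝ) + 1 / 2) / 2 ^ k with hw'
    have hdiff : w' - w = ((u' - u : ℤ) : ℝ) / 2 ^ k := by
      rw [hw, hw']
      push_cast
      ring
    have hdiff0 : (0 : ℝ) ≤ ((u' - u : ℤ) : ℝ) := by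
      have : (0 : ℤ) ≤ u' - u := by omega
      exact_mod_cast this
    have hww : w ≤ w' := by
      have : 0 ≤ w' - w := by rw [hdiff]; positivity
      linarith
    have hlip : |E w' - E w| ≤ 1000 * (w' - w) := by
      have habs : |w' - w| = w' - w := abs_of_nonneg (by linarith)
      by_cases hc1 : (2 : ℤ) ^ k ≤ u
      · have h1 : (2 : ℝ) ^ k ≤ u := by exact_mod_cast hc1
        have hw1 : 1 < w := by
          rw [hw, lt_div_iff₀ hpR]
          linarith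
        have := E_lip_pos (w := w') (w' := w) (by linarith) hw1
        rwa [habs] at this
      · by_cases hc2 : u' ≤ -(2 : ℤ) ^ k - 1
        · have h1 : (u' : ℝ) ≤ -(2 : ℝ) ^ k - 1 := by exact_mod_cast hc2
          have hw1 : w' < -1 := by
            rw [hw', div_lt_iff₀ hpR]
            linarith
          have := E_lip_pos (w := -w) (w' := -w') (by linarith) (by linarith)
          rw [E_neg, E_neg, show -w - -w' = w' - w by ring, habs,
            show -E w - -E w' = E w' - E w by ring] at this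
          exact this
        · have h1 : u' < (2 : ℤ) ^ k := by
            by_contra h
            exact j1 ⟨by omega, by omega⟩
          have h2 : -(2 : ℤ) ^ k ≤ u := by
            by_contra h
            exact j2 ⟨by omega, by omega⟩
          have h1R : (u' : ℝ) + 1 ≤ (2 : ℝ) ^ k := by exact_mod_cast (by omega : u' + 1 ≤ (2 : ℤ) ^ k)
          have h2R : -(2 : ℝ) ^ k ≤ u := by exact_mod_cast h2
          have huR : (u : ℝ) ≤ u' := by exact_mod_cast huu'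
          have hw1 : |w| ≤ 1 := by
            rw [abs_le, hw]
            constructor
            · rw [le_div_iff₀ hpR]; linarith
            · rw [div_le_iff₀ hpR]; linarith
          have hw2 : |w'| ≤ 1 := by
            rw [abs_le, hw']
            constructor
            · rw [le_div_iff₀ hpR]; linarith
            · rw [div_le_iff₀ hpR]; linarith
          have := E_lip_inner hw2 hw1
          rw [habs] at this
          nlinarith [sq_nonneg (w' - w)]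
    unfold Ehat
    rw [← Complex.ofReal_sub, Complex.norm_real, Real.norm_eq_abs, ← mul_sub, abs_mul,
      abs_of_pos (inv_pos.mpr hpR)]
    calc ((2 : ℝ) ^ k)⁻¹ * |E w' - E w| ≤ ((2 : ℝ) ^ k)⁻¹ * (1000 * (w' - w)) := by gcongr
      _ = 1000 * ((u' - u : ℤ) : ℝ) / ((2 : ℝ) ^ k) ^ 2 := by
          rw [hdiff]
          field_simp


/-! ### Kernel identity -/

lemma half_ne_zero (t : ℤ) : (t : ℝ) + 1 / 2 ≠ 0 := by
  intro h
  have h2 : (2 * t + 1 : ℤ) = 0 := by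
    have : ((2 * t + 1 : ℤ) : ℝ) = 0 := by
      push_cast
      linarith
    exact_mod_cast this
  omega

lemma chi_iff (k : ℕ) (t : ℤ) :
    1 < |((t : ℝ) + 1 / 2) / 2 ^ k| ↔ 2 * (2 : ℤ) ^ k ≤ |2 * t + 1| := by
  have hp : (0 : ℝ) < 2 ^ k := by positivity
  rw [abs_div, abs_of_pos hp, lt_div_iff₀ hp, one_mul]
  have e : |(t : ℝ) + 1 / 2| = ((|2 * t + 1| : ℤ) : ℝ) / 2 := by
    push_cast
    have : (2 : ℝ) * t + 1 = 2 * ((t : ℝ) + 1 / 2) := by ring
    rw [this, abs_mul, abs_of_pos (by norm_num : (0 : ℝ) < 2)]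
    ring
  rw [e, lt_div_iff₀ (by norm_num : (0 : ℝ) < 2)]
  have hodd : (2 * (2 : ℤ) ^ k ≤ |2 * t + 1|) ↔ (2 * (2 : ℤ) ^ k < |2 * t + 1|) := by
    rcases abs_cases (2 * t + 1) with ⟨a1, _⟩ | ⟨a1, _⟩ <;> rw [a1] <;> omega
  rw [hodd]
  constructor
  · intro h
    have h2 : ((2 * (2 : ℤ) ^ k : ℤ) : ℝ) < ((|2 * t + 1| : ℤ) : ℝ) := by
      push_cast at h ⊢
      linarith
    exact_mod_cast h2
  · intro h
    have h2 : ((2 * (2 : ℤ) ^ k : ℤ) : ℝ) < ((|2 * t + 1| : ℤ) : ℝ) := by exact_mod_cast h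
    push_cast at h2 ⊢
    linarith

lemma Ehat_formula (k : ℕ) (t : ℤ) :
    (((2 : ℝ) ^ k)⁻¹ * E (((t : ℝ) + 1 / 2) / 2 ^ k)) =
      (c0 * (if 2 * (2 : ℤ) ^ k ≤ |2 * t + 1| then 1 else 0) -
        A (((t : ℝ) + 1 / 2) / 2 ^ k)) / ((t : ℝ) + 1 / 2) := by
  have hv := half_ne_zero t
  have hp : (2 : ℝ) ^ k ≠ 0 := by positivity
  unfold E
  by_cases h : 2 * (2 : ℤ) ^ k ≤ |2 * t + 1|
  · rw [if_pos ((chi_iff k t).mpr h), if_pos h]
    field_simp
  · rw [if_neg (fun h' => h ((chi_iff k t).mp h')), if_neg h]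
    field_simp

/-- `c₀` as a complex number. -/
noncomputable def c0C : ℂ := ((c0 : ℝ) : ℂ)

lemma c0C_ne : c0C ≠ 0 := by
  unfold c0C c0
  norm_num

lemma norm_c0C_inv : ‖c0C‖⁻¹ = 8 := by
  unfold c0C c0
  rw [Complex.norm_real, Real.norm_eq_abs, abs_of_neg (by norm_num)]
  norm_num

/-- The main part of the block: exact identity. -/
lemma A_diff_eq (k : ℕ) (t : ℤ) :
    (((A (((t : ℝ) + 1 / 2) / 2 ^ k) - A (((t : ℝ) + 1 / 2) / 2 ^ (k + 1))) /
        ((t : ℝ) + 1 / 2) : ℝ) : ℂ) =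
      c0C * vK ((2 : ℤ) ^ k) ((2 : ℤ) ^ (k + 1)) t - Ehat k t + Ehat (k + 1) t := by
  have hv := half_ne_zero t
  have hvC : (t : ℂ) + 1 / 2 ≠ 0 := by
    intro h
    apply hv
    have : (((t : ℝ) + 1 / 2 : ℝ) : ℂ) = 0 := by
      push_cast
      exact h
    exact_mod_cast this
  unfold Ehat vK
  rw [Ehat_formula, Ehat_formula]
  have hcase : (2 * (2 : ℤ) ^ (k + 1) ≤ |2 * t + 1| → 2 * (2 : ℤ) ^ k ≤ |2 * t + 1|) := by
    intro h
    have : (2 : ℤ) ^ (k + 1) = 2 * 2 ^ k := by ring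
    have h0 : (0 : ℤ) < 2 ^ k := by positivity
    omega
  by_cases h1 : 2 * (2 : ℤ) ^ k ≤ |2 * t + 1| <;>
    by_cases h2 : 2 * (2 : ℤ) ^ (k + 1) ≤ |2 * t + 1|
  · have h3 : ¬ (2 * (2 : ℤ) ^ k ≤ |2 * t + 1| ∧ |2 * t + 1| < 2 * (2 : ℤ) ^ (k + 1)) := by
      intro h; omega
    rw [if_neg h3, if_pos h1, if_pos h2]
    push_cast
    field_simp
    ring
  · have h3 : (2 * (2 : ℤ) ^ k ≤ |2 * t + 1| ∧ |2 * t + 1| < 2 * (2 : ℤ) ^ (k + 1)) :=
      ⟨h1, by omega⟩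
    rw [if_pos h3, if_pos h1, if_neg h2]
    unfold c0C
    push_cast
    field_simp
    ring
  · exact absurd (hcase h2) h1
  · have h3 : ¬ (2 * (2 : ℤ) ^ k ≤ |2 * t + 1| ∧ |2 * t + 1| < 2 * (2 : ℤ) ^ (k + 1)) := by
      intro h; omega
    rw [if_neg h3, if_neg h1, if_neg h2]
    push_cast
    field_simp
    ring

/-- Ladder kernels (`helper73`'s `ladK`). -/
noncomputable def ladC (M s i : ℕ) (t : ℤ) : ℂ :=
  ((∑ m ∈ Finset.Ico M (2 * M), (1 / (m : ℝ)) * kappaZ (2 ^ i * (2 ^ s * (8 * m))) (t - 1) : ℝ) : ℂ)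

/-- Ladder kernel re-indexed by the radius exponent `k = i + s + 4 + μ`. -/
noncomputable def ladR (μ s k : ℕ) (t : ℤ) : ℂ := ladC (2 ^ μ) s (k - (μ + s + 4)) t

/-- The error of the ladder kernel. -/
noncomputable def errK (μ s k : ℕ) (t : ℤ) : ℂ :=
  ladR μ s k t - (c0C * vK ((2 : ℤ) ^ k) ((2 : ℤ) ^ (k + 1)) t - Ehat k t + Ehat (k + 1) t)

lemma ladR_eq (μ s k : ℕ) (hk : μ + s + 4 ≤ k) (t : ℤ) :
    ladR μ s k t = ((∑ m ∈ Finset.Ico ((2 : ℕ) ^ μ) (2 * 2 ^ μ),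
      (1 / (m : ℝ)) * kappa (m * 2 ^ (k - μ - 1)) (t - 1) : ℝ) : ℂ) := by
  unfold ladR ladC
  congr 1
  apply sum_congr rfl
  intro m _
  congr 1
  rw [kappaZ_eq_kappa]
  congr 1
  have e : k - μ - 1 = (k - (μ + s + 4)) + s + 3 := by omega
  rw [e]
  ring

lemma errK_eq (μ s k : ℕ) (hk : μ + s + 4 ≤ k) (t : ℤ) :
    errK μ s k t = ((∑ m ∈ Finset.Ico ((2 : ℕ) ^ μ) (2 * 2 ^ μ),
      (1 / (m : ℝ)) * kappa (m * 2 ^ (k - μ - 1)) (t - 1) -
      (A (((t : ℝ) + 1 / 2) / 2 ^ k) - A (((t : ℝ) + 1 / 2) / 2 ^ (k + 1))) /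
        ((t : ℝ) + 1 / 2) : ℝ) : ℂ) := by
  unfold errK
  rw [ladR_eq μ s k hk, ← A_diff_eq, Complex.ofReal_sub]

lemma rho_eq (μ k : ℕ) (hk : μ + 1 ≤ k) :
    (((2 ^ μ : ℕ) : ℝ)) * 2 ^ (k - μ - 1 + 1) = (2 : ℝ) ^ k := by
  push_cast
  rw [← pow_add]
  congr 1
  omega

lemma norm_errK_le (μ s k : ℕ) (hk : μ + s + 4 ≤ k) (t : ℤ) :
    ‖errK μ s k t‖ ≤ ((2 : ℝ) ^ k)⁻¹ * (1448 / (2 : ℝ) ^ μ) := by
  have hk' : μ + 1 ≤ k := by omega
  have hb := riemann_block (M := 2 ^ μ) (k - μ - 1) (by positivity) (t - 1)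
  simp only at hb
  rw [rho_eq μ k hk'] at hb
  have hv : (((t - 1 : ℤ) : ℝ) + 3 / 2) = (t : ℝ) + 1 / 2 := by
    push_cast
    ring
  rw [hv] at hb
  have h2 : 2 * (2 : ℝ) ^ k = 2 ^ (k + 1) := by ring
  rw [h2] at hb
  rw [errK_eq μ s k hk, Complex.norm_real, Real.norm_eq_abs]
  have hmcast : ((2 * 2 ^ μ : ℕ)) = 2 * 2 ^ μ := rfl
  refine hb.trans ?_
  rw [one_div]
  apply mul_le_mul_of_nonneg_left _ (by positivity)
  push_cast
  have hkμ : (2 : ℝ) ^ μ ≤ 2 ^ k := pow_le_pow_right₀ (by norm_num) (by omega)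
  have h1 : (1 : ℝ) ≤ 2 ^ k := one_le_pow₀ (by norm_num)
  have h3 : 8 / ((2 : ℝ) ^ k) ^ 2 ≤ 8 / 2 ^ μ := by
    apply div_le_div_of_nonneg_left (by norm_num) (by positivity)
    nlinarith
  have e : (1448 : ℝ) / 2 ^ μ = 1440 / 2 ^ μ + 8 / 2 ^ μ := by
    rw [← add_div]
    norm_num
  rw [e]
  linarith

lemma errK_eq_zero (μ s k : ℕ) (hk : μ + s + 4 ≤ k) (t : ℤ)
    (h : 3 * (2 : ℝ) ^ k ≤ |(t : ℝ) + 1 / 2|) : errK μ s k t = 0 := by
  have hk' : μ + 1 ≤ k := by omega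
  have hpk : (0 : ℝ) < 2 ^ k := by positivity
  rw [errK_eq μ s k hk]
  have h0 := block_eq_zero (M := 2 ^ μ) (k - μ - 1) (by positivity) (t - 1)
    (by
      rw [rho_eq μ k hk']
      have hv : (((t - 1 : ℤ) : ℝ) + 3 / 2) = (t : ℝ) + 1 / 2 := by
        push_cast
        ring
      rw [hv]
      exact h)
  have hc : ((2 * 2 ^ μ : ℕ)) = 2 * 2 ^ μ := rfl
  rw [hc] at h0
  rw [h0]
  have h1 : 3 / 2 ≤ |((t : ℝ) + 1 / 2) / 2 ^ k| := by
    rw [abs_div, abs_of_pos hpk, le_div_iff₀ hpk]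
    linarith
  have hpk1 : (0 : ℝ) < 2 ^ (k + 1) := by positivity
  have h2 : 3 / 2 ≤ |((t : ℝ) + 1 / 2) / 2 ^ (k + 1)| := by
    rw [abs_div, abs_of_pos hpk1, le_div_iff₀ hpk1, pow_succ]
    linarith
  rw [A_eq h1, A_eq h2]
  simp

lemma ladR_eq_zero (μ s k : ℕ) (hk : μ + s + 4 ≤ k) (t : ℤ)
    (h : 3 * (2 : ℝ) ^ k ≤ |(t : ℝ) + 1 / 2|) : ladR μ s k t = 0 := by
  have hk' : μ + 1 ≤ k := by omega
  rw [ladR_eq μ s k hk]
  have h0 := block_eq_zero (M := 2 ^ μ) (k - μ - 1) (by positivity) (t - 1)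
    (by
      rw [rho_eq μ k hk']
      have hv : (((t - 1 : ℤ) : ℝ) + 3 / 2) = (t : ℝ) + 1 / 2 := by
        push_cast
        ring
      rw [hv]
      exact h)
  have hc : ((2 * 2 ^ μ : ℕ)) = 2 * 2 ^ μ := rfl
  rw [hc] at h0
  rw [h0]
  simp

lemma abs_half_ge (t : ℤ) : |(t : ℝ)| - 1 / 2 ≤ |(t : ℝ) + 1 / 2| := by
  have := abs_sub_abs_le_abs_sub (t : ℝ) (-(1 / 2))
  simp only [abs_neg, sub_neg_eq_add] at this
  have h4 : |(1 / 2 : ℝ)| = 1 / 2 := abs_of_pos (by norm_num)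
  rwa [h4] at this

lemma supp_of_big (k : ℕ) (t : ℤ) (h : 3 * (2 : ℤ) ^ k < |t|) :
    3 * (2 : ℝ) ^ k ≤ |(t : ℝ) + 1 / 2| := by
  have h1 : 3 * (2 : ℤ) ^ k + 1 ≤ |t| := h
  have h2 : (3 * (2 : ℝ) ^ k + 1) ≤ |(t : ℝ)| := by exact_mod_cast h1
  have h3 := abs_half_ge t
  linarith

/-- The error of one level, paired with `|φ|`. -/
lemma err_level (μ s k : ℕ) (hk : μ + s + 4 ≤ k) (φ : ℤ → ℂ) (m : ℝ) (hm0 : 0 ≤ m)
    (hm : ∀ T : ℕ, ∑ t ∈ Finset.Icc (-(T : ℤ)) T, ‖φ t‖ ≤ m * (2 * T + 1)) (X : ℤ) :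
    ∑ t ∈ Finset.Icc (-X) X, ‖errK μ s k t‖ * ‖φ t‖ ≤ 7 * (1448 / (2 : ℝ) ^ μ) * m := by
  classical
  have hp : (0 : ℝ) < 2 ^ k := by positivity
  set c : ℝ := ((2 : ℝ) ^ k)⁻¹ * (1448 / (2 : ℝ) ^ μ) with hc
  have hc0 : 0 ≤ c := by positivity
  set T : ℕ := 3 * 2 ^ k with hT
  have hTcast : (T : ℤ) = 3 * (2 : ℤ) ^ k := by rw [hT]; push_cast; rfl
  calc ∑ t ∈ Finset.Icc (-X) X, ‖errK μ s k t‖ * ‖φ t‖
      = ∑ t ∈ (Finset.Icc (-X) X).filter (fun t => t ∈ Finset.Icc (-(T : ℤ)) T),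
          ‖errK μ s k t‖ * ‖φ t‖ := by
        symm
        apply Finset.sum_subset (Finset.filter_subset _ _)
        intro t ht hnot
        have h1 : t ∉ Finset.Icc (-(T : ℤ)) T := fun h => hnot (Finset.mem_filter.mpr ⟨ht, h⟩)
        have h2 : 3 * (2 : ℤ) ^ k < |t| := by
          rw [← hTcast]
          by_contra hle
          push Not at hle
          rw [abs_le] at hle
          exact h1 (Finset.mem_Icc.mpr hle)
        rw [errK_eq_zero μ s k hk t (supp_of_big k t h2)]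
        simp
    _ ≤ ∑ t ∈ Finset.Icc (-(T : ℤ)) T, ‖errK μ s k t‖ * ‖φ t‖ := by
        apply Finset.sum_le_sum_of_subset_of_nonneg
        · intro t ht
          exact (Finset.mem_filter.mp ht).2
        · intro t _ _
          positivity
    _ ≤ ∑ t ∈ Finset.Icc (-(T : ℤ)) T, c * ‖φ t‖ := by
        apply sum_le_sum
        intro t _
        exact mul_le_mul_of_nonneg_right (norm_errK_le μ s k hk t) (norm_nonneg _)
    _ = c * ∑ t ∈ Finset.Icc (-(T : ℤ)) T, ‖φ t‖ := by rw [mul_sum]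
    _ ≤ c * (m * (2 * T + 1)) := by
        apply mul_le_mul_of_nonneg_left (hm T) hc0
    _ ≤ 7 * (1448 / (2 : ℝ) ^ μ) * m := by
        have h1 : (1 : ℝ) ≤ 2 ^ k := one_le_pow₀ (by norm_num)
        have h2 : (2 * (T : ℝ) + 1) ≤ 7 * 2 ^ k := by
          rw [hT]
          push_cast
          linarith
        have h3 : c * (m * (2 * T + 1)) ≤ c * (m * (7 * 2 ^ k)) := by
          gcongr
        refine h3.trans (le_of_eq ?_)
        rw [hc]
        field_simp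

/-- The total error of the ladder. -/
lemma err_total (μ s kmin kmax : ℕ) (hk : μ + s + 4 ≤ kmin) (hM : kmax - kmin ≤ 2 ^ μ)
    (φ : ℤ → ℂ) (m : ℝ) (hm0 : 0 ≤ m)
    (hm : ∀ T : ℕ, ∑ t ∈ Finset.Icc (-(T : ℤ)) T, ‖φ t‖ ≤ m * (2 * T + 1)) (X : ℤ) :
    ∑ k ∈ Finset.Ico kmin kmax, ∑ t ∈ Finset.Icc (-X) X, ‖errK μ s k t‖ * ‖φ t‖ ≤ 10136 * m := by
  have hp : (0 : ℝ) < 2 ^ μ := by positivity
  calc ∑ k ∈ Finset.Ico kmin kmax, ∑ t ∈ Finset.Icc (-X) X, ‖errK μ s k t‖ * ‖φ t‖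
      ≤ ∑ _k ∈ Finset.Ico kmin kmax, 7 * (1448 / (2 : ℝ) ^ μ) * m := by
        apply sum_le_sum
        intro k hk'
        exact err_level μ s k (by have := (Finset.mem_Ico.mp hk').1; omega) φ m hm0 hm X
    _ = ((kmax - kmin : ℕ) : ℝ) * (7 * (1448 / (2 : ℝ) ^ μ) * m) := by
        simp
    _ ≤ ((2 : ℝ) ^ μ) * (7 * (1448 / (2 : ℝ) ^ μ) * m) := by
        apply mul_le_mul_of_nonneg_right _ (by positivity)
        exact_mod_cast hM
    _ = 10136 * m := by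
        field_simp
        ring

/-- The tail `∑ |φ t| / t²`. -/
lemma tail_sq (φ : ℤ → ℂ) (m : ℝ) (hm0 : 0 ≤ m)
    (hm : ∀ T : ℕ, ∑ t ∈ Finset.Icc (-(T : ℤ)) T, ‖φ t‖ ≤ m * (2 * T + 1)) (kmin kX : ℕ)
    (h : kmin ≤ kX) :
    ∑ t ∈ Finset.Icc (-(2 : ℤ) ^ kX) ((2 : ℤ) ^ kX),
        (if (2 : ℤ) ^ kmin ≤ |t| then ‖φ t‖ / (t : ℝ) ^ 2 else 0) ≤
      13 * m / 2 ^ kmin - 10 * m / 2 ^ kX := by
  classical
  have hmP : ∀ k : ℕ, ∑ t ∈ Finset.Icc (-(2 : ℤ) ^ k) ((2 : ℤ) ^ k), ‖φ t‖ ≤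
      m * (2 * (2 : ℝ) ^ k + 1) := by
    intro k
    have := hm (2 ^ k)
    push_cast at this
    exact this
  have hf : ∀ r : ℝ, ∀ t : ℤ, 0 < r → r ≤ |(t : ℝ)| → ‖φ t‖ / (t : ℝ) ^ 2 ≤ ‖φ t‖ / r ^ 2 := by
    intro r t hr ht
    apply div_le_div_of_nonneg_left (norm_nonneg _) (by positivity)
    rw [← sq_abs (t : ℝ)]
    exact pow_le_pow_left₀ hr.le ht 2
  induction kX, h using Nat.le_induction with
  | base =>
    set r : ℝ := (2 : ℝ) ^ kmin with hr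
    have hrp : 0 < r := by positivity
    have hr1 : 1 ≤ r := one_le_pow₀ (by norm_num)
    calc ∑ t ∈ Finset.Icc (-(2 : ℤ) ^ kmin) ((2 : ℤ) ^ kmin),
          (if (2 : ℤ) ^ kmin ≤ |t| then ‖φ t‖ / (t : ℝ) ^ 2 else 0)
        ≤ ∑ t ∈ Finset.Icc (-(2 : ℤ) ^ kmin) ((2 : ℤ) ^ kmin), ‖φ t‖ / r ^ 2 := by
          apply sum_le_sum
          intro t _
          split_ifs with h1
          · apply hf r t hrp
            have : ((2 : ℤ) ^ kmin : ℝ) ≤ ((|t| : ℤ) : ℝ) := by exact_mod_cast h1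
            push_cast at this
            exact this
          · positivity
      _ = (∑ t ∈ Finset.Icc (-(2 : ℤ) ^ kmin) ((2 : ℤ) ^ kmin), ‖φ t‖) / r ^ 2 := by
          rw [sum_div]
      _ ≤ (m * (2 * r + 1)) / r ^ 2 := by
          gcongr
          exact hmP kmin
      _ ≤ 13 * m / r - 10 * m / r := by
          rw [← sub_div, div_le_div_iff₀ (by positivity) hrp]
          nlinarith [mul_nonneg hm0 hrp.le]
  | succ k hk ih =>
    set R : ℝ := (2 : ℝ) ^ k with hR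
    have hRp : 0 < R := by positivity
    have hR1 : 1 ≤ R := one_le_pow₀ (by norm_num)
    have hsub : Finset.Icc (-(2 : ℤ) ^ k) ((2 : ℤ) ^ k) ⊆
        Finset.Icc (-(2 : ℤ) ^ (k + 1)) ((2 : ℤ) ^ (k + 1)) := by
      intro t ht
      rw [Finset.mem_Icc] at ht ⊢
      have : (2 : ℤ) ^ (k + 1) = 2 * 2 ^ k := by ring
      have h0 : (0 : ℤ) < 2 ^ k := by positivity
      omega
    rw [← Finset.sum_sdiff hsub]
    have hrest : ∑ t ∈ Finset.Icc (-(2 : ℤ) ^ (k + 1)) ((2 : ℤ) ^ (k + 1)) \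
          Finset.Icc (-(2 : ℤ) ^ k) ((2 : ℤ) ^ k),
        (if (2 : ℤ) ^ kmin ≤ |t| then ‖φ t‖ / (t : ℝ) ^ 2 else 0) ≤ 5 * m / R := by
      calc _ ≤ ∑ t ∈ Finset.Icc (-(2 : ℤ) ^ (k + 1)) ((2 : ℤ) ^ (k + 1)) \
            Finset.Icc (-(2 : ℤ) ^ k) ((2 : ℤ) ^ k), ‖φ t‖ / R ^ 2 := by
            apply sum_le_sum
            intro t ht
            split_ifs with h1
            · apply hf R t hRp
              rw [Finset.mem_sdiff, Finset.mem_Icc, Finset.mem_Icc] at ht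
              have h2 : (2 : ℤ) ^ k ≤ |t| := by
                by_contra h3
                push Not at h3
                rw [abs_lt] at h3
                exact ht.2 ⟨by omega, by omega⟩
              have : ((2 : ℤ) ^ k : ℝ) ≤ ((|t| : ℤ) : ℝ) := by exact_mod_cast h2
              push_cast at this
              exact this
            · positivity
        _ = (∑ t ∈ Finset.Icc (-(2 : ℤ) ^ (k + 1)) ((2 : ℤ) ^ (k + 1)) \
            Finset.Icc (-(2 : ℤ) ^ k) ((2 : ℤ) ^ k), ‖φ t‖) / R ^ 2 := by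
            rw [sum_div]
        _ ≤ (∑ t ∈ Finset.Icc (-(2 : ℤ) ^ (k + 1)) ((2 : ℤ) ^ (k + 1)), ‖φ t‖) / R ^ 2 := by
            gcongr
            exact Finset.sdiff_subset
        _ ≤ (m * (2 * (2 : ℝ) ^ (k + 1) + 1)) / R ^ 2 := by
            gcongr
            exact hmP (k + 1)
        _ ≤ 5 * m / R := by
            rw [div_le_div_iff₀ (by positivity) hRp, pow_succ, ← hR]
            nlinarith [mul_nonneg hm0 hRp.le]
    have e : (2 : ℝ) ^ (k + 1) = 2 * R := by rw [hR]; ring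
    rw [e]
    have e2 : 10 * m / (2 * R) = 5 * m / R := by
      field_simp
      ring
    rw [e2]
    have e3 : 10 * m / R = 2 * (5 * m / R) := by ring
    rw [e3] at ih
    linarith


/-- **L10a, final form.** The pointwise bound at a fixed `z` for a disjoint family of open integer
annuli `a j < |τ| < b j`, with the ladder kernels of helper73. -/
theorem sharp_final {ι : Type*} [DecidableEq ι] (J : Finset ι) (a b : ι → ℕ) (μ s kmax L : ℕ)
    (ha : ∀ j ∈ J, 2 ^ (μ + s + 4) ≤ a j)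
    (hb : ∀ j ∈ J, b j ≤ 2 ^ kmax)
    (hdisj : ∀ j ∈ J, ∀ j' ∈ J, j ≠ j' → b j ≤ a j' ∨ b j' ≤ a j)
    (hM : kmax - (μ + s + 4) ≤ 2 ^ μ) (hL : 2 ≤ L) (hJL : J.card ≤ 2 ^ L)
    (φ : ℤ → ℂ) (m : ℝ) (hm0 : 0 ≤ m)
    (hm : ∀ T : ℕ, ∑ t ∈ Finset.Icc (-(T : ℤ)) T, ‖φ t‖ ≤ m * (2 * T + 1)) :
    ∑ j ∈ J, ‖∑ τ ∈ (Finset.Ioo (-(b j : ℤ)) (b j : ℤ)).filter (fun τ => (a j : ℤ) < |τ|),
        φ τ / (τ : ℂ)‖ ≤
      8 * ∑ j ∈ J, ‖∑ i ∈ Finset.Ico (kA (a j + 1) - (μ + s + 4)) (kB (b j) - (μ + s + 4)),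
          ∑' t, ladC (2 ^ μ) s i t * φ t‖ +
      2000000 * Real.sqrt J.card *
        (∑ l ∈ range (kmax + L), rho ^ l *
          Real.sqrt (sqf (l + 2) (Finset.Ico 0 (kmax + L)) φ)) +
      4000000 * m +
      3 * ∑ k ∈ Finset.Icc (μ + s + 4) kmax, ((2 : ℝ) ^ k)⁻¹ * ‖φ (-(2 : ℤ) ^ k)‖ := by
  classical
  set kmin : ℕ := μ + s + 4 with hkmin
  set J₁ : Finset ι := J.filter fun j => a j + 1 < b j with hJ₁
  have hJ₁sub : J₁ ⊆ J := Finset.filter_subset _ _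
  set X : ℤ := 4 * (2 : ℤ) ^ kmax with hX
  have hXp : (0 : ℤ) < 2 ^ kmax := by positivity
  -- the annulus sum as a pairing
  have hcut : ∀ j ∈ J, ∑ τ ∈ (Finset.Ioo (-(b j : ℤ)) (b j : ℤ)).filter
      (fun τ => (a j : ℤ) < |τ|), φ τ / (τ : ℂ) =
      pairX X (cutK ((a j + 1 : ℕ) : ℤ) (b j : ℤ)) φ := by
    intro j hj
    have hbX : (b j : ℤ) ≤ (2 : ℤ) ^ kmax := by exact_mod_cast hb j hj
    unfold pairX
    rw [Finset.sum_filter]
    symm
    have hsub : Finset.Ioo (-(b j : ℤ)) (b j : ℤ) ⊆ Finset.Icc (-X) X := by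
      intro t ht
      rw [Finset.mem_Ioo] at ht
      rw [Finset.mem_Icc]
      omega
    rw [← Finset.sum_subset hsub]
    · apply sum_congr rfl
      intro t ht
      rw [Finset.mem_Ioo] at ht
      have ht2 : |t| < (b j : ℤ) := abs_lt.mpr ht
      unfold cutK
      push_cast
      by_cases h : (a j : ℤ) < |t|
      · rw [if_pos ⟨by omega, ht2⟩, if_pos h]
        rw [div_eq_mul_inv, mul_comm]
      · rw [if_neg (by omega), if_neg h, zero_mul]
    · intro t _ ht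
      have ht2 : ¬ |t| < (b j : ℤ) := by
        intro h
        rw [abs_lt] at h
        exact ht (Finset.mem_Ioo.mpr h)
      unfold cutK
      rw [if_neg (by tauto), zero_mul]
  have hzero1 : ∀ j ∈ J, j ∉ J₁ → pairX X (cutK ((a j + 1 : ℕ) : ℤ) (b j : ℤ)) φ = 0 := by
    intro j hj hnot
    have h1 : ¬ a j + 1 < b j := fun h => hnot (Finset.mem_filter.mpr ⟨hj, h⟩)
    unfold pairX cutK
    apply sum_eq_zero
    intro t _
    rw [if_neg, zero_mul]
    push_cast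
    omega
  have hα2 : ∀ j ∈ J₁, 2 ≤ a j + 1 := by
    intro j hj
    have h1 := ha j (hJ₁sub hj)
    have h2 : 1 ≤ 2 ^ kmin := Nat.one_le_two_pow
    omega
  have hpow : (2 : ℤ) ^ kmax ≤ X := by omega
  have hmain := sharp_pointwise J₁ (fun j => a j + 1) b kmin kmax hα2
    (fun j hj => by have := ha j (hJ₁sub hj); show 2 ^ kmin ≤ a j + 1; omega)
    (fun j hj => (Finset.mem_filter.mp hj).2)
    (fun j hj => hb j (hJ₁sub hj))
    (fun j hj j' hj' hne => by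
      rcases hdisj j (hJ₁sub hj) j' (hJ₁sub hj') hne with h | h
      · left; show b j ≤ a j' + 1; omega
      · right; show b j' ≤ a j + 1; omega)
    φ m hm0 hm L (kmax + L) hL le_rfl
    (ladR μ s) Ehat (errK μ s) c0C c0C_ne
    (fun k _ t => by unfold errK; ring)
    JEk JEk_card 500 1000 (by norm_num) (fun k _ => Ehat_blockHyp k)
    X (by omega)
  rw [norm_c0C_inv] at hmain
  -- the ladder sums
  have hlad : ∀ j ∈ J₁, ∑ k ∈ Finset.Ico (kA (a j + 1)) (kB (b j)), pairX X (ladR μ s k) φ =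
      ∑ i ∈ Finset.Ico (kA (a j + 1) - kmin) (kB (b j) - kmin), ∑' t, ladC (2 ^ μ) s i t * φ t := by
    intro j hj
    have hjJ := hJ₁sub hj
    have hA : kmin ≤ kA (a j + 1) := by
      have h1 := Nat.clog_mono_right 2 (show 2 ^ kmin ≤ a j + 1 by have := ha j hjJ; omega)
      rwa [Nat.clog_pow 2 _ (by norm_num)] at h1
    have hBk : ∀ k ∈ Finset.Ico (kA (a j + 1)) (kB (b j)), k ≤ kmax := by
      intro k hk
      rw [Finset.mem_Ico] at hk
      have h1 := Nat.log_mono_right (b := 2) (hb j hjJ)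
      rw [Nat.log_pow (by norm_num)] at h1
      have : kB (b j) ≤ kmax := h1
      omega
    refine Finset.sum_nbij' (fun k => k - kmin) (fun i => i + kmin) ?_ ?_ ?_ ?_ ?_
    · intro k hk
      rw [Finset.mem_Ico] at hk ⊢
      omega
    · intro i hi
      rw [Finset.mem_Ico] at hi ⊢
      omega
    · intro k hk
      rw [Finset.mem_Ico] at hk
      show k - kmin + kmin = k
      omega
    · intro i _
      show i + kmin - kmin = i
      omega
    · intro k hk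
      have hk1 := Finset.mem_Ico.mp hk
      have hk2 := hBk k hk
      show pairX X (ladR μ s k) φ = ∑' t, ladC (2 ^ μ) s (k - kmin) t * φ t
      rw [← tsum_eq_pairX]
      · rfl
      · intro v hv
        by_contra hcon
        push Not at hcon
        apply hv
        apply ladR_eq_zero μ s k (by omega) v
        apply supp_of_big
        have : (2 : ℤ) ^ k ≤ 2 ^ kmax := pow_le_pow_right₀ (by norm_num) hk2
        omega
  -- left-hand side
  have hLHS : ∑ j ∈ J, ‖∑ τ ∈ (Finset.Ioo (-(b j : ℤ)) (b j : ℤ)).filter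
      (fun τ => (a j : ℤ) < |τ|), φ τ / (τ : ℂ)‖ =
      ∑ j ∈ J₁, ‖pairX X (cutK ((a j + 1 : ℕ) : ℤ) (b j : ℤ)) φ‖ := by
    rw [Finset.sum_congr rfl (fun j hj => by rw [hcut j hj])]
    symm
    apply Finset.sum_subset hJ₁sub
    intro j hj hnot
    rw [hzero1 j hj hnot, norm_zero]
  rw [hLHS]
  refine hmain.trans ?_
  -- termwise comparison
  have hT1 : ∑ j ∈ J₁, ‖∑ k ∈ Finset.Ico (kA (a j + 1)) (kB (b j)), pairX X (ladR μ s k) φ‖ ≤
      ∑ j ∈ J, ‖∑ i ∈ Finset.Ico (kA (a j + 1) - kmin) (kB (b j) - kmin),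
          ∑' t, ladC (2 ^ μ) s i t * φ t‖ := by
    rw [Finset.sum_congr rfl (fun j hj => by rw [hlad j hj])]
    exact Finset.sum_le_sum_of_subset_of_nonneg hJ₁sub (fun j _ _ => norm_nonneg _)
  set S : ℝ := ∑ l ∈ range (kmax + L), rho ^ l *
      Real.sqrt (sqf (l + 2) (Finset.Ico 0 (kmax + L)) φ) with hS
  have hS0 : 0 ≤ S := sum_nonneg fun l _ =>
    mul_nonneg (pow_nonneg rho_nonneg l) (Real.sqrt_nonneg _)
  have hcard1 : (J₁.card : ℝ) ≤ J.card := by exact_mod_cast Finset.card_le_card hJ₁sub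
  have hsqrt1 : Real.sqrt J₁.card ≤ Real.sqrt J.card := Real.sqrt_le_sqrt hcard1
  have hC : (400 + 2 * 8 * (Real.sqrt (16 * 500 ^ 2 + 9 * 1000 ^ 2) + 240 * 500) : ℝ) ≤ 2000000 := by
    have : Real.sqrt (16 * 500 ^ 2 + 9 * 1000 ^ 2) ≤ 4000 := by
      rw [Real.sqrt_le_left (by norm_num)]
      norm_num
    linarith
  have hT2 : (400 + 2 * 8 * (Real.sqrt (16 * 500 ^ 2 + 9 * 1000 ^ 2) + 240 * 500)) *
      Real.sqrt J₁.card * S ≤ 2000000 * Real.sqrt J.card * S := by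
    apply mul_le_mul_of_nonneg_right _ hS0
    exact mul_le_mul hC hsqrt1 (Real.sqrt_nonneg _) (by norm_num)
  have hT3 : (756 + 2 * 8 * (378 * 500)) * m * J₁.card / 2 ^ L ≤ 3100000 * m := by
    have hL2 : (0 : ℝ) < 2 ^ L := by positivity
    rw [div_le_iff₀ hL2]
    have h1 : (J₁.card : ℝ) ≤ 2 ^ L := by
      have : J₁.card ≤ 2 ^ L := (Finset.card_le_card hJ₁sub).trans hJL
      exact_mod_cast this
    have h2 : (756 + 2 * 8 * (378 * 500) : ℝ) * m * J₁.card ≤ 3100000 * m * J₁.card := by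
      gcongr
      norm_num
    have h3 : 3100000 * m * (J₁.card : ℝ) ≤ 3100000 * m * 2 ^ L := by
      gcongr
    linarith
  have hT4 := err_total μ s kmin kmax (le_of_eq rfl) hM φ m hm0 hm X
  have hT5 : ∑ t ∈ Finset.Icc (-X) X, (if (2 : ℤ) ^ kmin ≤ |t| then ‖φ t‖ / (t : ℝ) ^ 2 else 0) ≤
      13 * m := by
    by_cases hkk : kmin ≤ kmax + 2
    · have h1 := tail_sq φ m hm0 hm kmin (kmax + 2) hkk
      have hsub : Finset.Icc (-X) X ⊆ Finset.Icc (-(2 : ℤ) ^ (kmax + 2)) ((2 : ℤ) ^ (kmax + 2)) := by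
        intro t ht
        have e : (2 : ℤ) ^ (kmax + 2) = X := by rw [hX]; ring
        rw [e]
        exact ht
      have h2 : ∑ t ∈ Finset.Icc (-X) X,
          (if (2 : ℤ) ^ kmin ≤ |t| then ‖φ t‖ / (t : ℝ) ^ 2 else 0) ≤
          ∑ t ∈ Finset.Icc (-(2 : ℤ) ^ (kmax + 2)) ((2 : ℤ) ^ (kmax + 2)),
            (if (2 : ℤ) ^ kmin ≤ |t| then ‖φ t‖ / (t : ℝ) ^ 2 else 0) := by
        apply Finset.sum_le_sum_of_subset_of_nonneg hsub
        intro t _ _
        split_ifs <;> positivity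
      have h3 : 13 * m / (2 : ℝ) ^ kmin ≤ 13 * m := by
        apply div_le_self (by positivity)
        exact one_le_pow₀ (by norm_num)
      have h4 : 0 ≤ 10 * m / (2 : ℝ) ^ (kmax + 2) := by positivity
      linarith
    · -- then no `t` in the window is active
      have h0 : ∑ t ∈ Finset.Icc (-X) X,
          (if (2 : ℤ) ^ kmin ≤ |t| then ‖φ t‖ / (t : ℝ) ^ 2 else 0) = 0 := by
        apply sum_eq_zero
        intro t ht
        rw [if_neg]
        rw [Finset.mem_Icc] at ht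
        have h1 : |t| ≤ X := abs_le.mpr ht
        have h2 : X < (2 : ℤ) ^ kmin := by
          have e : X = (2 : ℤ) ^ (kmax + 2) := by rw [hX]; ring
          rw [e]
          exact pow_lt_pow_right₀ (by norm_num) (by omega)
        omega
      rw [h0]
      positivity
  have hT1' := mul_le_mul_of_nonneg_left hT1 (by norm_num : (0 : ℝ) ≤ 8)
  have hT4' := mul_le_mul_of_nonneg_left hT4 (by norm_num : (0 : ℝ) ≤ 8)
  have hm' : (81088 + 13 + 3100000 : ℝ) * m ≤ 4000000 * m := by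
    apply mul_le_mul_of_nonneg_right _ hm0
    norm_num
  have hsum := add_le_add_left (add_le_add (add_le_add (add_le_add (add_le_add hT1' hT2) hT3) hT4') hT5)
    (3 * ∑ k ∈ Finset.Icc kmin kmax, ((2 : ℝ) ^ k)⁻¹ * ‖φ (-(2 : ℤ) ^ k)‖)
  refine hsum.trans ?_
  generalize (∑ j ∈ J, ‖∑ i ∈ Finset.Ico (kA (a j + 1) - kmin) (kB (b j) - kmin),
    ∑' t, ladC (2 ^ μ) s i t * φ t‖) = Y1
  generalize (∑ k ∈ Finset.Icc kmin kmax, ((2 : ℝ) ^ k)⁻¹ * ‖φ (-(2 : ℤ) ^ k)‖) = Y2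
  generalize Real.sqrt (J.card : ℝ) = Y3
  generalize 2000000 * Y3 * S = Y4
  linarith

end Crest.Agent.TriRL.Cal
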