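/-
S0096 (helper84's blueprint, L7): lifting from `ℤ` to `ZMod N` (helper73).

Sums over `ZMod N` of functions with support in a small box are sums over the box in `ℤ`;
`kappaG` is `kappaZ` seen on `ZMod N`; change of variables of the trilinear form.
-/
import Crest.Agent.TriRL.Defs

set_option autoImplicit false

namespace Crest.Agent.TriRL

open Finset

variable {N : ℕ} [NeZero N]

/-- `valMinAbs` inverts the cast on small integers. -/
lemma lift_cast {v : ℤ} (h : 2 * |v| < N) : ((v : ZMod N)).valMinAbs = v := by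
  rw [ZMod.valMinAbs_spec]
  have h2 := le_abs_self v
  have h3 := neg_abs_le v
  refine ⟨rfl, ?_, ?_⟩ <;> omega

/-- The cast is injective on small integers. -/
lemma cast_inj_of_small {p q : ℤ} (hp : 2 * |p| < N) (hq : 2 * |q| < N)
    (h : (p : ZMod N) = q) : p = q := by
  rw [← lift_cast hp, ← lift_cast hq, h]

/-- A sum over `ZMod N` of a function supported on the image of a set of small integers. -/
lemma sum_lift {E : Type*} [AddCommMonoid E] (s : Finset ℤ) (hs : ∀ p ∈ s, 2 * |p| < N)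
    (u : ZMod N → E) (hu : ∀ x, u x ≠ 0 → x.valMinAbs ∈ s) :
    ∑ x, u x = ∑ p ∈ s, u (p : ZMod N) := by
  classical
  have hinj : Set.InjOn (fun p : ℤ => (p : ZMod N)) s := fun p hp q hq h =>
    cast_inj_of_small (hs p hp) (hs q hq) h
  rw [← Finset.sum_image (f := u) hinj]
  refine (Finset.sum_subset (Finset.subset_univ _) ?_).symm
  intro x _ hx
  by_contra hne
  apply hx
  exact Finset.mem_image.mpr ⟨x.valMinAbs, hu x hne, ZMod.coe_valMinAbs x⟩

/-- `haarZ` vanishes far away. -/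
lemma haarZ_eq_zero {τ : ℕ} {x : ℤ} (h : (τ : ℤ) < |x|) : haarZ τ x = 0 := by
  unfold haarZ
  have h1 : ¬ (0 ≤ x ∧ x < τ) := by
    rintro ⟨h0, h1⟩
    rw [abs_of_nonneg h0] at h
    omega
  have h2 : ¬ (-(τ : ℤ) ≤ x ∧ x < 0) := by
    rintro ⟨h0, h1⟩
    rw [abs_of_neg h1] at h
    omega
  simp [h1, h2]

lemma haarZ_ne_zero_mem {τ : ℕ} {x : ℤ} (h : haarZ τ x ≠ 0) : x ∈ Finset.Ico (-(τ : ℤ)) τ := by
  unfold haarZ at h
  rw [Finset.mem_Ico]
  by_cases h1 : 0 ≤ x ∧ x < τ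
  · constructor <;> omega
  · by_cases h2 : -(τ : ℤ) ≤ x ∧ x < 0
    · constructor <;> omega
    · simp [h1, h2] at h

lemma haarZ_abs_le {τ : ℕ} {x : ℤ} (h : haarZ τ x ≠ 0) : |x| ≤ τ := by
  have := Finset.mem_Ico.mp (haarZ_ne_zero_mem h)
  rw [abs_le]
  constructor <;> omega

/-- `haarG` at a cast. -/
lemma haarG_cast {τ : ℕ} {v : ℤ} (hv : |v| + τ < N) :
    haarG N τ (v : ZMod N) = haarZ τ v := by
  unfold haarG
  set w : ℤ := ((v : ZMod N)).valMinAbs with hw
  by_cases hvs : 2 * |v| < N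
  · rw [hw, lift_cast hvs]
  · have hτv : (τ : ℤ) < |v| := by omega
    rw [haarZ_eq_zero hτv]
    by_contra hne
    have hwle := haarZ_abs_le hne
    have hcast : (w : ZMod N) = v := ZMod.coe_valMinAbs _
    have hdvd : (N : ℤ) ∣ v - w := by
      rw [← ZMod.intCast_eq_intCast_iff_dvd_sub, hcast]
    have hbd : |v - w| < N := by
      have := abs_sub v w
      omega
    have h0 : v - w = 0 := Int.eq_zero_of_abs_lt_dvd hdvd hbd
    have : v = w := by omega
    rw [← this] at hwle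
    omega

/-- A summation over the support of `haarG`. -/
lemma sum_haarG {E : Type*} [AddCommMonoid E] {τ : ℕ} (hτ : 2 * τ < N)
    (u : ZMod N → E) (hu : ∀ x, haarG N τ x = 0 → u x = 0) :
    ∑ x, u x = ∑ p ∈ Finset.Ico (-(τ : ℤ)) τ, u (p : ZMod N) := by
  refine sum_lift _ ?_ u ?_
  · intro p hp
    have := Finset.mem_Ico.mp hp
    have h1 : |p| ≤ τ := abs_le.mpr ⟨by omega, by omega⟩
    omega
  · intro x hx
    by_contra hne
    apply hx
    apply hu
    unfold haarG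
    by_contra h
    exact hne (haarZ_ne_zero_mem h)

/-- `kappaG` is `kappaZ` seen on `ZMod N`. -/
lemma kappaG_eq_lift {τ : ℕ} (hN : 8 * τ < N) (ξ : ZMod N) :
    kappaG N τ ξ = kappaZ τ ξ.valMinAbs := by
  have hτ : 2 * τ < N := by omega
  unfold kappaG kappaZ
  rw [sum_haarG hτ _ (fun x hx => by simp [hx])]
  refine Finset.sum_congr rfl fun p hp => ?_
  rw [sum_haarG hτ _ (fun x hx => by simp [hx])]
  refine Finset.sum_congr rfl fun q hq => ?_
  have hp' := Finset.mem_Ico.mp hp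
  have hq' := Finset.mem_Ico.mp hq
  have hp1 : |p| ≤ τ := abs_le.mpr ⟨by omega, by omega⟩
  have hq1 : |q| ≤ τ := abs_le.mpr ⟨by omega, by omega⟩
  have hξ2 : ξ - (p : ZMod N) - (q : ZMod N) = ((ξ.valMinAbs - p - q : ℤ) : ZMod N) := by
    push_cast
    ring
  have hab : 2 * |ξ.valMinAbs| ≤ N := by
    have := ZMod.natAbs_valMinAbs_le ξ
    rw [Int.abs_eq_natAbs]
    omega
  have hv : |ξ.valMinAbs - p - q| + τ < N := by
    have h1 := abs_sub (ξ.valMinAbs - p) q
    have h2 := abs_sub ξ.valMinAbs p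
    omega
  rw [hξ2, haarG_cast hv,
    haarG_cast (v := p) (by omega), haarG_cast (v := q) (by omega)]

/-- `kappaZ` vanishes far away. -/
lemma kappaZ_eq_zero {τ : ℕ} {u : ℤ} (h : 3 * (τ : ℤ) < |u|) : kappaZ τ u = 0 := by
  unfold kappaZ
  refine Finset.sum_eq_zero fun a ha => Finset.sum_eq_zero fun b hb => ?_
  have ha' := Finset.mem_Ico.mp ha
  have hb' := Finset.mem_Ico.mp hb
  have ha1 : |a| ≤ τ := abs_le.mpr ⟨by omega, by omega⟩
  have hb1 : |b| ≤ τ := abs_le.mpr ⟨by omega, by omega⟩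
  have hbig : (τ : ℤ) < |u - a - b| := by
    have h1 : |u| ≤ |u - a - b| + |a| + |b| := by
      have h3 : u = (u - a - b) + a + b := by ring
      calc |u| = |(u - a - b) + a + b| := by rw [← h3]
        _ ≤ |(u - a - b) + a| + |b| := abs_add_le _ _
        _ ≤ |u - a - b| + |a| + |b| := by
            have := abs_add_le (u - a - b) a
            omega
    omega
  rw [haarZ_eq_zero hbig]
  simp

/-- The lift of a function on `ℤ × ℤ` to `ZMod N × ZMod N`. -/
def lift2 {E : Type*} (F : ℤ × ℤ → E) (x y : ZMod N) : E := F (x.valMinAbs, y.valMinAbs)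

/-- Change of variables in the trilinear form: `x0=-x`, `x2=-y`, `x1=t-e-x0-x2`. -/
lemma form_subst {Γ : Type*} [AddCommGroup Γ] [Fintype Γ] (e : Γ) (f g X : Γ → Γ → ℂ)
    (κ : Γ → ℂ) :
    ∑ x0, ∑ x1, ∑ x2, g (-x0) (x0 + x1 + e) * f (x1 + x2 + e) (-x2) * X (-x0) (-x2) *
        κ (x0 + x1 + x2) =
      ∑ x, ∑ y, ∑ t, X x y * (f (x + t) y * g x (y + t)) * κ (t - e) := by
  rw [← Equiv.sum_comp (Equiv.neg Γ) (fun x => ∑ y, ∑ t, X x y * (f (x + t) y * g x (y + t)) *
    κ (t - e))]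
  refine Finset.sum_congr rfl fun x0 _ => ?_
  rw [Finset.sum_comm]
  rw [← Equiv.sum_comp (Equiv.neg Γ) (fun y => ∑ t, X (Equiv.neg Γ x0) y *
    (f (Equiv.neg Γ x0 + t) y * g (Equiv.neg Γ x0) (y + t)) * κ (t - e))]
  refine Finset.sum_congr rfl fun x2 _ => ?_
  rw [← Equiv.sum_comp (Equiv.addRight (e + x0 + x2))
    (fun t => X (Equiv.neg Γ x0) (Equiv.neg Γ x2) *
      (f (Equiv.neg Γ x0 + t) (Equiv.neg Γ x2) * g (Equiv.neg Γ x0) (Equiv.neg Γ x2 + t)) *
        κ (t - e))]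
  refine Finset.sum_congr rfl fun x1 _ => ?_
  simp only [Equiv.neg_apply, Equiv.coe_addRight]
  have h1 : x0 + x1 + e = -x2 + (x1 + (e + x0 + x2)) := by abel
  have h2 : x1 + x2 + e = -x0 + (x1 + (e + x0 + x2)) := by abel
  have h3 : x0 + x1 + x2 = x1 + (e + x0 + x2) - e := by abel
  rw [h1, h2, h3]
  ring

/-- Sums of lifted functions of two variables. -/
lemma sum_lift2 {E : Type*} [AddCommMonoid E] (B : ℕ) (hN : 2 * B < N) (F : ℤ × ℤ → E)
    (hF : ∀ z, F z ≠ 0 → |z.1| ≤ B ∧ |z.2| ≤ B) :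
    ∑ x : ZMod N, ∑ y : ZMod N, lift2 F x y =
      ∑ p ∈ Finset.Icc (-(B : ℤ)) B, ∑ q ∈ Finset.Icc (-(B : ℤ)) B, F (p, q) := by
  have hs : ∀ p ∈ Finset.Icc (-(B : ℤ)) B, 2 * |p| < N := fun p hp => by
    have := Finset.mem_Icc.mp hp
    have h1 : |p| ≤ B := abs_le.mpr ⟨by omega, by omega⟩
    omega
  rw [sum_lift (Finset.Icc (-(B : ℤ)) B) hs]
  · refine Finset.sum_congr rfl fun p hp => ?_
    rw [sum_lift (Finset.Icc (-(B : ℤ)) B) hs]
    · refine Finset.sum_congr rfl fun q hq => ?_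
      simp only [lift2, lift_cast (hs p hp), lift_cast (hs q hq)]
    · intro y hy
      have := (hF _ hy).2
      exact Finset.mem_Icc.mpr (abs_le.mp this)
  · intro x hx
    obtain ⟨y, -, hy⟩ := Finset.exists_ne_zero_of_sum_ne_zero hx
    have := (hF _ hy).1
    exact Finset.mem_Icc.mpr (abs_le.mp this)

/-- The sum over the torus of the trilinear integrand is the sum over boxes in `ℤ`. -/
lemma form_transfer (B T : ℕ) (hN : 2 * (B + T + 2) < N) (f g X : ℤ × ℤ → ℂ) (k : ℤ → ℝ)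
    (hX : ∀ z, X z ≠ 0 → |z.1| ≤ B ∧ |z.2| ≤ B) (hk : ∀ u, k u ≠ 0 → |u| ≤ T) :
    ∑ x : ZMod N, ∑ y : ZMod N, ∑ t : ZMod N,
        lift2 X x y * (lift2 f (x + t) y * lift2 g x (y + t)) * ((k (t - 1).valMinAbs : ℝ) : ℂ) =
      ∑ p ∈ Finset.Icc (-(B : ℤ)) B, ∑ q ∈ Finset.Icc (-(B : ℤ)) B,
        X (p, q) * ∑ t ∈ Finset.Icc (-((T : ℤ) + 1)) (T + 1),
          ((k (t - 1) : ℝ) : ℂ) * (f (p + t, q) * g (p, q + t)) := by
  have hB : 2 * B < N := by omega
  -- the `x, y` summation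
  have h1 := sum_lift2 (N := N) B hB
    (fun z => ∑ t : ZMod N, X z * (lift2 f ((z.1 : ZMod N) + t) (z.2 : ZMod N) *
      lift2 g (z.1 : ZMod N) ((z.2 : ZMod N) + t)) * ((k (t - 1).valMinAbs : ℝ) : ℂ))
    (by
      intro z hz
      apply hX
      obtain ⟨t, -, ht⟩ := Finset.exists_ne_zero_of_sum_ne_zero hz
      intro h0
      simp [h0] at ht)
  have h2 : ∀ x y : ZMod N, ∑ t : ZMod N,
        lift2 X x y * (lift2 f (x + t) y * lift2 g x (y + t)) * ((k (t - 1).valMinAbs : ℝ) : ℂ) =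
      lift2 (fun z : ℤ × ℤ => ∑ t : ZMod N, X z * (lift2 f ((z.1 : ZMod N) + t) (z.2 : ZMod N) *
      lift2 g (z.1 : ZMod N) ((z.2 : ZMod N) + t)) * ((k (t - 1).valMinAbs : ℝ) : ℂ)) x y := by
    intro x y
    simp only [lift2, ZMod.coe_valMinAbs]
  simp only [h2]
  rw [h1]
  refine Finset.sum_congr rfl fun p hp => Finset.sum_congr rfl fun q hq => ?_
  have hp' := Finset.mem_Icc.mp hp
  have hq' := Finset.mem_Icc.mp hq
  have hs : ∀ t ∈ Finset.Icc (-((T : ℤ) + 1)) (T + 1), 2 * |t| < N := fun t ht => by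
    have := Finset.mem_Icc.mp ht
    have h1 : |t| ≤ T + 1 := abs_le.mpr ⟨by omega, by omega⟩
    omega
  rw [sum_lift (Finset.Icc (-((T : ℤ) + 1)) (T + 1)) hs]
  · rw [Finset.mul_sum]
    refine Finset.sum_congr rfl fun t ht => ?_
    have ht' := Finset.mem_Icc.mp ht
    have htabs : |t| ≤ T + 1 := abs_le.mpr ⟨by omega, by omega⟩
    have hpabs : |p| ≤ B := abs_le.mpr ⟨by omega, by omega⟩
    have hqabs : |q| ≤ B := abs_le.mpr ⟨by omega, by omega⟩
    have e1 : ((p : ZMod N) + (t : ZMod N)) = ((p + t : ℤ) : ZMod N) := by push_cast; rfl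
    have e2 : ((q : ZMod N) + (t : ZMod N)) = ((q + t : ℤ) : ZMod N) := by push_cast; rfl
    have e3 : ((t : ZMod N) - 1) = ((t - 1 : ℤ) : ZMod N) := by push_cast; rfl
    have a1 : 2 * |p + t| < N := by
      have := abs_add_le p t
      omega
    have a2 : 2 * |q + t| < N := by
      have := abs_add_le q t
      omega
    have a3 : 2 * |t - 1| < N := by
      have := abs_sub t 1
      have h1 : |(1 : ℤ)| = 1 := abs_one
      omega
    have a4 : 2 * |p| < N := by omega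
    have a5 : 2 * |q| < N := by omega
    simp only [lift2, e1, e2, e3, lift_cast a1, lift_cast a2, lift_cast a3, lift_cast a4,
      lift_cast a5]
    ring
  · intro t ht
    have h3 : k (t - 1).valMinAbs ≠ 0 := by
      intro h0
      apply ht
      simp [h0]
    have h4 := hk _ h3
    have h5 : t = (((t - 1).valMinAbs + 1 : ℤ) : ZMod N) := by
      push_cast
      ring
    have h6 : |(t - 1).valMinAbs + 1| ≤ T + 1 := by
      have := abs_add_le (t - 1).valMinAbs 1
      have h1 : |(1 : ℤ)| = 1 := abs_one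
      omega
    have h7 : 2 * |(t - 1).valMinAbs + 1| < N := by omega
    have h8 : t.valMinAbs = (t - 1).valMinAbs + 1 := by
      conv_lhs => rw [h5]
      rw [lift_cast h7]
    rw [h8]
    exact Finset.mem_Icc.mpr (abs_le.mp h6)

end Crest.Agent.TriRL
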