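/-
S0096 (helper84's blueprint, L7): from `T_B` (`TBStatement`) to the chain theorem on `ℤ²` (helper73).

`phi f g z t = f(z₁+t,z₂) g(z₁,z₂+t)`, `pair k φ = ∑ k φ`, `ladK M s i` the `1/m`-average of the
ladder kernels at level `i`.  Result: for each `z` a family of `n` disjoint intervals of levels,
`‖∑_j |⟨∑_{i∈I_j(z)} ladK i, φ_z⟩|‖_{ℓ^{3/2}(z)} ≤ 9 C √n ‖f‖₃‖g‖₃`.
-/
import Crest.Agent.TriRL.Lift

set_option autoImplicit false

namespace Crest.Agent.TriRL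

open Finset

/-- The bilinear integrand on the line through `z`. -/
def phi (f g : ℤ × ℤ → ℂ) (z : ℤ × ℤ) (t : ℤ) : ℂ := f (z.1 + t, z.2) * g (z.1, z.2 + t)

/-- The pairing of a kernel with a function on `ℤ`. -/
noncomputable def pair (k : ℤ → ℝ) (φ : ℤ → ℂ) : ℂ := ∑' t, ((k t : ℝ) : ℂ) * φ t

/-- One level of the averaged ladder. -/
noncomputable def ladK (M s i : ℕ) (t : ℤ) : ℝ :=
  ∑ m ∈ Finset.Ico M (2 * M), (1 / (m : ℝ)) * kappaZ (2 ^ i * (2 ^ s * (8 * m))) (t - 1)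

/-- Support in a box. -/
def InBox {E : Type*} [Zero E] (B : ℕ) (F : ℤ × ℤ → E) : Prop :=
  ∀ z, F z ≠ 0 → |z.1| ≤ B ∧ |z.2| ≤ B

lemma InBox.mono {E : Type*} [Zero E] {B B' : ℕ} {F : ℤ × ℤ → E} (h : InBox B F) (hB : B ≤ B') :
    InBox B' F := fun z hz => by
  have := h z hz
  constructor <;> omega

lemma exists_inBox {E : Type*} [Zero E] {F : ℤ × ℤ → E} (hF : (Function.support F).Finite) :
    ∃ B : ℕ, InBox B F := by
  classical
  obtain ⟨B, hB⟩ := (hF.image (fun z => z.1.natAbs + z.2.natAbs)).bddAbove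
  refine ⟨B, fun z hz => ?_⟩
  have h : z.1.natAbs + z.2.natAbs ≤ B := hB (Set.mem_image_of_mem _ hz)
  constructor <;> rw [Int.abs_eq_natAbs] <;> omega

lemma pair_eq_sum {k : ℤ → ℝ} {φ : ℤ → ℂ} (s : Finset ℤ) (hs : ∀ t, t ∉ s → φ t = 0) :
    pair k φ = ∑ t ∈ s, ((k t : ℝ) : ℂ) * φ t := by
  unfold pair
  refine tsum_eq_sum fun t ht => ?_
  rw [hs t ht, mul_zero]

lemma pair_eq_sum' {k : ℤ → ℝ} {φ : ℤ → ℂ} (s : Finset ℤ) (hs : ∀ t, t ∉ s → k t = 0) :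
    pair k φ = ∑ t ∈ s, ((k t : ℝ) : ℂ) * φ t := by
  unfold pair
  refine tsum_eq_sum fun t ht => ?_
  rw [hs t ht]
  simp

lemma phi_support {B : ℕ} {f g : ℤ × ℤ → ℂ} (hf : InBox B f) (hg : InBox B g) (z : ℤ × ℤ)
    (t : ℤ) (ht : t ∉ Finset.Icc (-(2 * B : ℤ)) (2 * B)) : phi f g z t = 0 := by
  unfold phi
  by_contra hne
  have h1 : f (z.1 + t, z.2) ≠ 0 := fun h => hne (by rw [h, zero_mul])
  have h2 : g (z.1, z.2 + t) ≠ 0 := fun h => hne (by rw [h, mul_zero])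
  have h3 := (hf _ h1).1
  have h4 := (hg _ h2).1
  simp only at h3 h4
  apply ht
  rw [Finset.mem_Icc]
  have h5 := abs_le.mp h3
  have h6 := abs_le.mp h4
  constructor <;> omega

lemma phi_box {B : ℕ} {f g : ℤ × ℤ → ℂ} (hf : InBox B f) (hg : InBox B g) (z : ℤ × ℤ)
    (hz : ¬ (|z.1| ≤ B ∧ |z.2| ≤ B)) (t : ℤ) : phi f g z t = 0 := by
  unfold phi
  by_contra hne
  have h1 : f (z.1 + t, z.2) ≠ 0 := fun h => hne (by rw [h, zero_mul])
  have h2 : g (z.1, z.2 + t) ≠ 0 := fun h => hne (by rw [h, mul_zero])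
  exact hz ⟨(hg _ h2).1, (hf _ h1).2⟩

lemma pair_add_sum {ι : Type*} (u : Finset ι) (c : ι → ℝ) (k : ι → ℤ → ℝ) {φ : ℤ → ℂ}
    (s : Finset ℤ) (hs : ∀ t, t ∉ s → φ t = 0) :
    pair (fun t => ∑ m ∈ u, c m * k m t) φ = ∑ m ∈ u, (c m : ℂ) * pair (k m) φ := by
  rw [pair_eq_sum s hs]
  simp only [pair_eq_sum s hs, Finset.mul_sum]
  rw [Finset.sum_comm]
  refine Finset.sum_congr rfl fun t _ => ?_
  push_cast
  rw [Finset.sum_mul]
  refine Finset.sum_congr rfl fun m _ => ?_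
  ring

/-- Reindexing sums over a group: the three variants used for `F0`, `F1`, `X`. -/
lemma sum_shear0 {Γ E : Type*} [AddCommGroup Γ] [Fintype Γ] [AddCommMonoid E] (e : Γ)
    (u : Γ → Γ → E) : ∑ x0, ∑ x1, u (-x0) (x0 + x1 + e) = ∑ x, ∑ y, u x y := by
  rw [← Equiv.sum_comp (Equiv.neg Γ) (fun x => ∑ y, u x y)]
  refine Finset.sum_congr rfl fun x0 _ => ?_
  rw [← Equiv.sum_comp (Equiv.addRight (x0 + e)) (fun y => u (Equiv.neg Γ x0) y)]
  refine Finset.sum_congr rfl fun x1 _ => ?_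
  simp only [Equiv.neg_apply, Equiv.coe_addRight]
  congr 1
  abel

lemma sum_shear1 {Γ E : Type*} [AddCommGroup Γ] [Fintype Γ] [AddCommMonoid E] (e : Γ)
    (u : Γ → Γ → E) : ∑ x1, ∑ x2, u (x1 + x2 + e) (-x2) = ∑ x, ∑ y, u x y := by
  rw [Finset.sum_comm]
  rw [Finset.sum_comm (f := u)]
  rw [← Equiv.sum_comp (Equiv.neg Γ) (fun y => ∑ x, u x y)]
  refine Finset.sum_congr rfl fun x2 _ => ?_
  rw [← Equiv.sum_comp (Equiv.addRight (x2 + e)) (fun x => u x (Equiv.neg Γ x2))]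
  refine Finset.sum_congr rfl fun x1 _ => ?_
  simp only [Equiv.neg_apply, Equiv.coe_addRight]
  congr 1
  abel

lemma sum_shear2 {Γ E : Type*} [AddCommGroup Γ] [Fintype Γ] [AddCommMonoid E]
    (u : Γ → Γ → E) : ∑ x2, ∑ x0, u (-x0) (-x2) = ∑ x, ∑ y, u x y := by
  rw [Finset.sum_comm]
  rw [← Equiv.sum_comp (Equiv.neg Γ) (fun x => ∑ y, u x y)]
  refine Finset.sum_congr rfl fun x0 _ => ?_
  rw [← Equiv.sum_comp (Equiv.neg Γ) (fun y => u (Equiv.neg Γ x0) y)]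
  rfl

/-- The box. -/
noncomputable abbrev box (B : ℕ) : Finset ℤ := Finset.Icc (-(B : ℤ)) B

/-- **The consequence of `T_B` at one ladder on `ℤ²`.** -/
theorem ladder_bound {C : ℝ} (hTB : TBStatement C) (hC : 0 ≤ C) (I B : ℕ) (τ₀ : ℕ) (h8 : 8 ∣ τ₀)
    (hτ₀ : 0 < τ₀) (f g : ℤ × ℤ → ℂ) (H : ℤ × ℤ → ℝ) (θ : ℕ → ℤ × ℤ → ℂ)
    (hf : InBox B f) (hg : InBox B g) (hH : InBox B H) (hθ : ∀ i z, ‖θ i z‖ ≤ 1)
    (hH0 : ∀ z, 0 ≤ H z) (W : ℝ) (hW : 0 ≤ W)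
    (hV : ∀ z, ∑ i ∈ Finset.range I, ‖θ (i + 1) z - θ i z‖ ≤ W) :
    ∑ i ∈ Finset.range I,
      ‖∑ p ∈ box B, ∑ q ∈ box B, ((H (p, q) : ℝ) : ℂ) * θ i (p, q) *
        pair (fun t => kappaZ (2 ^ i * τ₀) (t - 1)) (phi f g (p, q))‖ ≤
    C * ((∑ p ∈ box B, ∑ q ∈ box B, ‖g (p, q)‖ ^ 3) + (∑ p ∈ box B, ∑ q ∈ box B, ‖f (p, q)‖ ^ 3) +
        ∑ p ∈ box B, ∑ q ∈ box B, |H (p, q)| ^ 3) +
      C * (W * (∑ p ∈ box B, ∑ q ∈ box B, |H (p, q)| ^ 3) ^ ((1 : ℝ) / 3)) *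
        (∑ p ∈ box B, ∑ q ∈ box B, |H (p, q)| ^ 3) ^ ((1 : ℝ) / 3) *
        ((∑ p ∈ box B, ∑ q ∈ box B, |H (p, q)| ^ 3) ^ ((1 : ℝ) / 3) +
          (∑ p ∈ box B, ∑ q ∈ box B, ‖g (p, q)‖ ^ 3) ^ ((1 : ℝ) / 3) +
          (∑ p ∈ box B, ∑ q ∈ box B, ‖f (p, q)‖ ^ 3) ^ ((1 : ℝ) / 3)) := by
  classical
  -- the modulus
  set N : ℕ := 2 ^ (I + 10) * τ₀ + 2 * B + 10 with hNdef
  have : NeZero N := ⟨by omega⟩
  have hNB : 2 * B < N := by omega
  -- the functions on the torus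
  set F0 : ZMod N → ZMod N → ℂ := fun x0 x1 => lift2 g (-x0) (x0 + x1 + 1) with hF0
  set F1 : ZMod N → ZMod N → ℂ := fun x1 x2 => lift2 f (x1 + x2 + 1) (-x2) with hF1
  set X : ℕ → ZMod N → ZMod N → ℂ := fun i x2 x0 =>
    lift2 (fun z => ((H z : ℝ) : ℂ) * θ i z) (-x0) (-x2) with hX
  set Y : ZMod N → ZMod N → ℝ := fun x2 x0 => lift2 H (-x0) (-x2) with hY
  have hXY : ∀ i u v, ‖X i u v‖ ≤ Y u v := by
    intro i u v
    simp only [hX, hY, lift2, norm_mul, Complex.norm_real, Real.norm_eq_abs]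
    set z : ℤ × ℤ := ((-v).valMinAbs, (-u).valMinAbs)
    rw [abs_of_nonneg (hH0 z)]
    have := mul_le_mul_of_nonneg_left (hθ i z) (hH0 z)
    linarith
  have hmain := hTB N τ₀ I h8 hτ₀ (by omega) F0 F1 X Y hXY
  -- the norms
  have hS0 : S3 F0 = ∑ p ∈ box B, ∑ q ∈ box B, ‖g (p, q)‖ ^ 3 := by
    unfold S3
    have h1 := sum_shear0 (1 : ZMod N) (fun x y => lift2 (fun z => ‖g z‖ ^ 3) x y)
    simp only [hF0, lift2] at h1 ⊢
    rw [h1]
    have h2 := sum_lift2 (N := N) B hNB (fun z => ‖g z‖ ^ 3) (by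
      intro z hz
      apply hg
      intro h0
      simp [h0] at hz)
    simpa only [lift2] using h2
  have hS1 : S3 F1 = ∑ p ∈ box B, ∑ q ∈ box B, ‖f (p, q)‖ ^ 3 := by
    unfold S3
    have h1 := sum_shear1 (1 : ZMod N) (fun x y => lift2 (fun z => ‖f z‖ ^ 3) x y)
    simp only [hF1, lift2] at h1 ⊢
    rw [h1]
    have h2 := sum_lift2 (N := N) B hNB (fun z => ‖f z‖ ^ 3) (by
      intro z hz
      apply hf
      intro h0
      simp [h0] at hz)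
    simpa only [lift2] using h2
  have hSY : S3r Y = ∑ p ∈ box B, ∑ q ∈ box B, |H (p, q)| ^ 3 := by
    unfold S3r
    have h1 := sum_shear2 (fun x y : ZMod N => lift2 (fun z => |H z| ^ 3) x y)
    simp only [hY, lift2] at h1 ⊢
    rw [h1]
    have h2 := sum_lift2 (N := N) B hNB (fun z => |H z| ^ 3) (by
      intro z hz
      apply hH
      intro h0
      simp [h0] at hz)
    simpa only [lift2] using h2
  -- the variation
  have hVsum : (∑ u : ZMod N, ∑ v : ZMod N,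
      (∑ i ∈ Finset.range I, ‖X (i + 1) u v - X i u v‖) ^ 3) ≤
      W ^ 3 * ∑ p ∈ box B, ∑ q ∈ box B, |H (p, q)| ^ 3 := by
    have h1 := sum_shear2 (fun x y : ZMod N => lift2
      (fun z => (∑ i ∈ Finset.range I, ‖((H z : ℝ) : ℂ) * θ (i + 1) z - ((H z : ℝ) : ℂ) * θ i z‖) ^ 3)
        x y)
    have h3 : (∑ u : ZMod N, ∑ v : ZMod N,
      (∑ i ∈ Finset.range I, ‖X (i + 1) u v - X i u v‖) ^ 3) =
        ∑ x2 : ZMod N, ∑ x0 : ZMod N, lift2
        (fun z => (∑ i ∈ Finset.range I,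
          ‖((H z : ℝ) : ℂ) * θ (i + 1) z - ((H z : ℝ) : ℂ) * θ i z‖) ^ 3) (-x0) (-x2) := rfl
    rw [h3, h1]
    rw [sum_lift2 (N := N) B hNB _ (by
      intro z hz
      apply hH
      intro h0
      simp [h0] at hz)]
    rw [Finset.mul_sum]
    refine Finset.sum_le_sum fun p _ => ?_
    rw [Finset.mul_sum]
    refine Finset.sum_le_sum fun q _ => ?_
    have h4 : ∀ i, ‖((H (p, q) : ℝ) : ℂ) * θ (i + 1) (p, q) - ((H (p, q) : ℝ) : ℂ) * θ i (p, q)‖ =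
        |H (p, q)| * ‖θ (i + 1) (p, q) - θ i (p, q)‖ := by
      intro i
      rw [← mul_sub, norm_mul, Complex.norm_real, Real.norm_eq_abs]
    simp only [h4, ← Finset.mul_sum]
    rw [mul_pow]
    have h5 := hV (p, q)
    have h6 : 0 ≤ ∑ i ∈ Finset.range I, ‖θ (i + 1) (p, q) - θ i (p, q)‖ :=
      Finset.sum_nonneg fun _ _ => norm_nonneg _
    have h7 := pow_le_pow_left₀ h6 h5 3
    have h8 := pow_nonneg (abs_nonneg (H (p, q))) 3
    nlinarith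
  -- the forms
  have hforms : ∀ i ∈ Finset.range I,
      (∑ x0 : ZMod N, ∑ x1 : ZMod N, ∑ x2 : ZMod N,
        F0 x0 x1 * F1 x1 x2 * X i x2 x0 * (kappaG N (2 ^ i * τ₀) (x0 + x1 + x2) : ℂ)) =
      ∑ p ∈ box B, ∑ q ∈ box B, ((H (p, q) : ℝ) : ℂ) * θ i (p, q) *
        pair (fun t => kappaZ (2 ^ i * τ₀) (t - 1)) (phi f g (p, q)) := by
    intro i hi
    set τ := 2 ^ i * τ₀ with hτ
    have hiI : i < I := Finset.mem_range.mp hi
    have hτle : τ ≤ 2 ^ I * τ₀ := by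
      rw [hτ]
      exact Nat.mul_le_mul_right _ (Nat.pow_le_pow_right (by norm_num) hiI.le)
    have hpow : 2 ^ (I + 10) = 1024 * 2 ^ I := by ring
    have h8τ : 8 * τ < N := by
      have : 2 ^ (I + 10) * τ₀ = 1024 * (2 ^ I * τ₀) := by rw [hpow]; ring
      omega
    have h1 := form_subst (1 : ZMod N)
      (fun x y => lift2 f x y) (fun x y => lift2 g x y)
      (fun x y => lift2 (fun z => ((H z : ℝ) : ℂ) * θ i z) x y)
      (fun ξ => ((kappaG N τ ξ : ℝ) : ℂ))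
    have h2 := form_transfer (N := N) B (3 * τ) (by
        have : 2 ^ (I + 10) * τ₀ = 1024 * (2 ^ I * τ₀) := by rw [hpow]; ring
        omega) f g (fun z => ((H z : ℝ) : ℂ) * θ i z) (kappaZ τ)
      (by
        intro z hz
        apply hH
        intro h0
        simp [h0] at hz)
      (by
        intro u hu
        by_contra hlt
        exact hu (kappaZ_eq_zero (by push_cast at hlt ⊢; omega)))
    simp only [hF0, hF1, hX]
    rw [h1]
    simp only [kappaG_eq_lift h8τ]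
    rw [h2]
    refine Finset.sum_congr rfl fun p _ => Finset.sum_congr rfl fun q _ => ?_
    congr 1
    unfold phi
    rw [pair_eq_sum' (Finset.Icc (-(((3 * τ : ℕ) : ℤ) + 1)) ((3 * τ : ℕ) + 1))]
    intro t ht
    apply kappaZ_eq_zero
    rw [Finset.mem_Icc, not_and_or] at ht
    rcases abs_cases (t - 1) with ⟨h1, h2⟩ | ⟨h1, h2⟩ <;> rw [h1] <;> push_cast at ht <;> omega
  -- conclusion
  rw [Finset.sum_congr rfl (fun i hi => by rw [← hforms i hi])]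
  refine hmain.trans ?_
  rw [hS0, hS1, hSY]
  set h3 := ∑ p ∈ box B, ∑ q ∈ box B, |H (p, q)| ^ 3 with hh3
  have hh3nn : 0 ≤ h3 := Finset.sum_nonneg fun _ _ => Finset.sum_nonneg fun _ _ =>
    pow_nonneg (abs_nonneg _) _
  have hVnn : 0 ≤ (∑ u : ZMod N, ∑ v : ZMod N,
      (∑ i ∈ Finset.range I, ‖X (i + 1) u v - X i u v‖) ^ 3) :=
    Finset.sum_nonneg fun _ _ => Finset.sum_nonneg fun _ _ =>
      pow_nonneg (Finset.sum_nonneg fun _ _ => norm_nonneg _) _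
  have hVr : (∑ u : ZMod N, ∑ v : ZMod N,
      (∑ i ∈ Finset.range I, ‖X (i + 1) u v - X i u v‖) ^ 3) ^ ((1 : ℝ) / 3) ≤
      W * h3 ^ ((1 : ℝ) / 3) := by
    have h1 := Real.rpow_le_rpow hVnn hVsum (by norm_num : (0 : ℝ) ≤ 1 / 3)
    rw [Real.mul_rpow (pow_nonneg hW 3) hh3nn] at h1
    have h2 : ((W ^ 3 : ℝ)) ^ ((1 : ℝ) / 3) = W := by
      rw [← Real.rpow_natCast, ← Real.rpow_mul hW]
      norm_num
    rwa [h2] at h1
  have hnn1 : 0 ≤ h3 ^ ((1 : ℝ) / 3) := Real.rpow_nonneg hh3nn _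
  have hnn2 : 0 ≤ (∑ p ∈ box B, ∑ q ∈ box B, ‖g (p, q)‖ ^ 3) ^ ((1 : ℝ) / 3) :=
    Real.rpow_nonneg (Finset.sum_nonneg fun _ _ => Finset.sum_nonneg fun _ _ =>
      pow_nonneg (norm_nonneg _) _) _
  have hnn3 : 0 ≤ (∑ p ∈ box B, ∑ q ∈ box B, ‖f (p, q)‖ ^ 3) ^ ((1 : ℝ) / 3) :=
    Real.rpow_nonneg (Finset.sum_nonneg fun _ _ => Finset.sum_nonneg fun _ _ =>
      pow_nonneg (norm_nonneg _) _) _
  gcongr

/-- The sum of the variation of an indicator of an interval. -/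
lemma sum_abs_indicator_sub (a b I : ℕ) :
    ∑ i ∈ Finset.range I, |(if i + 1 ∈ Finset.Ico a b then (1 : ℝ) else 0) -
      (if i ∈ Finset.Ico a b then (1 : ℝ) else 0)| ≤ 2 := by
  have h1 : ∀ i ∈ Finset.range I, |(if i + 1 ∈ Finset.Ico a b then (1 : ℝ) else 0) -
      (if i ∈ Finset.Ico a b then (1 : ℝ) else 0)| ≤
      (if i + 1 = a then 1 else 0) + (if i + 1 = b then 1 else 0) := by
    intro i _
    simp only [Finset.mem_Ico]
    split_ifs <;> first | (exfalso; omega) | norm_num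
  refine (Finset.sum_le_sum h1).trans ?_
  rw [Finset.sum_add_distrib]
  have h2 : ∀ c : ℕ, ∑ i ∈ Finset.range I, (if i + 1 = c then (1 : ℝ) else 0) ≤ 1 := by
    intro c
    rcases c with _ | c
    · simp
    · simp only [Nat.add_right_cancel_iff]
      rw [Finset.sum_ite_eq']
      split_ifs <;> norm_num
  linarith [h2 a, h2 b]

/-- The unimodular (or zero) conjugate phase of a complex number. -/
noncomputable def phase (w : ℂ) : ℂ := (starRingEnd ℂ) w / (‖w‖ : ℂ)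

lemma phase_mul (w : ℂ) : phase w * w = (‖w‖ : ℂ) := by
  unfold phase
  by_cases h : w = 0
  · simp [h]
  · have h2 : (‖w‖ : ℂ) ≠ 0 := by
      simpa using h
    field_simp
    rw [Complex.conj_mul']

lemma norm_phase_le (w : ℂ) : ‖phase w‖ ≤ 1 := by
  unfold phase
  by_cases h : w = 0
  · simp [h]
  · rw [norm_div, Complex.norm_conj, Complex.norm_real, norm_norm]
    have h2 : ‖w‖ ≠ 0 := by simpa using h
    rw [div_self h2]

section family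

variable {n : ℕ}

/-- The step function of the phases `ε` on the intervals `[a_j, b_j)`. -/
noncomputable def stepFn (a b : Fin n → ℕ) (ε : Fin n → ℂ) (i : ℕ) : ℂ :=
  ∑ j, if i ∈ Finset.Ico (a j) (b j) then ε j else 0

lemma norm_stepFn_le (a b : Fin n → ℕ) (ε : Fin n → ℂ) (hε : ∀ j, ‖ε j‖ ≤ 1)
    (hd : ∀ j j', j ≠ j' → Disjoint (Finset.Ico (a j) (b j)) (Finset.Ico (a j') (b j'))) (i : ℕ) :
    ‖stepFn a b ε i‖ ≤ 1 := by
  unfold stepFn
  by_cases h : ∃ j, i ∈ Finset.Ico (a j) (b j)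
  · obtain ⟨j, hj⟩ := h
    rw [Finset.sum_eq_single j]
    · rw [if_pos hj]
      exact hε j
    · intro j' _ hne
      rw [if_neg]
      intro hj'
      exact (Finset.disjoint_left.mp (hd j j' (Ne.symm hne)) hj) hj'
    · simp
  · push Not at h
    rw [Finset.sum_eq_zero]
    · simp
    · intro j _
      rw [if_neg (h j)]

lemma sum_norm_stepFn_sub_le (a b : Fin n → ℕ) (ε : Fin n → ℂ) (hε : ∀ j, ‖ε j‖ ≤ 1) (I : ℕ) :
    ∑ i ∈ Finset.range I, ‖stepFn a b ε (i + 1) - stepFn a b ε i‖ ≤ 2 * n := by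
  have h1 : ∀ i, ‖stepFn a b ε (i + 1) - stepFn a b ε i‖ ≤
      ∑ j, |(if i + 1 ∈ Finset.Ico (a j) (b j) then (1 : ℝ) else 0) -
        (if i ∈ Finset.Ico (a j) (b j) then (1 : ℝ) else 0)| := by
    intro i
    unfold stepFn
    rw [← Finset.sum_sub_distrib]
    refine (norm_sum_le _ _).trans (Finset.sum_le_sum fun j _ => ?_)
    have hj := hε j
    have hj0 := norm_nonneg (ε j)
    by_cases h3 : i + 1 ∈ Finset.Ico (a j) (b j) <;> by_cases h4 : i ∈ Finset.Ico (a j) (b j) <;>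
      simp only [h3, h4, if_true, if_false] <;> simp [hj]
  refine (Finset.sum_le_sum fun i _ => h1 i).trans ?_
  rw [Finset.sum_comm]
  refine (Finset.sum_le_sum fun j _ => sum_abs_indicator_sub (a j) (b j) I).trans ?_
  simp only [Finset.sum_const, Finset.card_univ, Fintype.card_fin, nsmul_eq_mul]
  linarith

lemma sum_stepFn_mul (a b : Fin n → ℕ) (ε : Fin n → ℂ) (I : ℕ) (hb : ∀ j, b j ≤ I) (P : ℕ → ℂ) :
    ∑ i ∈ Finset.range I, stepFn a b ε i * P i =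
      ∑ j, ε j * ∑ i ∈ Finset.Ico (a j) (b j), P i := by
  unfold stepFn
  simp only [Finset.sum_mul]
  rw [Finset.sum_comm]
  refine Finset.sum_congr rfl fun j _ => ?_
  rw [Finset.mul_sum]
  have hsub : Finset.Ico (a j) (b j) ⊆ Finset.range I := by
    intro i hi
    have := Finset.mem_Ico.mp hi
    have := hb j
    exact Finset.mem_range.mpr (by omega)
  rw [← Finset.sum_subset hsub]
  · refine Finset.sum_congr rfl fun i hi => ?_
    rw [if_pos hi]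
  · intro i _ hi
    rw [if_neg hi, zero_mul]

end family

lemma sum4_comm {A B C D E : Type*} [AddCommMonoid E] (sA : Finset A) (sB : Finset B)
    (sC : Finset C) (sD : Finset D) (u : A → B → C → D → E) :
    ∑ m ∈ sA, ∑ i ∈ sB, ∑ p ∈ sC, ∑ q ∈ sD, u m i p q =
      ∑ p ∈ sC, ∑ q ∈ sD, ∑ i ∈ sB, ∑ m ∈ sA, u m i p q := by
  calc ∑ m ∈ sA, ∑ i ∈ sB, ∑ p ∈ sC, ∑ q ∈ sD, u m i p q
      = ∑ m ∈ sA, ∑ p ∈ sC, ∑ i ∈ sB, ∑ q ∈ sD, u m i p q :=
        Finset.sum_congr rfl fun m _ => Finset.sum_comm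
    _ = ∑ p ∈ sC, ∑ m ∈ sA, ∑ i ∈ sB, ∑ q ∈ sD, u m i p q := Finset.sum_comm
    _ = ∑ p ∈ sC, ∑ i ∈ sB, ∑ m ∈ sA, ∑ q ∈ sD, u m i p q :=
        Finset.sum_congr rfl fun p _ => Finset.sum_comm
    _ = ∑ p ∈ sC, ∑ i ∈ sB, ∑ q ∈ sD, ∑ m ∈ sA, u m i p q :=
        Finset.sum_congr rfl fun p _ => Finset.sum_congr rfl fun i _ => Finset.sum_comm
    _ = ∑ p ∈ sC, ∑ q ∈ sD, ∑ i ∈ sB, ∑ m ∈ sA, u m i p q :=
        Finset.sum_congr rfl fun p _ => Finset.sum_comm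

/-- The value at `z` of the `j`-th interval of levels. -/
noncomputable def chainW (M s : ℕ) (f g : ℤ × ℤ → ℂ) {n : ℕ} (a b : ℤ × ℤ → Fin n → ℕ)
    (z : ℤ × ℤ) (j : Fin n) : ℂ :=
  ∑ i ∈ Finset.Ico (a z j) (b z j), pair (ladK M s i) (phi f g z)

/-- The sum of the moduli at `z`. -/
noncomputable def chainS (M s : ℕ) (f g : ℤ × ℤ → ℂ) {n : ℕ} (a b : ℤ × ℤ → Fin n → ℕ)
    (z : ℤ × ℤ) : ℝ :=
  ∑ j, ‖chainW M s f g a b z j‖

lemma chainS_nonneg (M s : ℕ) (f g : ℤ × ℤ → ℂ) {n : ℕ} (a b : ℤ × ℤ → Fin n → ℕ)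
    (z : ℤ × ℤ) : 0 ≤ chainS M s f g a b z :=
  Finset.sum_nonneg fun _ _ => norm_nonneg _

lemma sum_one_div_le {M : ℕ} (hM : 1 ≤ M) :
    ∑ m ∈ Finset.Ico M (2 * M), (1 / (m : ℝ)) ≤ 1 := by
  have h1 : ∀ m ∈ Finset.Ico M (2 * M), (1 / (m : ℝ)) ≤ 1 / M := by
    intro m hm
    have h2 := (Finset.mem_Ico.mp hm).1
    have h3 : (M : ℝ) ≤ m := by exact_mod_cast h2
    have h4 : (0 : ℝ) < M := by exact_mod_cast hM
    exact one_div_le_one_div_of_le h4 h3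
  refine (Finset.sum_le_sum h1).trans ?_
  rw [Finset.sum_const, Nat.card_Ico, nsmul_eq_mul]
  have h4 : (M : ℝ) ≠ 0 := by positivity
  have h5 : 2 * M - M = M := by omega
  rw [h5]
  field_simp
  exact le_refl _

/-- **The bilinear chain inequality** (with `H`), from `T_B`. -/
theorem chain_bilinear {C : ℝ} (hTB : TBStatement C) (hC : 0 ≤ C) {n : ℕ} (I B M s : ℕ)
    (hM : 1 ≤ M) (f g : ℤ × ℤ → ℂ) (H : ℤ × ℤ → ℝ)
    (hf : InBox B f) (hg : InBox B g) (hH : InBox B H) (hH0 : ∀ z, 0 ≤ H z)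
    (a b : ℤ × ℤ → Fin n → ℕ)
    (hd : ∀ z j j', j ≠ j' → Disjoint (Finset.Ico (a z j) (b z j)) (Finset.Ico (a z j') (b z j')))
    (hb : ∀ z j, b z j ≤ I) :
    ∑ p ∈ box B, ∑ q ∈ box B, H (p, q) * chainS M s f g a b (p, q) ≤
    C * ((∑ p ∈ box B, ∑ q ∈ box B, ‖g (p, q)‖ ^ 3) + (∑ p ∈ box B, ∑ q ∈ box B, ‖f (p, q)‖ ^ 3) +
        ∑ p ∈ box B, ∑ q ∈ box B, |H (p, q)| ^ 3) +
      C * ((2 * n) * (∑ p ∈ box B, ∑ q ∈ box B, |H (p, q)| ^ 3) ^ ((1 : ℝ) / 3)) *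
        (∑ p ∈ box B, ∑ q ∈ box B, |H (p, q)| ^ 3) ^ ((1 : ℝ) / 3) *
        ((∑ p ∈ box B, ∑ q ∈ box B, |H (p, q)| ^ 3) ^ ((1 : ℝ) / 3) +
          (∑ p ∈ box B, ∑ q ∈ box B, ‖g (p, q)‖ ^ 3) ^ ((1 : ℝ) / 3) +
          (∑ p ∈ box B, ∑ q ∈ box B, ‖f (p, q)‖ ^ 3) ^ ((1 : ℝ) / 3)) := by
  classical
  set R : ℝ := C * ((∑ p ∈ box B, ∑ q ∈ box B, ‖g (p, q)‖ ^ 3) +
        (∑ p ∈ box B, ∑ q ∈ box B, ‖f (p, q)‖ ^ 3) +
        ∑ p ∈ box B, ∑ q ∈ box B, |H (p, q)| ^ 3) +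
      C * ((2 * n) * (∑ p ∈ box B, ∑ q ∈ box B, |H (p, q)| ^ 3) ^ ((1 : ℝ) / 3)) *
        (∑ p ∈ box B, ∑ q ∈ box B, |H (p, q)| ^ 3) ^ ((1 : ℝ) / 3) *
        ((∑ p ∈ box B, ∑ q ∈ box B, |H (p, q)| ^ 3) ^ ((1 : ℝ) / 3) +
          (∑ p ∈ box B, ∑ q ∈ box B, ‖g (p, q)‖ ^ 3) ^ ((1 : ℝ) / 3) +
          (∑ p ∈ box B, ∑ q ∈ box B, ‖f (p, q)‖ ^ 3) ^ ((1 : ℝ) / 3)) with hR
  have hRnn : 0 ≤ R := by
    have h1 : 0 ≤ (∑ p ∈ box B, ∑ q ∈ box B, |H (p, q)| ^ 3) := Finset.sum_nonneg fun _ _ =>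
      Finset.sum_nonneg fun _ _ => pow_nonneg (abs_nonneg _) _
    have h2 : 0 ≤ (∑ p ∈ box B, ∑ q ∈ box B, ‖g (p, q)‖ ^ 3) := Finset.sum_nonneg fun _ _ =>
      Finset.sum_nonneg fun _ _ => pow_nonneg (norm_nonneg _) _
    have h3 : 0 ≤ (∑ p ∈ box B, ∑ q ∈ box B, ‖f (p, q)‖ ^ 3) := Finset.sum_nonneg fun _ _ =>
      Finset.sum_nonneg fun _ _ => pow_nonneg (norm_nonneg _) _
    rw [hR]
    positivity
  -- the mask
  set ε : ℤ × ℤ → Fin n → ℂ := fun z j => phase (chainW M s f g a b z j) with hε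
  set θ : ℕ → ℤ × ℤ → ℂ := fun i z => stepFn (a z) (b z) (ε z) i with hθ
  have hεle : ∀ z j, ‖ε z j‖ ≤ 1 := fun z j => norm_phase_le _
  have hθ1 : ∀ i z, ‖θ i z‖ ≤ 1 := fun i z =>
    norm_stepFn_le _ _ _ (hεle z) (hd z) i
  have hV : ∀ z, ∑ i ∈ Finset.range I, ‖θ (i + 1) z - θ i z‖ ≤ 2 * n := fun z =>
    sum_norm_stepFn_sub_le _ _ _ (hεle z) I
  -- the pairing at the levels
  have hphi : ∀ z t, t ∉ Finset.Icc (-(2 * B : ℤ)) (2 * B) → phi f g z t = 0 :=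
    fun z t ht => phi_support hf hg z t ht
  have hlev : ∀ i z, pair (ladK M s i) (phi f g z) =
      ∑ m ∈ Finset.Ico M (2 * M), ((1 / (m : ℝ) : ℝ) : ℂ) *
        pair (fun t => kappaZ (2 ^ i * (2 ^ s * (8 * m))) (t - 1)) (phi f g z) := by
    intro i z
    exact pair_add_sum _ (fun m : ℕ => 1 / (m : ℝ))
      (fun m t => kappaZ (2 ^ i * (2 ^ s * (8 * m))) (t - 1)) _ (hphi z)
  -- the chain sum is the masked sum
  have hS : ∀ z, ((chainS M s f g a b z : ℝ) : ℂ) =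
      ∑ i ∈ Finset.range I, θ i z * pair (ladK M s i) (phi f g z) := by
    intro z
    rw [sum_stepFn_mul _ _ _ I (hb z)]
    unfold chainS
    push_cast
    refine Finset.sum_congr rfl fun j _ => ?_
    exact (phase_mul _).symm
  -- the main identity
  have hid : ((∑ p ∈ box B, ∑ q ∈ box B, H (p, q) * chainS M s f g a b (p, q) : ℝ) : ℂ) =
      ∑ m ∈ Finset.Ico M (2 * M), ((1 / (m : ℝ) : ℝ) : ℂ) *
        ∑ i ∈ Finset.range I, ∑ p ∈ box B, ∑ q ∈ box B, ((H (p, q) : ℝ) : ℂ) * θ i (p, q) *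
          pair (fun t => kappaZ (2 ^ i * (2 ^ s * (8 * m))) (t - 1)) (phi f g (p, q)) := by
    simp only [Finset.mul_sum]
    rw [sum4_comm]
    rw [Complex.ofReal_sum]
    refine Finset.sum_congr rfl fun p _ => ?_
    rw [Complex.ofReal_sum]
    refine Finset.sum_congr rfl fun q _ => ?_
    rw [Complex.ofReal_mul, hS, Finset.mul_sum]
    refine Finset.sum_congr rfl fun i _ => ?_
    rw [hlev i, Finset.mul_sum, Finset.mul_sum]
    refine Finset.sum_congr rfl fun m _ => ?_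
    ring
  have hval : (∑ p ∈ box B, ∑ q ∈ box B, H (p, q) * chainS M s f g a b (p, q)) ≤
      ‖((∑ p ∈ box B, ∑ q ∈ box B, H (p, q) * chainS M s f g a b (p, q) : ℝ) : ℂ)‖ := by
    rw [Complex.norm_real, Real.norm_eq_abs]
    exact le_abs_self _
  refine hval.trans ?_
  rw [hid]
  refine (norm_sum_le _ _).trans ?_
  have hm : ∀ m ∈ Finset.Ico M (2 * M),
      ‖((1 / (m : ℝ) : ℝ) : ℂ) *
        ∑ i ∈ Finset.range I, ∑ p ∈ box B, ∑ q ∈ box B, ((H (p, q) : ℝ) : ℂ) * θ i (p, q) *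
          pair (fun t => kappaZ (2 ^ i * (2 ^ s * (8 * m))) (t - 1)) (phi f g (p, q))‖ ≤
      (1 / (m : ℝ)) * R := by
    intro m hm
    have hm1 : 1 ≤ m := le_trans hM (Finset.mem_Ico.mp hm).1
    rw [norm_mul, Complex.norm_real, Real.norm_eq_abs, abs_of_nonneg (by positivity)]
    refine mul_le_mul_of_nonneg_left ?_ (by positivity)
    refine (norm_sum_le _ _).trans ?_
    exact ladder_bound hTB hC I B (2 ^ s * (8 * m)) (Dvd.dvd.mul_left (Dvd.intro _ rfl) _)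
      (by positivity) f g H θ hf hg hH hθ1 hH0 (2 * n) (by positivity) hV
  refine (Finset.sum_le_sum hm).trans ?_
  rw [← Finset.sum_mul]
  have := mul_le_mul_of_nonneg_right (sum_one_div_le hM) hRnn
  linarith

lemma chainW_support {M s : ℕ} {f g : ℤ × ℤ → ℂ} {B : ℕ} (hf : InBox B f) (hg : InBox B g) {n : ℕ}
    (a b : ℤ × ℤ → Fin n → ℕ) (z : ℤ × ℤ) (hz : ¬ (|z.1| ≤ B ∧ |z.2| ≤ B)) (j : Fin n) :
    chainW M s f g a b z j = 0 := by
  unfold chainW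
  refine Finset.sum_eq_zero fun i _ => ?_
  unfold pair
  simp [phi_box hf hg z hz]

lemma chainS_inBox {M s : ℕ} {f g : ℤ × ℤ → ℂ} {B : ℕ} (hf : InBox B f) (hg : InBox B g) {n : ℕ}
    (a b : ℤ × ℤ → Fin n → ℕ) : InBox B (chainS M s f g a b) := by
  intro z hz
  by_contra hzn
  apply hz
  unfold chainS
  refine Finset.sum_eq_zero fun j _ => ?_
  rw [chainW_support hf hg a b z hzn j, norm_zero]

/-- `(x³)^{1/3} = x`. -/
lemma pow_three_rpow {x : ℝ} (hx : 0 ≤ x) : (x ^ 3) ^ ((1 : ℝ) / 3) = x := by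
  rw [← Real.rpow_natCast, ← Real.rpow_mul hx]
  norm_num

/-- `(y^{1/3})³ = y`. -/
lemma rpow_three_pow {y : ℝ} (hy : 0 ≤ y) : (y ^ ((1 : ℝ) / 3)) ^ 3 = y := by
  rw [← Real.rpow_natCast, ← Real.rpow_mul hy]
  norm_num

/-- **The chain theorem for `ℓ³`-normalised `f, g`**, on the sums over the box. -/
theorem chain_unit {C : ℝ} (hTB : TBStatement C) (hC : 0 ≤ C) {n : ℕ} (hn : 1 ≤ n) (I B M s : ℕ)
    (hM : 1 ≤ M) (f g : ℤ × ℤ → ℂ) (hf : InBox B f) (hg : InBox B g)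
    (hF : ∑ p ∈ box B, ∑ q ∈ box B, ‖f (p, q)‖ ^ 3 = 1)
    (hG : ∑ p ∈ box B, ∑ q ∈ box B, ‖g (p, q)‖ ^ 3 = 1)
    (a b : ℤ × ℤ → Fin n → ℕ)
    (hd : ∀ z j j', j ≠ j' → Disjoint (Finset.Ico (a z j) (b z j)) (Finset.Ico (a z j') (b z j')))
    (hb : ∀ z j, b z j ≤ I) :
    (∑ p ∈ box B, ∑ q ∈ box B, (Real.sqrt (chainS M s f g a b (p, q))) ^ 3) ^ ((2 : ℝ) / 3) ≤
      9 * C * Real.sqrt n := by
  classical
  set T : ℤ × ℤ → ℝ := fun z => Real.sqrt (chainS M s f g a b z) with hT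
  set L3 : ℝ := ∑ p ∈ box B, ∑ q ∈ box B, (T (p, q)) ^ 3 with hL3
  have hL3nn : 0 ≤ L3 := Finset.sum_nonneg fun _ _ => Finset.sum_nonneg fun _ _ =>
    pow_nonneg (Real.sqrt_nonneg _) _
  have hnpos : (0 : ℝ) < n := by exact_mod_cast hn
  have hsn : 0 < Real.sqrt n := Real.sqrt_pos.mpr hnpos
  have hrhs : 0 ≤ 9 * C * Real.sqrt n := by positivity
  rcases hL3nn.eq_or_lt with h0 | hpos
  · rw [← h0, Real.zero_rpow (by norm_num)]
    exact hrhs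
  set Λ : ℝ := L3 ^ ((1 : ℝ) / 3) with hΛ
  have hΛpos : 0 < Λ := Real.rpow_pos_of_pos hpos _
  have hΛ3 : Λ ^ 3 = L3 := rpow_three_pow hL3nn
  set ν : ℝ := 1 / (Real.sqrt n * Λ) with hν
  have hνpos : 0 < ν := by positivity
  set H : ℤ × ℤ → ℝ := fun z => ν * T z with hH
  have hH0 : ∀ z, 0 ≤ H z := fun z => mul_nonneg hνpos.le (Real.sqrt_nonneg _)
  have hHbox : InBox B H := by
    intro z hz
    apply chainS_inBox (M := M) (s := s) hf hg a b z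
    intro h0
    apply hz
    simp [hH, hT, h0]
  have hmain := chain_bilinear hTB hC I B M s hM f g H hf hg hHbox hH0 a b hd hb
  rw [hF, hG] at hmain
  -- the norm of `H`
  have hHh : ∑ p ∈ box B, ∑ q ∈ box B, |H (p, q)| ^ 3 = (ν * Λ) ^ 3 := by
    rw [mul_pow, hΛ3, hL3, Finset.mul_sum]
    refine Finset.sum_congr rfl fun p _ => ?_
    rw [Finset.mul_sum]
    refine Finset.sum_congr rfl fun q _ => ?_
    rw [abs_of_nonneg (hH0 _), hH, mul_pow]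
  have hνΛ : ν * Λ = 1 / Real.sqrt n := by
    rw [hν]
    field_simp
  have hh : ((ν * Λ) ^ 3) ^ ((1 : ℝ) / 3) = 1 / Real.sqrt n := by
    rw [pow_three_rpow (by positivity), hνΛ]
  rw [hHh, hh, Real.one_rpow] at hmain
  -- the left side
  have hLHS : ∑ p ∈ box B, ∑ q ∈ box B, H (p, q) * chainS M s f g a b (p, q) = ν * L3 := by
    rw [hL3, Finset.mul_sum]
    refine Finset.sum_congr rfl fun p _ => ?_
    rw [Finset.mul_sum]
    refine Finset.sum_congr rfl fun q _ => ?_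
    have h1 : chainS M s f g a b (p, q) = (T (p, q)) ^ 2 :=
      (Real.sq_sqrt (chainS_nonneg _ _ _ _ _ _ _)).symm
    rw [h1, hH]
    ring
  rw [hLHS] at hmain
  -- numerics
  have hs1 : 1 / Real.sqrt n ≤ 1 := by
    rw [div_le_one hsn]
    exact Real.one_le_sqrt.mpr (by exact_mod_cast hn)
  have hs0 : 0 < 1 / Real.sqrt n := by positivity
  have hsq : (Real.sqrt n) ^ 2 = n := Real.sq_sqrt hnpos.le
  have hbd : ν * L3 ≤ 9 * C := by
    refine hmain.trans ?_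
    rw [hνΛ]
    set e : ℝ := 1 / Real.sqrt n with he
    have hen : (n : ℝ) * (e * e) = 1 := by
      rw [he]
      field_simp
      rw [hsq]
    have he3 : e ^ 3 ≤ 1 := pow_le_one₀ hs0.le hs1
    have h1 : C * (1 + 1 + e ^ 3) ≤ C * 3 := by
      apply mul_le_mul_of_nonneg_left _ hC
      linarith
    have h2 : C * (2 * n * e) * e * (e + 1 + 1) = 2 * C * (n * (e * e)) * (e + 2) := by ring
    have h3 : 2 * C * (n * (e * e)) * (e + 2) ≤ 2 * C * 1 * 3 := by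
      rw [hen]
      apply mul_le_mul_of_nonneg_left _ (by positivity)
      linarith
    linarith
  -- conclusion
  have hΛ2 : L3 ^ ((2 : ℝ) / 3) = Λ ^ 2 := by
    rw [hΛ, ← Real.rpow_natCast, ← Real.rpow_mul hL3nn]
    norm_num
  rw [hΛ2]
  have h5 : ν * L3 = Λ ^ 2 / Real.sqrt n := by
    rw [hν, ← hΛ3]
    field_simp
  rw [h5, div_le_iff₀ hsn] at hbd
  exact hbd

/-- A `tsum` of a function supported in a box. -/
lemma tsum_box {E : Type*} [AddCommMonoid E] [TopologicalSpace E] [T2Space E] {B : ℕ}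
    {u : ℤ × ℤ → E} (hu : InBox B u) :
    ∑' z, u z = ∑ p ∈ box B, ∑ q ∈ box B, u (p, q) := by
  rw [tsum_eq_sum (s := box B ×ˢ box B), Finset.sum_product]
  intro z hz
  by_contra hne
  obtain ⟨h1, h2⟩ := hu z hne
  apply hz
  rw [Finset.mem_product]
  exact ⟨Finset.mem_Icc.mpr (abs_le.mp h1), Finset.mem_Icc.mpr (abs_le.mp h2)⟩

lemma rpow_three_half {x : ℝ} (hx : 0 ≤ x) : x ^ ((3 : ℝ) / 2) = (Real.sqrt x) ^ 3 := by
  rw [Real.sqrt_eq_rpow, ← Real.rpow_natCast, ← Real.rpow_mul hx]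
  norm_num

lemma pair_const_mul (k : ℤ → ℝ) (c : ℂ) (φ : ℤ → ℂ) :
    pair k (fun t => c * φ t) = c * pair k φ := by
  unfold pair
  rw [← tsum_mul_left]
  refine tsum_congr fun t => ?_
  ring

lemma chainS_scale (M s : ℕ) (f g : ℤ × ℤ → ℂ) {n : ℕ} (a b : ℤ × ℤ → Fin n → ℕ) (c d : ℝ)
    (hc : 0 ≤ c) (hd : 0 ≤ d) (z : ℤ × ℤ) :
    chainS M s (fun z => (c : ℂ) * f z) (fun z => (d : ℂ) * g z) a b z =
      c * d * chainS M s f g a b z := by
  unfold chainS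
  rw [Finset.mul_sum]
  refine Finset.sum_congr rfl fun j _ => ?_
  have h1 : ∀ i, pair (ladK M s i) (phi (fun z => (c : ℂ) * f z) (fun z => (d : ℂ) * g z) z) =
      ((c : ℂ) * d) * pair (ladK M s i) (phi f g z) := by
    intro i
    rw [← pair_const_mul]
    congr 1
    funext t
    simp only [phi]
    ring
  unfold chainW
  simp only [h1]
  rw [← Finset.mul_sum, norm_mul, norm_mul, Complex.norm_real, Complex.norm_real,
    Real.norm_eq_abs, Real.norm_eq_abs, abs_of_nonneg hc, abs_of_nonneg hd]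

/-- Two auxiliary facts about the `ℓ³` sums on a box. -/
lemma sum_box_eq_zero_imp {B : ℕ} {f : ℤ × ℤ → ℂ} (hf : InBox B f)
    (h0 : ∑ p ∈ box B, ∑ q ∈ box B, ‖f (p, q)‖ ^ 3 = 0) : ∀ z, f z = 0 := by
  intro z
  by_contra hne
  obtain ⟨h1, h2⟩ := hf z hne
  have hp : z.1 ∈ box B := Finset.mem_Icc.mpr (abs_le.mp h1)
  have hq : z.2 ∈ box B := Finset.mem_Icc.mpr (abs_le.mp h2)
  have h3 := (Finset.sum_eq_zero_iff_of_nonneg (fun _ _ => Finset.sum_nonneg fun _ _ =>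
    pow_nonneg (norm_nonneg _) _)).mp h0 z.1 hp
  have h4 := (Finset.sum_eq_zero_iff_of_nonneg (fun _ _ =>
    pow_nonneg (norm_nonneg _) _)).mp h3 z.2 hq
  have h5 : ‖f (z.1, z.2)‖ = 0 := by
    exact pow_eq_zero_iff (n := 3) (by norm_num) |>.mp h4
  exact hne (norm_eq_zero.mp h5)

lemma sum_box_scale {B : ℕ} (f : ℤ × ℤ → ℂ) (A : ℝ) (hA : 0 < A)
    (hA3 : ∑ p ∈ box B, ∑ q ∈ box B, ‖f (p, q)‖ ^ 3 = A ^ 3) :
    ∑ p ∈ box B, ∑ q ∈ box B, ‖(fun z => ((1 / A : ℝ) : ℂ) * f z) (p, q)‖ ^ 3 = 1 := by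
  have h1 : ∀ p q, ‖(fun z => ((1 / A : ℝ) : ℂ) * f z) (p, q)‖ ^ 3 =
      (1 / A) ^ 3 * ‖f (p, q)‖ ^ 3 := by
    intro p q
    simp only [norm_mul, Complex.norm_real, Real.norm_eq_abs]
    rw [abs_of_pos (by positivity), mul_pow]
  simp only [h1, ← Finset.mul_sum]
  rw [hA3]
  field_simp

/-- **The chain theorem** (L7 of the blueprint), from `T_B`. -/
theorem chain_main {C : ℝ} (hTB : TBStatement C) (hC : 0 ≤ C) {n : ℕ} (hn : 1 ≤ n) (I M s : ℕ)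
    (hM : 1 ≤ M) (f g : ℤ × ℤ → ℂ) (hf : (Function.support f).Finite)
    (hg : (Function.support g).Finite)
    (a b : ℤ × ℤ → Fin n → ℕ)
    (hd : ∀ z j j', j ≠ j' → Disjoint (Finset.Ico (a z j) (b z j)) (Finset.Ico (a z j') (b z j')))
    (hb : ∀ z j, b z j ≤ I) :
    (∑' z, (chainS M s f g a b z) ^ ((3 : ℝ) / 2)) ^ ((2 : ℝ) / 3) ≤
      9 * C * Real.sqrt n * (∑' z, ‖f z‖ ^ 3) ^ ((1 : ℝ) / 3) *
        (∑' z, ‖g z‖ ^ 3) ^ ((1 : ℝ) / 3) := by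
  classical
  obtain ⟨B1, hB1⟩ := exists_inBox hf
  obtain ⟨B2, hB2⟩ := exists_inBox hg
  set B := max B1 B2 with hB
  have hfB : InBox B f := hB1.mono (le_max_left _ _)
  have hgB : InBox B g := hB2.mono (le_max_right _ _)
  have hfn : InBox B (fun z => ‖f z‖ ^ 3) := by
    intro z hz
    apply hfB
    intro h0
    simp [h0] at hz
  have hgn : InBox B (fun z => ‖g z‖ ^ 3) := by
    intro z hz
    apply hgB
    intro h0
    simp [h0] at hz
  have hSn : InBox B (fun z => (chainS M s f g a b z) ^ ((3 : ℝ) / 2)) := by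
    intro z hz
    apply chainS_inBox (M := M) (s := s) hfB hgB a b z
    intro h0
    apply hz
    simp only [h0]
    rw [Real.zero_rpow (by norm_num)]
  rw [tsum_box hfn, tsum_box hgn, tsum_box hSn]
  set F3 := ∑ p ∈ box B, ∑ q ∈ box B, ‖f (p, q)‖ ^ 3 with hF3
  set G3 := ∑ p ∈ box B, ∑ q ∈ box B, ‖g (p, q)‖ ^ 3 with hG3
  have hF3nn : 0 ≤ F3 := Finset.sum_nonneg fun _ _ => Finset.sum_nonneg fun _ _ =>
    pow_nonneg (norm_nonneg _) _
  have hG3nn : 0 ≤ G3 := Finset.sum_nonneg fun _ _ => Finset.sum_nonneg fun _ _ =>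
    pow_nonneg (norm_nonneg _) _
  -- degenerate cases
  have hzero : ∀ (h : ∀ z, chainS M s f g a b z = 0),
      (∑ p ∈ box B, ∑ q ∈ box B, (chainS M s f g a b (p, q)) ^ ((3 : ℝ) / 2)) ^ ((2 : ℝ) / 3) ≤
      9 * C * Real.sqrt n * F3 ^ ((1 : ℝ) / 3) * G3 ^ ((1 : ℝ) / 3) := by
    intro h
    simp only [h]
    rw [Real.zero_rpow (by norm_num)]
    simp only [Finset.sum_const_zero]
    rw [Real.zero_rpow (by norm_num)]
    exact mul_nonneg (mul_nonneg (mul_nonneg (mul_nonneg (by norm_num) hC) (Real.sqrt_nonneg _))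
      (Real.rpow_nonneg hF3nn _)) (Real.rpow_nonneg hG3nn _)
  have hchain0 : ∀ (z : ℤ × ℤ), (∀ t, phi f g z t = 0) → chainS M s f g a b z = 0 := by
    intro z h
    unfold chainS
    refine Finset.sum_eq_zero fun j _ => ?_
    unfold chainW
    rw [norm_eq_zero]
    refine Finset.sum_eq_zero fun i _ => ?_
    unfold pair
    simp [h]
  rcases hF3nn.eq_or_lt with hF0 | hFpos
  · refine hzero fun z => hchain0 z fun t => ?_
    have := sum_box_eq_zero_imp hfB hF0.symm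
    simp [phi, this]
  rcases hG3nn.eq_or_lt with hG0 | hGpos
  · refine hzero fun z => hchain0 z fun t => ?_
    have := sum_box_eq_zero_imp hgB hG0.symm
    simp [phi, this]
  set A := F3 ^ ((1 : ℝ) / 3) with hA
  set A' := G3 ^ ((1 : ℝ) / 3) with hA'
  have hApos : 0 < A := Real.rpow_pos_of_pos hFpos _
  have hA'pos : 0 < A' := Real.rpow_pos_of_pos hGpos _
  have hf' : InBox B (fun z => ((1 / A : ℝ) : ℂ) * f z) := by
    intro z hz
    apply hfB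
    intro h0
    simp [h0] at hz
  have hg' : InBox B (fun z => ((1 / A' : ℝ) : ℂ) * g z) := by
    intro z hz
    apply hgB
    intro h0
    simp [h0] at hz
  have hunit := chain_unit hTB hC hn I B M s hM _ _ hf' hg'
    (sum_box_scale f A hApos (rpow_three_pow hF3nn).symm)
    (sum_box_scale g A' hA'pos (rpow_three_pow hG3nn).symm) a b hd hb
  -- rescale
  have hc1 : 0 ≤ 1 / A := (one_div_pos.mpr hApos).le
  have hc2 : 0 ≤ 1 / A' := (one_div_pos.mpr hA'pos).le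
  have hc12 : 0 ≤ 1 / A * (1 / A') := mul_nonneg hc1 hc2
  have hAA : 0 < A * A' := mul_pos hApos hA'pos
  have hcAA : 0 ≤ 1 / (A * A') := (one_div_pos.mpr hAA).le
  have hS : ∀ z, Real.sqrt (chainS M s (fun z => ((1 / A : ℝ) : ℂ) * f z)
      (fun z => ((1 / A' : ℝ) : ℂ) * g z) a b z) ^ 3 =
      (1 / (A * A')) ^ ((3 : ℝ) / 2) * (chainS M s f g a b z) ^ ((3 : ℝ) / 2) := by
    intro z
    rw [chainS_scale M s f g a b _ _ hc1 hc2, ← rpow_three_half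
      (mul_nonneg hc12 (chainS_nonneg _ _ _ _ _ _ _)),
      Real.mul_rpow hc12 (chainS_nonneg _ _ _ _ _ _ _)]
    congr 2
    field_simp
  simp only [hS, ← Finset.mul_sum] at hunit
  rw [Real.mul_rpow (Real.rpow_nonneg hcAA _) (Finset.sum_nonneg fun _ _ =>
    Finset.sum_nonneg fun _ _ => Real.rpow_nonneg (chainS_nonneg _ _ _ _ _ _ _) _)] at hunit
  have h3 : ((1 / (A * A')) ^ ((3 : ℝ) / 2)) ^ ((2 : ℝ) / 3) = 1 / (A * A') := by
    rw [← Real.rpow_mul hcAA]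
    norm_num
  rw [h3, div_mul_eq_mul_div, one_mul, div_le_iff₀ hAA] at hunit
  calc _ ≤ 9 * C * Real.sqrt n * (A * A') := hunit
    _ = _ := by ring

end Crest.Agent.TriRL
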