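/-
S0096: the `ℓ^{3/2}` norm with values in `ℝ≥0∞`: Minkowski and friends (helper73).
-/
import Mathlib

set_option autoImplicit false

namespace Crest.Agent.TriRL

open scoped ENNReal

/-- The `ℓ^{3/2}` norm with values in `ℝ≥0∞`. -/
noncomputable def N32 {ι : Type*} (S : ι → ℝ≥0∞) : ℝ≥0∞ :=
  (∑' z, S z ^ ((3 : ℝ) / 2)) ^ ((2 : ℝ) / 3)

variable {ι : Type*}

lemma N32_mono {S T : ι → ℝ≥0∞} (h : ∀ z, S z ≤ T z) : N32 S ≤ N32 T := by
  unfold N32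
  refine ENNReal.rpow_le_rpow (ENNReal.tsum_le_tsum fun z => ?_) (by norm_num)
  exact ENNReal.rpow_le_rpow (h z) (by norm_num)

lemma N32_const_mul (c : ℝ≥0∞) (S : ι → ℝ≥0∞) : N32 (fun z => c * S z) = c * N32 S := by
  unfold N32
  simp only [ENNReal.mul_rpow_of_nonneg _ _ (by norm_num : (0 : ℝ) ≤ 3 / 2)]
  rw [ENNReal.tsum_mul_left, ENNReal.mul_rpow_of_nonneg _ _ (by norm_num : (0 : ℝ) ≤ 2 / 3),
    ← ENNReal.rpow_mul]
  norm_num

/-- **Minkowski** in `ℓ^{3/2}` with values in `ℝ≥0∞`. -/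
lemma N32_add (S T : ι → ℝ≥0∞) : N32 (fun z => S z + T z) ≤ N32 S + N32 T := by
  have hp : (1 : ℝ) ≤ 3 / 2 := by norm_num
  have h23 : (1 : ℝ) / (3 / 2) = 2 / 3 := by norm_num
  unfold N32
  set A := (∑' z, S z ^ ((3 : ℝ) / 2)) ^ ((2 : ℝ) / 3)
  set B := (∑' z, T z ^ ((3 : ℝ) / 2)) ^ ((2 : ℝ) / 3)
  have h1 : (∑' z, (S z + T z) ^ ((3 : ℝ) / 2)) ≤ (A + B) ^ ((3 : ℝ) / 2) := by
    rw [ENNReal.tsum_eq_iSup_sum]
    refine iSup_le fun s => ?_
    have h2 := ENNReal.Lp_add_le s S T hp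
    rw [h23] at h2
    have h3 : (∑ i ∈ s, S i ^ ((3 : ℝ) / 2)) ^ ((2 : ℝ) / 3) ≤ A :=
      ENNReal.rpow_le_rpow (ENNReal.sum_le_tsum s) (by norm_num)
    have h4 : (∑ i ∈ s, T i ^ ((3 : ℝ) / 2)) ^ ((2 : ℝ) / 3) ≤ B :=
      ENNReal.rpow_le_rpow (ENNReal.sum_le_tsum s) (by norm_num)
    have h5 := h2.trans (add_le_add h3 h4)
    calc (∑ i ∈ s, (S i + T i) ^ ((3 : ℝ) / 2))
        = ((∑ i ∈ s, (S i + T i) ^ ((3 : ℝ) / 2)) ^ ((2 : ℝ) / 3)) ^ ((3 : ℝ) / 2) := by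
          rw [← ENNReal.rpow_mul]
          norm_num
      _ ≤ (A + B) ^ ((3 : ℝ) / 2) := ENNReal.rpow_le_rpow h5 (by norm_num)
  calc (∑' z, (S z + T z) ^ ((3 : ℝ) / 2)) ^ ((2 : ℝ) / 3)
      ≤ ((A + B) ^ ((3 : ℝ) / 2)) ^ ((2 : ℝ) / 3) := ENNReal.rpow_le_rpow h1 (by norm_num)
    _ = A + B := by
      rw [← ENNReal.rpow_mul]
      norm_num

lemma N32_zero : N32 (fun _ : ι => (0 : ℝ≥0∞)) = 0 := by
  unfold N32
  simp

/-- **Minkowski** for finite sums. -/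
lemma N32_sum {α : Type*} (s : Finset α) (S : α → ι → ℝ≥0∞) :
    N32 (fun z => ∑ l ∈ s, S l z) ≤ ∑ l ∈ s, N32 (S l) := by
  classical
  induction s using Finset.induction_on with
  | empty => simp [N32_zero]
  | insert a s ha ih =>
    simp only [Finset.sum_insert ha]
    exact (N32_add _ _).trans (add_le_add le_rfl ih)

/-- From real functions with finite support. -/
lemma N32_ofReal_le {u : ι → ℝ} (hu : ∀ z, 0 ≤ u z) (hfin : (Function.support u).Finite)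
    (K : ℝ) (h : (∑' z, (u z) ^ ((3 : ℝ) / 2)) ^ ((2 : ℝ) / 3) ≤ K) :
    N32 (fun z => ENNReal.ofReal (u z)) ≤ ENNReal.ofReal K := by
  unfold N32
  have hsum : Summable fun z => (u z) ^ ((3 : ℝ) / 2) := by
    apply summable_of_finite_support
    refine hfin.subset fun z hz => ?_
    intro h0
    apply hz
    simp only [h0]
    exact Real.zero_rpow (by norm_num)
  have h1 : ∀ z, (ENNReal.ofReal (u z)) ^ ((3 : ℝ) / 2) =
      ENNReal.ofReal ((u z) ^ ((3 : ℝ) / 2)) := fun z =>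
    ENNReal.ofReal_rpow_of_nonneg (hu z) (by norm_num)
  simp only [h1]
  rw [← ENNReal.ofReal_tsum_of_nonneg (fun z => Real.rpow_nonneg (hu z) _) hsum,
    ENNReal.ofReal_rpow_of_nonneg (tsum_nonneg fun z => Real.rpow_nonneg (hu z) _) (by norm_num)]
  exact ENNReal.ofReal_le_ofReal h

/-- The enorm sums of finitely supported functions are real sums. -/
lemma tsum_enorm_rpow {f : ι → ℂ} (hf : (Function.support f).Finite) :
    (∑' z, ‖f z‖ₑ ^ (3 : ℝ)) ^ ((1 : ℝ) / 3) =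
      ENNReal.ofReal ((∑' z, ‖f z‖ ^ 3) ^ ((1 : ℝ) / 3)) := by
  have hsum : Summable fun z => ‖f z‖ ^ 3 := by
    apply summable_of_finite_support
    refine hf.subset fun z hz => ?_
    intro h0
    apply hz
    simp [h0]
  have h1 : ∀ z, ‖f z‖ₑ ^ (3 : ℝ) = ENNReal.ofReal (‖f z‖ ^ 3) := by
    intro z
    rw [← ofReal_norm_eq_enorm, ENNReal.ofReal_rpow_of_nonneg (norm_nonneg _) (by norm_num)]
    norm_cast
  simp only [h1]
  rw [← ENNReal.ofReal_tsum_of_nonneg (fun z => by positivity) hsum,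
    ENNReal.ofReal_rpow_of_nonneg (tsum_nonneg fun z => by positivity) (by norm_num)]

end Crest.Agent.TriRL
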