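/-
S0096 (helper84's blueprint, L10): the lattice theorem, from `T_B`, the pointwise sharp bound and
the anisotropic square function (helper73): `DiscreteCountBoundLarge`.
-/
import Crest.Agent.TriRL.Chain
import Crest.Agent.TriRL.Calderon
import Crest.Agent.TriRL.MaxOps
import Crest.Agent.TriRL.N32
import Crest.Agent.TriH.CountFromDiscrete

set_option autoImplicit false

namespace Crest.Agent.TriRL

open Finset
open scoped ENNReal
open Crest.Agent.TriH.CountFromDiscrete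
open Crest.Agent.TriRL.Cal (rho sqf)

/-- The output of the pointwise part (helper18's `sharp_pointwise` with the kernels of L6). -/
def SharpStatement (C : ℝ) : Prop :=
  ∀ n : ℕ, 1 ≤ n → ∀ Λ : ℕ, ∃ (R₀ M : ℕ), 1 ≤ M ∧ ∀ lo : ℕ, R₀ ≤ lo →
    ∃ (s I q : ℕ) (W : Finset ℤ) (w : ℤ → ℝ), (∀ t, 0 ≤ w t) ∧ (∑ t ∈ W, w t ≤ C) ∧
      ∀ (φ : ℤ → ℂ) (m : ℝ), 0 ≤ m →
        (∀ T : ℕ, ∑ t ∈ Finset.Icc (-(T : ℤ)) T, ‖φ t‖ ≤ m * (2 * T + 1)) →
        ∀ (a b : Fin n → ℕ), (∀ j, lo ≤ a j ∧ a j ≤ b j ∧ b j ≤ Λ * lo) →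
          (∀ i j, i ≠ j → b i ≤ a j ∨ b j ≤ a i) →
          ∃ (i1 i2 : Fin n → ℕ), (∀ j, i2 j ≤ I) ∧
            (∀ i j, i ≠ j → Disjoint (Finset.Ico (i1 i) (i2 i)) (Finset.Ico (i1 j) (i2 j))) ∧
            ∑ j, ‖∑ τ ∈ annSet (a j) (b j), φ τ / (τ : ℂ)‖ ≤
              C * ∑ j, ‖∑ i ∈ Finset.Ico (i1 j) (i2 j), pair (ladK M s i) φ‖ +
              C * Real.sqrt n *
                ∑ l ∈ Finset.range q, rho ^ l * Real.sqrt (sqf (l + 2) (Finset.Ico 0 q) φ) +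
              C * m + ∑ t ∈ W, w t * ‖φ t‖

/-- The output of L8 (helper92), in the form of `Calderon.lean`. -/
def AnisoStatement (C : ℝ) : Prop :=
  ∀ (l q : ℕ) (f g : ℤ × ℤ → ℂ), (Function.support f).Finite → (Function.support g).Finite →
    ∑' z, (sqf l (Finset.Ico 3 q) (phi f g z)) ^ ((3 : ℝ) / 4) ≤
      C * ((2 : ℝ) ^ l) ^ ((3 : ℝ) / 8) * (∑' z, ‖f z‖ ^ 3) ^ ((1 : ℝ) / 2) *
        (∑' z, ‖g z‖ ^ 3) ^ ((1 : ℝ) / 2)

/-! ### The maximum over the families of annuli is attained -/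

/-- A family of `m ≤ n` annuli is padded with empty annuli. -/
lemma exists_family (n lo hi : ℕ) (hlo : lo ≤ hi) (f g : ℤ × ℤ → ℂ) (p : ℤ × ℤ) :
    ∃ a b : Fin n → ℕ, (∀ j, lo ≤ a j ∧ a j ≤ b j ∧ b j ≤ hi) ∧
      (∀ i j, i ≠ j → b i ≤ a j ∨ b j ≤ a i) ∧
      discCountIn n lo hi f g p ≤ ∑ j, ‖discT (a j) (b j) f g p‖ₑ := by
  classical
  set Fam : Finset ((Fin n → Fin (hi + 1)) × (Fin n → Fin (hi + 1))) :=
    Finset.univ.filter fun x =>
      (∀ j, lo ≤ (x.1 j : ℕ) ∧ (x.1 j : ℕ) ≤ (x.2 j : ℕ)) ∧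
      (∀ i j, i ≠ j → (x.2 i : ℕ) ≤ (x.1 j : ℕ) ∨ (x.2 j : ℕ) ≤ (x.1 i : ℕ)) with hFam
  have hne : Fam.Nonempty := by
    refine ⟨(fun _ => ⟨lo, by omega⟩, fun _ => ⟨lo, by omega⟩), ?_⟩
    simp [hFam]
  obtain ⟨x, hx, hmax⟩ := Finset.exists_max_image Fam
    (fun x => ∑ j, ‖discT (x.1 j : ℕ) (x.2 j : ℕ) f g p‖ₑ) hne
  have hx' := (Finset.mem_filter.mp hx).2
  refine ⟨fun j => x.1 j, fun j => x.2 j, fun j => ⟨(hx'.1 j).1, (hx'.1 j).2, ?_⟩, hx'.2, ?_⟩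
  · exact Nat.lt_succ_iff.mp (x.2 j).2
  unfold discCountIn
  refine iSup_le fun m => iSup_le fun hm => iSup_le fun a => iSup_le fun b =>
    iSup_le fun h1 => iSup_le fun h2 => ?_
  -- pad
  set a' : Fin n → Fin (hi + 1) := fun j =>
    if h : (j : ℕ) < m then ⟨a ⟨j, h⟩, by have := h1 ⟨j, h⟩; omega⟩ else ⟨lo, by omega⟩ with ha'
  set b' : Fin n → Fin (hi + 1) := fun j =>
    if h : (j : ℕ) < m then ⟨b ⟨j, h⟩, by have := h1 ⟨j, h⟩; omega⟩ else ⟨lo, by omega⟩ with hb'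
  have hval : ∀ j : Fin m, (a' (Fin.castLE hm j) : ℕ) = a j ∧ (b' (Fin.castLE hm j) : ℕ) = b j := by
    intro j
    simp [ha', hb']
  have hmem : (a', b') ∈ Fam := by
    refine Finset.mem_filter.mpr ⟨Finset.mem_univ _, ?_, ?_⟩
    · intro j
      by_cases h : (j : ℕ) < m
      · have := h1 ⟨j, h⟩
        simp only [ha', hb', h, dif_pos]
        omega
      · simp only [ha', hb', h, dif_neg, not_false_eq_true]
        omega
    · intro i j hij
      by_cases hi' : (i : ℕ) < m <;> by_cases hj' : (j : ℕ) < m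
      · have h3 := h2 ⟨i, hi'⟩ ⟨j, hj'⟩ (by
          intro h
          apply hij
          ext
          simpa using congrArg Fin.val h)
        simpa only [ha', hb', hi', hj', dif_pos] using h3
      · have h3 := (h1 ⟨i, hi'⟩).2.2.1
        right
        simp only [ha', hb', hi', hj', dif_pos, dif_neg, not_false_eq_true]
        exact h3
      · have h3 := (h1 ⟨j, hj'⟩).2.2.1
        left
        simp only [ha', hb', hi', hj', dif_pos, dif_neg, not_false_eq_true]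
        exact h3
      · left
        simp only [ha', hb', hi', hj', dif_neg, not_false_eq_true]
        exact le_rfl
  have h3 := hmax _ hmem
  refine le_trans ?_ h3
  have hinj : Function.Injective (Fin.castLE hm) := Fin.castLE_injective hm
  calc ∑ j, ‖discT (a j) (b j) f g p‖ₑ
      = ∑ j ∈ (Finset.univ : Finset (Fin m)), ‖discT (a' (Fin.castLE hm j) : ℕ)
          (b' (Fin.castLE hm j) : ℕ) f g p‖ₑ := by
        refine Finset.sum_congr rfl fun j _ => ?_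
        rw [(hval j).1, (hval j).2]
    _ = ∑ j ∈ (Finset.univ : Finset (Fin m)).image (Fin.castLE hm),
          ‖discT (a' j : ℕ) (b' j : ℕ) f g p‖ₑ := by
        rw [Finset.sum_image (fun x _ y _ h => hinj h)]
    _ ≤ ∑ j, ‖discT (a' j : ℕ) (b' j : ℕ) f g p‖ₑ :=
        Finset.sum_le_sum_of_subset (Finset.subset_univ _)

/-- `discCountIn` is monotone in the upper bound for the radii. -/
lemma discCountIn_mono (n lo : ℕ) {hi hi' : ℕ} (h : hi ≤ hi') (f g : ℤ × ℤ → ℂ) (p : ℤ × ℤ) :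
    discCountIn n lo hi f g p ≤ discCountIn n lo hi' f g p := by
  unfold discCountIn
  refine iSup_le fun m => iSup_le fun hm => iSup_le fun a => iSup_le fun b =>
    iSup_le fun h1 => iSup_le fun h2 => ?_
  exact le_iSup_of_le m (le_iSup_of_le hm (le_iSup_of_le a (le_iSup_of_le b
    (le_iSup_of_le (fun j => ⟨(h1 j).1, (h1 j).2.1, (h1 j).2.2.1, (h1 j).2.2.2.trans h⟩)
      (le_iSup_of_le h2 le_rfl)))))

/-! ### The dilation by 8 and the low levels -/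

/-- The dilation by `8` of a function on `ℤ²`. -/
def dil8 (f : ℤ × ℤ → ℂ) (X : ℤ × ℤ) : ℂ := f (X.1 / 8, X.2 / 8)

lemma phi_dil8 (f g : ℤ × ℤ → ℂ) (z : ℤ × ℤ) (T : ℤ) :
    phi (dil8 f) (dil8 g) (8 * z.1, 8 * z.2) T = phi f g z (T / 8) := by
  unfold phi dil8
  have h1 : (8 * z.1 + T) / 8 = z.1 + T / 8 := by omega
  have h2 : (8 * z.2) / 8 = z.2 := by omega
  have h3 : (8 * z.1) / 8 = z.1 := by omega
  have h4 : (8 * z.2 + T) / 8 = z.2 + T / 8 := by omega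
  simp only [h1, h2, h3, h4]

lemma tsum_div8 (w : ℤ → ℝ≥0∞) : ∑' x : ℤ, w (x / 8) = 8 * ∑' z, w z := by
  have h1 := (Int.divModEquiv 8).symm.tsum_eq (fun x : ℤ => w (x / 8))
  rw [← h1, ENNReal.tsum_prod', ← ENNReal.tsum_mul_left]
  refine tsum_congr fun z => ?_
  have h2 : ∀ r : Fin 8, ((Int.divModEquiv 8).symm (z, r)) / 8 = z := by
    intro r
    have h3 : (Int.divModEquiv 8).symm (z, r) = z * ((8 : ℕ) : ℤ) + ((r : ℕ) : ℤ) := rfl
    rw [h3]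
    have := r.2
    push_cast
    omega
  simp only [h2]
  rw [tsum_fintype]
  simp

lemma tsum_dil8 (f : ℤ × ℤ → ℂ) :
    ∑' X, ‖dil8 f X‖ₑ ^ (3 : ℝ) = 64 * ∑' z, ‖f z‖ₑ ^ (3 : ℝ) := by
  unfold dil8
  rw [ENNReal.tsum_prod']
  have h1 : ∀ a : ℤ, ∑' b : ℤ, ‖f ((a, b).1 / 8, (a, b).2 / 8)‖ₑ ^ (3 : ℝ) =
      8 * ∑' y : ℤ, ‖f (a / 8, y)‖ₑ ^ (3 : ℝ) := fun a =>
    tsum_div8 (fun y => ‖f (a / 8, y)‖ₑ ^ (3 : ℝ))
  simp only [h1]
  rw [ENNReal.tsum_mul_left, tsum_div8 (fun x => ∑' y : ℤ, ‖f (x, y)‖ₑ ^ (3 : ℝ)),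
    ENNReal.tsum_prod' (f := fun z => ‖f z‖ₑ ^ (3 : ℝ)), ← mul_assoc]
  norm_num

lemma inBox_dil8 {B : ℕ} {f : ℤ × ℤ → ℂ} (hf : InBox B f) : InBox (8 * B + 8) (dil8 f) := by
  intro z hz
  obtain ⟨h1, h2⟩ := hf _ hz
  simp only at h1 h2
  have h3 := abs_le.mp h1
  have h4 := abs_le.mp h2
  constructor <;> rw [abs_le] <;> constructor <;> push_cast <;> omega

lemma finite_of_inBox {E : Type*} [Zero E] {B : ℕ} {F : ℤ × ℤ → E} (h : InBox B F) :
    (Function.support F).Finite := by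
  refine (Finset.finite_toSet (box B ×ˢ box B)).subset fun z hz => ?_
  obtain ⟨h1, h2⟩ := h z hz
  rw [Finset.mem_coe, Finset.mem_product]
  exact ⟨Finset.mem_Icc.mpr (abs_le.mp h1), Finset.mem_Icc.mpr (abs_le.mp h2)⟩

lemma finite_dil8 {f : ℤ × ℤ → ℂ} (hf : (Function.support f).Finite) :
    (Function.support (dil8 f)).Finite := by
  obtain ⟨B, hB⟩ := exists_inBox hf
  exact finite_of_inBox (inBox_dil8 hB)

lemma sqf_of_zero (n : ℕ) (P : Finset ℕ) (φ : ℤ → ℂ) (h : ∀ t, φ t = 0) : sqf n P φ = 0 := by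
  unfold sqf Cal.zq Cal.haarC Cal.haarS Cal.avgF
  simp [h]

/-- The `ℓ³` norm with values in `ℝ≥0∞`. -/
noncomputable def N3 (f : ℤ × ℤ → ℂ) : ℝ≥0∞ := (∑' z, ‖f z‖ₑ ^ (3 : ℝ)) ^ ((1 : ℝ) / 3)

lemma N3_dil8 (f : ℤ × ℤ → ℂ) : N3 (dil8 f) = 4 * N3 f := by
  unfold N3
  rw [tsum_dil8, ENNReal.mul_rpow_of_nonneg _ _ (by norm_num)]
  congr 1
  have h : (64 : ℝ≥0∞) = 4 ^ (3 : ℝ) := by norm_num
  rw [h, ← ENNReal.rpow_mul]
  norm_num

lemma N3_eq {f : ℤ × ℤ → ℂ} (hf : (Function.support f).Finite) :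
    N3 f = ENNReal.ofReal ((∑' z, ‖f z‖ ^ 3) ^ ((1 : ℝ) / 3)) := tsum_enorm_rpow hf

/-- The square function at level `l` in `ℓ^{3/2}`, all levels (L8 + rescaling). -/
theorem N32_sqf {C : ℝ} (hA : AnisoStatement C) (hC : 0 ≤ C) (l q : ℕ) (f g : ℤ × ℤ → ℂ)
    (hf : (Function.support f).Finite) (hg : (Function.support g).Finite) :
    N32 (fun z => ENNReal.ofReal (Real.sqrt (sqf l (Finset.Ico 0 q) (phi f g z)))) ≤
      ENNReal.ofReal (Real.sqrt 8 * 16 * C ^ ((2 : ℝ) / 3) * ((2 : ℝ) ^ l) ^ ((1 : ℝ) / 4)) *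
        (N3 f * N3 g) := by
  set f' := dil8 f with hf'
  set g' := dil8 g with hg'
  have hf'fin : (Function.support f').Finite := finite_dil8 hf
  have hg'fin : (Function.support g').Finite := finite_dil8 hg
  set u : ℤ × ℤ → ℝ := fun Z => Real.sqrt (sqf l (Finset.Ico 3 (q + 3)) (phi f' g' Z)) with hu
  -- pointwise
  have hpt : ∀ z : ℤ × ℤ, ENNReal.ofReal (Real.sqrt (sqf l (Finset.Ico 0 q) (phi f g z))) ≤
      ENNReal.ofReal (Real.sqrt 8) * ENNReal.ofReal (u (8 * z.1, 8 * z.2)) := by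
    intro z
    rw [← ENNReal.ofReal_mul (Real.sqrt_nonneg _), ← Real.sqrt_mul (by norm_num)]
    apply ENNReal.ofReal_le_ofReal
    apply Real.sqrt_le_sqrt
    have h1 := Cal.sqf_rescale l q (phi f g z)
    have h2 : (fun T => phi f g z (T / 8)) = phi f' g' (8 * z.1, 8 * z.2) := by
      funext T
      exact (phi_dil8 f g z T).symm
    rwa [h2] at h1
  -- restriction to `8 ℤ²`
  have hinj : Function.Injective (fun z : ℤ × ℤ => ((8 * z.1, 8 * z.2) : ℤ × ℤ)) := by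
    intro z w h
    have h1 := congrArg Prod.fst h
    have h2 := congrArg Prod.snd h
    simp only at h1 h2
    ext <;> omega
  have hres : N32 (fun z : ℤ × ℤ => ENNReal.ofReal (u (8 * z.1, 8 * z.2))) ≤
      N32 (fun Z => ENNReal.ofReal (u Z)) := by
    unfold N32
    refine ENNReal.rpow_le_rpow ?_ (by norm_num)
    exact ENNReal.tsum_comp_le_tsum_of_injective hinj
      (fun Z => ENNReal.ofReal (u Z) ^ ((3 : ℝ) / 2))
  -- L8
  have hL8 := hA l (q + 3) f' g' hf'fin hg'fin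
  have hunn : ∀ Z, 0 ≤ u Z := fun Z => Real.sqrt_nonneg _
  obtain ⟨B1, hB1⟩ := exists_inBox hf'fin
  obtain ⟨B2, hB2⟩ := exists_inBox hg'fin
  have hB1' : InBox (max B1 B2) f' := hB1.mono (le_max_left _ _)
  have hB2' : InBox (max B1 B2) g' := hB2.mono (le_max_right _ _)
  have husupp : (Function.support u).Finite := by
    apply finite_of_inBox (B := max B1 B2)
    intro z hz
    by_contra hzn
    apply hz
    simp only [hu]
    rw [sqf_of_zero _ _ _ (phi_box hB1' hB2' z hzn)]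
    simp
  have hu32 : ∀ Z, (u Z) ^ ((3 : ℝ) / 2) =
      (sqf l (Finset.Ico 3 (q + 3)) (phi f' g' Z)) ^ ((3 : ℝ) / 4) := by
    intro Z
    simp only [hu]
    rw [Real.sqrt_eq_rpow, ← Real.rpow_mul (Cal.sqf_nonneg _ _ _)]
    norm_num
  set F := ∑' z, ‖f' z‖ ^ 3 with hF
  set G := ∑' z, ‖g' z‖ ^ 3 with hG
  have hFnn : 0 ≤ F := tsum_nonneg fun _ => by positivity
  have hGnn : 0 ≤ G := tsum_nonneg fun _ => by positivity
  have hc1 : (0 : ℝ) ≤ ((2 : ℝ) ^ l) ^ ((3 : ℝ) / 8) := by positivity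
  have hkey : (∑' Z, (u Z) ^ ((3 : ℝ) / 2)) ^ ((2 : ℝ) / 3) ≤
      C ^ ((2 : ℝ) / 3) * ((2 : ℝ) ^ l) ^ ((1 : ℝ) / 4) * (F ^ ((1 : ℝ) / 3) * G ^ ((1 : ℝ) / 3)) := by
    simp only [hu32]
    have hnn : 0 ≤ ∑' Z, (sqf l (Finset.Ico 3 (q + 3)) (phi f' g' Z)) ^ ((3 : ℝ) / 4) :=
      tsum_nonneg fun _ => Real.rpow_nonneg (Cal.sqf_nonneg _ _ _) _
    refine (Real.rpow_le_rpow hnn hL8 (by norm_num)).trans (le_of_eq ?_)
    rw [mul_assoc (C * _), Real.mul_rpow (by positivity) (by positivity),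
      Real.mul_rpow hC hc1, Real.mul_rpow (by positivity) (by positivity),
      ← Real.rpow_mul (by positivity), ← Real.rpow_mul hFnn, ← Real.rpow_mul hGnn]
    norm_num
  have hN : N32 (fun Z => ENNReal.ofReal (u Z)) ≤
      ENNReal.ofReal (C ^ ((2 : ℝ) / 3) * ((2 : ℝ) ^ l) ^ ((1 : ℝ) / 4)) * (N3 f' * N3 g') := by
    refine (N32_ofReal_le hunn husupp _ hkey).trans (le_of_eq ?_)
    rw [ENNReal.ofReal_mul (by positivity), ENNReal.ofReal_mul (by positivity),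
      ENNReal.ofReal_mul (by positivity), N3_eq hf'fin, N3_eq hg'fin]
  -- conclusion
  rw [hf', hg', N3_dil8, N3_dil8] at hN
  calc N32 (fun z => ENNReal.ofReal (Real.sqrt (sqf l (Finset.Ico 0 q) (phi f g z))))
      ≤ N32 (fun z : ℤ × ℤ => ENNReal.ofReal (Real.sqrt 8) *
          ENNReal.ofReal (u (8 * z.1, 8 * z.2))) := N32_mono hpt
    _ = ENNReal.ofReal (Real.sqrt 8) *
          N32 (fun z : ℤ × ℤ => ENNReal.ofReal (u (8 * z.1, 8 * z.2))) := N32_const_mul _ _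
    _ ≤ ENNReal.ofReal (Real.sqrt 8) * (ENNReal.ofReal (C ^ ((2 : ℝ) / 3) *
          ((2 : ℝ) ^ l) ^ ((1 : ℝ) / 4)) * (4 * N3 f * (4 * N3 g))) := by
        gcongr
        exact hres.trans hN
    _ = _ := by
        have h4 : (4 : ℝ≥0∞) * 4 = ENNReal.ofReal 16 := by
          rw [show (16 : ℝ) = 4 * 4 by norm_num, ENNReal.ofReal_mul (by norm_num)]
          norm_num
        have hx : 4 * N3 f * (4 * N3 g) = ((4 : ℝ≥0∞) * 4) * (N3 f * N3 g) := by ring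
        rw [hx, h4, ← mul_assoc, ← ENNReal.ofReal_mul (by positivity),
          ← mul_assoc, ← ENNReal.ofReal_mul (by positivity)]
        congr 2
        ring

/-! ### The maximal function -/

section maxpart

open Crest.Agent.TriRL.MaxOps

lemma tsum_ne_top_of_finite {u : ℤ → ℝ≥0∞} (hs : (Function.support u).Finite) (hu : ∀ k, u k ≠ ∞) :
    ∑' k, u k ≠ ∞ := by
  rw [tsum_eq_sum (s := hs.toFinset) (by simp)]
  exact ENNReal.sum_ne_top.mpr fun k _ => hu k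

lemma Dq_ne_top {f g : ℤ × ℤ → ℂ} (hf : (Function.support f).Finite)
    (hg : (Function.support g).Finite) (z : ℤ × ℤ) :
    Dq 1 (fun w => ‖f w‖ₑ) (fun w => ‖g w‖ₑ) z ≠ ∞ := by
  unfold Dq Mx My
  have h1 : ∀ (h : ℤ × ℤ → ℂ) (i : ℤ → ℤ × ℤ), Function.Injective i →
      (Function.support h).Finite →
      ∑' k, ((‖h (i k)‖ₑ) ^ ((2 : ℝ) * 1)) ^ (2 : ℝ) ≠ ∞ := by
    intro h i hi hh
    apply tsum_ne_top_of_finite
    · refine (hh.preimage hi.injOn).subset fun k hk => ?_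
      simp only [Function.mem_support, Set.mem_preimage] at hk ⊢
      intro h0
      apply hk
      simp [h0]
    · intro k
      exact ENNReal.rpow_ne_top_of_nonneg (by norm_num)
        (ENNReal.rpow_ne_top_of_nonneg (by norm_num) enorm_ne_top)
  refine ENNReal.mul_ne_top (ENNReal.rpow_ne_top_of_nonneg (by norm_num) ?_)
    (ENNReal.rpow_ne_top_of_nonneg (by norm_num) ?_)
  · exact maxZ_ne_top (p := 2) (by norm_num) _
      (h1 f (fun x => (x, z.2)) (fun a b h => congrArg Prod.fst h) hf) _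
  · exact maxZ_ne_top (p := 2) (by norm_num) _
      (h1 g (fun y => (z.1, y)) (fun a b h => congrArg Prod.snd h) hg) _

/-- The real-valued maximal quantity. -/
noncomputable def mmax (f g : ℤ × ℤ → ℂ) (z : ℤ × ℤ) : ℝ :=
  (Dq 1 (fun w => ‖f w‖ₑ) (fun w => ‖g w‖ₑ) z).toReal

lemma mmax_nonneg (f g : ℤ × ℤ → ℂ) (z : ℤ × ℤ) : 0 ≤ mmax f g z := ENNReal.toReal_nonneg

lemma mmax_bound {f g : ℤ × ℤ → ℂ} (hf : (Function.support f).Finite)
    (hg : (Function.support g).Finite) (z : ℤ × ℤ) (T : ℕ) :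
    ∑ t ∈ Finset.Icc (-(T : ℤ)) T, ‖phi f g z t‖ ≤ mmax f g z * (2 * T + 1) := by
  have h := avg_phi_le (q := 1) (by norm_num) (fun w => ‖f w‖ₑ) (fun w => ‖g w‖ₑ) z T
  simp only [ENNReal.rpow_one] at h
  have hne := Dq_ne_top hf hg z
  have h1 : ∑ t ∈ Finset.Icc (-(T : ℤ)) T, ‖f (z.1 + t, z.2)‖ₑ * ‖g (z.1, z.2 + t)‖ₑ =
      ENNReal.ofReal (∑ t ∈ Finset.Icc (-(T : ℤ)) T, ‖phi f g z t‖) := by
    rw [ENNReal.ofReal_sum_of_nonneg fun _ _ => norm_nonneg _]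
    refine Finset.sum_congr rfl fun t _ => ?_
    simp only [phi]
    rw [norm_mul, ENNReal.ofReal_mul (norm_nonneg _), ofReal_norm, ofReal_norm]
  rw [h1] at h
  have h2 : (2 * (T : ℝ≥0∞) + 1) * Dq 1 (fun w => ‖f w‖ₑ) (fun w => ‖g w‖ₑ) z =
      ENNReal.ofReal (mmax f g z * (2 * T + 1)) := by
    unfold mmax
    rw [mul_comm, ENNReal.ofReal_mul ENNReal.toReal_nonneg]
    rw [ENNReal.ofReal_toReal hne]
    congr 1
    rw [ENNReal.ofReal_add (by positivity) (by norm_num), ENNReal.ofReal_mul (by norm_num)]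
    simp
  rw [h2] at h
  exact (ENNReal.ofReal_le_ofReal_iff (mul_nonneg ENNReal.toReal_nonneg (by positivity))).mp h

/-- The constant in the bound for the maximal quantity. -/
noncomputable def K5 : ℝ := (Crest.Agent.TriH.MaxFn.cZ (3 / 2)) ^ ((2 : ℝ) / 3)

lemma cZ_nonneg' : 0 ≤ Crest.Agent.TriH.MaxFn.cZ (3 / 2) := by
  unfold Crest.Agent.TriH.MaxFn.cZ Crest.Agent.TriH.MaxFn.cF
  refine mul_nonneg (by positivity) (div_nonneg (by positivity) (by norm_num))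

lemma K5_nonneg : 0 ≤ K5 := Real.rpow_nonneg cZ_nonneg' _

lemma N32_mmax {f g : ℤ × ℤ → ℂ} (hf : (Function.support f).Finite)
    (hg : (Function.support g).Finite) :
    N32 (fun z => ENNReal.ofReal (mmax f g z)) ≤ ENNReal.ofReal K5 * (N3 f * N3 g) := by
  have h1 : ∀ z, ENNReal.ofReal (mmax f g z) = Dq 1 (fun w => ‖f w‖ₑ) (fun w => ‖g w‖ₑ) z :=
    fun z => ENNReal.ofReal_toReal (Dq_ne_top hf hg z)
  simp only [h1]
  have h2 := tsum_Dq_le (q := 1) (by norm_num) (by norm_num) (fun w => ‖f w‖ₑ) (fun w => ‖g w‖ₑ)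
  unfold N32
  refine (ENNReal.rpow_le_rpow h2 (by norm_num)).trans (le_of_eq ?_)
  rw [show (3 : ℝ) / (2 * 1) = 3 / 2 by norm_num]
  rw [ENNReal.mul_rpow_of_nonneg _ _ (by norm_num), ENNReal.mul_rpow_of_nonneg _ _ (by norm_num),
    ← ENNReal.rpow_mul, ← ENNReal.rpow_mul]
  unfold K5 N3 cM
  rw [ENNReal.ofReal_rpow_of_nonneg cZ_nonneg' (by norm_num)]
  norm_num

/-- The bound at one fixed `t`. -/
lemma N32_spike (f g : ℤ × ℤ → ℂ) (t : ℤ) :
    N32 (fun z => ‖phi f g z t‖ₑ) ≤ N3 f * N3 g := by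
  have hh2 : (2 : ℝ).HolderConjugate 2 := by
    refine ⟨?_, by norm_num, by norm_num⟩
    norm_num
  have h1 : ∀ z, ‖phi f g z t‖ₑ ^ ((3 : ℝ) / 2) =
      ‖f (z.1 + t, z.2)‖ₑ ^ ((3 : ℝ) / 2) * ‖g (z.1, z.2 + t)‖ₑ ^ ((3 : ℝ) / 2) := by
    intro z
    simp only [phi]
    rw [enorm_mul, ENNReal.mul_rpow_of_nonneg _ _ (by norm_num)]
  have h2 : ∀ x : ℝ≥0∞, (x ^ ((3 : ℝ) / 2)) ^ (2 : ℝ) = x ^ (3 : ℝ) := by
    intro x
    rw [← ENNReal.rpow_mul]
    norm_num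
  have h3 : ∑' z : ℤ × ℤ, ‖f (z.1 + t, z.2)‖ₑ ^ (3 : ℝ) = ∑' z, ‖f z‖ₑ ^ (3 : ℝ) :=
    (Equiv.prodCongr (Equiv.addRight t) (Equiv.refl ℤ)).tsum_eq (fun z => ‖f z‖ₑ ^ (3 : ℝ))
  have h4 : ∑' z : ℤ × ℤ, ‖g (z.1, z.2 + t)‖ₑ ^ (3 : ℝ) = ∑' z, ‖g z‖ₑ ^ (3 : ℝ) :=
    (Equiv.prodCongr (Equiv.refl ℤ) (Equiv.addRight t)).tsum_eq (fun z => ‖g z‖ₑ ^ (3 : ℝ))
  have h5 := tsum_mul_le_Lp hh2 (fun z : ℤ × ℤ => ‖f (z.1 + t, z.2)‖ₑ ^ ((3 : ℝ) / 2))
    (fun z : ℤ × ℤ => ‖g (z.1, z.2 + t)‖ₑ ^ ((3 : ℝ) / 2))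
  simp only [h2, h3, h4] at h5
  unfold N32
  simp only [h1]
  refine (ENNReal.rpow_le_rpow h5 (by norm_num)).trans (le_of_eq ?_)
  unfold N3
  rw [ENNReal.mul_rpow_of_nonneg _ _ (by norm_num), ← ENNReal.rpow_mul, ← ENNReal.rpow_mul]
  norm_num

end maxpart

/-- The chain theorem in `ℝ≥0∞`. -/
lemma N32_chain {C : ℝ} (hTB : TBStatement C) (hC : 0 ≤ C) {n : ℕ} (hn : 1 ≤ n) (I M s : ℕ)
    (hM : 1 ≤ M) (f g : ℤ × ℤ → ℂ) (hf : (Function.support f).Finite)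
    (hg : (Function.support g).Finite) (a b : ℤ × ℤ → Fin n → ℕ)
    (hd : ∀ z j j', j ≠ j' → Disjoint (Finset.Ico (a z j) (b z j)) (Finset.Ico (a z j') (b z j')))
    (hb : ∀ z j, b z j ≤ I) :
    N32 (fun z => ENNReal.ofReal (chainS M s f g a b z)) ≤
      ENNReal.ofReal (9 * C * Real.sqrt n) * (N3 f * N3 g) := by
  obtain ⟨B1, hB1⟩ := exists_inBox hf
  obtain ⟨B2, hB2⟩ := exists_inBox hg
  have hS : (Function.support (chainS M s f g a b)).Finite :=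
    finite_of_inBox (chainS_inBox (hB1.mono (le_max_left B1 B2)) (hB2.mono (le_max_right B1 B2)) a b)
  refine (N32_ofReal_le (chainS_nonneg M s f g a b) hS _
    (chain_main hTB hC hn I M s hM f g hf hg a b hd hb)).trans (le_of_eq ?_)
  have hA : 0 ≤ (∑' z, ‖f z‖ ^ 3) ^ ((1 : ℝ) / 3) :=
    Real.rpow_nonneg (tsum_nonneg fun _ => by positivity) _
  rw [N3_eq hf, N3_eq hg, mul_assoc (9 * C * Real.sqrt n),
    ENNReal.ofReal_mul (show 0 ≤ 9 * C * Real.sqrt n by positivity), ENNReal.ofReal_mul hA]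

/-! ### The numerics of the geometric sum -/

/-- `2^{1/4}` -/
noncomputable def c4 : ℝ := (2 : ℝ) ^ ((1 : ℝ) / 4)

lemma c4_pos : 0 < c4 := by
  unfold c4
  positivity

lemma c4_pow4 : c4 ^ 4 = 2 := by
  unfold c4
  rw [← Real.rpow_natCast, ← Real.rpow_mul (by norm_num)]
  norm_num

lemma two_pow_rpow (n : ℕ) : ((2 : ℝ) ^ n) ^ ((1 : ℝ) / 4) = c4 ^ n := by
  unfold c4
  rw [← Real.rpow_natCast, ← Real.rpow_natCast, ← Real.rpow_mul (by norm_num),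
    ← Real.rpow_mul (by norm_num), mul_comm]

lemma rho_c4_le : rho * c4 ≤ 7 / 8 := by
  have h1 : rho ^ 2 = 1 / 2 := Real.sq_sqrt (by norm_num)
  have h2 : (rho * c4) ^ 4 ≤ (7 / 8 : ℝ) ^ 4 := by
    have h3 : (rho * c4) ^ 4 = (rho ^ 2) ^ 2 * c4 ^ 4 := by ring
    rw [h3, h1, c4_pow4]
    norm_num
  have h0 : 0 ≤ rho := Cal.rho_nonneg
  exact (pow_le_pow_iff_left₀ (mul_nonneg h0 c4_pos.le) (by norm_num) (by norm_num)).mp h2

lemma sum_geom_le (q : ℕ) : ∑ l ∈ Finset.range q, rho ^ l * c4 ^ (l + 2) ≤ c4 ^ 2 * 8 := by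
  have h0 : 0 ≤ rho * c4 := mul_nonneg Cal.rho_nonneg c4_pos.le
  have h1 : ∀ l, rho ^ l * c4 ^ (l + 2) ≤ c4 ^ 2 * (7 / 8 : ℝ) ^ l := by
    intro l
    have h2 : rho ^ l * c4 ^ (l + 2) = c4 ^ 2 * (rho * c4) ^ l := by
      rw [mul_pow, pow_add]
      ring
    rw [h2]
    exact mul_le_mul_of_nonneg_left (pow_le_pow_left₀ h0 rho_c4_le l) (by positivity)
  have h3 : ∀ q : ℕ, ∑ l ∈ Finset.range q, (7 / 8 : ℝ) ^ l ≤ 8 - 8 * (7 / 8 : ℝ) ^ q := by
    intro q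
    induction q with
    | zero => simp
    | succ q ih =>
      rw [Finset.sum_range_succ, pow_succ]
      linarith
  refine (Finset.sum_le_sum fun l _ => h1 l).trans ?_
  rw [← Finset.mul_sum]
  apply mul_le_mul_of_nonneg_left _ (by positivity)
  have := h3 q
  have h4 : (0 : ℝ) ≤ (7 / 8 : ℝ) ^ q := by positivity
  linarith

/-! ### The final assembly -/

/-- The final constant. -/
noncomputable def cFinal (C₁ C₂ C₃ : ℝ) : ℝ :=
  C₂ * (9 * C₁) + C₂ * (Real.sqrt 8 * 16 * C₃ ^ ((2 : ℝ) / 3) * (c4 ^ 2 * 8)) + C₂ * K5 + C₂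

theorem discreteCountBoundLarge_of {C₁ C₂ C₃ : ℝ} (hTB : TBStatement C₁) (h1 : 0 ≤ C₁)
    (hS : SharpStatement C₂) (h2 : 0 ≤ C₂) (hA : AnisoStatement C₃) (h3 : 0 ≤ C₃) :
    DiscreteCountBoundLarge (cFinal C₁ C₂ C₃) := by
  classical
  intro n hn Λ
  obtain ⟨R₀, M, hM, hR⟩ := hS n hn (max Λ 1)
  refine ⟨R₀, fun lo hlo f g hf hg => ?_⟩
  obtain ⟨s, I, q, W, w, hw0, hwsum, hmain⟩ := hR lo hlo
  have hlo1 : lo ≤ max Λ 1 * lo := Nat.le_mul_of_pos_left _ (by omega)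
  have hΛ : Λ * lo ≤ max Λ 1 * lo := Nat.mul_le_mul_right _ (le_max_left _ _)
  -- the families
  choose a b hab hdisj hval using fun p => exists_family n lo (max Λ 1 * lo) hlo1 f g p
  -- the levels
  have hS' := fun p => hmain (phi f g p) (mmax f g p) (mmax_nonneg f g p) (mmax_bound hf hg p)
    (a p) (b p) (hab p) (hdisj p)
  choose i1 i2 hi2 hiD hbound using hS'
  set Z := N3 f * N3 g with hZ
  have hnpos : (0 : ℝ) < n := by exact_mod_cast hn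
  have hsn : 1 ≤ Real.sqrt n := Real.one_le_sqrt.mpr (by exact_mod_cast hn)
  -- the four terms
  set T1 : ℤ × ℤ → ℝ := fun p => C₂ * chainS M s f g i1 i2 p with hT1
  set T2 : ℤ × ℤ → ℝ := fun p => C₂ * Real.sqrt n * ∑ l ∈ Finset.range q,
    rho ^ l * Real.sqrt (sqf (l + 2) (Finset.Ico 0 q) (phi f g p)) with hT2
  set T3 : ℤ × ℤ → ℝ := fun p => C₂ * mmax f g p with hT3
  set T4 : ℤ × ℤ → ℝ := fun p => ∑ t ∈ W, w t * ‖phi f g p t‖ with hT4
  have hrho := Cal.rho_nonneg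
  have hT1nn : ∀ p, 0 ≤ T1 p := fun p => mul_nonneg h2 (chainS_nonneg _ _ _ _ _ _ _)
  have hT2nn : ∀ p, 0 ≤ T2 p := fun p => mul_nonneg (by positivity) (Finset.sum_nonneg fun l _ =>
    mul_nonneg (pow_nonneg hrho _) (Real.sqrt_nonneg _))
  have hT3nn : ∀ p, 0 ≤ T3 p := fun p => mul_nonneg h2 (mmax_nonneg _ _ _)
  have hT4nn : ∀ p, 0 ≤ T4 p := fun p => Finset.sum_nonneg fun t _ =>
    mul_nonneg (hw0 t) (norm_nonneg _)
  -- pointwise
  have hpt : ∀ p, discCountIn n lo (Λ * lo) f g p ≤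
      ENNReal.ofReal (T1 p) + ENNReal.ofReal (T2 p) + ENNReal.ofReal (T3 p) +
        ENNReal.ofReal (T4 p) := by
    intro p
    refine (discCountIn_mono n lo hΛ f g p).trans ((hval p).trans ?_)
    rw [← ENNReal.ofReal_add (hT1nn p) (hT2nn p),
      ← ENNReal.ofReal_add (add_nonneg (hT1nn p) (hT2nn p)) (hT3nn p),
      ← ENNReal.ofReal_add (add_nonneg (add_nonneg (hT1nn p) (hT2nn p)) (hT3nn p)) (hT4nn p)]
    have h5 : ∑ j, ‖discT (a p j) (b p j) f g p‖ₑ =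
        ENNReal.ofReal (∑ j, ‖discT (a p j) (b p j) f g p‖) := by
      rw [ENNReal.ofReal_sum_of_nonneg fun _ _ => norm_nonneg _]
      refine Finset.sum_congr rfl fun j _ => ?_
      rw [ofReal_norm]
    rw [h5]
    apply ENNReal.ofReal_le_ofReal
    exact hbound p
  -- norms
  have hN1 : N32 (fun p => ENNReal.ofReal (T1 p)) ≤ ENNReal.ofReal (C₂ * (9 * C₁ * Real.sqrt n)) * Z := by
    have h5 : (fun p => ENNReal.ofReal (T1 p)) =
        fun p => ENNReal.ofReal C₂ * ENNReal.ofReal (chainS M s f g i1 i2 p) := by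
      funext p
      rw [hT1, ENNReal.ofReal_mul h2]
    rw [h5, N32_const_mul, ENNReal.ofReal_mul h2, mul_assoc]
    gcongr
    exact N32_chain hTB h1 hn I M s hM f g hf hg i1 i2 hiD hi2
  have hN2 : N32 (fun p => ENNReal.ofReal (T2 p)) ≤
      ENNReal.ofReal (C₂ * Real.sqrt n *
        (Real.sqrt 8 * 16 * C₃ ^ ((2 : ℝ) / 3) * (c4 ^ 2 * 8))) * Z := by
    have h5 : (fun p => ENNReal.ofReal (T2 p)) =
        fun p => ENNReal.ofReal (C₂ * Real.sqrt n) * ∑ l ∈ Finset.range q, ENNReal.ofReal (rho ^ l) *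
          ENNReal.ofReal (Real.sqrt (sqf (l + 2) (Finset.Ico 0 q) (phi f g p))) := by
      funext p
      rw [hT2, ENNReal.ofReal_mul (by positivity),
        ENNReal.ofReal_sum_of_nonneg fun l _ => mul_nonneg (pow_nonneg hrho _) (Real.sqrt_nonneg _)]
      congr 1
      refine Finset.sum_congr rfl fun l _ => ?_
      rw [ENNReal.ofReal_mul (pow_nonneg hrho _)]
    rw [h5, N32_const_mul]
    have h6 : N32 (fun p => ∑ l ∈ Finset.range q, ENNReal.ofReal (rho ^ l) *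
          ENNReal.ofReal (Real.sqrt (sqf (l + 2) (Finset.Ico 0 q) (phi f g p)))) ≤
        ∑ l ∈ Finset.range q, ENNReal.ofReal (rho ^ l) *
          (ENNReal.ofReal (Real.sqrt 8 * 16 * C₃ ^ ((2 : ℝ) / 3) * ((2 : ℝ) ^ (l + 2)) ^ ((1 : ℝ) / 4)) * Z) := by
      refine (N32_sum _ _).trans (Finset.sum_le_sum fun l _ => ?_)
      rw [N32_const_mul]
      gcongr
      exact N32_sqf hA h3 (l + 2) q f g hf hg
    have h7 : ∑ l ∈ Finset.range q, ENNReal.ofReal (rho ^ l) *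
          (ENNReal.ofReal (Real.sqrt 8 * 16 * C₃ ^ ((2 : ℝ) / 3) * ((2 : ℝ) ^ (l + 2)) ^ ((1 : ℝ) / 4)) * Z) =
        ENNReal.ofReal (Real.sqrt 8 * 16 * C₃ ^ ((2 : ℝ) / 3) *
          ∑ l ∈ Finset.range q, rho ^ l * c4 ^ (l + 2)) * Z := by
      rw [Finset.mul_sum, ENNReal.ofReal_sum_of_nonneg, Finset.sum_mul]
      · refine Finset.sum_congr rfl fun l _ => ?_
        rw [two_pow_rpow, ← mul_assoc, ← ENNReal.ofReal_mul (pow_nonneg hrho _)]
        congr 2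
        ring
      · intro l _
        have := c4_pos
        positivity
    rw [h7] at h6
    refine (mul_le_mul' le_rfl h6).trans ?_
    rw [← mul_assoc, ← ENNReal.ofReal_mul (by positivity)]
    gcongr
    exact sum_geom_le q
  have hN3 : N32 (fun p => ENNReal.ofReal (T3 p)) ≤ ENNReal.ofReal (C₂ * K5) * Z := by
    have h5 : (fun p => ENNReal.ofReal (T3 p)) =
        fun p => ENNReal.ofReal C₂ * ENNReal.ofReal (mmax f g p) := by
      funext p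
      rw [hT3, ENNReal.ofReal_mul h2]
    rw [h5, N32_const_mul, ENNReal.ofReal_mul h2, mul_assoc]
    gcongr
    exact N32_mmax hf hg
  have hN4 : N32 (fun p => ENNReal.ofReal (T4 p)) ≤ ENNReal.ofReal C₂ * Z := by
    have h5 : (fun p => ENNReal.ofReal (T4 p)) =
        fun p => ∑ t ∈ W, ENNReal.ofReal (w t) * ‖phi f g p t‖ₑ := by
      funext p
      rw [hT4, ENNReal.ofReal_sum_of_nonneg fun t _ => mul_nonneg (hw0 t) (norm_nonneg _)]
      refine Finset.sum_congr rfl fun t _ => ?_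
      rw [ENNReal.ofReal_mul (hw0 t), ofReal_norm]
    rw [h5]
    refine (N32_sum _ _).trans ?_
    have h6 : ∀ t ∈ W, N32 (fun p => ENNReal.ofReal (w t) * ‖phi f g p t‖ₑ) ≤
        ENNReal.ofReal (w t) * Z := by
      intro t _
      rw [N32_const_mul]
      gcongr
      exact N32_spike f g t
    refine (Finset.sum_le_sum h6).trans ?_
    rw [← Finset.sum_mul, ← ENNReal.ofReal_sum_of_nonneg fun t _ => hw0 t]
    gcongr
  -- assembly
  have hfinal : N32 (fun p => discCountIn n lo (Λ * lo) f g p) ≤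
      ENNReal.ofReal (cFinal C₁ C₂ C₃ * Real.sqrt n * Real.log (2 + n)) * Z := by
    have hlog : 1 ≤ Real.log (2 + n) := by
      have h5 : Real.exp 1 ≤ 2 + (n : ℝ) := by
        have h6 := Real.exp_one_lt_d9
        have h7 : (1 : ℝ) ≤ n := by exact_mod_cast hn
        linarith
      calc (1 : ℝ) = Real.log (Real.exp 1) := (Real.log_exp 1).symm
        _ ≤ _ := Real.log_le_log (Real.exp_pos 1) h5
    have hK5 := K5_nonneg
    have hc4 := c4_pos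
    refine (N32_mono hpt).trans ((N32_add _ _).trans ?_)
    refine (add_le_add ((N32_add _ _).trans (add_le_add (N32_add _ _) le_rfl)) le_rfl).trans ?_
    refine (add_le_add (add_le_add (add_le_add hN1 hN2) hN3) hN4).trans ?_
    rw [← add_mul, ← add_mul, ← add_mul,
      ← ENNReal.ofReal_add (by positivity) (by positivity),
      ← ENNReal.ofReal_add (by positivity) (by positivity),
      ← ENNReal.ofReal_add (by positivity) (by positivity)]
    gcongr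
    unfold cFinal
    have hc : 0 ≤ C₂ * (9 * C₁) + C₂ * (Real.sqrt 8 * 16 * C₃ ^ ((2 : ℝ) / 3) * (c4 ^ 2 * 8)) +
        C₂ * K5 + C₂ := by positivity
    have e1 : (C₂ * (9 * C₁) + C₂ * (Real.sqrt 8 * 16 * C₃ ^ ((2 : ℝ) / 3) * (c4 ^ 2 * 8)) +
        C₂ * K5 + C₂) * Real.sqrt n ≤
        (C₂ * (9 * C₁) + C₂ * (Real.sqrt 8 * 16 * C₃ ^ ((2 : ℝ) / 3) * (c4 ^ 2 * 8)) +
        C₂ * K5 + C₂) * Real.sqrt n * Real.log (2 + n) := by
      apply le_mul_of_one_le_right (by positivity) hlog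
    refine le_trans ?_ e1
    have e2 : 0 ≤ C₂ * K5 := by positivity
    nlinarith [hsn]
  have hL : (∑' p, discCountIn n lo (Λ * lo) f g p ^ (3 / 2 : ℝ)) ^ (2 / 3 : ℝ) =
      N32 (fun p => discCountIn n lo (Λ * lo) f g p) := rfl
  rw [hL]
  refine hfinal.trans (le_of_eq ?_)
  rw [hZ, ← mul_assoc]
  rfl

end Crest.Agent.TriRL
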