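/-
S0096: `SharpStatement` from `sharp_final` (helper18's `SharpKernel.lean`) (helper73).
-/
import Crest.Agent.TriRL.TLat
import Crest.Agent.TriRL.SharpKernel
import Crest.Agent.TriRL.AnisoZ

set_option autoImplicit false

namespace Crest.Agent.TriRL

open Finset
open Crest.Agent.TriH.CountFromDiscrete
open Crest.Agent.TriRL.Cal

lemma annSet_self (a : ℕ) : annSet a a = ∅ := by
  unfold annSet
  ext τ
  simp only [Finset.mem_filter, Finset.mem_Ioo, Finset.notMem_empty, iff_false, not_and, not_lt]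
  intro h
  exact abs_le.mpr ⟨by omega, by omega⟩

lemma sum_inv_two_pow_Icc_le (a b : ℕ) : ∑ k ∈ Finset.Icc a b, ((2 : ℝ) ^ k)⁻¹ ≤ 2 := by
  have h1 : ∀ c : ℕ, ∑ k ∈ Finset.Ico a (a + c), ((2 : ℝ) ^ k)⁻¹ ≤
      2 * ((2 : ℝ) ^ a)⁻¹ - 2 * ((2 : ℝ) ^ (a + c))⁻¹ := by
    intro c
    induction c with
    | zero => simp
    | succ c ih =>
      rw [← add_assoc, Finset.sum_Ico_succ_top (by omega)]
      have h2 : ((2 : ℝ) ^ (a + c + 1))⁻¹ = ((2 : ℝ) ^ (a + c))⁻¹ / 2 := by
        rw [pow_succ]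
        field_simp
      rw [h2]
      linarith
  have h3 : Finset.Icc a b ⊆ Finset.Ico a (a + (b + 1)) := by
    intro k hk
    have := Finset.mem_Icc.mp hk
    exact Finset.mem_Ico.mpr ⟨this.1, by omega⟩
  have h4 := Finset.sum_le_sum_of_subset_of_nonneg h3
    (f := fun k => ((2 : ℝ) ^ k)⁻¹) (fun _ _ _ => by positivity)
  have h5 := h1 (b + 1)
  have h6 : ((2 : ℝ) ^ a)⁻¹ ≤ 1 := inv_le_one_of_one_le₀ (one_le_pow₀ (by norm_num))
  have h7 : (0 : ℝ) ≤ ((2 : ℝ) ^ (a + (b + 1)))⁻¹ := by positivity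
  linarith

/-- **The pointwise sharp bound in the shape of `SharpStatement`.** -/
theorem sharp_statement : SharpStatement 4000000 := by
  classical
  intro n hn Λ
  set μ : ℕ := Nat.clog 2 Λ + 1 with hμ
  refine ⟨2 ^ (μ + 4), 2 ^ μ, Nat.one_le_two_pow, fun lo hlo => ?_⟩
  have h2 : 1 < 2 := by norm_num
  have hlo0 : lo ≠ 0 := by
    have : 0 < 2 ^ (μ + 4) := by positivity
    omega
  set K : ℕ := Nat.log 2 lo with hK
  have hKge : μ + 4 ≤ K := Nat.le_log_of_pow_le h2 hlo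
  set s : ℕ := K - (μ + 4) with hs
  have hsK : μ + s + 4 = K := by omega
  set kmax : ℕ := Nat.clog 2 (Λ * lo) with hkmax
  set L : ℕ := max 2 (Nat.clog 2 n) with hL
  have hM : kmax - (μ + s + 4) ≤ 2 ^ μ := by
    have h3 : Λ * lo ≤ 2 ^ (Nat.clog 2 Λ + (K + 1)) := by
      rw [pow_add]
      exact Nat.mul_le_mul (Nat.le_pow_clog h2 Λ) (Nat.lt_pow_succ_log_self h2 lo).le
    have h4 : kmax ≤ Nat.clog 2 Λ + (K + 1) := Nat.clog_le_of_le_pow h3
    have h5 : μ < 2 ^ μ := Nat.lt_two_pow_self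
    omega
  have hL2 : 2 ≤ L := le_max_left _ _
  have hnL : n ≤ 2 ^ L := by
    have h3 : n ≤ 2 ^ Nat.clog 2 n := Nat.le_pow_clog h2 n
    exact h3.trans (Nat.pow_le_pow_right (by norm_num) (le_max_right _ _))
  have hinj : Set.InjOn (fun k : ℕ => -(2 : ℤ) ^ k) (Finset.Icc (μ + s + 4) kmax : Finset ℕ) := by
    intro x _ y _ h
    simp only [neg_inj] at h
    exact Nat.pow_right_injective (le_refl 2) (by exact_mod_cast h)
  refine ⟨s, kmax, kmax + L, (Finset.Icc (μ + s + 4) kmax).image (fun k : ℕ => -(2 : ℤ) ^ k),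
    fun t => 3 * |(t : ℝ)|⁻¹, fun t => by positivity, ?_, ?_⟩
  · rw [Finset.sum_image hinj]
    have h3 : ∀ k ∈ Finset.Icc (μ + s + 4) kmax, 3 * |(((-(2 : ℤ) ^ k : ℤ)) : ℝ)|⁻¹ =
        3 * ((2 : ℝ) ^ k)⁻¹ := by
      intro k _
      push_cast
      rw [abs_neg, abs_of_pos (by positivity)]
    rw [Finset.sum_congr rfl h3, ← Finset.mul_sum]
    have := sum_inv_two_pow_Icc_le (μ + s + 4) kmax
    linarith
  intro φ m hm0 hm a b hab hdisj
  set J : Finset (Fin n) := Finset.univ.filter fun j => a j < b j with hJ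
  have hJcard : J.card ≤ n := by
    have := Finset.card_le_univ J
    simpa using this
  have hpow : ∀ j, 2 ^ (μ + s + 4) ≤ a j := by
    intro j
    rw [hsK]
    exact (Nat.pow_log_le_self 2 hlo0).trans (hab j).1
  have hbk : ∀ j, b j ≤ 2 ^ kmax := fun j =>
    (hab j).2.2.trans (Nat.le_pow_clog h2 _)
  have key := sharp_final J a b μ s kmax L (fun j _ => hpow j)
    (fun j _ => hbk j)
    (fun j _ j' _ hne => hdisj j j' hne) hM hL2 (hJcard.trans hnL) φ m hm0 hm
  refine ⟨fun j => if j ∈ J then kA (a j + 1) - (μ + s + 4) else 0,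
    fun j => if j ∈ J then kB (b j) - (μ + s + 4) else 0, ?_, ?_, ?_⟩
  · intro j
    dsimp only
    split_ifs
    · have h3 : kB (b j) ≤ kmax := by
        have h4 := Nat.log_mono_right (b := 2) (hbk j)
        rwa [Nat.log_pow h2] at h4
      omega
    · omega
  · intro i j hij
    dsimp only
    rw [Finset.disjoint_left]
    intro x hx hx'
    have hx1 := Finset.mem_Ico.mp hx
    have hx2 := Finset.mem_Ico.mp hx'
    by_cases hi : i ∈ J <;> by_cases hj : j ∈ J
    · simp only [hi, hj, if_true] at hx1 hx2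
      have key2 : ∀ u v, b u ≤ a v → kB (b u) ≤ kA (a v + 1) := by
        intro u v huv
        have h3 : kB (b u) ≤ kB (a v + 1) := Nat.log_mono_right (by omega)
        exact h3.trans (Nat.log_le_clog 2 _)
      rcases hdisj i j hij with h3 | h3
      · have := key2 i j h3
        omega
      · have := key2 j i h3
        omega
    · simp only [hj, if_false] at hx2
      omega
    · simp only [hi, if_false] at hx1
      omega
    · simp only [hi, if_false] at hx1
      omega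
  · -- the left side
    have hL1 : ∑ j, ‖∑ τ ∈ annSet (a j) (b j), φ τ / (τ : ℂ)‖ =
        ∑ j ∈ J, ‖∑ τ ∈ (Finset.Ioo (-(b j : ℤ)) (b j : ℤ)).filter (fun τ => (a j : ℤ) < |τ|),
          φ τ / (τ : ℂ)‖ := by
      rw [hJ, Finset.sum_filter]
      refine Finset.sum_congr rfl fun j _ => ?_
      split_ifs with h
      · rfl
      · have h3 : a j = b j := le_antisymm (hab j).2.1 (not_lt.mp h)
        rw [h3, annSet_self]
        simp
    rw [hL1]
    refine key.trans ?_
    have hX : 0 ≤ ∑ l ∈ Finset.range (kmax + L), rho ^ l *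
        Real.sqrt (sqf (l + 2) (Finset.Ico 0 (kmax + L)) φ) :=
      Finset.sum_nonneg fun l _ => mul_nonneg (pow_nonneg rho_nonneg _) (Real.sqrt_nonneg _)
    -- first term
    have hT1 : 8 * ∑ j ∈ J, ‖∑ i ∈ Finset.Ico (kA (a j + 1) - (μ + s + 4)) (kB (b j) - (μ + s + 4)),
          ∑' t, ladC (2 ^ μ) s i t * φ t‖ ≤
        4000000 * ∑ j, ‖∑ i ∈ Finset.Ico (if j ∈ J then kA (a j + 1) - (μ + s + 4) else 0)
          (if j ∈ J then kB (b j) - (μ + s + 4) else 0), pair (ladK (2 ^ μ) s i) φ‖ := by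
      have h3 : ∑ j ∈ J, ‖∑ i ∈ Finset.Ico (kA (a j + 1) - (μ + s + 4)) (kB (b j) - (μ + s + 4)),
          ∑' t, ladC (2 ^ μ) s i t * φ t‖ =
          ∑ j ∈ J, ‖∑ i ∈ Finset.Ico (if j ∈ J then kA (a j + 1) - (μ + s + 4) else 0)
          (if j ∈ J then kB (b j) - (μ + s + 4) else 0), pair (ladK (2 ^ μ) s i) φ‖ := by
        refine Finset.sum_congr rfl fun j hj => ?_
        simp only [hj, if_true]
        rfl
      rw [h3]
      have h4 := Finset.sum_le_sum_of_subset_of_nonneg (Finset.subset_univ J)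
        (f := fun j => ‖∑ i ∈ Finset.Ico (if j ∈ J then kA (a j + 1) - (μ + s + 4) else 0)
          (if j ∈ J then kB (b j) - (μ + s + 4) else 0), pair (ladK (2 ^ μ) s i) φ‖)
        (fun _ _ _ => norm_nonneg _)
      have h5 : 0 ≤ ∑ j, ‖∑ i ∈ Finset.Ico (if j ∈ J then kA (a j + 1) - (μ + s + 4) else 0)
          (if j ∈ J then kB (b j) - (μ + s + 4) else 0), pair (ladK (2 ^ μ) s i) φ‖ :=
        Finset.sum_nonneg fun _ _ => norm_nonneg _
      have h6 : 0 ≤ ∑ j ∈ J, ‖∑ i ∈ Finset.Ico (if j ∈ J then kA (a j + 1) - (μ + s + 4) else 0)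
          (if j ∈ J then kB (b j) - (μ + s + 4) else 0), pair (ladK (2 ^ μ) s i) φ‖ :=
        Finset.sum_nonneg fun _ _ => norm_nonneg _
      linarith
    -- second term
    have hT2 : 2000000 * Real.sqrt J.card * (∑ l ∈ Finset.range (kmax + L), rho ^ l *
        Real.sqrt (sqf (l + 2) (Finset.Ico 0 (kmax + L)) φ)) ≤
        4000000 * Real.sqrt n * (∑ l ∈ Finset.range (kmax + L), rho ^ l *
        Real.sqrt (sqf (l + 2) (Finset.Ico 0 (kmax + L)) φ)) := by
      apply mul_le_mul_of_nonneg_right _ hX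
      have h3 : Real.sqrt J.card ≤ Real.sqrt n :=
        Real.sqrt_le_sqrt (by exact_mod_cast hJcard)
      have h4 := Real.sqrt_nonneg (n : ℝ)
      linarith
    -- the atoms
    have hT4 : 3 * ∑ k ∈ Finset.Icc (μ + s + 4) kmax, ((2 : ℝ) ^ k)⁻¹ * ‖φ (-(2 : ℤ) ^ k)‖ =
        ∑ t ∈ (Finset.Icc (μ + s + 4) kmax).image (fun k : ℕ => -(2 : ℤ) ^ k),
          3 * |(t : ℝ)|⁻¹ * ‖φ t‖ := by
      rw [Finset.sum_image hinj, Finset.mul_sum]
      refine Finset.sum_congr rfl fun k _ => ?_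
      push_cast
      rw [abs_neg, abs_of_pos (by positivity)]
      ring
    rw [hT4]
    linarith

/-- **L8 in the shape of `AnisoStatement`.** -/
theorem aniso_statement : AnisoStatement Aniso.CA := fun l q f g hf hg =>
  Aniso.sqf_aniso f g hf hg l 3 q (by norm_num)

end Crest.Agent.TriRL
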