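/-
S0096, helper84's blueprint L5 (abstract telescoping, helper21).

`Q i X` is the Bellman function at level `i` for the (time dependent) third function `X`, `gain i X`
the gain at level `i`.  If `Q (i+1) X + gain i X ≤ Q i X` for every `X`, then along any sequence `X i`
the gains are controlled by the initial value and the jumps at fixed level.
-/
import Mathlib

set_option autoImplicit false

namespace Crest.Agent.TriRL.Ladder

open Finset

variable {E : Type*} (Q gain : ℕ → E → ℝ) (X : ℕ → E)

/-- The telescoping of the gains with a time dependent third function. -/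
theorem sum_gain_le (I : ℕ)
    (hstep : ∀ i, i ≤ I → ∀ Y, Q (i + 1) Y + gain i Y ≤ Q i Y) :
    ∑ i ∈ range (I + 1), gain i (X i) + Q (I + 1) (X I) ≤
      Q 0 (X 0) + ∑ i ∈ range I, (Q (i + 1) (X (i + 1)) - Q (i + 1) (X i)) := by
  induction I with
  | zero =>
    have h := hstep 0 le_rfl (X 0)
    simp only [sum_range_one, sum_range_zero, zero_add, add_zero]
    linarith
  | succ k ih =>
    have h1 := ih (fun i hi Y => hstep i (by omega) Y)
    have h2 := hstep (k + 1) le_rfl (X (k + 1))
    rw [sum_range_succ (fun i => gain i (X i)) (k + 1),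
      sum_range_succ (fun i => Q (i + 1) (X (i + 1)) - Q (i + 1) (X i)) k]
    linarith

/-- **Ladder.** If moreover the local forms are bounded by `c` times the gains and the last potential is
nonnegative, the sum of the local forms along the time dependent third function is at most
`c (Q₀ + jumps)`. -/
theorem sum_form_le (H : ℕ → E → ℝ) {c : ℝ} (hc : 0 ≤ c) (I : ℕ)
    (hstep : ∀ i, i ≤ I → ∀ Y, Q (i + 1) Y + gain i Y ≤ Q i Y)
    (hloc : ∀ i, i ≤ I → ∀ Y, H i Y ≤ c * gain i Y)
    (hQ : 0 ≤ Q (I + 1) (X I)) :
    ∑ i ∈ range (I + 1), H i (X i) ≤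
      c * (Q 0 (X 0) + ∑ i ∈ range I, (Q (i + 1) (X (i + 1)) - Q (i + 1) (X i))) := by
  have h1 := sum_gain_le Q gain X I hstep
  have h2 : ∑ i ∈ range (I + 1), H i (X i) ≤ c * ∑ i ∈ range (I + 1), gain i (X i) := by
    rw [mul_sum]
    exact sum_le_sum fun i hi => hloc i (by simpa [Nat.lt_succ_iff] using hi) _
  refine h2.trans (mul_le_mul_of_nonneg_left ?_ hc)
  linarith

end Crest.Agent.TriRL.Ladder
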