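import Crest.Agent.TriRL.MaxOps
import Crest.Agent.TriRL.Defs

/-!
# The cyclic maximal function on `ZMod N` (for T_B, helper21's request)

`Mc g x` is the centred maximal function on `ℤ` of the periodic extension of `g`, cut off at
`[-N, N]`, evaluated at the representative of `x` with smallest absolute value.  All the constants
are independent of `N`.
-/

set_option autoImplicit false

namespace Crest.Agent.TriRL.CycMax

open Finset Crest.Agent.TriH.MaxFn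
open scoped ENNReal

variable {N : ℕ} [NeZero N]

/-- The periodic extension of `g`, cut off at `[-N, N]`. -/
noncomputable def lift (g : ZMod N → ℝ) (t : ℤ) : ℝ≥0∞ :=
  if |t| ≤ (N : ℤ) then ENNReal.ofReal (g (t : ZMod N)) else 0

/-- The cyclic maximal function. -/
noncomputable def Mc (g : ZMod N → ℝ) (x : ZMod N) : ℝ := (maxZ (lift g) x.valMinAbs).toReal

lemma Mc_nonneg (g : ZMod N → ℝ) (x : ZMod N) : 0 ≤ Mc g x := ENNReal.toReal_nonneg

/-- A window of `N` consecutive integers injects into `ZMod N`. -/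
lemma sum_Ico_cast_le (h : ZMod N → ℝ≥0∞) (a : ℤ) :
    ∑ t ∈ Finset.Ico a (a + N), h (t : ZMod N) ≤ ∑ s, h s := by
  classical
  have hinj : Set.InjOn (fun t : ℤ => (t : ZMod N)) (Finset.Ico a (a + N) : Set ℤ) := by
    intro t ht t' ht' hEq
    have h1 := Finset.mem_Ico.mp (Finset.mem_coe.mp ht)
    have h2 := Finset.mem_Ico.mp (Finset.mem_coe.mp ht')
    have hd : (N : ℤ) ∣ t' - t := (ZMod.intCast_eq_intCast_iff_dvd_sub t t' N).mp hEq
    have hlt : |t' - t| < (N : ℤ) := by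
      rw [abs_lt]; constructor <;> linarith [h1.1, h1.2, h2.1, h2.2]
    have := Int.eq_zero_of_abs_lt_dvd hd hlt
    linarith
  rw [← Finset.sum_image (f := h) (g := fun t : ℤ => (t : ZMod N)) hinj]
  exact Finset.sum_le_sum_of_subset (Finset.subset_univ _)

/-- The cut-off extension has the mass of at most three periods. -/
lemma tsum_lift_rpow_le (g : ZMod N → ℝ) {p : ℝ} (hp : 0 < p) :
    ∑' t, lift g t ^ p ≤ 3 * ∑ s, ENNReal.ofReal (g s) ^ p := by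
  classical
  set h : ZMod N → ℝ≥0∞ := fun s => ENNReal.ofReal (g s) ^ p with hh
  have hsupp : ∀ t ∉ Finset.Ico (-(N : ℤ)) (2 * N), lift g t ^ p = 0 := by
    intro t ht
    have : ¬ |t| ≤ (N : ℤ) := by
      intro h1
      apply ht
      rw [Finset.mem_Ico]
      have := abs_le.mp h1
      have hN : (0 : ℤ) < N := by exact_mod_cast Nat.pos_of_ne_zero (NeZero.ne N)
      constructor <;> linarith [this.1, this.2]
    simp [lift, this, hp]
  rw [tsum_eq_sum hsupp]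
  have hle : ∀ t ∈ Finset.Ico (-(N : ℤ)) (2 * N), lift g t ^ p ≤ h (t : ZMod N) := by
    intro t _
    unfold lift
    split_ifs with h1
    · exact le_rfl
    · simp [hp]
  refine (Finset.sum_le_sum hle).trans ?_
  have hN0 : (0 : ℤ) ≤ N := by positivity
  have hsplit : ∑ t ∈ Finset.Ico (-(N : ℤ)) (2 * N), h (t : ZMod N) =
      ∑ t ∈ Finset.Ico (-(N : ℤ)) 0, h (t : ZMod N) +
        (∑ t ∈ Finset.Ico (0 : ℤ) N, h (t : ZMod N) +
          ∑ t ∈ Finset.Ico (N : ℤ) (2 * N), h (t : ZMod N)) := by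
    have e : ∀ a b c : ℤ, a ≤ b → b ≤ c → ∑ t ∈ Finset.Ico a c, h (t : ZMod N) =
        ∑ t ∈ Finset.Ico a b, h (t : ZMod N) + ∑ t ∈ Finset.Ico b c, h (t : ZMod N) := by
      intro a b c hab hbc
      rw [← Finset.Ico_union_Ico_eq_Ico hab hbc,
        Finset.sum_union (Finset.Ico_disjoint_Ico_consecutive a b c)]
    rw [e (-(N : ℤ)) 0 (2 * N) (by linarith) (by linarith), e 0 (N : ℤ) (2 * N) hN0 (by linarith)]
  rw [hsplit]
  have e1 := sum_Ico_cast_le h (-(N : ℤ))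
  have e2 := sum_Ico_cast_le h 0
  have e3 := sum_Ico_cast_le h (N : ℤ)
  rw [show -(N : ℤ) + N = 0 by ring] at e1
  rw [show (0 : ℤ) + N = N by ring] at e2
  rw [show (N : ℤ) + N = 2 * N by ring] at e3
  calc _ ≤ ∑ s, h s + (∑ s, h s + ∑ s, h s) := add_le_add e1 (add_le_add e2 e3)
    _ = 3 * ∑ s, h s := by ring

lemma tsum_lift_rpow_ne_top (g : ZMod N → ℝ) {p : ℝ} (hp : 0 < p) :
    ∑' t, lift g t ^ p ≠ ∞ := by
  refine ne_top_of_le_ne_top ?_ (tsum_lift_rpow_le g hp)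
  refine ENNReal.mul_ne_top (by simp) ?_
  refine (ENNReal.sum_lt_top.mpr fun s _ => ?_).ne
  exact ENNReal.rpow_lt_top_of_nonneg hp.le ENNReal.ofReal_ne_top

lemma maxZ_lift_ne_top (g : ZMod N → ℝ) (n : ℤ) : maxZ (lift g) n ≠ ∞ :=
  Crest.Agent.TriRL.MaxOps.maxZ_ne_top (p := 3 / 2) (by norm_num) _
    (tsum_lift_rpow_ne_top g (by norm_num)) n

/-- The weighted average bound. -/
theorem weighted_le {g w : ZMod N → ℝ} (hg : ∀ s, 0 ≤ g s) (hw : ∀ s, 0 ≤ w s) {c : ℝ} (hc : 0 ≤ c)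
    (x : ZMod N) (r : ℕ) (hr : 2 * r < N) (hwc : ∀ s, w s ≤ c)
    (hws : ∀ s, w s ≠ 0 → |(s - x).valMinAbs| ≤ (r : ℤ)) :
    ∑ s, w s * g s ≤ c * (2 * (r : ℝ) + 1) * Mc g x := by
  classical
  set I : Finset ℤ := Finset.Icc (-(r : ℤ)) r with hI
  set e : ℤ → ZMod N := fun k => x + (k : ZMod N) with he
  -- `e` is injective on `I`
  have hinj : Set.InjOn e (I : Set ℤ) := by
    intro k hk k' hk' hEq
    have h1 := Finset.mem_Icc.mp (Finset.mem_coe.mp hk)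
    have h2 := Finset.mem_Icc.mp (Finset.mem_coe.mp hk')
    have hEq' : (k : ZMod N) = (k' : ZMod N) := add_left_cancel hEq
    have hd : (N : ℤ) ∣ k' - k := (ZMod.intCast_eq_intCast_iff_dvd_sub k k' N).mp hEq'
    have hr' : (2 * (r : ℤ)) < N := by exact_mod_cast hr
    have hlt : |k' - k| < (N : ℤ) := by
      rw [abs_lt]; constructor <;> linarith [h1.1, h1.2, h2.1, h2.2]
    have := Int.eq_zero_of_abs_lt_dvd hd hlt
    linarith
  -- first step: the weight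
  have hstep1 : ∑ s, w s * g s ≤ c * ∑ k ∈ I, g (e k) := by
    have h1 : ∑ s, w s * g s ≤ ∑ s ∈ I.image e, c * g s := by
      have hsub : ∀ s, s ∉ I.image e → w s * g s = 0 := by
        intro s hs
        have : w s = 0 := by
          by_contra hne
          apply hs
          have h2 := hws s hne
          rw [Finset.mem_image]
          refine ⟨(s - x).valMinAbs, ?_, ?_⟩
          · rw [hI, Finset.mem_Icc]
            have := abs_le.mp h2
            exact ⟨this.1, this.2⟩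
          · simp [he, ZMod.coe_valMinAbs]
        simp [this]
      calc ∑ s, w s * g s = ∑ s ∈ I.image e, w s * g s := by
            symm
            apply Finset.sum_subset (Finset.subset_univ _)
            intro s _ hs
            exact hsub s hs
        _ ≤ _ := Finset.sum_le_sum fun s _ => mul_le_mul_of_nonneg_right (hwc s) (hg s)
    rw [Finset.sum_image hinj, ← Finset.mul_sum] at h1
    exact h1
  -- second step: compare with the lift
  set xt : ℤ := x.valMinAbs with hxt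
  have hxabs : |xt| ≤ (N : ℤ) / 2 := by
    have h := ZMod.natAbs_valMinAbs_le x
    rw [Int.abs_eq_natAbs]
    have h2 : ((x.valMinAbs.natAbs : ℕ) : ℤ) ≤ ((N / 2 : ℕ) : ℤ) := by exact_mod_cast h
    simpa using h2
  have hlift : ∀ k ∈ I, lift g (xt + k) = ENNReal.ofReal (g (e k)) := by
    intro k hk
    have h1 := Finset.mem_Icc.mp hk
    have hr' : (2 * (r : ℤ)) < N := by exact_mod_cast hr
    have h2 : |xt + k| ≤ (N : ℤ) := by
      have h3 := abs_le.mp hxabs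
      have h4 : (N : ℤ) / 2 * 2 ≤ N := Int.ediv_mul_le _ (by norm_num)
      rw [abs_le]
      constructor <;> linarith [h1.1, h1.2, h3.1, h3.2]
    unfold lift
    rw [if_pos h2]
    have : ((xt + k : ℤ) : ZMod N) = e k := by
      simp [he, hxt, ZMod.coe_valMinAbs]
    rw [this]
  have hsum : ENNReal.ofReal (∑ k ∈ I, g (e k)) ≤
      (2 * (r : ℝ≥0∞) + 1) * maxZ (lift g) xt := by
    rw [ENNReal.ofReal_sum_of_nonneg fun k _ => hg _]
    calc ∑ k ∈ I, ENNReal.ofReal (g (e k)) = ∑ k ∈ I, lift g (xt + k) :=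
          Finset.sum_congr rfl fun k hk => (hlift k hk).symm
      _ ≤ _ := sum_Icc_le_maxZ (lift g) xt r
  have hne := maxZ_lift_ne_top g xt
  have htr : ∑ k ∈ I, g (e k) ≤ (2 * (r : ℝ) + 1) * Mc g x := by
    have h2 : (2 * (r : ℝ≥0∞) + 1) * maxZ (lift g) xt =
        ENNReal.ofReal ((2 * (r : ℝ) + 1) * Mc g x) := by
      rw [ENNReal.ofReal_mul (by positivity)]
      unfold Mc
      rw [ENNReal.ofReal_toReal hne]
      congr 1
      rw [ENNReal.ofReal_add (by positivity) (by norm_num), ENNReal.ofReal_mul (by norm_num)]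
      simp
    rw [h2] at hsum
    exact (ENNReal.ofReal_le_ofReal_iff (by have := Mc_nonneg g x; positivity)).mp hsum
  calc ∑ s, w s * g s ≤ c * ∑ k ∈ I, g (e k) := hstep1
    _ ≤ c * ((2 * (r : ℝ) + 1) * Mc g x) := mul_le_mul_of_nonneg_left htr hc
    _ = _ := by ring

/-- The constant of the cyclic maximal theorem at exponent `3/2`. -/
noncomputable def KZ : ℝ := 3 * cZ (3 / 2)

lemma KZ_pos : 0 < KZ := by
  unfold KZ
  have := cZ_pos (p := 3 / 2) (by norm_num)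
  positivity

/-- The cyclic Hardy--Littlewood theorem at exponent `3/2`. -/
theorem sum_Mc_rpow_le {g : ZMod N → ℝ} (hg : ∀ s, 0 ≤ g s) :
    ∑ x, Mc g x ^ (3 / 2 : ℝ) ≤ KZ * ∑ x, g x ^ (3 / 2 : ℝ) := by
  classical
  have hp : (1 : ℝ) < 3 / 2 := by norm_num
  have hp0 : (0 : ℝ) < 3 / 2 := by norm_num
  -- in `ℝ≥0∞`
  have hinj : Function.Injective (fun x : ZMod N => x.valMinAbs) := by
    intro a b hab
    have := congrArg (fun t : ℤ => (t : ZMod N)) hab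
    simpa [ZMod.coe_valMinAbs] using this
  have h1 : ∑ x : ZMod N, (maxZ (lift g) x.valMinAbs) ^ (3 / 2 : ℝ) ≤
      ∑' n, (maxZ (lift g) n) ^ (3 / 2 : ℝ) := by
    rw [← Finset.sum_image (f := fun n => (maxZ (lift g) n) ^ (3 / 2 : ℝ))
      (g := fun x : ZMod N => x.valMinAbs) (s := Finset.univ) hinj.injOn]
    exact ENNReal.sum_le_tsum _
  have h2 := maxZ_bound hp (lift g)
  have h3 := tsum_lift_rpow_le g hp0
  have h4 : ∑ x : ZMod N, (maxZ (lift g) x.valMinAbs) ^ (3 / 2 : ℝ) ≤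
      ENNReal.ofReal (cZ (3 / 2)) * (3 * ∑ s, ENNReal.ofReal (g s) ^ (3 / 2 : ℝ)) :=
    h1.trans (h2.trans (by gcongr))
  have hE : ∀ x : ZMod N, (maxZ (lift g) x.valMinAbs) ^ (3 / 2 : ℝ) =
      ENNReal.ofReal (Mc g x ^ (3 / 2 : ℝ)) := by
    intro x
    unfold Mc
    rw [← ENNReal.ofReal_rpow_of_nonneg ENNReal.toReal_nonneg hp0.le,
      ENNReal.ofReal_toReal (maxZ_lift_ne_top g _)]
  have hE2 : ∀ s : ZMod N, ENNReal.ofReal (g s) ^ (3 / 2 : ℝ) =
      ENNReal.ofReal (g s ^ (3 / 2 : ℝ)) := fun s =>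
    ENNReal.ofReal_rpow_of_nonneg (hg s) hp0.le
  simp only [hE, hE2] at h4
  rw [← ENNReal.ofReal_sum_of_nonneg (fun x _ => Real.rpow_nonneg (Mc_nonneg g x) _),
    ← ENNReal.ofReal_sum_of_nonneg (fun s _ => Real.rpow_nonneg (hg s) _)] at h4
  have hc : 0 ≤ cZ (3 / 2) := (cZ_pos (p := 3 / 2) (by norm_num)).le
  have hS : 0 ≤ ∑ x, g x ^ (3 / 2 : ℝ) :=
    Finset.sum_nonneg fun s _ => Real.rpow_nonneg (hg s) _
  have e3 : (3 : ℝ≥0∞) = ENNReal.ofReal 3 := by simp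
  rw [e3, ← ENNReal.ofReal_mul (by norm_num), ← ENNReal.ofReal_mul hc] at h4
  have := (ENNReal.ofReal_le_ofReal_iff (by positivity)).mp h4
  unfold KZ
  calc _ ≤ _ := this
    _ = _ := by ring

/-- Real Hoelder with three factors. -/
lemma holder3 {ι : Type*} (s : Finset ι) (a b c : ι → ℝ) (ha : ∀ i, 0 ≤ a i) (hb : ∀ i, 0 ≤ b i)
    (hc : ∀ i, 0 ≤ c i) :
    ∑ i ∈ s, a i * b i * c i ≤ (∑ i ∈ s, a i ^ 3) ^ ((1 : ℝ) / 3) *
      (∑ i ∈ s, b i ^ 3) ^ ((1 : ℝ) / 3) * (∑ i ∈ s, c i ^ 3) ^ ((1 : ℝ) / 3) := by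
  have hh1 : (3 / 2 : ℝ).HolderConjugate 3 := by
    refine ⟨?_, by norm_num, by norm_num⟩
    norm_num
  have hh2 : (2 : ℝ).HolderConjugate 2 := by
    refine ⟨?_, by norm_num, by norm_num⟩
    norm_num
  have hab : ∀ i, 0 ≤ a i * b i := fun i => mul_nonneg (ha i) (hb i)
  have h1 := Real.inner_le_Lp_mul_Lq_of_nonneg s hh1 (f := fun i => a i * b i) (g := c)
    (fun i _ => hab i) (fun i _ => hc i)
  have e1 : ∀ x : ℝ, 0 ≤ x → (x ^ (3 / 2 : ℝ)) ^ (2 : ℝ) = x ^ 3 := by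
    intro x hx
    rw [← Real.rpow_mul hx]
    norm_num
  have h2 := Real.inner_le_Lp_mul_Lq_of_nonneg s hh2
    (f := fun i => a i ^ (3 / 2 : ℝ)) (g := fun i => b i ^ (3 / 2 : ℝ))
    (fun i _ => Real.rpow_nonneg (ha i) _) (fun i _ => Real.rpow_nonneg (hb i) _)
  simp only [e1 _ (ha _), e1 _ (hb _)] at h2
  have hsq : ∑ i ∈ s, (a i * b i) ^ (3 / 2 : ℝ) ≤
      (∑ i ∈ s, a i ^ 3) ^ ((1 : ℝ) / 2) * (∑ i ∈ s, b i ^ 3) ^ ((1 : ℝ) / 2) := by
    calc _ = ∑ i ∈ s, a i ^ (3 / 2 : ℝ) * b i ^ (3 / 2 : ℝ) :=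
          Finset.sum_congr rfl fun i _ => Real.mul_rpow (ha i) (hb i)
      _ ≤ _ := h2
  have hA : 0 ≤ ∑ i ∈ s, a i ^ 3 := Finset.sum_nonneg fun i _ => pow_nonneg (ha i) _
  have hB : 0 ≤ ∑ i ∈ s, b i ^ 3 := Finset.sum_nonneg fun i _ => pow_nonneg (hb i) _
  have hC : 0 ≤ ∑ i ∈ s, c i ^ 3 := Finset.sum_nonneg fun i _ => pow_nonneg (hc i) _
  have hc' : ∀ i, c i ^ (3 : ℝ) = c i ^ 3 := fun i => by norm_num
  simp only [hc'] at h1
  calc ∑ i ∈ s, a i * b i * c i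
      ≤ (∑ i ∈ s, (a i * b i) ^ (3 / 2 : ℝ)) ^ ((1 : ℝ) / (3 / 2)) *
          (∑ i ∈ s, c i ^ 3) ^ ((1 : ℝ) / 3) := h1
    _ ≤ ((∑ i ∈ s, a i ^ 3) ^ ((1 : ℝ) / 2) * (∑ i ∈ s, b i ^ 3) ^ ((1 : ℝ) / 2)) ^
          ((1 : ℝ) / (3 / 2)) * (∑ i ∈ s, c i ^ 3) ^ ((1 : ℝ) / 3) := by
        gcongr
        exact Finset.sum_nonneg fun i _ => Real.rpow_nonneg (hab i) _
    _ = _ := by
        rw [Real.mul_rpow (by positivity) (by positivity), ← Real.rpow_mul hA, ← Real.rpow_mul hB]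
        norm_num

/-- The absolute constant of the domination bound. -/
noncomputable def CD : ℝ := KZ ^ ((1 : ℝ) / 3) * (2 * KZ) ^ ((1 : ℝ) / 3)

lemma CD_nonneg : 0 ≤ CD := by
  have := KZ_pos
  unfold CD
  positivity

lemma sq_rpow {a : ℝ} (ha : 0 ≤ a) : (a ^ 2) ^ (3 / 2 : ℝ) = a ^ 3 := by
  rw [← Real.rpow_natCast a 2, ← Real.rpow_mul ha]
  norm_num

lemma sqrt_cube {a : ℝ} (ha : 0 ≤ a) : (√a) ^ 3 = a ^ (3 / 2 : ℝ) := by
  rw [Real.sqrt_eq_rpow, ← Real.rpow_natCast, ← Real.rpow_mul ha]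
  norm_num

lemma add_rpow_le_two (a b : ℝ) (ha : 0 ≤ a) (hb : 0 ≤ b) :
    (a + b) ^ (3 / 2 : ℝ) ≤ 2 * (a ^ (3 / 2 : ℝ) + b ^ (3 / 2 : ℝ)) := by
  lift a to NNReal using ha
  lift b to NNReal using hb
  have h := NNReal.rpow_add_le_mul_rpow_add_rpow a b (p := 3 / 2) (by norm_num)
  have h2 := NNReal.coe_le_coe.mpr h
  simp only [NNReal.coe_rpow, NNReal.coe_add, NNReal.coe_mul, NNReal.coe_ofNat] at h2
  have h3 : (2 : ℝ) ^ ((3 / 2 : ℝ) - 1) ≤ 2 := by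
    calc (2 : ℝ) ^ ((3 / 2 : ℝ) - 1) ≤ 2 ^ (1 : ℝ) :=
          Real.rpow_le_rpow_of_exponent_le (by norm_num) (by norm_num)
      _ = 2 := by norm_num
  have h4 : (0 : ℝ) ≤ (a : ℝ) ^ (3 / 2 : ℝ) + (b : ℝ) ^ (3 / 2 : ℝ) := by positivity
  exact h2.trans (mul_le_mul_of_nonneg_right h3 h4)

/-- The fibre maximal bound: `S3r`-form. -/
lemma sum_sum_Mc_le {A B : Type*} [Fintype A] (F : A → ZMod N → ℝ) (hF : ∀ x y, 0 ≤ F x y) :
    ∑ x, ∑ y, Mc (fun y' => F x y' ^ 2) y ^ (3 / 2 : ℝ) ≤ KZ * ∑ x, ∑ y, |F x y| ^ 3 := by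
  rw [Finset.mul_sum]
  refine Finset.sum_le_sum fun x _ => ?_
  have := sum_Mc_rpow_le (g := fun y' => F x y' ^ 2) (fun s => sq_nonneg _)
  refine this.trans (le_of_eq ?_)
  congr 1
  refine Finset.sum_congr rfl fun y _ => ?_
  rw [sq_rpow (hF x y), abs_of_nonneg (hF x y)]

/-- **The domination bound** (L5). -/
theorem dom_sum_le (V W F : ZMod N → ZMod N → ℝ) (hV : ∀ x y, 0 ≤ V x y) (hW : ∀ x y, 0 ≤ W x y)
    (hF : ∀ x y, 0 ≤ F x y) :
    ∑ x, ∑ y, V x y * √(Mc (fun y' => W x y' ^ 2) y) *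
        √(Mc (fun x' => W x' y ^ 2) x + Mc (fun z => F y z ^ 2) (-x - y)) ≤
      CD * (S3r V) ^ ((1 : ℝ) / 3) * (S3r W) ^ ((1 : ℝ) / 3) *
        ((S3r W) ^ ((1 : ℝ) / 3) + (S3r F) ^ ((1 : ℝ) / 3)) := by
  classical
  have hK := KZ_pos
  set A : ZMod N × ZMod N → ℝ := fun p => Mc (fun y' => W p.1 y' ^ 2) p.2 with hA
  set B : ZMod N × ZMod N → ℝ := fun p => Mc (fun x' => W x' p.2 ^ 2) p.1 with hB
  set D : ZMod N × ZMod N → ℝ := fun p => Mc (fun z => F p.2 z ^ 2) (-p.1 - p.2) with hD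
  have hA0 : ∀ p, 0 ≤ A p := fun p => Mc_nonneg _ _
  have hB0 : ∀ p, 0 ≤ B p := fun p => Mc_nonneg _ _
  have hD0 : ∀ p, 0 ≤ D p := fun p => Mc_nonneg _ _
  have hS3V : 0 ≤ S3r V := Finset.sum_nonneg fun _ _ => Finset.sum_nonneg fun _ _ => by positivity
  have hS3W : 0 ≤ S3r W := Finset.sum_nonneg fun _ _ => Finset.sum_nonneg fun _ _ => by positivity
  have hS3F : 0 ≤ S3r F := Finset.sum_nonneg fun _ _ => Finset.sum_nonneg fun _ _ => by positivity
  -- Hoelder on the product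
  have hH := holder3 (Finset.univ : Finset (ZMod N × ZMod N)) (fun p => V p.1 p.2)
    (fun p => √(A p)) (fun p => √(B p + D p)) (fun p => hV _ _) (fun p => Real.sqrt_nonneg _)
    (fun p => Real.sqrt_nonneg _)
  rw [Fintype.sum_prod_type] at hH
  -- the three sums
  have hs1 : ∑ p : ZMod N × ZMod N, V p.1 p.2 ^ 3 = S3r V := by
    rw [Fintype.sum_prod_type]
    unfold S3r
    refine Finset.sum_congr rfl fun x _ => Finset.sum_congr rfl fun y _ => ?_
    rw [abs_of_nonneg (hV x y)]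
  have hs2 : ∑ p : ZMod N × ZMod N, (√(A p)) ^ 3 ≤ KZ * S3r W := by
    rw [Fintype.sum_prod_type]
    simp only [sqrt_cube (hA0 _)]
    exact sum_sum_Mc_le (A := ZMod N) (B := ZMod N) W hW
  have hs3a : ∑ p : ZMod N × ZMod N, B p ^ (3 / 2 : ℝ) ≤ KZ * S3r W := by
    rw [Fintype.sum_prod_type_right]
    have := sum_sum_Mc_le (A := ZMod N) (B := ZMod N) (fun y x => W x y) (fun y x => hW x y)
    refine this.trans (le_of_eq ?_)
    unfold S3r
    rw [Finset.sum_comm]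
  have hs3b : ∑ p : ZMod N × ZMod N, D p ^ (3 / 2 : ℝ) ≤ KZ * S3r F := by
    rw [Fintype.sum_prod_type_right]
    have h1 : ∀ y : ZMod N, ∑ x : ZMod N, Mc (fun z => F y z ^ 2) (-x - y) ^ (3 / 2 : ℝ) =
        ∑ z : ZMod N, Mc (fun z => F y z ^ 2) z ^ (3 / 2 : ℝ) := by
      intro y
      refine Fintype.sum_equiv
        ((Equiv.neg (ZMod N)).trans (Equiv.subRight y)) _ _ fun x => ?_
      simp
    simp only [hD, h1]
    exact sum_sum_Mc_le (A := ZMod N) (B := ZMod N) F hF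
  have hs3 : ∑ p : ZMod N × ZMod N, (√(B p + D p)) ^ 3 ≤ 2 * KZ * (S3r W + S3r F) := by
    have hpt : ∀ p, (√(B p + D p)) ^ 3 ≤ 2 * (B p ^ (3 / 2 : ℝ) + D p ^ (3 / 2 : ℝ)) := by
      intro p
      rw [sqrt_cube (add_nonneg (hB0 p) (hD0 p))]
      exact add_rpow_le_two _ _ (hB0 p) (hD0 p)
    calc _ ≤ ∑ p : ZMod N × ZMod N, 2 * (B p ^ (3 / 2 : ℝ) + D p ^ (3 / 2 : ℝ)) :=
          Finset.sum_le_sum fun p _ => hpt p
      _ = 2 * (∑ p : ZMod N × ZMod N, B p ^ (3 / 2 : ℝ) +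
            ∑ p : ZMod N × ZMod N, D p ^ (3 / 2 : ℝ)) := by
          rw [← Finset.mul_sum, Finset.sum_add_distrib]
      _ ≤ 2 * (KZ * S3r W + KZ * S3r F) := by gcongr
      _ = _ := by ring
  have hAB : 0 ≤ ∑ p : ZMod N × ZMod N, (√(B p + D p)) ^ 3 :=
    Finset.sum_nonneg fun p _ => by positivity
  have hAA : 0 ≤ ∑ p : ZMod N × ZMod N, (√(A p)) ^ 3 :=
    Finset.sum_nonneg fun p _ => by positivity
  have hthird : (0 : ℝ) ≤ 1 / 3 := by norm_num
  have hfin := hH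
  rw [hs1] at hfin
  calc ∑ x, ∑ y, V x y * √(Mc (fun y' => W x y' ^ 2) y) *
        √(Mc (fun x' => W x' y ^ 2) x + Mc (fun z => F y z ^ 2) (-x - y))
      ≤ (S3r V) ^ ((1 : ℝ) / 3) * (∑ p : ZMod N × ZMod N, (√(A p)) ^ 3) ^ ((1 : ℝ) / 3) *
        (∑ p : ZMod N × ZMod N, (√(B p + D p)) ^ 3) ^ ((1 : ℝ) / 3) := hfin
    _ ≤ (S3r V) ^ ((1 : ℝ) / 3) * (KZ * S3r W) ^ ((1 : ℝ) / 3) *
        (2 * KZ * (S3r W + S3r F)) ^ ((1 : ℝ) / 3) := by
        gcongr
    _ = CD * (S3r V) ^ ((1 : ℝ) / 3) * (S3r W) ^ ((1 : ℝ) / 3) *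
        (S3r W + S3r F) ^ ((1 : ℝ) / 3) := by
        unfold CD
        rw [Real.mul_rpow hK.le hS3W, Real.mul_rpow (by positivity) (by positivity)]
        ring
    _ ≤ _ := by
        have hCD := CD_nonneg
        gcongr
        exact Real.rpow_add_le_add_rpow hS3W hS3F hthird (by norm_num)

end Crest.Agent.TriRL.CycMax
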