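import Crest.Agent.TriH.Energy

/-!
# Jump bound for the energy `f = Tr (·)^{3/2}` (L5 of the real-line blueprint of S0096)

`f(A'ᴴA' + G) - f(AᴴA + G)` is bounded by a sum over matrix entries of `A' - A` against fibre
`ℓ²` norms only: no operator theory remains after this lemma.
-/

set_option linter.unusedSectionVars false

namespace Crest.Agent.TriRL.Jump

open Matrix Crest.Agent.TriH
open scoped ComplexOrder

variable {𝕜 : Type*} [RCLike 𝕜] {X Y Z : Type*} [Fintype X] [Fintype Y] [Fintype Z]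
  [DecidableEq X] [DecidableEq Y] [DecidableEq Z]

/-- first variation bound: `f(P'+G) - f(P+G) ≤ (3/2) Tr R (P'-P)`, `R = (P'+G)^{1/2}`. -/
lemma E32_sub_le {S T : Matrix Y Y 𝕜} (hS : S.PosSemidef) (hT : T.PosSemidef) :
    E32 S - E32 T ≤ (3 / 2) * rtr ((S - T) * rt S) := by
  have h := E32_ge hT (rt_psd hS)
  have e1 : rtr (rt S * rt S * rt S) = E32 S := rfl
  have e2 : rtr (S * rt S) = E32 S := by
    have : rtr (rt S * rt S * rt S) = E32 S := rfl
    rwa [rt_mul_self hS] at this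
  have e3 : rtr ((S - T) * rt S) = E32 S - rtr (T * rt S) := by
    rw [sub_mul, rtr_sub, e2]
  rw [e3]
  rw [e1] at h
  linarith

/-- Euclidean row norm -/
noncomputable def rowN (M : Matrix X Y 𝕜) (x : X) : ℝ := √(∑ y, ‖M x y‖ ^ 2)

/-- `|(M R)(x,y)| ≤ |row_x M| |col_y R|`. -/
lemma norm_mul_apply_le (M : Matrix X Y 𝕜) (R : Matrix Y Y 𝕜) (x : X) (y : Y) :
    ‖(M * R) x y‖ ≤ rowN M x * √(∑ y', ‖R y' y‖ ^ 2) := by
  rw [Matrix.mul_apply]
  calc ‖∑ y', M x y' * R y' y‖ ≤ ∑ y', ‖M x y'‖ * ‖R y' y‖ := by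
        refine (norm_sum_le _ _).trans (Finset.sum_le_sum fun y' _ => ?_)
        exact norm_mul_le _ _
    _ ≤ _ := by
        rw [rowN]
        exact Real.sum_mul_le_sqrt_mul_sqrt _ _ _

/-- column norm of a PSD root: `∑ |R y' y|² = X y y`. -/
lemma sum_norm_rt_col {S : Matrix Y Y 𝕜} (hS : S.PosSemidef) (y : Y) :
    ((∑ y', ‖rt S y' y‖ ^ 2 : ℝ) : 𝕜) = S y y := by
  have hR := rt_psd hS
  have h1 : S y y = (rt S * rt S) y y := by rw [rt_mul_self hS]
  rw [h1, Matrix.mul_apply]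
  push_cast
  apply Finset.sum_congr rfl
  intro y' _
  have : rt S y y' = star (rt S y' y) := by
    have := hR.1.apply y' y
    rw [← this]
    simp
  rw [this, RCLike.star_def, RCLike.conj_mul]

/-- The real diagonal entry. -/
lemma sum_norm_rt_col_re {S : Matrix Y Y 𝕜} (hS : S.PosSemidef) (y : Y) :
    ∑ y', ‖rt S y' y‖ ^ 2 = RCLike.re (S y y) := by
  have := sum_norm_rt_col hS y
  rw [← this]
  simp

/-- `Re Tr(R Mᴴ N) ≤ Σ |N x y| |(M R) x y|`. -/
lemma rtr_conj_mul_le (M N : Matrix X Y 𝕜) {R : Matrix Y Y 𝕜} (hR : R.IsHermitian) :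
    rtr (Mᴴ * N * R) ≤ ∑ x, ∑ y, ‖N x y‖ * ‖(M * R) x y‖ := by
  have h1 : trace (Mᴴ * N * R) = trace (N * (M * R)ᴴ) := by
    rw [conjTranspose_mul, hR.eq, Matrix.mul_assoc, Matrix.trace_mul_comm, Matrix.mul_assoc]
  rw [rtr, h1]
  simp only [Matrix.trace, Matrix.diag, Matrix.mul_apply, conjTranspose_apply, map_sum]
  refine Finset.sum_le_sum fun x _ => Finset.sum_le_sum fun y _ => ?_
  refine (RCLike.re_le_norm _).trans ?_
  rw [norm_mul, norm_star]

lemma rtr_conj_mul_le' (M N : Matrix X Y 𝕜) {R : Matrix Y Y 𝕜} (hR : R.IsHermitian) :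
    rtr (Nᴴ * M * R) ≤ ∑ x, ∑ y, ‖N x y‖ * ‖(M * R) x y‖ := by
  have h1 : trace (Nᴴ * M * R) = trace (M * R * Nᴴ) := by
    rw [Matrix.mul_assoc, Matrix.trace_mul_comm]
  rw [rtr, h1]
  simp only [Matrix.trace, Matrix.diag, Matrix.mul_apply, conjTranspose_apply, map_sum]
  refine Finset.sum_le_sum fun x _ => Finset.sum_le_sum fun y _ => ?_
  refine (RCLike.re_le_norm _).trans ?_
  rw [norm_mul, norm_star, mul_comm]

/-- **Jump lemma**, general form. `G` is any PSD matrix on the middle space. -/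
theorem jump_le (A A' : Matrix X Y 𝕜) {G : Matrix Y Y 𝕜} (hG : G.PosSemidef) :
    E32 (A'ᴴ * A' + G) - E32 (Aᴴ * A + G) ≤
      (3 / 2) * ∑ x, ∑ y, ‖(A' - A) x y‖ * (rowN A' x + rowN A x) *
        √(RCLike.re ((A'ᴴ * A' + G) y y)) := by
  set S := A'ᴴ * A' + G with hSdef
  set T := Aᴴ * A + G with hTdef
  have hS : S.PosSemidef := (posSemidef_conjTranspose_mul_self A').add hG
  have hT : T.PosSemidef := (posSemidef_conjTranspose_mul_self A).add hG
  have h0 := E32_sub_le hS hT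
  set R := rt S with hRdef
  have hR : R.PosSemidef := rt_psd hS
  have e : S - T = A'ᴴ * (A' - A) + (A' - A)ᴴ * A := by
    rw [hSdef, hTdef]
    simp only [conjTranspose_sub, Matrix.mul_sub, Matrix.sub_mul]
    abel
  have h1 : rtr ((S - T) * R) = rtr (A'ᴴ * (A' - A) * R) + rtr ((A' - A)ᴴ * A * R) := by
    rw [e, add_mul, rtr_add]
  have h2 := rtr_conj_mul_le A' (A' - A) hR.1
  have h3 := rtr_conj_mul_le' A (A' - A) hR.1
  have hcol : ∀ y, √(∑ y', ‖R y' y‖ ^ 2) = √(RCLike.re (S y y)) := by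
    intro y
    rw [sum_norm_rt_col_re hS y]
  have h4 : rtr ((S - T) * R) ≤ ∑ x, ∑ y, ‖(A' - A) x y‖ * (rowN A' x + rowN A x) *
        √(RCLike.re (S y y)) := by
    rw [h1]
    refine (add_le_add h2 h3).trans ?_
    rw [← Finset.sum_add_distrib]
    refine Finset.sum_le_sum fun x _ => ?_
    rw [← Finset.sum_add_distrib]
    refine Finset.sum_le_sum fun y _ => ?_
    have b1 := norm_mul_apply_le A' R x y
    have b2 := norm_mul_apply_le A R x y
    rw [hcol] at b1 b2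
    have hn : 0 ≤ ‖(A' - A) x y‖ := norm_nonneg _
    nlinarith [mul_le_mul_of_nonneg_left b1 hn, mul_le_mul_of_nonneg_left b2 hn]
  linarith

/-- Window matrix `diag(√v) M diag(√u)`. -/
noncomputable def win (v : X → ℝ) (M : Matrix X Y 𝕜) (u : Y → ℝ) : Matrix X Y 𝕜 :=
  Matrix.of fun x y => ((√(v x) * √(u y) : ℝ) : 𝕜) * M x y

omit [Fintype X] [Fintype Y] [DecidableEq X] [DecidableEq Y] in
@[simp] lemma win_apply (v : X → ℝ) (M : Matrix X Y 𝕜) (u : Y → ℝ) (x : X) (y : Y) :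
    win v M u x y = ((√(v x) * √(u y) : ℝ) : 𝕜) * M x y := rfl

omit [Fintype X] [Fintype Y] [DecidableEq X] [DecidableEq Y] in
lemma norm_win_sq {v : X → ℝ} {u : Y → ℝ} (hv : 0 ≤ v) (hu : 0 ≤ u) (M : Matrix X Y 𝕜)
    (x : X) (y : Y) : ‖win v M u x y‖ ^ 2 = v x * u y * ‖M x y‖ ^ 2 := by
  rw [win_apply, norm_mul, mul_pow, RCLike.norm_ofReal, sq_abs, mul_pow,
    Real.sq_sqrt (hv x), Real.sq_sqrt (hu y)]

omit [Fintype X] [Fintype Y] [DecidableEq X] [DecidableEq Y] in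
lemma norm_win {v : X → ℝ} {u : Y → ℝ} (hv : 0 ≤ v) (hu : 0 ≤ u) (M : Matrix X Y 𝕜)
    (x : X) (y : Y) : ‖win v M u x y‖ = √(v x) * √(u y) * ‖M x y‖ := by
  rw [win_apply, norm_mul, RCLike.norm_ofReal, abs_of_nonneg (by positivity)]

omit [Fintype Y] [DecidableEq X] [DecidableEq Y] [Fintype X] in
lemma win_sub (v : X → ℝ) (M N : Matrix X Y 𝕜) (u : Y → ℝ) :
    win v M u - win v N u = win v (M - N) u := by
  ext x y
  simp [mul_sub]

/-- Diagonal of `AᴴA`. -/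
lemma re_conj_mul_self_diag (A : Matrix X Y 𝕜) (y : Y) :
    RCLike.re ((Aᴴ * A) y y) = ∑ x, ‖A x y‖ ^ 2 := by
  rw [Matrix.mul_apply, map_sum]
  refine Finset.sum_congr rfl fun x _ => ?_
  rw [conjTranspose_apply, RCLike.star_def, RCLike.conj_mul]
  norm_cast

/-- Diagonal of `BBᴴ`. -/
lemma re_mul_conj_self_diag (B : Matrix Y Z 𝕜) (y : Y) :
    RCLike.re ((B * Bᴴ) y y) = ∑ z, ‖B y z‖ ^ 2 := by
  rw [Matrix.mul_apply, map_sum]
  refine Finset.sum_congr rfl fun z _ => ?_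
  rw [conjTranspose_apply, RCLike.star_def, RCLike.mul_conj]
  norm_cast

/-- **Jump lemma with windows and a general extra term**: `G` is PSD with diagonal controlled by
`u y * g y`; `X, X'` are dominated pointwise by `W`. -/
theorem jump_win_G {v : X → ℝ} {u : Y → ℝ} (hv : 0 ≤ v) (hu : 0 ≤ u)
    {M M' : Matrix X Y 𝕜} {W : X → Y → ℝ} (hM : ∀ x y, ‖M x y‖ ≤ W x y)
    (hM' : ∀ x y, ‖M' x y‖ ≤ W x y) {G : Matrix Y Y 𝕜} (hG : G.PosSemidef) {g : Y → ℝ}
    (hg : ∀ y, RCLike.re (G y y) ≤ u y * g y) :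
    E32 ((win v M' u)ᴴ * win v M' u + G) - E32 ((win v M u)ᴴ * win v M u + G) ≤
      3 * ∑ x, ∑ y, v x * u y * ‖(M' - M) x y‖ * √(∑ y', u y' * W x y' ^ 2) *
        √(∑ x', v x' * W x' y ^ 2 + g y) := by
  have hW : ∀ x y, 0 ≤ W x y := fun x y => (norm_nonneg _).trans (hM x y)
  have h0 := jump_le (win v M u) (win v M' u) hG
  have hrow : ∀ (N : Matrix X Y 𝕜), (∀ x y, ‖N x y‖ ≤ W x y) → ∀ x,
      rowN (win v N u) x ≤ √(v x) * √(∑ y', u y' * W x y' ^ 2) := by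
    intro N hN x
    rw [rowN, ← Real.sqrt_mul (hv x)]
    apply Real.sqrt_le_sqrt
    rw [Finset.mul_sum]
    refine Finset.sum_le_sum fun y _ => ?_
    rw [norm_win_sq hv hu]
    have h1 : ‖N x y‖ ^ 2 ≤ W x y ^ 2 := pow_le_pow_left₀ (norm_nonneg _) (hN x y) 2
    have h2 : 0 ≤ v x * u y := mul_nonneg (hv x) (hu y)
    nlinarith [mul_le_mul_of_nonneg_left h1 h2]
  have hcol : ∀ y, √(RCLike.re (((win v M' u)ᴴ * win v M' u + G) y y)) ≤
      √(u y) * √(∑ x', v x' * W x' y ^ 2 + g y) := by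
    intro y
    rw [← Real.sqrt_mul (hu y)]
    apply Real.sqrt_le_sqrt
    rw [Matrix.add_apply, map_add, re_conj_mul_self_diag, mul_add, Finset.mul_sum]
    refine add_le_add (Finset.sum_le_sum fun x _ => ?_) (hg y)
    rw [norm_win_sq hv hu]
    have h1 : ‖M' x y‖ ^ 2 ≤ W x y ^ 2 := pow_le_pow_left₀ (norm_nonneg _) (hM' x y) 2
    have h2 : 0 ≤ v x * u y := mul_nonneg (hv x) (hu y)
    nlinarith [mul_le_mul_of_nonneg_left h1 h2]
  refine h0.trans ?_
  rw [Finset.mul_sum, Finset.mul_sum]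
  refine Finset.sum_le_sum fun x _ => ?_
  rw [Finset.mul_sum, Finset.mul_sum]
  refine Finset.sum_le_sum fun y _ => ?_
  rw [win_sub, norm_win hv hu]
  set d := ‖(M' - M) x y‖ with hd
  set r := √(∑ y', u y' * W x y' ^ 2) with hr
  set c := √(∑ x', v x' * W x' y ^ 2 + g y) with hc
  have hd0 : 0 ≤ d := norm_nonneg _
  have hr0 : 0 ≤ r := Real.sqrt_nonneg _
  have hc0 : 0 ≤ c := Real.sqrt_nonneg _
  have hsv := Real.sqrt_nonneg (v x)
  have hsu := Real.sqrt_nonneg (u y)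
  have e1 := hrow M hM x
  have e2 := hrow M' hM' x
  have e3 := hcol y
  have hsum : rowN (win v M' u) x + rowN (win v M u) x ≤ 2 * (√(v x) * r) := by linarith
  have hsum0 : 0 ≤ rowN (win v M' u) x + rowN (win v M u) x :=
    add_nonneg (Real.sqrt_nonneg _) (Real.sqrt_nonneg _)
  have key : √(v x) * √(u y) * d * (rowN (win v M' u) x + rowN (win v M u) x) *
      √(RCLike.re (((win v M' u)ᴴ * win v M' u + G) y y)) ≤
      √(v x) * √(u y) * d * (2 * (√(v x) * r)) * (√(u y) * c) := by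
    apply mul_le_mul _ e3 (Real.sqrt_nonneg _) (by positivity)
    exact mul_le_mul_of_nonneg_left hsum (by positivity)
  have e4 : √(v x) * √(u y) * d * (2 * (√(v x) * r)) * (√(u y) * c) =
      2 * (v x * u y * d * r * c) := by
    have a1 := Real.mul_self_sqrt (hv x)
    have a2 := Real.mul_self_sqrt (hu y)
    calc _ = 2 * ((√(v x) * √(v x)) * (√(u y) * √(u y)) * d * r * c) := by ring
      _ = _ := by rw [a1, a2]
  rw [e4] at key
  linarith

/-- **Jump lemma, pair form**: `G = B Bᴴ` with `B = diag(√u) F diag(√v₁)`. -/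
theorem jump_win {v : X → ℝ} {u : Y → ℝ} {v₁ : Z → ℝ} (hv : 0 ≤ v) (hu : 0 ≤ u) (hv₁ : 0 ≤ v₁)
    {M M' : Matrix X Y 𝕜} {W : X → Y → ℝ} (hM : ∀ x y, ‖M x y‖ ≤ W x y)
    (hM' : ∀ x y, ‖M' x y‖ ≤ W x y) (F : Matrix Y Z 𝕜) :
    E32 ((win v M' u)ᴴ * win v M' u + win u F v₁ * (win u F v₁)ᴴ) -
      E32 ((win v M u)ᴴ * win v M u + win u F v₁ * (win u F v₁)ᴴ) ≤
      3 * ∑ x, ∑ y, v x * u y * ‖(M' - M) x y‖ * √(∑ y', u y' * W x y' ^ 2) *
        √(∑ x', v x' * W x' y ^ 2 + ∑ z, v₁ z * ‖F y z‖ ^ 2) := by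
  refine jump_win_G hv hu hM hM' (posSemidef_self_mul_conjTranspose _) (fun y => ?_)
  rw [re_mul_conj_self_diag, Finset.mul_sum]
  refine le_of_eq (Finset.sum_congr rfl fun z _ => ?_)
  rw [norm_win_sq hu hv₁]
  ring

/-- **Jump lemma, energy form** (no extra term). -/
theorem jump_win₀ {v : X → ℝ} {u : Y → ℝ} (hv : 0 ≤ v) (hu : 0 ≤ u)
    {M M' : Matrix X Y 𝕜} {W : X → Y → ℝ} (hM : ∀ x y, ‖M x y‖ ≤ W x y)
    (hM' : ∀ x y, ‖M' x y‖ ≤ W x y) :
    E32 ((win v M' u)ᴴ * win v M' u) - E32 ((win v M u)ᴴ * win v M u) ≤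
      3 * ∑ x, ∑ y, v x * u y * ‖(M' - M) x y‖ * √(∑ y', u y' * W x y' ^ 2) *
        √(∑ x', v x' * W x' y ^ 2) := by
  have := jump_win_G hv hu hM hM' (G := 0) PosSemidef.zero (g := 0) (fun y => by simp)
  simpa using this

end Crest.Agent.TriRL.Jump
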