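import Crest.Agent.TriH.SVD

/-!
# L4 [Local]: gain at the middle step and the local form (S0096, helper84's blueprint)

* `gain_test`: the off-diagonal test in `gap_main`, with arbitrary off-diagonal test `Z`, for any
  `T` with `T ≤ 4 diag(L², R²)`.
* `gain_pair`: `E32 T + 3 S ≤ avg E32 (T ± W)` when the off-diagonal block of `W` is `2 A D B` and
  `T ≤ 4 diag(AAᴴ, BᴴB)`.
* `gain_window`: the concrete window form for the column `C`.
* `local_form`: `|H_T| ≤ (8/3)(gain₀ + gain₁ + gain₂)`.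
-/

namespace Crest.Agent.TriRL.Local

set_option linter.unusedSectionVars false

open Matrix Crest.Agent.TriH
open scoped ComplexOrder

variable {𝕜 : Type*} [RCLike 𝕜] {p q r : Type*} [Fintype p] [Fintype q] [Fintype r]
  [DecidableEq p] [DecidableEq q] [DecidableEq r]

omit [DecidableEq p] [DecidableEq q] in
lemma tr_fromBlocks (A : Matrix p p 𝕜) (B : Matrix p q 𝕜)
    (C : Matrix q p 𝕜) (D : Matrix q q 𝕜) :
    trace (fromBlocks A B C D) = trace A + trace D := by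
  simp [trace, Fintype.sum_sum_type]

/-- Block-diagonal matrices with PSD blocks are PSD. -/
lemma psd_blockDiag {X : Matrix p p 𝕜} {Y : Matrix q q 𝕜}
    (hX : X.PosSemidef) (hY : Y.PosSemidef) :
    (fromBlocks X 0 0 Y).PosSemidef := by
  have h1 : (fromBlocks X 0 0 (0 : Matrix q q 𝕜)).PosSemidef := by
    have := hX.conjTranspose_mul_mul_same (fromCols (1 : Matrix p p 𝕜) (0 : Matrix p q 𝕜))
    convert this using 1
    ext (i | i) (j | j) <;>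
      simp [conjTranspose_fromCols_eq_fromRows_conjTranspose, fromRows_mul, mul_fromCols]
  have h2 : (fromBlocks (0 : Matrix p p 𝕜) 0 0 Y).PosSemidef := by
    have := hY.conjTranspose_mul_mul_same (fromCols (0 : Matrix q p 𝕜) (1 : Matrix q q 𝕜))
    convert this using 1
    ext (i | i) (j | j) <;>
      simp [conjTranspose_fromCols_eq_fromRows_conjTranspose, fromRows_mul, mul_fromCols]
  have := h1.add h2
  rwa [fromBlocks_add, add_zero, zero_add, add_zero, zero_add] at this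

/-- The off-diagonal test matrix. -/
noncomputable def offY (Z : Matrix p q 𝕜) : Matrix (p ⊕ q) (p ⊕ q) 𝕜 := fromBlocks 0 Z Zᴴ 0

omit [Fintype p] [Fintype q] [DecidableEq p] [DecidableEq q] in
lemma offY_herm (Z : Matrix p q 𝕜) : (offY Z).IsHermitian := by
  unfold offY IsHermitian
  rw [fromBlocks_conjTranspose]
  simp

omit [DecidableEq p] [DecidableEq q] in
lemma offY_mul_self (Z : Matrix p q 𝕜) :
    offY Z * offY Z = fromBlocks (Z * Zᴴ) 0 0 (Zᴴ * Z) := by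
  unfold offY
  rw [fromBlocks_multiply]
  simp

omit [DecidableEq p] [DecidableEq q] in
lemma rtr_mul_offY {W : Matrix (p ⊕ q) (p ⊕ q) 𝕜} (hW : W.IsHermitian) (Z : Matrix p q 𝕜) :
    rtr (W * offY Z) = 2 * rtr (W.toBlocks₁₂ * Zᴴ) := by
  have h21 : W.toBlocks₂₁ = (W.toBlocks₁₂)ᴴ := by
    ext i j
    simp only [toBlocks₂₁, toBlocks₁₂, of_apply, conjTranspose_apply]
    rw [← hW.apply (Sum.inr i) (Sum.inl j)]
  have e : W * offY Z = fromBlocks (W.toBlocks₁₂ * Zᴴ) (W.toBlocks₁₁ * Z)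
      (W.toBlocks₂₂ * Zᴴ) (W.toBlocks₂₁ * Z) := by
    conv_lhs => rw [← fromBlocks_toBlocks W]
    unfold offY
    rw [fromBlocks_multiply]
    simp
  rw [e]
  simp only [rtr, tr_fromBlocks, map_add]
  have : RCLike.re (trace (W.toBlocks₂₁ * Z)) = RCLike.re (trace (W.toBlocks₁₂ * Zᴴ)) := by
    rw [h21]
    have : (W.toBlocks₁₂)ᴴ * Z = (Zᴴ * W.toBlocks₁₂)ᴴ := by
      rw [conjTranspose_mul, conjTranspose_conjTranspose]
    rw [this, trace_conjTranspose, trace_mul_comm]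
    simp
  rw [this]
  ring

/-- The off-diagonal test in `gap_main`, for arbitrary `Z`. -/
theorem gain_test {T W : Matrix (p ⊕ q) (p ⊕ q) 𝕜} (hp : (T + W).PosSemidef)
    (hm : (T - W).PosSemidef) {L : Matrix p p 𝕜} {R : Matrix q q 𝕜} (hL : L.PosSemidef)
    (hR : R.PosSemidef)
    (hT : ((2 : ℝ) • (2 : ℝ) • fromBlocks (L * L) 0 0 (R * R) - T).PosSemidef)
    (Z : Matrix p q 𝕜) :
    E32 T + (3 / 4) * (4 * rtr (W.toBlocks₁₂ * Zᴴ) -
        4 * (rtr (L * (Z * Zᴴ)) + rtr (R * (Zᴴ * Z)))) ≤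
      (1 / 2) * (E32 (T + W) + E32 (T - W)) := by
  have hT0 : T.PosSemidef := psd_of_pm hp hm
  have hW0 : W.IsHermitian := herm_of_pm hp hm
  have hY := offY_herm Z
  have key := gap_main hp hm hY
  have hDD : (fromBlocks L 0 0 R).PosSemidef := psd_blockDiag hL hR
  have hDDsq : fromBlocks L 0 0 R * fromBlocks L 0 0 R = fromBlocks (L * L) 0 0 (R * R) := by
    rw [fromBlocks_multiply]; simp
  have hroot := rtr_root_le (Y := offY Z) (rt_psd hT0) hDD hY (by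
    rw [hDDsq, rt_mul_self hT0]; exact hT)
  have e1 := rtr_mul_offY hW0 Z
  have e2 : rtr (fromBlocks L 0 0 R * offY Z * offY Z) =
      rtr (L * (Z * Zᴴ)) + rtr (R * (Zᴴ * Z)) := by
    rw [Matrix.mul_assoc, offY_mul_self, fromBlocks_multiply]
    simp [rtr, tr_fromBlocks]
  rw [e2] at hroot
  rw [e1] at key
  nlinarith [key, hroot]

section Pair

variable (A : Matrix p r 𝕜) (B : Matrix r q 𝕜) (D : Matrix r r 𝕜)

/-- coefficient matrix of the optimal test in singular coordinates -/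
noncomputable def coefC : Matrix r q 𝕜 :=
  of fun k i => ((((svd A).s k * (svd B).s i / ((svd A).s k + (svd B).s i) : ℝ)) : 𝕜) *
    ((svd A).Vᴴ * D * (svd B).U) k i

/-- the optimal test -/
noncomputable def testZ : Matrix p q 𝕜 := (svd A).U * coefC A B D * (svd B).Vᴴ

omit [DecidableEq p] in
lemma UU_coefC : (svd A).Uᴴ * (svd A).U * coefC A B D = coefC A B D := by
  ext k i
  rw [(svd A).UU, diagonal_mul]
  simp only [coefC, of_apply]
  by_cases h : (svd A).s k = 0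
  · simp [h]
  · simp [h]

omit [DecidableEq p] in
lemma rtr_main : rtr ((A * D * B) * (testZ A B D)ᴴ) = pairS A B D := by
  set WA := svd A with hWA
  set WB := svd B with hWB
  set c := coefC A B D with hc
  set X := WA.Vᴴ * D * WB.U with hX
  have e1 : (A * D * B) * (testZ A B D)ᴴ =
      WA.U * (WA.sig * X * WB.sig * cᴴ) * WA.Uᴴ := by
    have a0 := WA.A_eq
    have a1 := WB.A_eq
    have v : WB.Vᴴ * WB.V = 1 := WB.VV
    unfold testZ
    rw [← hWA, ← hWB, ← hc]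
    rw [conjTranspose_mul, conjTranspose_mul, conjTranspose_conjTranspose]
    calc A * D * B * (WB.V * (cᴴ * WA.Uᴴ))
        = (WA.U * WA.sig * WA.Vᴴ) * D * (WB.U * WB.sig * WB.Vᴴ) * (WB.V * (cᴴ * WA.Uᴴ)) := by
          rw [← a0, ← a1]
      _ = WA.U * (WA.sig * X * WB.sig * (WB.Vᴴ * WB.V) * cᴴ) * WA.Uᴴ := by
          simp only [hX, Matrix.mul_assoc]
      _ = _ := by rw [v, Matrix.mul_one]
  rw [e1, rtr_rect, rtr_comm]
  have e2 : WA.Uᴴ * WA.U * (WA.sig * X * WB.sig * cᴴ) = WA.sig * X * WB.sig * cᴴ := by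
    simp only [← Matrix.mul_assoc]
    rw [WA.UU_sig]
  rw [e2]
  unfold pairS
  rw [← hWA, ← hWB]
  simp only [rtr, trace, diag_apply, map_sum]
  apply Finset.sum_congr rfl
  intro k _
  rw [mul_apply, map_sum]
  apply Finset.sum_congr rfl
  intro i _
  have e3 : (WA.sig * X * WB.sig) k i = ((WA.s k : ℝ) : 𝕜) * X k i * ((WB.s i : ℝ) : 𝕜) := by
    unfold WSVD.sig
    rw [mul_diagonal, diagonal_mul]
  rw [e3, conjTranspose_apply]
  have e4 : c k i = ((WA.s k * WB.s i / (WA.s k + WB.s i) : ℝ) : 𝕜) * X k i := rfl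
  rw [e4, star_mul', RCLike.star_def, RCLike.conj_ofReal]
  have e5 : X k i * star (X k i) = ((‖X k i‖ ^ 2 : ℝ) : 𝕜) := by
    rw [RCLike.star_def, RCLike.mul_conj]; push_cast; rfl
  have e6 : ((WA.s k : ℝ) : 𝕜) * X k i * ((WB.s i : ℝ) : 𝕜) *
      (((WA.s k * WB.s i / (WA.s k + WB.s i) : ℝ) : 𝕜) * (starRingEnd 𝕜) (X k i)) =
      ((WA.s k * WB.s i * (WA.s k * WB.s i / (WA.s k + WB.s i)) * ‖X k i‖ ^ 2 : ℝ) : 𝕜) := by
    rw [RCLike.star_def] at e5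
    push_cast at e5 ⊢
    rw [← e5]
    ring
  rw [e6, RCLike.ofReal_re]
  unfold phi
  ring

omit [DecidableEq p] in
lemma rtr_L : rtr ((svd A).rootL * (testZ A B D * (testZ A B D)ᴴ)) =
    ∑ k, ∑ i, (svd A).s k * ‖coefC A B D k i‖ ^ 2 := by
  set WA := svd A with hWA
  set WB := svd B with hWB
  set c := coefC A B D with hc
  have e1 : WA.rootL * (testZ A B D * (testZ A B D)ᴴ) = WA.U * (WA.sig * (c * cᴴ)) * WA.Uᴴ := by
    have v : WB.Vᴴ * WB.V = 1 := WB.VV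
    unfold testZ WSVD.rootL
    rw [← hWA, ← hWB, ← hc]
    rw [conjTranspose_mul, conjTranspose_mul, conjTranspose_conjTranspose]
    calc WA.U * WA.sig * WA.Uᴴ * (WA.U * c * WB.Vᴴ * (WB.V * (cᴴ * WA.Uᴴ)))
        = WA.U * ((WA.sig * (WA.Uᴴ * WA.U)) * c * (WB.Vᴴ * WB.V) * cᴴ) * WA.Uᴴ := by
          simp only [Matrix.mul_assoc]
      _ = _ := by
          rw [v, Matrix.mul_one, WA.sig_UU]
          simp only [Matrix.mul_assoc]
  rw [e1, rtr_rect, rtr_comm]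
  have e2 : WA.Uᴴ * WA.U * (WA.sig * (c * cᴴ)) = WA.sig * (c * cᴴ) := by
    simp only [← Matrix.mul_assoc]
    rw [WA.UU_sig]
  rw [e2]
  simp only [rtr, trace, diag_apply, map_sum]
  apply Finset.sum_congr rfl
  intro k _
  unfold WSVD.sig
  rw [diagonal_mul, mul_apply, RCLike.re_ofReal_mul, map_sum, Finset.mul_sum]
  apply Finset.sum_congr rfl
  intro i _
  rw [conjTranspose_apply, RCLike.star_def, RCLike.mul_conj]
  congr 1
  norm_cast

omit [DecidableEq p] in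
lemma rtr_R : rtr ((svd B).rootR * ((testZ A B D)ᴴ * testZ A B D)) =
    ∑ k, ∑ i, (svd B).s i * ‖coefC A B D k i‖ ^ 2 := by
  set WA := svd A with hWA
  set WB := svd B with hWB
  set c := coefC A B D with hc
  have hUc : WA.Uᴴ * WA.U * c = c := UU_coefC A B D
  have e1 : WB.rootR * ((testZ A B D)ᴴ * testZ A B D) = WB.V * (WB.sig * (cᴴ * c)) * WB.Vᴴ := by
    have v : WB.Vᴴ * WB.V = 1 := WB.VV
    unfold testZ WSVD.rootR
    rw [← hWA, ← hWB, ← hc]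
    rw [conjTranspose_mul, conjTranspose_mul, conjTranspose_conjTranspose]
    calc WB.V * WB.sig * WB.Vᴴ * (WB.V * (cᴴ * WA.Uᴴ) * (WA.U * c * WB.Vᴴ))
        = WB.V * (WB.sig * (WB.Vᴴ * WB.V) * (cᴴ * (WA.Uᴴ * WA.U * c))) * WB.Vᴴ := by
          simp only [Matrix.mul_assoc]
      _ = _ := by rw [v, Matrix.mul_one, hUc]
  rw [e1, rtr_rect, Matrix.mul_assoc, WB.VV, Matrix.mul_one]
  simp only [rtr, trace, diag_apply, map_sum]
  rw [Finset.sum_comm]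
  apply Finset.sum_congr rfl
  intro i _
  unfold WSVD.sig
  rw [diagonal_mul, mul_apply, RCLike.re_ofReal_mul, map_sum, Finset.mul_sum]
  apply Finset.sum_congr rfl
  intro k _
  rw [conjTranspose_apply, RCLike.star_def, RCLike.conj_mul]
  rw [show RCLike.re (((‖c k i‖ : 𝕜)) ^ 2) = ‖c k i‖ ^ 2 by norm_cast]

omit [DecidableEq p] in
lemma sum_LR : (∑ k, ∑ i, (svd A).s k * ‖coefC A B D k i‖ ^ 2) +
    ∑ k, ∑ i, (svd B).s i * ‖coefC A B D k i‖ ^ 2 = pairS A B D := by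
  unfold pairS
  rw [← Finset.sum_add_distrib]
  apply Finset.sum_congr rfl
  intro k _
  rw [← Finset.sum_add_distrib]
  apply Finset.sum_congr rfl
  intro i _
  have hs := (svd A).s_nonneg k
  have ht := (svd B).s_nonneg i
  set s := (svd A).s k with hs'
  set t := (svd B).s i with ht'
  set x := ((svd A).Vᴴ * D * (svd B).U) k i with hx
  have e : coefC A B D k i = ((s * t / (s + t) : ℝ) : 𝕜) * x := rfl
  rw [e, norm_mul, RCLike.norm_ofReal, abs_of_nonneg (by positivity)]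
  unfold phi
  by_cases h : s + t = 0
  · have h1 : s = 0 := by linarith
    have h2 : t = 0 := by linarith
    simp [h1, h2]
  · field_simp

/-- **Gain at the middle step**: if the off-diagonal block of `W` is `2 A D B` and
`T ≤ 4 diag(AAᴴ, BᴴB)`, then `E32 T + 3 S(A,B,D) ≤ avg E32 (T ± W)`. -/
theorem gain_pair {T W : Matrix (p ⊕ q) (p ⊕ q) 𝕜} (hp : (T + W).PosSemidef)
    (hm : (T - W).PosSemidef)
    (hT : ((2 : ℝ) • (2 : ℝ) • fromBlocks (A * Aᴴ) 0 0 (Bᴴ * B) - T).PosSemidef)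
    (hW : W.toBlocks₁₂ = (2 : 𝕜) • (A * D * B)) :
    E32 T + 3 * pairS A B D ≤ (1 / 2) * (E32 (T + W) + E32 (T - W)) := by
  have key := gain_test hp hm (svd A).rootL_psd (svd B).rootR_psd
    (by rw [(svd A).rootL_sq, (svd B).rootR_sq]; exact hT) (testZ A B D)
  rw [hW, rtr_L, rtr_R, sum_LR] at key
  have e : rtr ((2 : 𝕜) • (A * D * B) * (testZ A B D)ᴴ) = 2 * pairS A B D := by
    rw [Matrix.smul_mul, ← rtr_main A B D]
    simp only [rtr, trace_smul, smul_eq_mul]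
    have : ((2 : 𝕜)) = ((2 : ℝ) : 𝕜) := by norm_cast
    rw [this, RCLike.re_ofReal_mul]
  rw [e] at key
  linarith

end Pair

section Window

/-- real diagonal matrix -/
noncomputable def dg (𝕜 : Type*) [RCLike 𝕜] {ι : Type*} [DecidableEq ι] (v : ι → ℝ) : Matrix ι ι 𝕜 :=
  diagonal (fun i => ((v i : ℝ) : 𝕜))

/-- diagonal of square roots -/
noncomputable def sq (𝕜 : Type*) [RCLike 𝕜] {ι : Type*} [DecidableEq ι] (v : ι → ℝ) : Matrix ι ι 𝕜 :=
  dg 𝕜 (fun i => Real.sqrt (v i))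

section DG
variable {ι : Type*} [Fintype ι] [DecidableEq ι]

lemma dg_psd {v : ι → ℝ} (h : ∀ i, 0 ≤ v i) : (dg 𝕜 v : Matrix ι ι 𝕜).PosSemidef := by
  unfold dg
  rw [posSemidef_diagonal_iff]
  intro i
  exact_mod_cast (by simpa using h i : (0 : ℝ) ≤ v i)

lemma dg_conj (v : ι → ℝ) : (dg 𝕜 v : Matrix ι ι 𝕜)ᴴ = dg 𝕜 v := by
  unfold dg
  rw [diagonal_conjTranspose]
  congr 1
  ext i
  simp

lemma sq_conj (v : ι → ℝ) : (sq 𝕜 v : Matrix ι ι 𝕜)ᴴ = sq 𝕜 v := dg_conj _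

lemma dg_add (u v : ι → ℝ) : (dg 𝕜 (fun i => u i + v i) : Matrix ι ι 𝕜) = dg 𝕜 u + dg 𝕜 v := by
  unfold dg
  rw [diagonal_add]
  congr 1
  ext i
  push_cast
  rfl

lemma dg_sub (u v : ι → ℝ) : (dg 𝕜 (fun i => u i - v i) : Matrix ι ι 𝕜) = dg 𝕜 u - dg 𝕜 v := by
  unfold dg
  ext i j
  by_cases h : i = j
  · subst h; simp
  · simp [h]

lemma dg_mul (u v : ι → ℝ) : (dg 𝕜 u : Matrix ι ι 𝕜) * dg 𝕜 v = dg 𝕜 (fun i => u i * v i) := by
  unfold dg
  rw [diagonal_mul_diagonal]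
  congr 1
  ext i
  push_cast
  rfl

lemma dg_smul (c : ℝ) (u : ι → ℝ) : (dg 𝕜 (fun i => c * u i) : Matrix ι ι 𝕜) = c • dg 𝕜 u := by
  unfold dg
  ext i j
  by_cases h : i = j
  · subst h; simp
  · simp [h]

lemma sq_mul_sq {v : ι → ℝ} (h : ∀ i, 0 ≤ v i) : (sq 𝕜 v : Matrix ι ι 𝕜) * sq 𝕜 v = dg 𝕜 v := by
  unfold sq
  rw [dg_mul]
  congr 1
  ext i
  exact Real.mul_self_sqrt (h i)

/-- `√O · (h / (2 O)) · √O = h / 2` when `h` vanishes where `O` does. -/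
lemma sq_D_sq {O h : ι → ℝ} (hO : ∀ i, 0 ≤ O i) (hh : ∀ i, O i = 0 → h i = 0) :
    (sq 𝕜 O : Matrix ι ι 𝕜) * dg 𝕜 (fun i => h i / (2 * O i)) * sq 𝕜 O = dg 𝕜 (fun i => h i / 2) := by
  unfold sq
  rw [dg_mul, dg_mul]
  congr 1
  ext i
  by_cases h0 : O i = 0
  · simp [h0, hh i h0]
  · have : Real.sqrt (O i) * (h i / (2 * O i)) * Real.sqrt (O i) =
        (Real.sqrt (O i) * Real.sqrt (O i)) * (h i / (2 * O i)) := by ring
    rw [this, Real.mul_self_sqrt (hO i)]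
    field_simp

/-- diagonal contraction -/
lemma contr_dg {d : ι → ℝ} (hd : ∀ i, |d i| ≤ 1) :
    (1 - (dg 𝕜 d : Matrix ι ι 𝕜)ᴴ * dg 𝕜 d).PosSemidef := by
  rw [dg_conj, dg_mul]
  have : (1 : Matrix ι ι 𝕜) - dg 𝕜 (fun i => d i * d i) = dg 𝕜 (fun i => 1 - d i * d i) := by
    rw [dg_sub]
    congr 1
    unfold dg
    ext i j
    by_cases h : i = j
    · subst h; simp
    · simp [h]
  rw [this]
  apply dg_psd
  intro i
  have := abs_le.mp (hd i)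
  nlinarith [this.1, this.2]

end DG

/-- the column `[√v_p F ; √v_q Gᴴ]` -/
noncomputable def colC (F : Matrix p r 𝕜) (G : Matrix r q 𝕜) (vp : p → ℝ) (vq : q → ℝ) :
    Matrix (p ⊕ q) r 𝕜 :=
  fromRows (sq 𝕜 vp * F) (sq 𝕜 vq * Gᴴ)

/-- `M(u) = C diag(u) Cᴴ` -/
noncomputable def colM (F : Matrix p r 𝕜) (G : Matrix r q 𝕜) (vp : p → ℝ) (vq : q → ℝ)
    (u : r → ℝ) : Matrix (p ⊕ q) (p ⊕ q) 𝕜 :=
  colC F G vp vq * dg 𝕜 u * (colC F G vp vq)ᴴ

variable (F : Matrix p r 𝕜) (G : Matrix r q 𝕜) (vp : p → ℝ) (vq : q → ℝ)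

lemma colM_psd {u : r → ℝ} (hu : ∀ x, 0 ≤ u x) : (colM F G vp vq u).PosSemidef :=
  (dg_psd hu).mul_mul_conjTranspose_same _

lemma colM_add (u v : r → ℝ) :
    colM F G vp vq (fun x => u x + v x) = colM F G vp vq u + colM F G vp vq v := by
  unfold colM
  rw [dg_add, Matrix.mul_add, Matrix.add_mul]

lemma colM_sub (u v : r → ℝ) :
    colM F G vp vq (fun x => u x - v x) = colM F G vp vq u - colM F G vp vq v := by
  unfold colM
  rw [dg_sub, Matrix.mul_sub, Matrix.sub_mul]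

lemma colM_blocks (u : r → ℝ) :
    colM F G vp vq u = fromBlocks
      ((sq 𝕜 vp * F) * dg 𝕜 u * (sq 𝕜 vp * F)ᴴ) ((sq 𝕜 vp * F) * dg 𝕜 u * (sq 𝕜 vq * Gᴴ)ᴴ)
      ((sq 𝕜 vq * Gᴴ) * dg 𝕜 u * (sq 𝕜 vp * F)ᴴ) ((sq 𝕜 vq * Gᴴ) * dg 𝕜 u * (sq 𝕜 vq * Gᴴ)ᴴ) := by
  unfold colM colC
  rw [fromRows_mul, conjTranspose_fromRows_eq_fromCols_conjTranspose, fromRows_mul_fromCols]

/-- The gain `avg E32 M(u±) - E32 M((u₊+u₋)/2)`. -/
noncomputable def gainW (up um : r → ℝ) : ℝ :=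
  (1 / 2) * (E32 (colM F G vp vq up) + E32 (colM F G vp vq um)) -
    E32 (colM F G vp vq (fun x => (up x + um x) / 2))

/-- **Concrete window form of the gain.** -/
theorem gain_window {O up um : r → ℝ} (hO : ∀ x, 0 ≤ O x) (hup : ∀ x, 0 ≤ up x)
    (hum : ∀ x, 0 ≤ um x) (hU : ∀ x, (up x + um x) / 2 ≤ 2 * O x) :
    3 * pairS (sq 𝕜 vp * F * sq 𝕜 O) (sq 𝕜 O * G * sq 𝕜 vq)
        (dg 𝕜 (fun x => ((up x - um x) / 2) / (2 * O x))) ≤ gainW F G vp vq up um := by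
  set U : r → ℝ := fun x => (up x + um x) / 2 with hUdef
  set h : r → ℝ := fun x => (up x - um x) / 2 with hhdef
  have hUnn : ∀ x, 0 ≤ U x := fun x => by simp only [hUdef]; linarith [hup x, hum x]
  have hUh : (fun x => U x + h x) = up := by
    ext x; simp only [hUdef, hhdef]; ring
  have hUmh : (fun x => U x - h x) = um := by
    ext x; simp only [hUdef, hhdef]; ring
  have hh0 : ∀ x, O x = 0 → h x = 0 := by
    intro x hx
    have h1 := hU x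
    rw [hx] at h1
    have h2 := hup x
    have h3 := hum x
    simp only [hhdef]
    have : up x = 0 := by linarith
    have : um x = 0 := by linarith
    simp [*]
  set C1 : Matrix p r 𝕜 := sq 𝕜 vp * F with hC1
  set C2 : Matrix q r 𝕜 := sq 𝕜 vq * Gᴴ with hC2
  have hA : sq 𝕜 vp * F * sq 𝕜 O = C1 * sq 𝕜 O := rfl
  have hAA : (C1 * sq 𝕜 O) * (C1 * sq 𝕜 O)ᴴ = C1 * dg 𝕜 O * C1ᴴ := by
    rw [conjTranspose_mul, sq_conj, ← sq_mul_sq hO]
    simp only [Matrix.mul_assoc]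
  have hBc : (sq 𝕜 O * G * sq 𝕜 vq)ᴴ = C2 * sq 𝕜 O := by
    rw [conjTranspose_mul, conjTranspose_mul, sq_conj, sq_conj, hC2, Matrix.mul_assoc]
  have hB2 : sq 𝕜 O * G * sq 𝕜 vq = sq 𝕜 O * C2ᴴ := by
    rw [hC2, conjTranspose_mul, conjTranspose_conjTranspose, sq_conj, Matrix.mul_assoc]
  have hBB : (sq 𝕜 O * G * sq 𝕜 vq)ᴴ * (sq 𝕜 O * G * sq 𝕜 vq) = C2 * dg 𝕜 O * C2ᴴ := by
    rw [hBc, hB2, ← sq_mul_sq hO]
    simp only [Matrix.mul_assoc]
  have hp : (colM F G vp vq U + colM F G vp vq h).PosSemidef := by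
    rw [← colM_add, hUh]; exact colM_psd F G vp vq hup
  have hm : (colM F G vp vq U - colM F G vp vq h).PosSemidef := by
    rw [← colM_sub, hUmh]; exact colM_psd F G vp vq hum
  have hW : (colM F G vp vq h).toBlocks₁₂ = (2 : 𝕜) •
      ((sq 𝕜 vp * F * sq 𝕜 O) * dg 𝕜 (fun x => h x / (2 * O x)) * (sq 𝕜 O * G * sq 𝕜 vq)) := by
    rw [colM_blocks, toBlocks_fromBlocks₁₂, hB2, hA]
    have e : C1 * sq 𝕜 O * dg 𝕜 (fun x => h x / (2 * O x)) * (sq 𝕜 O * C2ᴴ) =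
        C1 * (sq 𝕜 O * dg 𝕜 (fun x => h x / (2 * O x)) * sq 𝕜 O) * C2ᴴ := by
      simp only [Matrix.mul_assoc]
    rw [e, sq_D_sq hO hh0]
    have e2 : (dg 𝕜 h : Matrix r r 𝕜) = (2 : 𝕜) • dg 𝕜 (fun x => h x / 2) := by
      unfold dg
      ext i j
      by_cases hij : i = j
      · subst hij
        simp only [diagonal_apply_eq, Matrix.smul_apply, smul_eq_mul]
        push_cast
        field_simp
      · simp [hij]
    rw [e2, Matrix.mul_smul, Matrix.smul_mul]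
  have hT : ((2 : ℝ) • (2 : ℝ) • fromBlocks ((sq 𝕜 vp * F * sq 𝕜 O) * (sq 𝕜 vp * F * sq 𝕜 O)ᴴ) 0 0
      ((sq 𝕜 O * G * sq 𝕜 vq)ᴴ * (sq 𝕜 O * G * sq 𝕜 vq)) - colM F G vp vq U).PosSemidef := by
    rw [hA, hAA, hBB, colM_blocks]
    set T11 := C1 * dg 𝕜 U * C1ᴴ with hT11
    set T12 := C1 * dg 𝕜 U * C2ᴴ with hT12
    set T21 := C2 * dg 𝕜 U * C1ᴴ with hT21
    set T22 := C2 * dg 𝕜 U * C2ᴴ with hT22
    have hE : ∀ x, 0 ≤ 2 * O x - U x := fun x => by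
      simp only [hUdef]; linarith [hU x]
    have hdE : (dg 𝕜 (fun x => 2 * O x - U x) : Matrix r r 𝕜) = (2 : ℝ) • dg 𝕜 O - dg 𝕜 U := by
      rw [dg_sub, dg_smul]
    have b1 : (C1 * dg 𝕜 (fun x => 2 * O x - U x) * C1ᴴ).PosSemidef :=
      (dg_psd hE).mul_mul_conjTranspose_same _
    have b2 : (C2 * dg 𝕜 (fun x => 2 * O x - U x) * C2ᴴ).PosSemidef :=
      (dg_psd hE).mul_mul_conjTranspose_same _
    have b3 : ((fromRows C1 (-C2)) * dg 𝕜 U * (fromRows C1 (-C2))ᴴ).PosSemidef :=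
      (dg_psd hUnn).mul_mul_conjTranspose_same _
    have b3' : (fromRows C1 (-C2)) * dg 𝕜 U * (fromRows C1 (-C2))ᴴ =
        fromBlocks T11 (-T12) (-T21) T22 := by
      rw [fromRows_mul, conjTranspose_fromRows_eq_fromCols_conjTranspose, fromRows_mul_fromCols,
        conjTranspose_neg]
      simp [hT11, hT12, hT21, hT22, Matrix.mul_neg, Matrix.neg_mul]
    have b4 := ((psd_blockDiag b1 b2).smul (show (0 : ℝ) ≤ 2 by norm_num)).add b3
    convert b4 using 1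
    rw [b3', hdE]
    simp only [Matrix.mul_sub, Matrix.sub_mul, Matrix.mul_smul, Matrix.smul_mul, ← hT11, ← hT22]
    ext (i | i) (j | j) <;>
      simp only [Matrix.sub_apply, Matrix.add_apply, Matrix.smul_apply, fromBlocks_apply₁₁,
        fromBlocks_apply₁₂, fromBlocks_apply₂₁, fromBlocks_apply₂₂, Matrix.zero_apply,
        Matrix.neg_apply] <;> module
  have key := gain_pair (sq 𝕜 vp * F * sq 𝕜 O) (sq 𝕜 O * G * sq 𝕜 vq)
    (dg 𝕜 (fun x => h x / (2 * O x))) hp hm hT hW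
  rw [← colM_add, ← colM_sub, hUh, hUmh] at key
  unfold gainW
  linarith

/-- The gain is nonnegative (Jensen). -/
lemma gainW_nonneg {up um : r → ℝ} (hup : ∀ x, 0 ≤ up x) (hum : ∀ x, 0 ≤ um x) :
    0 ≤ gainW F G vp vq up um := by
  have hp : (colM F G vp vq (fun x => (up x + um x) / 2) +
      colM F G vp vq (fun x => (up x - um x) / 2)).PosSemidef := by
    rw [← colM_add]
    have : (fun x => (up x + um x) / 2 + (up x - um x) / 2) = up := by ext x; ring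
    rw [this]; exact colM_psd F G vp vq hup
  have hm : (colM F G vp vq (fun x => (up x + um x) / 2) -
      colM F G vp vq (fun x => (up x - um x) / 2)).PosSemidef := by
    rw [← colM_sub]
    have : (fun x => (up x + um x) / 2 - (up x - um x) / 2) = um := by ext x; ring
    rw [this]; exact colM_psd F G vp vq hum
  have key := E32_jensen hp hm
  rw [← colM_add, ← colM_sub] at key
  have e1 : (fun x => (up x + um x) / 2 + (up x - um x) / 2) = up := by ext x; ring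
  have e2 : (fun x => (up x + um x) / 2 - (up x - um x) / 2) = um := by ext x; ring
  rw [e1, e2] at key
  unfold gainW
  linarith

/-- `f(M(u)) = f(G + P)`: the column form and the sum form of the energy agree. -/
theorem E32_colM {u : r → ℝ} (hu : ∀ x, 0 ≤ u x) (hvp : ∀ x, 0 ≤ vp x) (hvq : ∀ x, 0 ≤ vq x) :
    E32 (colM F G vp vq u) =
      E32 (sq 𝕜 u * (Fᴴ * dg 𝕜 vp * F + G * dg 𝕜 vq * Gᴴ) * sq 𝕜 u) := by
  set N := colC F G vp vq * sq 𝕜 u with hN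
  have e1 : N * Nᴴ = colM F G vp vq u := by
    rw [hN, conjTranspose_mul, sq_conj]
    unfold colM
    rw [← sq_mul_sq hu]
    simp only [Matrix.mul_assoc]
  have e2 : (colC F G vp vq)ᴴ * colC F G vp vq = Fᴴ * dg 𝕜 vp * F + G * dg 𝕜 vq * Gᴴ := by
    unfold colC
    rw [conjTranspose_fromRows_eq_fromCols_conjTranspose, fromCols_mul_fromRows,
      conjTranspose_mul, conjTranspose_mul, conjTranspose_conjTranspose, sq_conj, sq_conj,
      ← sq_mul_sq hvp, ← sq_mul_sq hvq]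
    simp only [Matrix.mul_assoc]
  have e3 : Nᴴ * N = sq 𝕜 u * (Fᴴ * dg 𝕜 vp * F + G * dg 𝕜 vq * Gᴴ) * sq 𝕜 u := by
    rw [← e2, hN, conjTranspose_mul, sq_conj]
    simp only [Matrix.mul_assoc]
  rw [← e1, ← e3]
  exact (E32_conj_comm N).symm

end Window

section LocalForm

variable {X0 X1 X2 : Type*} [Fintype X0] [Fintype X1] [Fintype X2]
  [DecidableEq X0] [DecidableEq X1] [DecidableEq X2]

lemma twist_contr {O up um : r → ℝ} (hO : ∀ x, 0 ≤ O x) (hup : ∀ x, 0 ≤ up x)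
    (hum : ∀ x, 0 ≤ um x) (hU : ∀ x, (up x + um x) / 2 ≤ 2 * O x) (x : r) :
    |((up x - um x) / 2) / (2 * O x)| ≤ 1 := by
  by_cases h0 : O x = 0
  · simp [h0]
  · have hpos : 0 < 2 * O x := by
      have := lt_of_le_of_ne (hO x) (Ne.symm h0)
      linarith
    rw [abs_div, abs_of_pos hpos, div_le_one hpos, abs_le]
    constructor <;> linarith [hU x, hup x, hum x]

lemma twist_zero {O up um : r → ℝ} (hup : ∀ x, 0 ≤ up x) (hum : ∀ x, 0 ≤ um x)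
    (hU : ∀ x, (up x + um x) / 2 ≤ 2 * O x) (x : r) (h0 : O x = 0) :
    (up x - um x) / 2 = 0 := by
  have h1 := hU x
  rw [h0] at h1
  have h2 := hup x
  have h3 := hum x
  have : up x = 0 := by linarith
  have : um x = 0 := by linarith
  simp [*]

/-- The local form as a trace. -/
theorem trace_H (F0 : Matrix X0 X1 𝕜) (F1 : Matrix X1 X2 𝕜) (F2 : Matrix X2 X0 𝕜)
    {Oa : X0 → ℝ} {Ob : X1 → ℝ} {Oc : X2 → ℝ} {ha : X0 → ℝ} {hb : X1 → ℝ} {hc : X2 → ℝ}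
    (hOa : ∀ x, 0 ≤ Oa x) (hOb : ∀ x, 0 ≤ Ob x) (hOc : ∀ x, 0 ≤ Oc x)
    (h0a : ∀ x, Oa x = 0 → ha x = 0) (h0b : ∀ x, Ob x = 0 → hb x = 0)
    (h0c : ∀ x, Oc x = 0 → hc x = 0) :
    (∑ x0, ∑ x1, ∑ x2, ((ha x0 * hb x1 * hc x2 : ℝ) : 𝕜) * F0 x0 x1 * F1 x1 x2 * F2 x2 x0) =
      8 * trace ((sq 𝕜 Oa * F0 * sq 𝕜 Ob) * dg 𝕜 (fun x => hb x / (2 * Ob x)) *
        (sq 𝕜 Ob * F1 * sq 𝕜 Oc) * dg 𝕜 (fun x => hc x / (2 * Oc x)) *
        (sq 𝕜 Oc * F2 * sq 𝕜 Oa) * dg 𝕜 (fun x => ha x / (2 * Oa x))) := by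
  set Da : Matrix X0 X0 𝕜 := dg 𝕜 (fun x => ha x / (2 * Oa x)) with hDa
  set Db : Matrix X1 X1 𝕜 := dg 𝕜 (fun x => hb x / (2 * Ob x)) with hDb
  set Dc : Matrix X2 X2 𝕜 := dg 𝕜 (fun x => hc x / (2 * Oc x)) with hDc
  have ea : sq 𝕜 Oa * Da * sq 𝕜 Oa = dg 𝕜 (fun x => ha x / 2) := sq_D_sq hOa h0a
  have eb : sq 𝕜 Ob * Db * sq 𝕜 Ob = dg 𝕜 (fun x => hb x / 2) := sq_D_sq hOb h0b
  have ec : sq 𝕜 Oc * Dc * sq 𝕜 Oc = dg 𝕜 (fun x => hc x / 2) := sq_D_sq hOc h0c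
  have e1 : (sq 𝕜 Oa * F0 * sq 𝕜 Ob) * Db * (sq 𝕜 Ob * F1 * sq 𝕜 Oc) * Dc *
      (sq 𝕜 Oc * F2 * sq 𝕜 Oa) * Da =
      sq 𝕜 Oa * (F0 * (sq 𝕜 Ob * Db * sq 𝕜 Ob) * F1 * (sq 𝕜 Oc * Dc * sq 𝕜 Oc) * F2 *
        (sq 𝕜 Oa * Da)) := by
    simp only [Matrix.mul_assoc]
  rw [e1, trace_mul_comm, eb, ec]
  have e2 : F0 * dg 𝕜 (fun x => hb x / 2) * F1 * dg 𝕜 (fun x => hc x / 2) * F2 *
      (sq 𝕜 Oa * Da) * sq 𝕜 Oa =
      F0 * dg 𝕜 (fun x => hb x / 2) * F1 * dg 𝕜 (fun x => hc x / 2) * F2 *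
      (sq 𝕜 Oa * Da * sq 𝕜 Oa) := by
    simp only [Matrix.mul_assoc]
  rw [e2, ea, trace_mul_comm]
  have e3 : dg 𝕜 (fun x => ha x / 2) * (F0 * dg 𝕜 (fun x => hb x / 2) * F1 *
      dg 𝕜 (fun x => hc x / 2) * F2) =
      dg 𝕜 (fun x => ha x / 2) * F0 * dg 𝕜 (fun x => hb x / 2) * F1 *
      dg 𝕜 (fun x => hc x / 2) * F2 := by
    simp only [Matrix.mul_assoc]
  rw [e3]
  have e4 := trace_six (𝕜 := 𝕜) (fun x => ha x / 2) (fun x => hb x / 2) (fun x => hc x / 2)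
    F0 F1 F2
  unfold dg
  rw [e4]
  simp only [Finset.mul_sum]
  refine Finset.sum_congr rfl fun x0 _ => Finset.sum_congr rfl fun x1 _ =>
    Finset.sum_congr rfl fun x2 _ => ?_
  push_cast
  ring

/-- **L4 [Local]**: `|H_T| ≤ (8/3)(gain₀ + gain₁ + gain₂)`. -/
theorem local_form (F0 : Matrix X0 X1 𝕜) (F1 : Matrix X1 X2 𝕜) (F2 : Matrix X2 X0 𝕜)
    {Oa : X0 → ℝ} {Ob : X1 → ℝ} {Oc : X2 → ℝ}
    {ap am : X0 → ℝ} {bp bm : X1 → ℝ} {cp cm : X2 → ℝ}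
    (hOa : ∀ x, 0 ≤ Oa x) (hOb : ∀ x, 0 ≤ Ob x) (hOc : ∀ x, 0 ≤ Oc x)
    (hap : ∀ x, 0 ≤ ap x) (ham : ∀ x, 0 ≤ am x)
    (hbp : ∀ x, 0 ≤ bp x) (hbm : ∀ x, 0 ≤ bm x)
    (hcp : ∀ x, 0 ≤ cp x) (hcm : ∀ x, 0 ≤ cm x)
    (hUa : ∀ x, (ap x + am x) / 2 ≤ 2 * Oa x)
    (hUb : ∀ x, (bp x + bm x) / 2 ≤ 2 * Ob x)
    (hUc : ∀ x, (cp x + cm x) / 2 ≤ 2 * Oc x) :
    ‖∑ x0, ∑ x1, ∑ x2,
      ((((ap x0 - am x0) / 2) * ((bp x1 - bm x1) / 2) * ((cp x2 - cm x2) / 2) : ℝ) : 𝕜) *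
        F0 x0 x1 * F1 x1 x2 * F2 x2 x0‖ ≤
      (8 / 3) * (gainW F2 F0 Oc Ob ap am + gainW F0 F1 Oa Oc bp bm + gainW F1 F2 Ob Oa cp cm) := by
  rw [trace_H F0 F1 F2 (ha := fun x => (ap x - am x) / 2) (hb := fun x => (bp x - bm x) / 2)
    (hc := fun x => (cp x - cm x) / 2) hOa hOb hOc (twist_zero hap ham hUa)
    (twist_zero hbp hbm hUb) (twist_zero hcp hcm hUc)]
  have hLA := lemmaA_matrix (𝕜 := 𝕜) (sq 𝕜 Oa * F0 * sq 𝕜 Ob) (sq 𝕜 Ob * F1 * sq 𝕜 Oc)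
    (sq 𝕜 Oc * F2 * sq 𝕜 Oa)
    (dg 𝕜 (fun x => ((ap x - am x) / 2) / (2 * Oa x)))
    (dg 𝕜 (fun x => ((bp x - bm x) / 2) / (2 * Ob x)))
    (dg 𝕜 (fun x => ((cp x - cm x) / 2) / (2 * Oc x)))
    (contr_dg (twist_contr hOa hap ham hUa)) (contr_dg (twist_contr hOb hbp hbm hUb))
    (contr_dg (twist_contr hOc hcp hcm hUc))
  have g0 := gain_window F2 F0 Oc Ob hOa hap ham hUa
  have g1 := gain_window F0 F1 Oa Oc hOb hbp hbm hUb
  have g2 := gain_window F1 F2 Ob Oa hOc hcp hcm hUc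
  rw [norm_mul]
  have h8 : ‖(8 : 𝕜)‖ = 8 := by simp
  rw [h8]
  linarith

end LocalForm

end Crest.Agent.TriRL.Local
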