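/-
S0096, helper84's blueprint L5 (helper21): the one level inequalities behind `T_B`, on a finite abelian
group `Γ`, for windows `U`, `O`:
* `pair_gain_eq`: the gain of `PlaneStep` is `Local.gainW`;
* `Qt`, `Gt`: the Bellman function and the gains of the three pairs, `Qt_step`;
* `form_le_Gt`: the form with kernel `h * h * h` is at most `(8/3) Gt`;
* `Q_le`: `Q ≤ (√2 + 6)(S3 A + S3 B)`;
* `Q_swap`: `Q[F, X] = Q[Xᴴ, Fᴴ]`;
* `Q_jump`: the first variation of `Q[A, B]` in `A` in terms of windows.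
-/
import Crest.Agent.TriRL.Windows
import Crest.Agent.TriRL.Local
import Crest.Agent.TriRL.Jump
import Crest.Agent.TriRL.Bound
import Crest.Agent.TriRL.Defs

set_option autoImplicit false
set_option linter.unusedSectionVars false

namespace Crest.Agent.TriRL.TBLevel

open Matrix Crest.Agent.TriH Crest.Agent.TriRL.PlaneStep Crest.Agent.TriRL.Windows
open scoped ComplexOrder

variable {Γ : Type*} [AddCommGroup Γ] [Fintype Γ] [DecidableEq Γ]

abbrev Mt (Γ : Type*) := Matrix Γ Γ ℂ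

lemma MM_eq_colM (A B : Mt Γ) (u v₁ v₂ : Γ → ℝ) :
    MM A B u v₁ v₂ = Local.colM A B v₂ v₁ u := rfl

lemma pd_G (A B : Mt Γ) : (pairData A B : Data Γ _ _).G = GG B := rfl
lemma pd_P (A B : Mt Γ) : (pairData A B : Data Γ _ _).P = PP A := rfl
lemma pd_M (A B : Mt Γ) : (pairData A B : Data Γ _ _).M = MM A B := rfl
lemma pd_f (A B : Mt Γ) : (pairData A B : Data Γ _ _).f = E32 := rfl
lemma pd_fY (A B : Mt Γ) : (pairData A B : Data Γ _ _).fY = E32 := rfl

/-- the gain of `PlaneStep` is `Local.gainW`. -/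
lemma pair_gain_eq (A B : Mt Γ) (U O : Γ → ℝ) (d a b : Γ) :
    (pairData A B : Data Γ _ _).gain U O d a b =
      Local.gainW A B (tr (-a - b) O) (tr b O) (tr (a + d) U) (tr (a - d) U) := by
  simp only [Data.gain, Local.gainW, pd_M, pd_fY, MM_eq_colM]
  have e : tr a (avg d U) = fun x => (tr (a + d) U x + tr (a - d) U x) / 2 := by
    rw [tr_avg]; rfl
  rw [e]
  ring

/-- The Bellman function of the three pairs. -/
noncomputable def Qt (F0 F1 : Mt Γ) (U O : Γ → ℝ) (X : Mt Γ) : ℝ :=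
  (pairData X F0 : Data Γ _ _).Q U O + (pairData F0 F1 : Data Γ _ _).Q U O +
    (pairData F1 X : Data Γ _ _).Q U O

/-- The gains of the three pairs. -/
noncomputable def Gt (F0 F1 : Mt Γ) (U O : Γ → ℝ) (d : Γ) (X : Mt Γ) : ℝ :=
  ∑ a, ∑ b, (pairData X F0 : Data Γ _ _).gain U O d a b +
  ∑ a, ∑ b, (pairData F0 F1 : Data Γ _ _).gain U O d a b +
  ∑ a, ∑ b, (pairData F1 X : Data Γ _ _).gain U O d a b

/-- **Step**. -/
theorem Qt_step (F0 F1 : Mt Γ) {U O U' O' : Γ → ℝ} (hU : ∀ x, 0 ≤ U x) (hO : ∀ x, 0 ≤ O x) {d m : Γ}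
    (hdm : d = m + m) (e : Γ) (hU' : avg d U = U') (hO' : avg e (avg m O) = O') (X : Mt Γ) :
    Qt F0 F1 U' O' X + Gt F0 F1 U O d X ≤ Qt F0 F1 U O X := by
  subst hU' hO'
  have h1 := step X F0 hU hO hdm e
  have h2 := step F0 F1 hU hO hdm e
  have h3 := step F1 X hU hO hdm e
  simp only [Qt, Gt]
  linarith

/-- Reindexing the plane `a + b + c = 0`: `∑_a ∑_b g (b, -a-b) = ∑_a ∑_b g (a, b)`. -/
lemma sum_plane₁ (g : Γ → Γ → ℝ) : ∑ a, ∑ b, g b (-a - b) = ∑ a, ∑ b, g a b := by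
  rw [Finset.sum_comm]
  refine Finset.sum_congr rfl fun b _ => ?_
  exact Equiv.sum_comp ((Equiv.neg Γ).trans (Equiv.subRight b)) (fun c => g b c)

/-- Reindexing the plane `a + b + c = 0`: `∑_a ∑_b g (-a-b, a) = ∑_a ∑_b g (a, b)`. -/
lemma sum_plane₂ (g : Γ → Γ → ℝ) : ∑ a, ∑ b, g (-a - b) a = ∑ a, ∑ b, g a b := by
  rw [Finset.sum_comm (f := fun a b => g a b)]
  refine Finset.sum_congr rfl fun a _ => ?_
  exact Equiv.sum_comp (Equiv.subLeft (-a)) (fun c => g c a)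

/-- The triple convolution. -/
noncomputable def kap (h : Γ → ℝ) (ξ : Γ) : ℝ := ∑ a, ∑ b, h a * h b * h (ξ - a - b)

lemma kap_eq (h : Γ → ℝ) (x0 x1 x2 : Γ) :
    ∑ a, ∑ b, h (x0 - a) * h (x1 - b) * h (x2 - (-a - b)) = kap h (x0 + x1 + x2) := by
  unfold kap
  rw [← Equiv.sum_comp (Equiv.subLeft x0)]
  refine Finset.sum_congr rfl fun a _ => ?_
  rw [← Equiv.sum_comp (Equiv.subLeft x1)]
  refine Finset.sum_congr rfl fun b _ => ?_
  simp only [Equiv.subLeft_apply]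
  congr 2 <;> abel

/-- **Local**: the form with the kernel `h * h * h`. -/
theorem form_le_Gt (F0 F1 X : Mt Γ) {U O h : Γ → ℝ} {d : Γ} (hU : ∀ x, 0 ≤ U x) (hO : ∀ x, 0 ≤ O x)
    (hle : ∀ x, avg d U x ≤ 2 * O x)
    (htw : ∀ a x, (tr (a + d) U x - tr (a - d) U x) / 2 = h (x - a)) :
    ‖∑ x0, ∑ x1, ∑ x2, F0 x0 x1 * F1 x1 x2 * X x2 x0 * ((kap h (x0 + x1 + x2) : ℝ) : ℂ)‖ ≤
      (8 / 3) * Gt F0 F1 U O d X := by
  have hup : ∀ a : Γ, ∀ x, 0 ≤ tr (a + d) U x := fun a => tr_nonneg hU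
  have hum : ∀ a : Γ, ∀ x, 0 ≤ tr (a - d) U x := fun a => tr_nonneg hU
  have hOt : ∀ a : Γ, ∀ x, 0 ≤ tr a O x := fun a => tr_nonneg hO
  have hle' : ∀ (a : Γ) x, (tr (a + d) U x + tr (a - d) U x) / 2 ≤ 2 * tr a O x := by
    intro a x
    have h1 := hle (x - a)
    simp only [avg, mid, tr] at h1 ⊢
    have e1 : x - (a + d) = x - a - d := by abel
    have e2 : x - (a - d) = x - a - -d := by abel
    rw [e1, e2]
    exact h1
  -- the pointwise local inequality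
  have hloc : ∀ a b : Γ,
      ‖∑ x0, ∑ x1, ∑ x2, ((h (x0 - a) * h (x1 - b) * h (x2 - (-a - b)) : ℝ) : ℂ) *
          F0 x0 x1 * F1 x1 x2 * X x2 x0‖ ≤
      (8 / 3) * ((pairData X F0 : Data Γ _ _).gain U O d a b +
        (pairData F0 F1 : Data Γ _ _).gain U O d b (-a - b) +
        (pairData F1 X : Data Γ _ _).gain U O d (-a - b) a) := by
    intro a b
    have key := Local.local_form (𝕜 := ℂ) F0 F1 X
      (Oa := tr a O) (Ob := tr b O) (Oc := tr (-a - b) O)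
      (ap := tr (a + d) U) (am := tr (a - d) U)
      (bp := tr (b + d) U) (bm := tr (b - d) U)
      (cp := tr (-a - b + d) U) (cm := tr (-a - b - d) U)
      (hOt a) (hOt b) (hOt _) (hup a) (hum a) (hup b) (hum b) (hup _) (hum _)
      (hle' a) (hle' b) (hle' _)
    rw [pair_gain_eq, pair_gain_eq, pair_gain_eq]
    have e1 : -b - (-a - b) = a := by abel
    have e2 : -(-a - b) - a = b := by abel
    rw [e1, e2]
    have e3 : ∀ x0 x1 x2 : Γ, ((h (x0 - a) * h (x1 - b) * h (x2 - (-a - b)) : ℝ) : ℂ) =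
        (((((tr (a + d) U x0 - tr (a - d) U x0) / 2) * ((tr (b + d) U x1 - tr (b - d) U x1) / 2) *
          ((tr (-a - b + d) U x2 - tr (-a - b - d) U x2) / 2) : ℝ)) : ℂ) := by
      intro x0 x1 x2
      rw [htw, htw, htw]
    simp only [e3]
    exact key
  -- the sum
  have hform : (∑ x0, ∑ x1, ∑ x2, F0 x0 x1 * F1 x1 x2 * X x2 x0 * ((kap h (x0 + x1 + x2) : ℝ) : ℂ)) =
      ∑ a, ∑ b, ∑ x0, ∑ x1, ∑ x2, ((h (x0 - a) * h (x1 - b) * h (x2 - (-a - b)) : ℝ) : ℂ) *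
          F0 x0 x1 * F1 x1 x2 * X x2 x0 := by
    have : ∀ x0 x1 x2 : Γ, F0 x0 x1 * F1 x1 x2 * X x2 x0 * ((kap h (x0 + x1 + x2) : ℝ) : ℂ) =
        ∑ a, ∑ b, ((h (x0 - a) * h (x1 - b) * h (x2 - (-a - b)) : ℝ) : ℂ) *
          F0 x0 x1 * F1 x1 x2 * X x2 x0 := by
      intro x0 x1 x2
      rw [← kap_eq]
      push_cast
      simp only [Finset.mul_sum, Finset.sum_mul]
      refine Finset.sum_congr rfl fun a _ => Finset.sum_congr rfl fun b _ => ?_
      ring
    simp only [this]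
    -- move a, b to the front
    calc _ = ∑ x0, ∑ x1, ∑ a, ∑ b, ∑ x2, ((h (x0 - a) * h (x1 - b) * h (x2 - (-a - b)) : ℝ) : ℂ) *
            F0 x0 x1 * F1 x1 x2 * X x2 x0 := by
          refine Finset.sum_congr rfl fun x0 _ => Finset.sum_congr rfl fun x1 _ => ?_
          rw [Finset.sum_comm]
          refine Finset.sum_congr rfl fun a _ => ?_
          rw [Finset.sum_comm]
      _ = ∑ x0, ∑ a, ∑ b, ∑ x1, ∑ x2, ((h (x0 - a) * h (x1 - b) * h (x2 - (-a - b)) : ℝ) : ℂ) *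
            F0 x0 x1 * F1 x1 x2 * X x2 x0 := by
          refine Finset.sum_congr rfl fun x0 _ => ?_
          rw [Finset.sum_comm]
          refine Finset.sum_congr rfl fun a _ => ?_
          rw [Finset.sum_comm]
      _ = _ := by
          rw [Finset.sum_comm]
          refine Finset.sum_congr rfl fun a _ => ?_
          rw [Finset.sum_comm]
  rw [hform]
  refine (norm_sum_le _ _).trans ?_
  refine (Finset.sum_le_sum fun a _ => norm_sum_le _ _).trans ?_
  refine (Finset.sum_le_sum fun a _ => Finset.sum_le_sum fun b _ => hloc a b).trans ?_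
  simp only [← Finset.mul_sum, ← Finset.sum_add_distrib]
  have e : (∑ a, ∑ b, ((pairData X F0 : Data Γ _ _).gain U O d a b +
        (pairData F0 F1 : Data Γ _ _).gain U O d b (-a - b) +
        (pairData F1 X : Data Γ _ _).gain U O d (-a - b) a)) = Gt F0 F1 U O d X := by
    simp only [Finset.sum_add_distrib, Gt]
    rw [sum_plane₁ (fun a b => (pairData F0 F1 : Data Γ _ _).gain U O d a b),
      sum_plane₂ (fun a b => (pairData F1 X : Data Γ _ _).gain U O d a b)]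
  rw [e]

/-! ### The swap -/

lemma PP_conj (X : Mt Γ) (u v : Γ → ℝ) : PP Xᴴ u v = GG X u v := by
  simp [PP, GG]

lemma GG_conj (F : Mt Γ) (u v : Γ → ℝ) : GG Fᴴ u v = PP F u v := by
  simp [PP, GG]

/-- `Q[F, X] = Q[Xᴴ, Fᴴ]`. -/
theorem Q_swap (F X : Mt Γ) (U O : Γ → ℝ) :
    (pairData F X : Data Γ _ _).Q U O = (pairData Xᴴ Fᴴ : Data Γ _ _).Q U O := by
  have hV : (pairData F X : Data Γ _ _).V U O 0 = (pairData Xᴴ Fᴴ : Data Γ _ _).V U O 0 := by
    simp only [Data.V, pd_f, pd_G, pd_P, PP_conj, GG_conj]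
    refine Finset.sum_congr rfl fun a _ => ?_
    rw [← Equiv.sum_comp (Equiv.subLeft (0 - a))]
    refine Finset.sum_congr rfl fun b _ => ?_
    simp only [Equiv.subLeft_apply]
    have e : (0 : Γ) - a - (0 - a - b) = b := by abel
    rw [e, add_comm]
  have hG : (pairData F X : Data Γ _ _).Eg U O = (pairData Xᴴ Fᴴ : Data Γ _ _).Ep U O := by
    simp only [Data.Eg, Data.Ep, pd_f, pd_G, pd_P, PP_conj]
  have hP : (pairData F X : Data Γ _ _).Ep U O = (pairData Xᴴ Fᴴ : Data Γ _ _).Eg U O := by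
    simp only [Data.Eg, Data.Ep, pd_f, pd_G, pd_P, GG_conj]
  simp only [Data.Q]
  rw [hV, hG, hP]
  ring

/-! ### The jump -/

lemma win_eq (v u : Γ → ℝ) (M : Mt Γ) :
    Jump.win v M u = (Windows.sq v : Mt Γ) * M * (Windows.sq u : Mt Γ) := by
  ext x y
  simp only [Jump.win_apply, Windows.sq, Matrix.diagonal_mul, Matrix.mul_diagonal]
  push_cast
  ring

lemma PP_eq_win (M : Mt Γ) {u v : Γ → ℝ} (hv : ∀ x, 0 ≤ v x) :
    PP M u v = (Jump.win v M u)ᴴ * Jump.win v M u := by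
  rw [win_eq, conjTranspose_mul, conjTranspose_mul, sq_conj, sq_conj, PP, ← sq_mul_sq hv]
  simp only [Matrix.mul_assoc]

lemma GG_eq_win (F : Mt Γ) {u v : Γ → ℝ} (hv : ∀ x, 0 ≤ v x) :
    GG F u v = Jump.win u F v * (Jump.win u F v)ᴴ := by
  rw [win_eq, conjTranspose_mul, conjTranspose_mul, sq_conj, sq_conj, GG, ← sq_mul_sq hv]
  simp only [Matrix.mul_assoc]

/-- The square root factors of the jump. -/
noncomputable def JR (W : Γ → Γ → ℝ) (B : Mt Γ) (u v v₁ : Γ → ℝ) (x y : Γ) : ℝ :=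
  √(∑ y', u y' * W x y' ^ 2) * √(∑ x', v x' * W x' y ^ 2 + ∑ z, v₁ z * ‖B y z‖ ^ 2)

lemma JR_nonneg (W : Γ → Γ → ℝ) (B : Mt Γ) (u v v₁ : Γ → ℝ) (x y : Γ) : 0 ≤ JR W B u v v₁ x y :=
  mul_nonneg (Real.sqrt_nonneg _) (Real.sqrt_nonneg _)

/-- **Jump of `Q` in the variable `A`.** -/
theorem Q_jump {A A' B : Mt Γ} {W : Γ → Γ → ℝ} (hA : ∀ x y, ‖A x y‖ ≤ W x y)
    (hA' : ∀ x y, ‖A' x y‖ ≤ W x y) {U O : Γ → ℝ} (hU : ∀ x, 0 ≤ U x) (hO : ∀ x, 0 ≤ O x) :
    (pairData A' B : Data Γ _ _).Q U O - (pairData A B : Data Γ _ _).Q U O ≤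
      21 * ∑ a, ∑ c, ∑ x, ∑ y, tr c O x * tr a U y * ‖(A' - A) x y‖ *
        JR W B (tr a U) (tr c O) (tr (-a - c) O) x y := by
  have hUt : ∀ a : Γ, 0 ≤ tr a U := fun a x => hU _
  have hOt : ∀ a : Γ, 0 ≤ tr a O := fun a x => hO _
  set S : Γ → Γ → ℝ := fun a c => ∑ x, ∑ y, tr c O x * tr a U y * ‖(A' - A) x y‖ *
    JR W B (tr a U) (tr c O) (tr (-a - c) O) x y with hS
  -- the energy with both blocks
  have h1 : ∀ a c : Γ, E32 (GG B (tr a U) (tr (-a - c) O) + PP A' (tr a U) (tr c O)) -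
      E32 (GG B (tr a U) (tr (-a - c) O) + PP A (tr a U) (tr c O)) ≤ 3 * S a c := by
    intro a c
    have := Jump.jump_win (𝕜 := ℂ) (hOt c) (hUt a) (hOt (-a - c)) hA hA' B
    rw [← PP_eq_win A' (fun x => hOt c x), ← PP_eq_win A (fun x => hOt c x),
      ← GG_eq_win B (fun x => hOt (-a - c) x), add_comm (PP A' _ _), add_comm (PP A _ _)] at this
    refine this.trans (le_of_eq ?_)
    simp only [hS, JR, mul_assoc]
  -- the energy with one block
  have h2 : ∀ a c : Γ, E32 (PP A' (tr a U) (tr c O)) - E32 (PP A (tr a U) (tr c O)) ≤ 3 * S a c := by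
    intro a c
    have := Jump.jump_win₀ (𝕜 := ℂ) (hOt c) (hUt a) hA hA'
    rw [← PP_eq_win A' (fun x => hOt c x), ← PP_eq_win A (fun x => hOt c x)] at this
    refine this.trans (mul_le_mul_of_nonneg_left ?_ (by norm_num))
    refine Finset.sum_le_sum fun x _ => Finset.sum_le_sum fun y _ => ?_
    have hext : 0 ≤ ∑ z, tr (-a - c) O z * ‖B y z‖ ^ 2 :=
      Finset.sum_nonneg fun z _ => mul_nonneg (hOt _ z) (by positivity)
    have hsq : √(∑ x', tr c O x' * W x' y ^ 2) ≤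
        √(∑ x', tr c O x' * W x' y ^ 2 + ∑ z, tr (-a - c) O z * ‖B y z‖ ^ 2) :=
      Real.sqrt_le_sqrt (by linarith)
    have hD : 0 ≤ tr c O x * tr a U y * ‖(A' - A) x y‖ *
        √(∑ y', tr a U y' * W x y' ^ 2) :=
      mul_nonneg (mul_nonneg (mul_nonneg (hOt c x) (hUt a y)) (norm_nonneg _)) (Real.sqrt_nonneg _)
    simp only [JR, ← mul_assoc]
    exact mul_le_mul_of_nonneg_left hsq hD
  -- the three parts of `Q`
  have hV : (pairData A' B : Data Γ _ _).V U O 0 - (pairData A B : Data Γ _ _).V U O 0 ≤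
      3 * ∑ a, ∑ c, S a c := by
    have e : ∀ A₀ : Mt Γ, (pairData A₀ B : Data Γ _ _).V U O 0 =
        ∑ a, ∑ c, E32 (GG B (tr a U) (tr (-a - c) O) + PP A₀ (tr a U) (tr c O)) := by
      intro A₀
      simp only [Data.V, pd_f, pd_G, pd_P]
      refine Finset.sum_congr rfl fun a _ => ?_
      rw [← Equiv.sum_comp (Equiv.subLeft (-a))]
      refine Finset.sum_congr rfl fun c _ => ?_
      simp only [Equiv.subLeft_apply]
      have e1 : (0 : Γ) - a - (-a - c) = c := by abel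
      rw [e1]
    rw [e, e, ← Finset.sum_sub_distrib, Finset.mul_sum]
    refine Finset.sum_le_sum fun a _ => ?_
    rw [← Finset.sum_sub_distrib, Finset.mul_sum]
    exact Finset.sum_le_sum fun c _ => h1 a c
  have hG : (pairData A' B : Data Γ _ _).Eg U O = (pairData A B : Data Γ _ _).Eg U O := by
    simp only [Data.Eg, pd_f, pd_G]
  have hP : (pairData A' B : Data Γ _ _).Ep U O - (pairData A B : Data Γ _ _).Ep U O ≤
      3 * ∑ a, ∑ c, S a c := by
    simp only [Data.Ep, pd_f, pd_P]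
    rw [← Finset.sum_sub_distrib, Finset.mul_sum]
    refine Finset.sum_le_sum fun a _ => ?_
    rw [← Finset.sum_sub_distrib, Finset.mul_sum]
    exact Finset.sum_le_sum fun c _ => h2 a c
  simp only [Data.Q]
  rw [hG]
  linarith

end Crest.Agent.TriRL.TBLevel
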