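/-
S0096, helper84's blueprint L5 (helper21): the domination of the jump of `Q` on `ZMod N` by the cyclic
maximal functions, uniformly in the level.
-/
import Crest.Agent.TriRL.TBLevel
import Crest.Agent.TriRL.BoxChain
import Crest.Agent.TriRL.CycMax

set_option autoImplicit false
set_option linter.unusedSectionVars false

namespace Crest.Agent.TriRL.TBDom

open Matrix Crest.Agent.TriH Crest.Agent.TriRL.PlaneStep Crest.Agent.TriRL.Windows
  Crest.Agent.TriRL.TBLevel Crest.Agent.TriRL.BoxChain Crest.Agent.TriRL.CycMax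

variable {N : ℕ} [NeZero N]

lemma abs_vma_add_le (a b : ZMod N) : |(a + b).valMinAbs| ≤ |a.valMinAbs| + |b.valMinAbs| := by
  have h := ZMod.natAbs_valMinAbs_add_le a b
  have h1 : |(a + b).valMinAbs| = ((a + b).valMinAbs.natAbs : ℤ) := Int.abs_eq_natAbs _
  have h2 : ((a.valMinAbs + b.valMinAbs).natAbs : ℤ) = |a.valMinAbs + b.valMinAbs| :=
    (Int.abs_eq_natAbs _).symm
  have h3 : ((a + b).valMinAbs.natAbs : ℤ) ≤ ((a.valMinAbs + b.valMinAbs).natAbs : ℤ) := by
    exact_mod_cast h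
  rw [h1]
  refine h3.trans ?_
  rw [h2]
  exact abs_add_le _ _

lemma abs_vma_neg (a : ZMod N) : |(-a).valMinAbs| = |a.valMinAbs| := by
  rw [Int.abs_eq_natAbs, Int.abs_eq_natAbs, ZMod.natAbs_valMinAbs_neg]

lemma abs_vma_sub_le (a b : ZMod N) : |(a - b).valMinAbs| ≤ |a.valMinAbs| + |b.valMinAbs| := by
  have := abs_vma_add_le a (-b)
  rwa [abs_vma_neg, ← sub_eq_add_neg] at this

/-- The dominating function. -/
noncomputable def Dom (W F : ZMod N → ZMod N → ℝ) (x y : ZMod N) : ℝ :=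
  √(Mc (fun y' => W x y' ^ 2) y) * √(Mc (fun x' => W x' y ^ 2) x + Mc (fun z => F y z ^ 2) (-x - y))

lemma Dom_nonneg (W F : ZMod N → ZMod N → ℝ) (x y : ZMod N) : 0 ≤ Dom W F x y :=
  mul_nonneg (Real.sqrt_nonneg _) (Real.sqrt_nonneg _)

section level

variable {q i : ℕ}

/-- numerical form of the size condition -/
lemma fits64 (h : Fits N q 2 i) : 64 * qq q i < N := by
  unfold Fits at h
  have : (2 : ℕ) ^ (2 + 4) = 64 := by norm_num
  rwa [this] at h

lemma qq_real_pos (hq : 0 < q) : (1 : ℝ) ≤ (qq q i : ℝ) := by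
  exact_mod_cast qq_pos hq i

/-- The middle window: weights, support. -/
lemma U_bound (hq : 0 < q) (h : Fits N q 2 i) {g : ZMod N → ℝ} (hg : ∀ s, 0 ≤ g s) {a y : ZMod N}
    (hy : tr a (UU N q i) y ≠ 0) :
    ∑ s, tr a (UU N q i) s * g s ≤ 3 * Mc g y := by
  have hQ := qq_real_pos (i := i) hq
  have hF := fits64 h
  have hsy : |(y - a).valMinAbs| ≤ ((2 * qq q i : ℕ) : ℤ) := boxG_support hy
  have key := weighted_le (x := y) (r := 4 * qq q i) (c := 1 / (4 * (qq q i : ℝ))) hg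
    (fun s => UU_nonneg q i (s - a)) (by positivity) (by omega)
    (fun s => by
      have := boxG_le (N := N) (2 * qq q i) (s - a)
      refine this.trans (le_of_eq ?_)
      push_cast
      ring_nf)
    (fun s hs => by
      have hs' : |(s - a).valMinAbs| ≤ ((2 * qq q i : ℕ) : ℤ) := boxG_support hs
      have e : s - y = (s - a) - (y - a) := by abel
      rw [e]
      refine (abs_vma_sub_le _ _).trans ?_
      push_cast at hs' hsy ⊢
      linarith)
  refine key.trans (mul_le_mul_of_nonneg_right ?_ (Mc_nonneg _ _))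
  push_cast
  rw [div_mul_eq_mul_div, one_mul, div_le_iff₀ (by positivity)]
  linarith

lemma O_value (hq : 0 < q) (h : Fits N q 2 i) (s : ZMod N) :
    OO N q 2 i s ≤ 1 / (16 * (qq q i : ℝ)) := by
  refine (OO_le hq h s).trans (le_of_eq ?_)
  push_cast
  ring_nf

lemma O_supp (hq : 0 < q) (h : Fits N q 2 i) {s : ZMod N} (hs : OO N q 2 i s ≠ 0) :
    |s.valMinAbs| ≤ 9 * (qq q i : ℤ) := by
  have := OO_support hq h hs
  norm_num at this
  linarith

/-- The outer window centred at the point `x` of its support. -/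
lemma O_bound (hq : 0 < q) (h : Fits N q 2 i) {g : ZMod N → ℝ} (hg : ∀ s, 0 ≤ g s) {c x : ZMod N}
    (hx : tr c (OO N q 2 i) x ≠ 0) :
    ∑ s, tr c (OO N q 2 i) s * g s ≤ 3 * Mc g x := by
  have hQ := qq_real_pos (i := i) hq
  have hF := fits64 h
  have hsx := O_supp hq h hx
  have key := weighted_le (x := x) (r := 18 * qq q i) (c := 1 / (16 * (qq q i : ℝ))) hg
    (fun s => OO_nonneg q 2 i (s - c)) (by positivity) (by omega)
    (fun s => O_value hq h _)
    (fun s hs => by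
      have hs' := O_supp hq h hs
      have e : s - x = (s - c) - (x - c) := by abel
      rw [e]
      refine (abs_vma_sub_le _ _).trans ?_
      push_cast
      linarith)
  refine key.trans (mul_le_mul_of_nonneg_right ?_ (Mc_nonneg _ _))
  push_cast
  rw [div_mul_eq_mul_div, one_mul, div_le_iff₀ (by positivity)]
  linarith

/-- The third window. -/
lemma O_bound₂ (hq : 0 < q) (h : Fits N q 2 i) {g : ZMod N → ℝ} (hg : ∀ s, 0 ≤ g s) {a c x y : ZMod N}
    (hy : tr a (UU N q i) y ≠ 0) (hx : tr c (OO N q 2 i) x ≠ 0) :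
    ∑ s, tr (-a - c) (OO N q 2 i) s * g s ≤ 3 * Mc g (-x - y) := by
  have hQ := qq_real_pos (i := i) hq
  have hF := fits64 h
  have hsx := O_supp hq h hx
  have hsy : |(y - a).valMinAbs| ≤ ((2 * qq q i : ℕ) : ℤ) := boxG_support hy
  have key := weighted_le (x := -x - y) (r := 20 * qq q i) (c := 1 / (16 * (qq q i : ℝ))) hg
    (fun s => OO_nonneg q 2 i (s - (-a - c))) (by positivity) (by omega)
    (fun s => O_value hq h _)
    (fun s hs => by
      have hs' := O_supp hq h hs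
      have e : s - (-x - y) = (s - (-a - c)) + (x - c) + (y - a) := by abel
      rw [e]
      refine (abs_vma_add_le _ _).trans ?_
      have h2 := abs_vma_add_le (s - (-a - c)) (x - c)
      push_cast at hsy ⊢
      linarith)
  refine key.trans (mul_le_mul_of_nonneg_right ?_ (Mc_nonneg _ _))
  push_cast
  rw [div_mul_eq_mul_div, one_mul, div_le_iff₀ (by positivity)]
  linarith

/-- The square root factors of the jump on the supports of the windows. -/
lemma JR_le (hq : 0 < q) (h : Fits N q 2 i) {W : ZMod N → ZMod N → ℝ} (B : Mt (ZMod N))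
    {a c x y : ZMod N} (hy : tr a (UU N q i) y ≠ 0) (hx : tr c (OO N q 2 i) x ≠ 0) :
    JR W B (tr a (UU N q i)) (tr c (OO N q 2 i)) (tr (-a - c) (OO N q 2 i)) x y ≤
      3 * Dom W (fun y z => ‖B y z‖) x y := by
  have h1 := U_bound (g := fun y' => W x y' ^ 2) hq h (fun s => sq_nonneg _) hy
  have h2 := O_bound (g := fun x' => W x' y ^ 2) hq h (fun s => sq_nonneg _) hx
  have h3 := O_bound₂ (g := fun z => ‖B y z‖ ^ 2) hq h (fun s => sq_nonneg _) hy hx
  unfold JR Dom
  have hM1 := Mc_nonneg (fun y' => W x y' ^ 2) y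
  have hM2 := Mc_nonneg (fun x' => W x' y ^ 2) x
  have hM3 := Mc_nonneg (fun z => ‖B y z‖ ^ 2) (-x - y)
  have e1 : √(∑ y', tr a (UU N q i) y' * W x y' ^ 2) ≤
      √3 * √(Mc (fun y' => W x y' ^ 2) y) := by
    rw [← Real.sqrt_mul (by norm_num)]
    exact Real.sqrt_le_sqrt h1
  have e2 : √(∑ x', tr c (OO N q 2 i) x' * W x' y ^ 2 + ∑ z, tr (-a - c) (OO N q 2 i) z * ‖B y z‖ ^ 2) ≤
      √3 * √(Mc (fun x' => W x' y ^ 2) x + Mc (fun z => ‖B y z‖ ^ 2) (-x - y)) := by
    rw [← Real.sqrt_mul (by norm_num)]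
    apply Real.sqrt_le_sqrt
    linarith
  calc _ ≤ (√3 * √(Mc (fun y' => W x y' ^ 2) y)) *
        (√3 * √(Mc (fun x' => W x' y ^ 2) x + Mc (fun z => ‖B y z‖ ^ 2) (-x - y))) :=
        mul_le_mul e1 e2 (Real.sqrt_nonneg _) (by positivity)
    _ = (√3 * √3) * (√(Mc (fun y' => W x y' ^ 2) y) *
        √(Mc (fun x' => W x' y ^ 2) x + Mc (fun z => ‖B y z‖ ^ 2) (-x - y))) := by ring
    _ = _ := by rw [Real.mul_self_sqrt (by norm_num)]

/-- Summing the windows. -/
theorem sum_windows_le (hq : 0 < q) (h : Fits N q 2 i) {W : ZMod N → ZMod N → ℝ} (B : Mt (ZMod N))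
    (D : ZMod N → ZMod N → ℝ) (hD : ∀ x y, 0 ≤ D x y) :
    ∑ a, ∑ c, ∑ x, ∑ y, tr c (OO N q 2 i) x * tr a (UU N q i) y * D x y *
        JR W B (tr a (UU N q i)) (tr c (OO N q 2 i)) (tr (-a - c) (OO N q 2 i)) x y ≤
      3 * ∑ x, ∑ y, D x y * Dom W (fun y z => ‖B y z‖) x y := by
  have hU1 : ∀ y : ZMod N, ∑ a, tr a (UU N q i) y = 1 := by
    intro y
    rw [← UU_sum (l := 2) hq h]
    exact Equiv.sum_comp (Equiv.subLeft y) (UU N q i)
  have hO1 : ∀ x : ZMod N, ∑ c, tr c (OO N q 2 i) x = 1 := by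
    intro x
    rw [← OO_sum hq h]
    exact Equiv.sum_comp (Equiv.subLeft x) (OO N q 2 i)
  have hswap : ∑ a, ∑ c, ∑ x, ∑ y, tr c (OO N q 2 i) x * tr a (UU N q i) y * D x y *
        JR W B (tr a (UU N q i)) (tr c (OO N q 2 i)) (tr (-a - c) (OO N q 2 i)) x y =
      ∑ x, ∑ y, ∑ a, ∑ c, tr c (OO N q 2 i) x * tr a (UU N q i) y * D x y *
        JR W B (tr a (UU N q i)) (tr c (OO N q 2 i)) (tr (-a - c) (OO N q 2 i)) x y := by
    calc _ = ∑ a, ∑ x, ∑ c, ∑ y, tr c (OO N q 2 i) x * tr a (UU N q i) y * D x y *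
        JR W B (tr a (UU N q i)) (tr c (OO N q 2 i)) (tr (-a - c) (OO N q 2 i)) x y :=
          Finset.sum_congr rfl fun a _ => Finset.sum_comm
      _ = ∑ x, ∑ a, ∑ c, ∑ y, tr c (OO N q 2 i) x * tr a (UU N q i) y * D x y *
        JR W B (tr a (UU N q i)) (tr c (OO N q 2 i)) (tr (-a - c) (OO N q 2 i)) x y :=
          Finset.sum_comm
      _ = ∑ x, ∑ a, ∑ y, ∑ c, tr c (OO N q 2 i) x * tr a (UU N q i) y * D x y *
        JR W B (tr a (UU N q i)) (tr c (OO N q 2 i)) (tr (-a - c) (OO N q 2 i)) x y :=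
          Finset.sum_congr rfl fun x _ => Finset.sum_congr rfl fun a _ => Finset.sum_comm
      _ = _ := Finset.sum_congr rfl fun x _ => Finset.sum_comm
  rw [hswap, Finset.mul_sum]
  refine Finset.sum_le_sum fun x _ => ?_
  rw [Finset.mul_sum]
  refine Finset.sum_le_sum fun y _ => ?_
  have hterm : ∀ a c : ZMod N, tr c (OO N q 2 i) x * tr a (UU N q i) y * D x y *
        JR W B (tr a (UU N q i)) (tr c (OO N q 2 i)) (tr (-a - c) (OO N q 2 i)) x y ≤
      tr a (UU N q i) y * (tr c (OO N q 2 i) x * (3 * (D x y * Dom W (fun y z => ‖B y z‖) x y))) := by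
    intro a c
    by_cases h1 : tr a (UU N q i) y = 0
    · simp [h1]
    by_cases h2 : tr c (OO N q 2 i) x = 0
    · simp [h2]
    have := JR_le (W := W) hq h B h1 h2
    have hnn : 0 ≤ tr c (OO N q 2 i) x * tr a (UU N q i) y * D x y :=
      mul_nonneg (mul_nonneg (OO_nonneg _ _ _ _) (UU_nonneg _ _ _)) (hD x y)
    calc _ ≤ tr c (OO N q 2 i) x * tr a (UU N q i) y * D x y *
          (3 * Dom W (fun y z => ‖B y z‖) x y) := mul_le_mul_of_nonneg_left this hnn
      _ = _ := by ring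
  calc _ ≤ ∑ a, ∑ c, tr a (UU N q i) y * (tr c (OO N q 2 i) x *
          (3 * (D x y * Dom W (fun y z => ‖B y z‖) x y))) :=
        Finset.sum_le_sum fun a _ => Finset.sum_le_sum fun c _ => hterm a c
    _ = (∑ a, tr a (UU N q i) y) * ((∑ c, tr c (OO N q 2 i) x) *
          (3 * (D x y * Dom W (fun y z => ‖B y z‖) x y))) := by
        simp only [← Finset.mul_sum, ← Finset.sum_mul]
    _ = _ := by rw [hU1, hO1, one_mul, one_mul]

/-- **The jump of `Q` at a level**, dominated uniformly. -/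
theorem level_jump (hq : 0 < q) (h : Fits N q 2 i) {A A' B : Mt (ZMod N)} {W : ZMod N → ZMod N → ℝ}
    (hA : ∀ x y, ‖A x y‖ ≤ W x y) (hA' : ∀ x y, ‖A' x y‖ ≤ W x y) :
    (pairData A' B : Data (ZMod N) _ _).Q (UU N q i) (OO N q 2 i) -
        (pairData A B : Data (ZMod N) _ _).Q (UU N q i) (OO N q 2 i) ≤
      63 * ∑ x, ∑ y, ‖(A' - A) x y‖ * Dom W (fun y z => ‖B y z‖) x y := by
  have h1 := Q_jump (B := B) hA hA' (U := UU N q i) (O := OO N q 2 i) (fun x => UU_nonneg _ _ _)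
    (fun x => OO_nonneg _ _ _ _)
  have h2 := sum_windows_le (W := W) hq h B (fun x y => ‖(A' - A) x y‖) (fun _ _ => norm_nonneg _)
  linarith

end level

end Crest.Agent.TriRL.TBDom
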