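/-
S0096, helper84's blueprint L5 (helper21): the output `T_B` of the Bellman ladder with time dependent
third function (`TBStatement`).
-/
import Crest.Agent.TriRL.TBDom
import Crest.Agent.TriRL.QBound
import Crest.Agent.TriRL.Ladder

set_option autoImplicit false
set_option linter.unusedSectionVars false

namespace Crest.Agent.TriRL

open Matrix Crest.Agent.TriH Crest.Agent.TriRL.PlaneStep Crest.Agent.TriRL.Windows
  Crest.Agent.TriRL.TBLevel Crest.Agent.TriRL.BoxChain Crest.Agent.TriRL.CycMax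
  Crest.Agent.TriRL.TBDom

variable {N : ℕ} [NeZero N]

/-- The constant. -/
noncomputable def CTB : ℝ := 128 / 3 + 336 * CD

lemma S3_nonneg' {A B : Type*} [Fintype A] [Fintype B] (F : A → B → ℂ) : 0 ≤ S3 F :=
  Finset.sum_nonneg fun _ _ => Finset.sum_nonneg fun _ _ => by positivity

lemma S3r_nonneg' {A B : Type*} [Fintype A] [Fintype B] (F : A → B → ℝ) : 0 ≤ S3r F :=
  Finset.sum_nonneg fun _ _ => Finset.sum_nonneg fun _ _ => by positivity

lemma kappaG_eq (τ : ℕ) (ξ : ZMod N) : kappaG N τ ξ = kap (haarG N τ) ξ := rfl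

/-- The level parameters. -/
lemma fits_of_le {τ₀ q I i : ℕ} (hτ : τ₀ = 4 * q) (hq : 0 < q) (h : 2 ^ (I + 10) * τ₀ ≤ N) (hi : i ≤ I) :
    Fits N q 2 i := by
  unfold Fits qq
  have h1 : 2 ^ (2 + 4) * (2 ^ i * q) < 2 ^ (I + 10) * τ₀ := by
    rw [hτ]
    have e : 2 ^ (2 + 4) * (2 ^ i * q) = 2 ^ (i + 6) * q := by ring
    have e2 : 2 ^ (I + 10) * (4 * q) = 2 ^ (I + 12) * q := by ring
    rw [e, e2]
    apply Nat.mul_lt_mul_of_pos_right _ hq
    exact Nat.pow_lt_pow_right (by norm_num) (by omega)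
  omega

lemma final_arith {D s a b c0 c1 : ℝ} (hD : 0 ≤ D) (hs : 0 ≤ s) (ha : 0 ≤ a) (hb : 0 ≤ b) (hc0 : 0 ≤ c0)
    (hc1 : 0 ≤ c1) :
    (8 / 3 : ℝ) * (16 * s + (63 * (D * a * b * (b + c0)) + 63 * (D * a * b * (b + c1)))) ≤
      (128 / 3 + 336 * D) * s + (128 / 3 + 336 * D) * a * b * (b + c0 + c1) := by
  have h1 : 0 ≤ a * b * (b + c0 + c1) := by positivity
  have h2 : 0 ≤ D * s := mul_nonneg hD hs
  have h3 : 0 ≤ D * (a * b * c0) := by positivity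
  have h4 : 0 ≤ D * (a * b * c1) := by positivity
  nlinarith [h1, h2, h3, h4]

/-- **`T_B` for a general constant**: the two parts of the bound. -/
theorem TB_main (τ₀ I : ℕ) (h8 : 8 ∣ τ₀) (hτ : 0 < τ₀) (hN : 2 ^ (I + 10) * τ₀ ≤ N)
    (F0 F1 : ZMod N → ZMod N → ℂ) (X : ℕ → ZMod N → ZMod N → ℂ) (Y : ZMod N → ZMod N → ℝ)
    (hXY : ∀ i u v, ‖X i u v‖ ≤ Y u v) :
    ∑ i ∈ Finset.range I,
        ‖∑ x0 : ZMod N, ∑ x1 : ZMod N, ∑ x2 : ZMod N,
          F0 x0 x1 * F1 x1 x2 * X i x2 x0 * (kappaG N (2 ^ i * τ₀) (x0 + x1 + x2) : ℂ)‖ ≤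
      CTB * (S3 F0 + S3 F1 + S3r Y) +
        CTB * (∑ u : ZMod N, ∑ v : ZMod N,
              (∑ i ∈ Finset.range I, ‖X (i + 1) u v - X i u v‖) ^ 3) ^ ((1 : ℝ) / 3) *
          (S3r Y) ^ ((1 : ℝ) / 3) *
            ((S3r Y) ^ ((1 : ℝ) / 3) + (S3 F0) ^ ((1 : ℝ) / 3) + (S3 F1) ^ ((1 : ℝ) / 3)) := by
  classical
  -- the parameters
  obtain ⟨k, hk⟩ := h8
  obtain ⟨q, hq4, hq⟩ : ∃ q, τ₀ = 4 * q ∧ 0 < q := ⟨2 * k, by omega, by omega⟩
  have hτi : ∀ i : ℕ, 2 ^ i * τ₀ = 4 * qq q i := by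
    intro i
    simp only [qq, hq4]
    ring
  -- notation for the final quantities
  set a : ℝ := (∑ u : ZMod N, ∑ v : ZMod N,
      (∑ i ∈ Finset.range I, ‖X (i + 1) u v - X i u v‖) ^ 3) ^ ((1 : ℝ) / 3) with ha
  set b : ℝ := (S3r Y) ^ ((1 : ℝ) / 3) with hb
  set c0 : ℝ := (S3 F0) ^ ((1 : ℝ) / 3) with hc0
  set c1 : ℝ := (S3 F1) ^ ((1 : ℝ) / 3) with hc1
  have ha0 : 0 ≤ a := Real.rpow_nonneg (Finset.sum_nonneg fun _ _ => Finset.sum_nonneg fun _ _ =>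
    pow_nonneg (Finset.sum_nonneg fun _ _ => norm_nonneg _) _) _
  have hb0 : 0 ≤ b := Real.rpow_nonneg (S3r_nonneg' _) _
  have hc00 : 0 ≤ c0 := Real.rpow_nonneg (S3_nonneg' _) _
  have hc10 : 0 ≤ c1 := Real.rpow_nonneg (S3_nonneg' _) _
  have hCD := CD_nonneg
  have hs0 : 0 ≤ S3 F0 + S3 F1 + S3r Y :=
    add_nonneg (add_nonneg (S3_nonneg' _) (S3_nonneg' _)) (S3r_nonneg' _)
  have hCTB : 0 ≤ CTB := by unfold CTB; positivity
  rcases I with _ | I'
  · simp only [Finset.range_zero, Finset.sum_empty]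
    positivity
  -- the ladder
  set U : ℕ → ZMod N → ℝ := fun i => UU N q i with hU
  set O : ℕ → ZMod N → ℝ := fun i => OO N q 2 i with hO
  have hU0 : ∀ i x, 0 ≤ U i x := fun i x => UU_nonneg _ _ _
  have hO0 : ∀ i x, 0 ≤ O i x := fun i x => OO_nonneg _ _ _ _
  have hfits : ∀ i, i ≤ I' + 1 → Fits N q 2 i := fun i hi => fits_of_le hq4 hq hN hi
  let Q : ℕ → Mt (ZMod N) → ℝ := fun i Z => Qt (F0 : Mt (ZMod N)) (F1 : Mt (ZMod N)) (U i) (O i) Z
  let gain : ℕ → Mt (ZMod N) → ℝ := fun i Z =>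
    Gt (F0 : Mt (ZMod N)) (F1 : Mt (ZMod N)) (U i) (O i) (dd N q i) Z
  let H : ℕ → Mt (ZMod N) → ℝ := fun i Z =>
    ‖∑ x0 : ZMod N, ∑ x1 : ZMod N, ∑ x2 : ZMod N,
      F0 x0 x1 * F1 x1 x2 * Z x2 x0 * (kappaG N (2 ^ i * τ₀) (x0 + x1 + x2) : ℂ)‖
  have hstep : ∀ i, i ≤ I' → ∀ Z, Q (i + 1) Z + gain i Z ≤ Q i Z := by
    intro i hi Z
    have hF := hfits i (by omega)
    exact Qt_step _ _ (hU0 i) (hO0 i) (dd_eq q i) (ee N q 2 i) (avg_UU hq hF) (avg_OO hq hF) Z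
  have hloc : ∀ i, i ≤ I' → ∀ Z, H i Z ≤ (8 / 3) * gain i Z := by
    intro i hi Z
    have hF := hfits i (by omega)
    have := form_le_Gt (h := haarG N (4 * qq q i)) (F0 : Mt (ZMod N)) (F1 : Mt (ZMod N)) Z
      (hU0 i) (hO0 i) (d := dd N q i)
      (fun x => by
        have e : avg (dd N q i) (U i) = UU N q (i + 1) := avg_UU hq hF
        rw [e]
        exact UU_le_two_OO hq hF x)
      (fun a x => twist_UU hq hF a x)
    simp only [H, gain, hτi, kappaG_eq]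
    exact this
  have hQnn : ∀ i Z, 0 ≤ Q i Z := by
    intro i Z
    simp only [Q, Qt]
    exact add_nonneg (add_nonneg (QBound.Q_nonneg _ _ (hU0 i) (hO0 i)) (QBound.Q_nonneg _ _ (hU0 i) (hO0 i)))
      (QBound.Q_nonneg _ _ (hU0 i) (hO0 i))
  have hlad := Ladder.sum_form_le Q gain (fun i => (X i : Mt (ZMod N))) H (c := 8 / 3) (by norm_num) I'
    hstep hloc (hQnn _ _)
  -- the initial value
  have hY0 : ∀ u v, 0 ≤ Y u v := fun u v => (norm_nonneg _).trans (hXY 0 u v)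
  have hS3X : ∀ i, ∑ x, ∑ y, ‖(X i : Mt (ZMod N)) x y‖ ^ 3 ≤ S3r Y := by
    intro i
    refine Finset.sum_le_sum fun u _ => Finset.sum_le_sum fun v _ => ?_
    rw [abs_of_nonneg (hY0 u v)]
    exact pow_le_pow_left₀ (norm_nonneg _) (hXY i u v) 3
  have hQ0 : Q 0 (X 0) ≤ 16 * (S3 F0 + S3 F1 + S3r Y) := by
    have hF0 := hfits 0 (by omega)
    have hUs : ∑ x, U 0 x = 1 := UU_sum (l := 2) hq hF0
    have hOs : ∑ x, O 0 x = 1 := OO_sum hq hF0
    have h1 := QBound.Q_le (X 0 : Mt (ZMod N)) (F0 : Mt (ZMod N)) (hU0 0) (hO0 0) hUs hOs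
    have h2 := QBound.Q_le (F0 : Mt (ZMod N)) (F1 : Mt (ZMod N)) (hU0 0) (hO0 0) hUs hOs
    have h3 := QBound.Q_le (F1 : Mt (ZMod N)) (X 0 : Mt (ZMod N)) (hU0 0) (hO0 0) hUs hOs
    have h4 := hS3X 0
    simp only [Q, Qt]
    have e0 : ∑ x, ∑ y, ‖(F0 : Mt (ZMod N)) x y‖ ^ 3 = S3 F0 := rfl
    have e1 : ∑ x, ∑ y, ‖(F1 : Mt (ZMod N)) x y‖ ^ 3 = S3 F1 := rfl
    rw [e0] at h1 h2
    rw [e1] at h2 h3
    linarith
  -- the jumps
  set V : ZMod N → ZMod N → ℝ := fun u v =>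
    ∑ i ∈ Finset.range (I' + 1), ‖X (i + 1) u v - X i u v‖ with hV
  have hV0 : ∀ u v, 0 ≤ V u v := fun u v => Finset.sum_nonneg fun _ _ => norm_nonneg _
  let F1c : Mt (ZMod N) := (F1 : Mt (ZMod N))ᴴ
  let D1 : ZMod N → ZMod N → ℝ := Dom Y (fun y z => ‖(F0 : Mt (ZMod N)) y z‖)
  let D2 : ZMod N → ZMod N → ℝ := Dom (fun x y => Y y x) (fun y z => ‖F1c y z‖)
  have hD1 : ∀ x y, 0 ≤ D1 x y := fun x y => Dom_nonneg _ _ _ _
  have hD2 : ∀ x y, 0 ≤ D2 x y := fun x y => Dom_nonneg _ _ _ _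
  have hjump : ∀ i, i ∈ Finset.range I' → Q (i + 1) (X (i + 1)) - Q (i + 1) (X i) ≤
      63 * (∑ x, ∑ y, ‖X (i + 1) x y - X i x y‖ * D1 x y) +
      63 * (∑ x, ∑ y, ‖X (i + 1) y x - X i y x‖ * D2 x y) := by
    intro i hi
    have hi' : i < I' := Finset.mem_range.mp hi
    have hF := hfits (i + 1) (by omega)
    have h1 := level_jump (A := (X i : Mt (ZMod N))) (A' := (X (i + 1) : Mt (ZMod N)))
      (B := (F0 : Mt (ZMod N))) (W := Y) hq hF (hXY i) (hXY (i + 1))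
    have h2 := level_jump (A := (X i : Mt (ZMod N))ᴴ) (A' := (X (i + 1) : Mt (ZMod N))ᴴ)
      (B := F1c) (W := fun x y => Y y x) hq hF
      (fun x y => by
        change ‖star (X i y x)‖ ≤ _
        rw [norm_star]
        exact hXY i y x)
      (fun x y => by
        change ‖star (X (i + 1) y x)‖ ≤ _
        rw [norm_star]
        exact hXY (i + 1) y x)
    simp only [Q, Qt]
    rw [Q_swap (F1 : Mt (ZMod N)) (X (i + 1) : Mt (ZMod N)), Q_swap (F1 : Mt (ZMod N)) (X i : Mt (ZMod N))]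
    have h1' : (pairData (X (i + 1) : Mt (ZMod N)) (F0 : Mt (ZMod N)) : Data (ZMod N) _ _).Q (U (i + 1)) (O (i + 1)) -
        (pairData (X i : Mt (ZMod N)) (F0 : Mt (ZMod N)) : Data (ZMod N) _ _).Q (U (i + 1)) (O (i + 1)) ≤
        63 * ∑ x, ∑ y, ‖X (i + 1) x y - X i x y‖ * D1 x y := h1
    have e2 : ∑ x, ∑ y, ‖((X (i + 1) : Mt (ZMod N))ᴴ - (X i : Mt (ZMod N))ᴴ) x y‖ *
        Dom (fun x y => Y y x) (fun y z => ‖F1c y z‖) x y =
        ∑ x, ∑ y, ‖X (i + 1) y x - X i y x‖ * D2 x y := by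
      refine Finset.sum_congr rfl fun x _ => Finset.sum_congr rfl fun y _ => ?_
      congr 1
      change ‖star (X (i + 1) y x) - star (X i y x)‖ = _
      rw [← star_sub, norm_star]
    rw [e2] at h2
    have h2' : (pairData (X (i + 1) : Mt (ZMod N))ᴴ F1c : Data (ZMod N) _ _).Q (U (i + 1)) (O (i + 1)) -
        (pairData (X i : Mt (ZMod N))ᴴ F1c : Data (ZMod N) _ _).Q (U (i + 1)) (O (i + 1)) ≤
        63 * ∑ x, ∑ y, ‖X (i + 1) y x - X i y x‖ * D2 x y := h2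
    linarith
  -- the time sums
  have hsum1 : ∑ i ∈ Finset.range I', ∑ x, ∑ y, ‖X (i + 1) x y - X i x y‖ * D1 x y ≤
      ∑ x, ∑ y, V x y * D1 x y := by
    rw [Finset.sum_comm]
    refine Finset.sum_le_sum fun x _ => ?_
    rw [Finset.sum_comm]
    refine Finset.sum_le_sum fun y _ => ?_
    rw [← Finset.sum_mul]
    refine mul_le_mul_of_nonneg_right ?_ (hD1 x y)
    exact Finset.sum_le_sum_of_subset_of_nonneg
      (Finset.range_subset_range.mpr (Nat.le_succ _)) (fun _ _ _ => norm_nonneg _)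
  have hsum2 : ∑ i ∈ Finset.range I', ∑ x, ∑ y, ‖X (i + 1) y x - X i y x‖ * D2 x y ≤
      ∑ x, ∑ y, V y x * D2 x y := by
    rw [Finset.sum_comm]
    refine Finset.sum_le_sum fun x _ => ?_
    rw [Finset.sum_comm]
    refine Finset.sum_le_sum fun y _ => ?_
    rw [← Finset.sum_mul]
    refine mul_le_mul_of_nonneg_right ?_ (hD2 x y)
    exact Finset.sum_le_sum_of_subset_of_nonneg
      (Finset.range_subset_range.mpr (Nat.le_succ _)) (fun _ _ _ => norm_nonneg _)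
  -- the maximal estimate
  have hS3rV : S3r V = ∑ u : ZMod N, ∑ v : ZMod N,
      (∑ i ∈ Finset.range (I' + 1), ‖X (i + 1) u v - X i u v‖) ^ 3 := by
    unfold S3r
    refine Finset.sum_congr rfl fun u _ => Finset.sum_congr rfl fun v _ => ?_
    rw [abs_of_nonneg (hV0 u v)]
  have hS3rVt : S3r (fun x y => V y x) = S3r V := by
    unfold S3r
    exact Finset.sum_comm
  have hS3rYt : S3r (fun x y => Y y x) = S3r Y := by
    unfold S3r
    exact Finset.sum_comm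
  have hS3rF0 : S3r (fun y z => ‖(F0 : Mt (ZMod N)) y z‖) = S3 F0 := by
    unfold S3r S3
    refine Finset.sum_congr rfl fun u _ => Finset.sum_congr rfl fun v _ => ?_
    rw [abs_of_nonneg (norm_nonneg _)]
  have hS3rF1 : S3r (fun y z => ‖F1c y z‖) = S3 F1 := by
    unfold S3r S3
    rw [Finset.sum_comm]
    refine Finset.sum_congr rfl fun u _ => Finset.sum_congr rfl fun v _ => ?_
    rw [abs_of_nonneg (norm_nonneg _)]
    change ‖star (F1 u v)‖ ^ 3 = _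
    rw [norm_star]
  have hdom1 : ∑ x, ∑ y, V x y * D1 x y ≤ CD * a * b * (b + c0) := by
    have := dom_sum_le V Y (fun y z => ‖(F0 : Mt (ZMod N)) y z‖) hV0 hY0 (fun _ _ => norm_nonneg _)
    rw [hS3rF0, hS3rV] at this
    simp only [D1, Dom, mul_assoc] at this ⊢
    exact this
  have hdom2 : ∑ x, ∑ y, V y x * D2 x y ≤ CD * a * b * (b + c1) := by
    have := dom_sum_le (fun x y => V y x) (fun x y => Y y x) (fun y z => ‖F1c y z‖)
      (fun x y => hV0 y x) (fun x y => hY0 y x) (fun _ _ => norm_nonneg _)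
    rw [hS3rF1, hS3rVt, hS3rYt, hS3rV] at this
    simp only [D2, Dom, mul_assoc] at this ⊢
    exact this
  -- assembling
  have hjumps : ∑ i ∈ Finset.range I', (Q (i + 1) (X (i + 1)) - Q (i + 1) (X i)) ≤
      63 * (CD * a * b * (b + c0)) + 63 * (CD * a * b * (b + c1)) := by
    refine (Finset.sum_le_sum hjump).trans ?_
    rw [Finset.sum_add_distrib, ← Finset.mul_sum, ← Finset.mul_sum]
    exact add_le_add (mul_le_mul_of_nonneg_left (hsum1.trans hdom1) (by norm_num))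
      (mul_le_mul_of_nonneg_left (hsum2.trans hdom2) (by norm_num))
  refine hlad.trans ?_
  have hfin := final_arith hCD hs0 ha0 hb0 hc00 hc10
  refine le_trans (mul_le_mul_of_nonneg_left (add_le_add hQ0 hjumps) (by norm_num)) hfin

/-- **`T_B`**, helper73's interface. -/
theorem T_B : ∃ C : ℝ, 0 ≤ C ∧ TBStatement C := by
  refine ⟨CTB, by unfold CTB; have := CD_nonneg; positivity, ?_⟩
  intro N τ₀ I _ h8 hτ hN F0 F1 X Y hXY
  exact TB_main τ₀ I h8 hτ hN F0 F1 X Y hXY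

end Crest.Agent.TriRL
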