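import Crest.Agent.TriRL.Calderon

/-!
# The one-dimensional pointwise part of the lattice theorem (L10a of the S0096 blueprint)

Fix `φ : ℤ → ℂ`.  A finite family of pairwise disjoint integer annuli `α j ≤ |t| < β j` is split at
dyadic radii into partial pieces (inside one block) and long pieces with dyadic radii.  The long
pieces are compared with the ladder kernels `K k`, the partial pieces and the dyadic end point
errors `Ehat k` go to `block_sum_bound₀`.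
-/

set_option autoImplicit false

namespace Crest.Agent.TriRL.Cal

open Finset

/-- The half-integer centred cut-off `1_{r₁ ≤ |t + 1/2| < r₂} / (t + 1/2)`. -/
noncomputable def vK (r₁ r₂ : ℤ) (t : ℤ) : ℂ :=
  if 2 * r₁ ≤ |2 * t + 1| ∧ |2 * t + 1| < 2 * r₂ then ((t : ℂ) + 1 / 2)⁻¹ else 0

/-- Finite pairing on the window `[-X, X]`. -/
noncomputable def pairX (X : ℤ) (κ φ : ℤ → ℂ) : ℂ := ∑ v ∈ Finset.Icc (-X) X, κ v * φ v

lemma vK_add (r₁ r₂ r₃ : ℤ) (h₁₂ : r₁ ≤ r₂) (h₂₃ : r₂ ≤ r₃) (t : ℤ) :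
    vK r₁ r₂ t + vK r₂ r₃ t = vK r₁ r₃ t := by
  unfold vK
  split_ifs <;> first | omega | simp

lemma vK_sum_Ico (a b : ℕ) (hab : a ≤ b) (t : ℤ) :
    ∑ k ∈ Finset.Ico a b, vK ((2 : ℤ) ^ k) ((2 : ℤ) ^ (k + 1)) t =
      vK ((2 : ℤ) ^ a) ((2 : ℤ) ^ b) t := by
  induction b, hab using Nat.le_induction with
  | base =>
    simp only [Finset.Ico_self, sum_empty]
    unfold vK
    rw [if_neg]
    omega
  | succ b hb ih =>
    rw [Finset.sum_Ico_succ_top hb, ih]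
    exact vK_add _ _ _ (pow_le_pow_right₀ (by norm_num) hb)
      (pow_le_pow_right₀ (by norm_num) (Nat.le_succ b)) t

/-- The three-piece split of an annulus. -/
lemma cutK_split (α β A B B' : ℤ) (hαA : α ≤ A) (hBβ : B ≤ β)
    (hcase : (A ≤ B ∧ B' = B) ∨ (β < A ∧ B' = A)) (t : ℤ) :
    cutK α β t = cutK α (min β A) t + cutK A B t + cutK B' β t := by
  unfold cutK
  rcases hcase with ⟨h1, h2⟩ | ⟨h1, h2⟩
  · rw [h2]
    have hm : min β A = A := min_eq_right (by omega)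
    rw [hm]
    split_ifs <;> first | omega | simp
  · rw [h2]
    have hm : min β A = β := min_eq_left (by omega)
    rw [hm]
    split_ifs <;> first | omega | simp


/-! ### Partial pieces -/

section Pieces

variable {ι : Type*}

/-- The two dyadic radii of an annulus: `clog α`, `log β`. -/
def kA (α : ℕ) : ℕ := Nat.clog 2 α
/-- see `kA` -/
def kB (β : ℕ) : ℕ := Nat.log 2 β

lemma le_pow_kA (α : ℕ) : α ≤ 2 ^ kA α := Nat.le_pow_clog (by norm_num) α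

lemma pow_kA_pred_lt (α : ℕ) (hα : 2 ≤ α) : 2 ^ (kA α - 1) < α :=
  Nat.pow_pred_clog_lt_self (by norm_num) (by omega)

lemma kA_pos (α : ℕ) (hα : 2 ≤ α) : 1 ≤ kA α := Nat.clog_pos (by norm_num) hα

lemma pow_kB_le (β : ℕ) (hβ : β ≠ 0) : 2 ^ kB β ≤ β := Nat.pow_log_le_self 2 hβ

lemma lt_pow_kB (β : ℕ) : β < 2 ^ (kB β + 1) := Nat.lt_pow_succ_log_self (by norm_num) β

/-- Block index of a piece. -/
def pBlock (α β : ι → ℕ) (i : ι × Bool) : ℕ :=
  if i.2 then max (kA (α i.1)) (kB (β i.1)) else kA (α i.1) - 1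

/-- Lower end of a piece. -/
def pLo (α β : ι → ℕ) (i : ι × Bool) : ℤ :=
  if i.2 then (2 : ℤ) ^ max (kA (α i.1)) (kB (β i.1)) else (α i.1 : ℤ)

/-- Upper end of a piece. -/
def pHi (α β : ι → ℕ) (i : ι × Bool) : ℤ :=
  if i.2 then (β i.1 : ℤ) else min (β i.1 : ℤ) ((2 : ℤ) ^ kA (α i.1))

lemma pLo_ge (α β : ι → ℕ) (i : ι × Bool) : (α i.1 : ℤ) ≤ pLo α β i := by
  unfold pLo
  split_ifs
  · have h1 : α i.1 ≤ 2 ^ max (kA (α i.1)) (kB (β i.1)) :=
      (le_pow_kA _).trans (Nat.pow_le_pow_right (by norm_num) (le_max_left _ _))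
    exact_mod_cast h1
  · exact le_rfl

lemma pHi_le (α β : ι → ℕ) (i : ι × Bool) : pHi α β i ≤ (β i.1 : ℤ) := by
  unfold pHi
  split_ifs
  · exact le_rfl
  · exact min_le_left _ _

lemma pLo_block (α β : ι → ℕ) (i : ι × Bool) (hα : 2 ≤ α i.1) :
    ((2 ^ pBlock α β i : ℕ) : ℤ) ≤ pLo α β i := by
  unfold pBlock pLo
  split_ifs
  · push_cast
    exact le_rfl
  · have := pow_kA_pred_lt _ hα
    exact_mod_cast this.le

lemma pHi_block (α β : ι → ℕ) (i : ι × Bool) (hα : 2 ≤ α i.1) :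
    pHi α β i ≤ 2 * ((2 ^ pBlock α β i : ℕ) : ℤ) := by
  unfold pBlock pHi
  split_ifs
  · have h1 := lt_pow_kB (β i.1)
    have h2 : 2 ^ (kB (β i.1) + 1) ≤ 2 * 2 ^ max (kA (α i.1)) (kB (β i.1)) := by
      rw [pow_succ, mul_comm]
      exact Nat.mul_le_mul_left 2 (Nat.pow_le_pow_right (by norm_num) (le_max_right _ _))
    have h3 : β i.1 ≤ 2 * 2 ^ max (kA (α i.1)) (kB (β i.1)) := by omega
    exact_mod_cast h3
  · refine (min_le_right _ _).trans (le_of_eq ?_)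
    have h1 := kA_pos _ hα
    have : kA (α i.1) = kA (α i.1) - 1 + 1 := by omega
    push_cast
    conv_lhs => rw [this, pow_succ]
    ring

/-- The split of the pairing of an annulus into the two pieces and the long part. -/
lemma annulus_split (α β : ℕ) (hαβ : α < β) (t : ℤ) :
    cutK α β t = cutK α (min (β : ℤ) ((2 : ℤ) ^ kA α)) t +
      cutK ((2 : ℤ) ^ kA α) ((2 : ℤ) ^ kB β) t +
      cutK ((2 : ℤ) ^ max (kA α) (kB β)) β t := by
  apply cutK_split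
  · exact_mod_cast le_pow_kA α
  · exact_mod_cast pow_kB_le β (by omega)
  · rcases le_or_gt (kA α) (kB β) with h | h
    · left
      constructor
      · exact pow_le_pow_right₀ (by norm_num) h
      · rw [max_eq_right h]
    · right
      constructor
      · have h1 := lt_pow_kB β
        have h2 : 2 ^ (kB β + 1) ≤ 2 ^ kA α := Nat.pow_le_pow_right (by norm_num) h
        have h3 : β < 2 ^ kA α := by omega
        exact_mod_cast h3
      · rw [max_eq_left h.le]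


lemma tsum_eq_pairX (κ φ : ℤ → ℂ) (X : ℤ) (h : ∀ v, κ v ≠ 0 → |v| ≤ X) :
    ∑' v, κ v * φ v = pairX X κ φ := by
  unfold pairX
  apply tsum_eq_sum
  intro v hv
  have : κ v = 0 := by
    by_contra h0
    have := h v h0
    rw [abs_le] at this
    exact hv (Finset.mem_Icc.mpr this)
  simp [this]

lemma pairX_add (X : ℤ) (κ κ' φ : ℤ → ℂ) :
    pairX X (fun t => κ t + κ' t) φ = pairX X κ φ + pairX X κ' φ := by
  unfold pairX
  rw [← sum_add_distrib]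
  apply sum_congr rfl
  intro v _
  ring

lemma pairX_sub (X : ℤ) (κ κ' φ : ℤ → ℂ) :
    pairX X (fun t => κ t - κ' t) φ = pairX X κ φ - pairX X κ' φ := by
  unfold pairX
  rw [← sum_sub_distrib]
  apply sum_congr rfl
  intro v _
  ring

lemma pairX_smul (X : ℤ) (c : ℂ) (κ φ : ℤ → ℂ) :
    pairX X (fun t => c * κ t) φ = c * pairX X κ φ := by
  unfold pairX
  rw [mul_sum]
  apply sum_congr rfl
  intro v _
  ring

lemma pairX_sum {γ : Type*} (X : ℤ) (S : Finset γ) (κ : γ → ℤ → ℂ) (φ : ℤ → ℂ) :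
    pairX X (fun t => ∑ g ∈ S, κ g t) φ = ∑ g ∈ S, pairX X (κ g) φ := by
  unfold pairX
  rw [sum_comm]
  apply sum_congr rfl
  intro v _
  rw [sum_mul]

lemma norm_pairX_le (X : ℤ) (κ φ : ℤ → ℂ) :
    ‖pairX X κ φ‖ ≤ ∑ v ∈ Finset.Icc (-X) X, ‖κ v‖ * ‖φ v‖ := by
  unfold pairX
  refine (norm_sum_le _ _).trans (le_of_eq ?_)
  simp only [norm_mul]

/-- The partial pieces of a disjoint family of annuli. -/
theorem partial_family_bound [DecidableEq ι] (J : Finset ι) (α β : ι → ℕ) (kmax : ℕ)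
    (hα : ∀ j ∈ J, 2 ≤ α j)
    (hβ : ∀ j ∈ J, kA (α j) ≤ kmax ∧ kB (β j) ≤ kmax)
    (hdisj : ∀ j ∈ J, ∀ j' ∈ J, j ≠ j' → β j ≤ α j' ∨ β j' ≤ α j)
    (φ : ℤ → ℂ) (m : ℝ) (hm0 : 0 ≤ m)
    (hm : ∀ T : ℕ, ∑ t ∈ Finset.Icc (-(T : ℤ)) T, ‖φ t‖ ≤ m * (2 * T + 1))
    (L q : ℕ) (hL : 2 ≤ L) (hq : kmax + L ≤ q) :
    ∑ i ∈ J ×ˢ (Finset.univ : Finset Bool),
        ‖∑' v, cutK (pLo α β i) (pHi α β i) v * φ v‖ ≤
      400 * Real.sqrt J.card *
        (∑ l ∈ range q, rho ^ l * Real.sqrt (sqf (l + 2) (Finset.Ico 0 q) φ)) +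
      756 * m * J.card / 2 ^ L := by
  classical
  set P : Finset (ι × Bool) := J ×ˢ (Finset.univ : Finset Bool) with hP
  have hPcard : P.card = 2 * J.card := by
    simp [hP, Finset.card_product, mul_comm]
  set Ks : Finset ℕ := P.image (pBlock α β) with hKs
  set I : ℕ → Finset (ι × Bool) := fun k => P.filter fun i => pBlock α β i = k with hI
  set JJ : ℕ → Finset ℤ := fun k => (I k).biUnion fun i =>
    {pLo α β i, pHi α β i, -pHi α β i + 1, -pLo α β i + 1} with hJJ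
  have hmem : ∀ i ∈ P, i.1 ∈ J := fun i hi => (Finset.mem_product.mp hi).1
  have hblock : ∀ k ∈ Ks, BlockHyp (2 ^ k) (I k)
      (fun i => cutK (pLo α β i) (pHi α β i)) (JJ k) 1 1 := by
    intro k _
    apply partial_blockHyp (2 ^ k) (by positivity) (I k) (pLo α β) (pHi α β)
    · intro i hi
      have hi' := Finset.mem_filter.mp hi
      have := pLo_block α β i (hα _ (hmem i hi'.1))
      rwa [hi'.2] at this
    · intro i hi
      have hi' := Finset.mem_filter.mp hi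
      have := pHi_block α β i (hα _ (hmem i hi'.1))
      rwa [hi'.2] at this
    · intro i hi i' hi' hne
      have hi1 := Finset.mem_filter.mp hi
      have hi2 := Finset.mem_filter.mp hi'
      have hjne : i.1 ≠ i'.1 := by
        intro heq
        rcases i with ⟨a, s⟩
        rcases i' with ⟨b, s'⟩
        simp only at heq
        subst heq
        have hbl : pBlock α β (a, s) = pBlock α β (a, s') := by
          rw [hi1.2, hi2.2]
        have hapos := kA_pos _ (hα _ (hmem _ hi1.1))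
        have e1 : pBlock α β (a, true) = max (kA (α a)) (kB (β a)) := by simp [pBlock]
        have e2 : pBlock α β (a, false) = kA (α a) - 1 := by simp [pBlock]
        have e3 := le_max_left (kA (α a)) (kB (β a))
        simp only at hapos
        cases s <;> cases s'
        · exact hne rfl
        · rw [e2, e1] at hbl; omega
        · rw [e2, e1] at hbl; omega
        · exact hne rfl
      rcases hdisj _ (hmem i hi1.1) _ (hmem i' hi2.1) hjne with h | h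
      · left
        have h1 := pHi_le α β i
        have h2 := pLo_ge α β i'
        have h3 : (β i.1 : ℤ) ≤ α i'.1 := by exact_mod_cast h
        omega
      · right
        have h1 := pHi_le α β i'
        have h2 := pLo_ge α β i
        have h3 : (β i'.1 : ℤ) ≤ α i.1 := by exact_mod_cast h
        omega
  have hqk : ∀ k ∈ Ks, k + L ≤ q := by
    intro k hk
    rw [hKs, Finset.mem_image] at hk
    obtain ⟨i, hi, rfl⟩ := hk
    have := hβ _ (hmem i hi)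
    have : pBlock α β i ≤ kmax := by
      unfold pBlock
      split_ifs
      · exact max_le this.1 this.2
      · omega
    omega
  have hmain := block_sum_bound₀ Ks I (fun _ i => cutK (pLo α β i) (pHi α β i)) JJ 1 1
    zero_le_one hblock φ m hm0 hm L q hL hqk
  have hLHS : ∑ k ∈ Ks, ∑ i ∈ I k, ‖∑' v, cutK (pLo α β i) (pHi α β i) v * φ v‖ =
      ∑ i ∈ P, ‖∑' v, cutK (pLo α β i) (pHi α β i) v * φ v‖ := by
    apply Finset.sum_fiberwise_of_maps_to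
    intro i hi
    exact Finset.mem_image_of_mem _ hi
  rw [hLHS] at hmain
  have hKscard : (Ks.card : ℝ) ≤ 2 * J.card := by
    have : Ks.card ≤ P.card := Finset.card_image_le
    rw [hPcard] at this
    exact_mod_cast this
  have hJJcard : (∑ k ∈ Ks, ((JJ k).card : ℝ)) ≤ 8 * J.card := by
    have h1 : ∀ k ∈ Ks, ((JJ k).card : ℝ) ≤ 4 * ((I k).card : ℝ) := by
      intro k _
      have : (JJ k).card ≤ (I k).card * 4 := by
        apply Finset.card_biUnion_le_card_mul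
        intro i _
        exact Finset.card_le_four
      have h2 : ((JJ k).card : ℝ) ≤ ((I k).card * 4 : ℕ) := by exact_mod_cast this
      push_cast at h2
      linarith
    calc (∑ k ∈ Ks, ((JJ k).card : ℝ)) ≤ ∑ k ∈ Ks, 4 * ((I k).card : ℝ) := sum_le_sum h1
      _ = 4 * ((∑ k ∈ Ks, (I k).card : ℕ) : ℝ) := by
          rw [← mul_sum]
          push_cast
          rfl
      _ = 4 * (P.card : ℝ) := by
          congr 2
          symm
          apply Finset.card_eq_sum_card_fiberwise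
          intro i hi
          exact Finset.mem_coe.mpr (Finset.mem_image_of_mem _ (Finset.mem_coe.mp hi))
      _ = 8 * J.card := by
          rw [hPcard]
          push_cast
          ring
  set S : ℝ := ∑ l ∈ range q, rho ^ l * Real.sqrt (sqf (l + 2) (Finset.Ico 0 q) φ) with hS
  have hS0 : 0 ≤ S := sum_nonneg fun l _ =>
    mul_nonneg (pow_nonneg rho_nonneg l) (Real.sqrt_nonneg _)
  have hn0 : (0 : ℝ) ≤ J.card := by positivity
  have hcoef : Real.sqrt (8 * (∑ k ∈ Ks, ((JJ k).card : ℝ)) * 1 ^ 2 + 9 * 1 ^ 2 * Ks.card) +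
      240 * 1 * Real.sqrt Ks.card ≤ 400 * Real.sqrt J.card := by
    have h1 : Real.sqrt (8 * (∑ k ∈ Ks, ((JJ k).card : ℝ)) * 1 ^ 2 + 9 * 1 ^ 2 * Ks.card) ≤
        10 * Real.sqrt J.card := by
      have : 8 * (∑ k ∈ Ks, ((JJ k).card : ℝ)) * 1 ^ 2 + 9 * 1 ^ 2 * Ks.card ≤ 100 * J.card := by
        nlinarith
      calc _ ≤ Real.sqrt (100 * J.card) := Real.sqrt_le_sqrt this
        _ = 10 * Real.sqrt J.card := by
            rw [Real.sqrt_mul (by norm_num)]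
            congr 1
            rw [show (100 : ℝ) = 10 ^ 2 by norm_num]
            exact Real.sqrt_sq (by norm_num)
    have h2 : Real.sqrt Ks.card ≤ (3 / 2) * Real.sqrt J.card := by
      have : (Ks.card : ℝ) ≤ (9 / 4) * J.card := by linarith
      calc _ ≤ Real.sqrt ((9 / 4) * J.card) := Real.sqrt_le_sqrt this
        _ = (3 / 2) * Real.sqrt J.card := by
            rw [Real.sqrt_mul (by norm_num)]
            congr 1
            rw [show (9 / 4 : ℝ) = (3 / 2) ^ 2 by norm_num]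
            exact Real.sqrt_sq (by norm_num)
    have h3 := Real.sqrt_nonneg (J.card : ℝ)
    linarith
  refine hmain.trans ?_
  apply add_le_add
  · exact mul_le_mul_of_nonneg_right hcoef hS0
  · apply div_le_div_of_nonneg_right _ (by positivity)
    have : (Ks.card : ℝ) * m ≤ (2 * J.card) * m := mul_le_mul_of_nonneg_right hKscard hm0
    nlinarith


/-! ### The long pieces -/

lemma norm_inv_sub_inv (t : ℤ) (ht : t ≠ 0) :
    ‖((t : ℂ))⁻¹ - ((t : ℂ) + 1 / 2)⁻¹‖ ≤ 1 / (t : ℝ) ^ 2 := by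
  have htR : (t : ℝ) ≠ 0 := by exact_mod_cast ht
  have hge : |(t : ℝ)| / 2 ≤ |(t : ℝ) + 1 / 2| := by
    rcases lt_or_gt_of_ne ht with h | h
    · have h1 : (t : ℝ) ≤ -1 := by exact_mod_cast (by omega : t ≤ -1)
      rw [abs_of_neg (by linarith : (t : ℝ) < 0), abs_of_neg (by linarith : (t : ℝ) + 1 / 2 < 0)]
      linarith
    · have h1 : (1 : ℝ) ≤ t := by exact_mod_cast (by omega : 1 ≤ t)
      rw [abs_of_pos (by linarith : (0 : ℝ) < t), abs_of_pos (by linarith : (0 : ℝ) < t + 1 / 2)]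
      linarith
  have hpos : 0 < |(t : ℝ)| := abs_pos.mpr htR
  have hne : (t : ℝ) + 1 / 2 ≠ 0 := by
    intro h0
    rw [h0, abs_zero] at hge
    linarith
  have e : ((t : ℂ))⁻¹ - ((t : ℂ) + 1 / 2)⁻¹ = (((t : ℝ))⁻¹ - ((t : ℝ) + 1 / 2)⁻¹ : ℝ) := by
    push_cast
    ring
  rw [e, Complex.norm_real, Real.norm_eq_abs]
  have e2 : ((t : ℝ))⁻¹ - ((t : ℝ) + 1 / 2)⁻¹ = (1 / 2) / ((t : ℝ) * ((t : ℝ) + 1 / 2)) := by
    rw [inv_sub_inv htR hne]
    congr 1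
    ring
  rw [e2, abs_div, abs_mul, abs_of_pos (by norm_num : (0 : ℝ) < 1 / 2)]
  have h3 : (t : ℝ) ^ 2 = |(t : ℝ)| * |(t : ℝ)| := by
    rw [← abs_mul, abs_of_nonneg (mul_self_nonneg _)]
    ring
  rw [h3, div_le_div_iff₀ (by positivity) (by positivity)]
  nlinarith

/-- Pointwise comparison of the two centrings. -/
lemma norm_cutK_sub_vK (r₁ r₂ t : ℤ) (h1 : 1 ≤ r₁) (h12 : r₁ < r₂) :
    ‖cutK r₁ r₂ t - vK r₁ r₂ t‖ ≤
      (if r₁ ≤ |t| ∧ |t| < r₂ then 1 / (t : ℝ) ^ 2 else 0) +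
      (if t = -r₁ then ((r₁ : ℝ))⁻¹ else 0) + (if t = -r₂ then 2 * ((r₂ : ℝ))⁻¹ else 0) := by
  unfold cutK vK
  have hsq : (0 : ℝ) ≤ 1 / (t : ℝ) ^ 2 := by positivity
  have hr₁ : (0 : ℝ) < r₁ := by exact_mod_cast (by omega : 0 < r₁)
  have hr₂ : (0 : ℝ) < r₂ := by exact_mod_cast (by omega : 0 < r₂)
  by_cases hP : r₁ ≤ |t| ∧ |t| < r₂
  · have ht0 : t ≠ 0 := by
      intro h0
      rw [h0, abs_zero] at hP
      omega
    by_cases hQ : 2 * r₁ ≤ |2 * t + 1| ∧ |2 * t + 1| < 2 * r₂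
    · rw [if_pos hP, if_pos hQ, if_pos hP]
      have h2 : (0 : ℝ) ≤ if t = -r₁ then ((r₁ : ℝ))⁻¹ else 0 := by
        split_ifs <;> positivity
      have h3 : (0 : ℝ) ≤ if t = -r₂ then 2 * ((r₂ : ℝ))⁻¹ else 0 := by
        split_ifs <;> positivity
      have := norm_inv_sub_inv t ht0
      linarith
    · rw [if_pos hP, if_neg hQ, if_pos hP, sub_zero]
      have htr : t = -r₁ := by
        rcases abs_cases t with ⟨a1, a2⟩ | ⟨a1, a2⟩ <;>
          rcases abs_cases (2 * t + 1) with ⟨a3, a4⟩ | ⟨a3, a4⟩ <;>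
            rw [a1] at hP <;> rw [a3] at hQ <;> omega
      have hne : t ≠ -r₂ := by omega
      rw [if_pos htr, if_neg hne, add_zero, norm_inv, Complex.norm_intCast]
      have e : |(t : ℝ)| = r₁ := by
        rw [htr]
        push_cast
        rw [abs_neg, abs_of_pos hr₁]
      rw [e]
      linarith
  · by_cases hQ : 2 * r₁ ≤ |2 * t + 1| ∧ |2 * t + 1| < 2 * r₂
    · rw [if_neg hP, if_pos hQ, if_neg hP, zero_sub, norm_neg]
      have htr : t = -r₂ := by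
        rcases abs_cases t with ⟨a1, a2⟩ | ⟨a1, a2⟩ <;>
          rcases abs_cases (2 * t + 1) with ⟨a3, a4⟩ | ⟨a3, a4⟩ <;>
            rw [a1] at hP <;> rw [a3] at hQ <;> omega
      have hne : t ≠ -r₁ := by omega
      rw [if_pos htr, if_neg hne, zero_add, zero_add, norm_inv]
      have hr₂1 : (2 : ℝ) ≤ r₂ := by exact_mod_cast (by omega : 2 ≤ r₂)
      have e : ‖(t : ℂ) + 1 / 2‖ = (r₂ : ℝ) - 1 / 2 := by
        have e' : (t : ℂ) + 1 / 2 = (((t : ℝ) + 1 / 2 : ℝ) : ℂ) := by push_cast; ring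
        rw [e', Complex.norm_real, Real.norm_eq_abs, htr]
        push_cast
        rw [abs_of_neg (by linarith)]
        ring
      rw [e]
      rw [inv_le_iff_one_le_mul₀ (by linarith)]
      field_simp
      linarith
    · rw [if_neg hP, if_neg hQ, if_neg hP, sub_zero, norm_zero, zero_add]
      have h2 : (0 : ℝ) ≤ if t = -r₁ then ((r₁ : ℝ))⁻¹ else 0 := by
        split_ifs <;> positivity
      have h3 : (0 : ℝ) ≤ if t = -r₂ then 2 * ((r₂ : ℝ))⁻¹ else 0 := by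
        split_ifs <;> positivity
      linarith

/-- `Σ_t (if t = c then a else 0) * g t ≤ a * g c` for nonnegative data. -/
lemma sum_ite_single_le (S : Finset ℤ) (c : ℤ) (a : ℝ) (ha : 0 ≤ a) (g : ℤ → ℝ) (hg : ∀ t, 0 ≤ g t) :
    ∑ t ∈ S, (if t = c then a else 0) * g t ≤ a * g c := by
  classical
  have : ∀ t ∈ S, (if t = c then a else 0) * g t = if t = c then a * g t else 0 := by
    intro t _
    split_ifs <;> simp
  rw [Finset.sum_congr rfl this, Finset.sum_ite_eq' S c]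
  split_ifs
  · exact le_rfl
  · exact mul_nonneg ha (hg c)

/-- The pairing of the difference of the two centrings. -/
lemma norm_pairX_cut_sub_vK (X r₁ r₂ : ℤ) (h1 : 1 ≤ r₁) (h12 : r₁ < r₂) (φ : ℤ → ℂ) :
    ‖pairX X (fun t => cutK r₁ r₂ t - vK r₁ r₂ t) φ‖ ≤
      ∑ t ∈ Finset.Icc (-X) X, (if r₁ ≤ |t| ∧ |t| < r₂ then ‖φ t‖ / (t : ℝ) ^ 2 else 0) +
      ((r₁ : ℝ))⁻¹ * ‖φ (-r₁)‖ + 2 * ((r₂ : ℝ))⁻¹ * ‖φ (-r₂)‖ := by
  have hr₁ : (0 : ℝ) ≤ ((r₁ : ℝ))⁻¹ := by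
    have : (0 : ℝ) < r₁ := by exact_mod_cast (by omega : 0 < r₁)
    positivity
  have hr₂ : (0 : ℝ) ≤ 2 * ((r₂ : ℝ))⁻¹ := by
    have : (0 : ℝ) < r₂ := by exact_mod_cast (by omega : 0 < r₂)
    positivity
  refine (norm_pairX_le _ _ _).trans ?_
  calc ∑ v ∈ Finset.Icc (-X) X, ‖cutK r₁ r₂ v - vK r₁ r₂ v‖ * ‖φ v‖
      ≤ ∑ v ∈ Finset.Icc (-X) X, ((if r₁ ≤ |v| ∧ |v| < r₂ then ‖φ v‖ / (v : ℝ) ^ 2 else 0) +
          (if v = -r₁ then ((r₁ : ℝ))⁻¹ else 0) * ‖φ v‖ +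
          (if v = -r₂ then 2 * ((r₂ : ℝ))⁻¹ else 0) * ‖φ v‖) := by
        apply sum_le_sum
        intro v _
        have := mul_le_mul_of_nonneg_right (norm_cutK_sub_vK r₁ r₂ v h1 h12) (norm_nonneg (φ v))
        refine this.trans (le_of_eq ?_)
        split_ifs <;> ring
    _ = ∑ v ∈ Finset.Icc (-X) X, (if r₁ ≤ |v| ∧ |v| < r₂ then ‖φ v‖ / (v : ℝ) ^ 2 else 0) +
          ∑ v ∈ Finset.Icc (-X) X, (if v = -r₁ then ((r₁ : ℝ))⁻¹ else 0) * ‖φ v‖ +
          ∑ v ∈ Finset.Icc (-X) X, (if v = -r₂ then 2 * ((r₂ : ℝ))⁻¹ else 0) * ‖φ v‖ := by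
        rw [sum_add_distrib, sum_add_distrib]
    _ ≤ _ := by
        gcongr
        · exact sum_ite_single_le _ _ _ hr₁ _ (fun t => norm_nonneg _)
        · exact sum_ite_single_le _ _ _ hr₂ _ (fun t => norm_nonneg _)

lemma sum_Ico_tele (g : ℕ → ℂ) (a b : ℕ) (h : a ≤ b) :
    ∑ k ∈ Finset.Ico a b, (g (k + 1) - g k) = g b - g a := by
  induction b, h using Nat.le_induction with
  | base => simp
  | succ b hb ih =>
    rw [Finset.sum_Ico_succ_top hb, ih]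
    ring

/-- Abstract long-piece estimate. -/
lemma long_bound (X : ℤ) (a b kmin kmax : ℕ) (hab : a < b) (hakmin : kmin ≤ a)
    (hbkmax : b ≤ kmax)
    (K Ehat err : ℕ → ℤ → ℂ) (c₀ : ℂ) (hc₀ : c₀ ≠ 0)
    (hker : ∀ k ∈ Finset.Ico kmin kmax, ∀ t, K k t =
      c₀ * vK ((2 : ℤ) ^ k) ((2 : ℤ) ^ (k + 1)) t - Ehat k t + Ehat (k + 1) t + err k t)
    (φ : ℤ → ℂ) :
    ‖pairX X (cutK ((2 : ℤ) ^ a) ((2 : ℤ) ^ b)) φ‖ ≤
      ‖c₀‖⁻¹ * (‖∑ k ∈ Finset.Ico a b, pairX X (K k) φ‖ + ‖pairX X (Ehat a) φ‖ +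
          ‖pairX X (Ehat b) φ‖ +
          ∑ k ∈ Finset.Ico a b, ∑ t ∈ Finset.Icc (-X) X, ‖err k t‖ * ‖φ t‖) +
      (∑ t ∈ Finset.Icc (-X) X,
          (if (2 : ℤ) ^ a ≤ |t| ∧ |t| < (2 : ℤ) ^ b then ‖φ t‖ / (t : ℝ) ^ 2 else 0) +
        ((2 : ℝ) ^ a)⁻¹ * ‖φ (-(2 : ℤ) ^ a)‖ + 2 * ((2 : ℝ) ^ b)⁻¹ * ‖φ (-(2 : ℤ) ^ b)‖) := by
  have hr₁ : (1 : ℤ) ≤ (2 : ℤ) ^ a := one_le_pow₀ (by norm_num)
  have hr₂ : (2 : ℤ) ^ a < (2 : ℤ) ^ b := pow_lt_pow_right₀ (by norm_num) hab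
  have hdiff := norm_pairX_cut_sub_vK X ((2 : ℤ) ^ a) ((2 : ℤ) ^ b) hr₁ hr₂ φ
  push_cast at hdiff
  have hsum : ∀ t, ∑ k ∈ Finset.Ico a b, K k t =
      c₀ * vK ((2 : ℤ) ^ a) ((2 : ℤ) ^ b) t - Ehat a t + Ehat b t +
        ∑ k ∈ Finset.Ico a b, err k t := by
    intro t
    have htel : ∑ k ∈ Finset.Ico a b, (Ehat (k + 1) t - Ehat k t) = Ehat b t - Ehat a t :=
      sum_Ico_tele (fun k => Ehat k t) a b hab.le
    have h1 : ∀ k ∈ Finset.Ico a b, K k t =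
        c₀ * vK ((2 : ℤ) ^ k) ((2 : ℤ) ^ (k + 1)) t + (Ehat (k + 1) t - Ehat k t) + err k t := by
      intro k hk
      rw [Finset.mem_Ico] at hk
      rw [hker k (Finset.mem_Ico.mpr ⟨by omega, by omega⟩) t]
      ring
    rw [Finset.sum_congr rfl h1, sum_add_distrib, sum_add_distrib, ← mul_sum, htel,
      vK_sum_Ico a b hab.le t]
    ring
  have hpair : c₀ * pairX X (vK ((2 : ℤ) ^ a) ((2 : ℤ) ^ b)) φ =
      ∑ k ∈ Finset.Ico a b, pairX X (K k) φ + pairX X (Ehat a) φ - pairX X (Ehat b) φ -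
        ∑ k ∈ Finset.Ico a b, pairX X (err k) φ := by
    rw [← pairX_sum, ← pairX_sum, ← pairX_smul]
    unfold pairX
    rw [← sum_add_distrib, ← sum_sub_distrib, ← sum_sub_distrib]
    apply sum_congr rfl
    intro t _
    show c₀ * vK ((2 : ℤ) ^ a) ((2 : ℤ) ^ b) t * φ t =
      (∑ g ∈ Finset.Ico a b, K g t) * φ t + Ehat a t * φ t - Ehat b t * φ t -
        (∑ g ∈ Finset.Ico a b, err g t) * φ t
    rw [hsum t]
    ring
  have hvK : ‖pairX X (vK ((2 : ℤ) ^ a) ((2 : ℤ) ^ b)) φ‖ ≤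
      ‖c₀‖⁻¹ * (‖∑ k ∈ Finset.Ico a b, pairX X (K k) φ‖ + ‖pairX X (Ehat a) φ‖ +
          ‖pairX X (Ehat b) φ‖ +
          ∑ k ∈ Finset.Ico a b, ∑ t ∈ Finset.Icc (-X) X, ‖err k t‖ * ‖φ t‖) := by
    have hc : 0 < ‖c₀‖ := norm_pos_iff.mpr hc₀
    rw [inv_mul_eq_div, le_div_iff₀ hc, mul_comm, ← norm_mul, hpair]
    refine (norm_sub_le _ _).trans ?_
    apply add_le_add
    · exact norm_sub_le_of_le (norm_add_le _ _) le_rfl
    · refine (norm_sum_le _ _).trans (sum_le_sum fun k _ => norm_pairX_le _ _ _)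
  have hsplit : pairX X (cutK ((2 : ℤ) ^ a) ((2 : ℤ) ^ b)) φ =
      pairX X (vK ((2 : ℤ) ^ a) ((2 : ℤ) ^ b)) φ +
        pairX X (fun t => cutK ((2 : ℤ) ^ a) ((2 : ℤ) ^ b) t -
          vK ((2 : ℤ) ^ a) ((2 : ℤ) ^ b) t) φ := by
    rw [pairX_sub]
    ring
  rw [hsplit]
  exact (norm_add_le _ _).trans (add_le_add hvK hdiff)


lemma sum_ite_le_single {γ : Type*} (J : Finset γ) (P : γ → Prop) [DecidablePred P] (c : ℝ)
    (hc : 0 ≤ c) (h : ∀ j ∈ J, ∀ j' ∈ J, P j → P j' → j = j') :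
    ∑ j ∈ J, (if P j then c else 0) ≤ c := by
  by_cases hex : ∃ j ∈ J, P j
  · obtain ⟨j, hj, hPj⟩ := hex
    rw [Finset.sum_eq_single_of_mem j hj]
    · rw [if_pos hPj]
    · intro j' hj' hne
      rw [if_neg]
      intro hP
      exact hne (h j' hj' j hj hP hPj)
  · push Not at hex
    rw [Finset.sum_eq_zero]
    · exact hc
    · intro j hj
      rw [if_neg (hex j hj)]

lemma cutK_ne_zero_imp (α β v : ℤ) (h : cutK α β v ≠ 0) : α ≤ |v| ∧ |v| < β := by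
  unfold cutK at h
  by_contra hc
  simp [hc] at h

/-- A family of dyadic end point errors. -/
lemma E_family_bound (J' : Finset ι) (f : ι → ℕ) (hinj : Set.InjOn f J') (kmin kmax : ℕ)
    (hf : ∀ j ∈ J', f j ∈ Finset.Icc kmin kmax)
    (Ehat : ℕ → ℤ → ℂ) (JE : ℕ → Finset ℤ) (hJE : ∀ k, (JE k).card ≤ 2) (c₂ c₃ : ℝ) (hc₂ : 0 ≤ c₂)
    (hE : ∀ k ∈ Finset.Icc kmin kmax, BlockHyp (2 ^ k) ({()} : Finset Unit) (fun _ => Ehat k) (JE k)
      c₂ c₃)
    (X : ℤ) (hX : 3 * (2 : ℤ) ^ kmax ≤ X)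
    (φ : ℤ → ℂ) (m : ℝ) (hm0 : 0 ≤ m)
    (hm : ∀ T : ℕ, ∑ t ∈ Finset.Icc (-(T : ℤ)) T, ‖φ t‖ ≤ m * (2 * T + 1))
    (L q : ℕ) (hL : 2 ≤ L) (hq : kmax + L ≤ q) :
    ∑ j ∈ J', ‖pairX X (Ehat (f j)) φ‖ ≤
      (Real.sqrt (16 * c₂ ^ 2 + 9 * c₃ ^ 2) + 240 * c₂) * Real.sqrt J'.card *
        (∑ l ∈ range q, rho ^ l * Real.sqrt (sqf (l + 2) (Finset.Ico 0 q) φ)) +
      378 * c₂ * m * J'.card / 2 ^ L := by
  classical
  set Ks : Finset ℕ := J'.image f with hKs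
  have hKsmem : ∀ k ∈ Ks, k ∈ Finset.Icc kmin kmax := by
    intro k hk
    rw [hKs, Finset.mem_image] at hk
    obtain ⟨j, hj, rfl⟩ := hk
    exact hf j hj
  have hmain := block_sum_bound₀ Ks (fun _ => ({()} : Finset Unit)) (fun k _ => Ehat k) JE c₂ c₃ hc₂
    (fun k hk => hE k (hKsmem k hk)) φ m hm0 hm L q hL
    (fun k hk => by have := (Finset.mem_Icc.mp (hKsmem k hk)).2; omega)
  have hLHS : ∑ j ∈ J', ‖pairX X (Ehat (f j)) φ‖ =
      ∑ k ∈ Ks, ∑ _i ∈ ({()} : Finset Unit), ‖∑' v, Ehat k v * φ v‖ := by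
    rw [hKs, Finset.sum_image hinj]
    apply sum_congr rfl
    intro j hj
    rw [Finset.sum_singleton, tsum_eq_pairX]
    intro v hv
    have hb := hE (f j) (hf j hj)
    have h1 := hb.supp () (Finset.mem_singleton_self _) v hv
    have h2 : ((2 ^ f j : ℕ) : ℤ) ≤ (2 : ℤ) ^ kmax := by
      push_cast
      exact pow_le_pow_right₀ (by norm_num) (Finset.mem_Icc.mp (hf j hj)).2
    omega
  rw [hLHS]
  refine hmain.trans ?_
  have hKscard : Ks.card ≤ J'.card := Finset.card_image_le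
  have hKscardR : (Ks.card : ℝ) ≤ J'.card := by exact_mod_cast hKscard
  have hcard : (∑ k ∈ Ks, ((JE k).card : ℝ)) ≤ 2 * Ks.card := by
    calc (∑ k ∈ Ks, ((JE k).card : ℝ)) ≤ ∑ _k ∈ Ks, (2 : ℝ) := by
          apply sum_le_sum
          intro k _
          exact_mod_cast hJE k
      _ = 2 * Ks.card := by
          simp
          ring
  set S : ℝ := ∑ l ∈ range q, rho ^ l * Real.sqrt (sqf (l + 2) (Finset.Ico 0 q) φ) with hS
  have hS0 : 0 ≤ S := sum_nonneg fun l _ =>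
    mul_nonneg (pow_nonneg rho_nonneg l) (Real.sqrt_nonneg _)
  apply add_le_add
  · apply mul_le_mul_of_nonneg_right _ hS0
    have h1 : Real.sqrt (8 * (∑ k ∈ Ks, ((JE k).card : ℝ)) * c₂ ^ 2 + 9 * c₃ ^ 2 * Ks.card) ≤
        Real.sqrt (16 * c₂ ^ 2 + 9 * c₃ ^ 2) * Real.sqrt J'.card := by
      rw [← Real.sqrt_mul (by positivity)]
      apply Real.sqrt_le_sqrt
      have h2 : 8 * (∑ k ∈ Ks, ((JE k).card : ℝ)) * c₂ ^ 2 ≤ 8 * (2 * Ks.card) * c₂ ^ 2 := by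
        gcongr
      have h3 : (0 : ℝ) ≤ c₂ ^ 2 := sq_nonneg _
      have h4 : (0 : ℝ) ≤ c₃ ^ 2 := sq_nonneg _
      nlinarith
    have h5 : Real.sqrt Ks.card ≤ Real.sqrt J'.card := Real.sqrt_le_sqrt hKscardR
    have h6 : 240 * c₂ * Real.sqrt Ks.card ≤ 240 * c₂ * Real.sqrt J'.card := by
      gcongr
    linarith
  · apply div_le_div_of_nonneg_right _ (by positivity)
    have : (Ks.card : ℝ) * (378 * c₂ * m) ≤ J'.card * (378 * c₂ * m) :=
      mul_le_mul_of_nonneg_right hKscardR (by positivity)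
    linarith

/-- **L10a.** The pointwise bound for a disjoint family of annuli, in terms of the ladder kernels
`K k` (index `k`: radius `2^k`). -/
theorem sharp_pointwise [DecidableEq ι] (J : Finset ι) (α β : ι → ℕ) (kmin kmax : ℕ)
    (hα2 : ∀ j ∈ J, 2 ≤ α j) (hαmin : ∀ j ∈ J, 2 ^ kmin ≤ α j) (hαβ : ∀ j ∈ J, α j < β j)
    (hβ : ∀ j ∈ J, β j ≤ 2 ^ kmax)
    (hdisj : ∀ j ∈ J, ∀ j' ∈ J, j ≠ j' → β j ≤ α j' ∨ β j' ≤ α j)
    (φ : ℤ → ℂ) (m : ℝ) (hm0 : 0 ≤ m)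
    (hm : ∀ T : ℕ, ∑ t ∈ Finset.Icc (-(T : ℤ)) T, ‖φ t‖ ≤ m * (2 * T + 1))
    (L q : ℕ) (hL : 2 ≤ L) (hq : kmax + L ≤ q)
    (K Ehat err : ℕ → ℤ → ℂ) (c₀ : ℂ) (hc₀ : c₀ ≠ 0)
    (hker : ∀ k ∈ Finset.Ico kmin kmax, ∀ t, K k t =
      c₀ * vK ((2 : ℤ) ^ k) ((2 : ℤ) ^ (k + 1)) t - Ehat k t + Ehat (k + 1) t + err k t)
    (JE : ℕ → Finset ℤ) (hJE : ∀ k, (JE k).card ≤ 2) (c₂ c₃ : ℝ) (hc₂ : 0 ≤ c₂)
    (hE : ∀ k ∈ Finset.Icc kmin kmax, BlockHyp (2 ^ k) ({()} : Finset Unit) (fun _ => Ehat k) (JE k)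
      c₂ c₃)
    (X : ℤ) (hX : 3 * (2 : ℤ) ^ kmax ≤ X) :
    ∑ j ∈ J, ‖pairX X (cutK (α j) (β j)) φ‖ ≤
      ‖c₀‖⁻¹ * ∑ j ∈ J, ‖∑ k ∈ Finset.Ico (kA (α j)) (kB (β j)), pairX X (K k) φ‖ +
      (400 + 2 * ‖c₀‖⁻¹ * (Real.sqrt (16 * c₂ ^ 2 + 9 * c₃ ^ 2) + 240 * c₂)) * Real.sqrt J.card *
        (∑ l ∈ range q, rho ^ l * Real.sqrt (sqf (l + 2) (Finset.Ico 0 q) φ)) +
      (756 + 2 * ‖c₀‖⁻¹ * (378 * c₂)) * m * J.card / 2 ^ L +
      ‖c₀‖⁻¹ * ∑ k ∈ Finset.Ico kmin kmax, ∑ t ∈ Finset.Icc (-X) X, ‖err k t‖ * ‖φ t‖ +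
      ∑ t ∈ Finset.Icc (-X) X, (if (2 : ℤ) ^ kmin ≤ |t| then ‖φ t‖ / (t : ℝ) ^ 2 else 0) +
      3 * ∑ k ∈ Finset.Icc kmin kmax, ((2 : ℝ) ^ k)⁻¹ * ‖φ (-(2 : ℤ) ^ k)‖ := by
  classical
  set a : ι → ℕ := fun j => kA (α j) with ha
  set b : ι → ℕ := fun j => kB (β j) with hb
  set J' : Finset ι := J.filter fun j => a j < b j with hJ'
  set S : ℝ := ∑ l ∈ range q, rho ^ l * Real.sqrt (sqf (l + 2) (Finset.Ico 0 q) φ) with hS
  have hS0 : 0 ≤ S := sum_nonneg fun l _ =>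
    mul_nonneg (pow_nonneg rho_nonneg l) (Real.sqrt_nonneg _)
  have hJ'sub : J' ⊆ J := Finset.filter_subset _ _
  have hJ'mem : ∀ j ∈ J', j ∈ J ∧ a j < b j := fun j hj => Finset.mem_filter.mp hj
  have hc0 : 0 < ‖c₀‖ := norm_pos_iff.mpr hc₀
  have hcinv : 0 ≤ ‖c₀‖⁻¹ := by positivity
  have hX2 : (2 : ℤ) ^ kmax ≤ X := by
    have : (0 : ℤ) < 2 ^ kmax := by positivity
    omega
  -- radii facts
  have hale : ∀ j ∈ J, a j ≤ kmax := fun j hj =>
    Nat.clog_le_of_le_pow ((hαβ j hj).le.trans (hβ j hj))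
  have hble : ∀ j ∈ J, b j ≤ kmax := by
    intro j hj
    have := Nat.log_mono_right (b := 2) (hβ j hj)
    rwa [Nat.log_pow (by norm_num)] at this
  have hage : ∀ j ∈ J, kmin ≤ a j := by
    intro j hj
    have := Nat.clog_mono_right 2 (hαmin j hj)
    rwa [Nat.clog_pow 2 _ (by norm_num)] at this
  -- separation of the annuli
  have hsep : ∀ j ∈ J, ∀ j' ∈ J, j ≠ j' → b j ≤ a j' ∨ b j' ≤ a j := by
    intro j hj j' hj' hne
    have hsep1 : ∀ i i' : ι, i ∈ J → β i ≤ α i' → b i ≤ a i' := by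
      intro i i' hi h
      have h1 : 2 ^ b i ≤ β i := pow_kB_le _ (by have := hαβ i hi; omega)
      have h2 : α i' ≤ 2 ^ a i' := le_pow_kA _
      exact (Nat.pow_le_pow_iff_right (by norm_num)).mp (h1.trans (h.trans h2))
    rcases hdisj j hj j' hj' hne with h | h
    · left; exact hsep1 j j' hj h
    · right; exact hsep1 j' j hj' h
  -- the three-piece split
  have hpiece : ∀ i : ι × Bool, i.1 ∈ J → ∀ v, cutK (pLo α β i) (pHi α β i) v ≠ 0 → |v| ≤ X := by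
    intro i hi v hv
    have h1 := cutK_ne_zero_imp _ _ _ hv
    have h2 := pHi_le α β i
    have h3 : ((β i.1 : ℕ) : ℤ) ≤ (2 : ℤ) ^ kmax := by exact_mod_cast hβ i.1 hi
    omega
  set pp : ι × Bool → ℂ := fun i => ∑' v, cutK (pLo α β i) (pHi α β i) v * φ v with hpp
  have hsplit : ∀ j ∈ J, pairX X (cutK (α j) (β j)) φ =
      pp (j, false) + pairX X (cutK ((2 : ℤ) ^ a j) ((2 : ℤ) ^ b j)) φ + pp (j, true) := by
    intro j hj
    have e1 : pp (j, false) = pairX X (cutK (α j) (min (β j : ℤ) ((2 : ℤ) ^ kA (α j)))) φ := by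
      have := tsum_eq_pairX (cutK (pLo α β (j, false)) (pHi α β (j, false))) φ X (hpiece _ hj)
      simpa [pLo, pHi, hpp] using this
    have e2 : pp (j, true) = pairX X (cutK ((2 : ℤ) ^ max (kA (α j)) (kB (β j))) (β j)) φ := by
      have := tsum_eq_pairX (cutK (pLo α β (j, true)) (pHi α β (j, true))) φ X (hpiece _ hj)
      simpa [pLo, pHi, hpp] using this
    rw [e1, e2]
    unfold pairX
    rw [← sum_add_distrib, ← sum_add_distrib]
    apply sum_congr rfl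
    intro t _
    rw [annulus_split (α j) (β j) (hαβ j hj) t]
    ring
  have hzero : ∀ j ∈ J, j ∉ J' → pairX X (cutK ((2 : ℤ) ^ a j) ((2 : ℤ) ^ b j)) φ = 0 := by
    intro j hj hnot
    have hle : b j ≤ a j := by
      by_contra h
      exact hnot (Finset.mem_filter.mpr ⟨hj, by omega⟩)
    have h2 : (2 : ℤ) ^ b j ≤ (2 : ℤ) ^ a j := pow_le_pow_right₀ (by norm_num) hle
    unfold pairX
    apply sum_eq_zero
    intro t _
    have : cutK ((2 : ℤ) ^ a j) ((2 : ℤ) ^ b j) t = 0 := by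
      unfold cutK
      rw [if_neg]
      omega
    rw [this, zero_mul]
  -- partial pieces
  have hpart := partial_family_bound J α β kmax hα2
    (fun j hj => ⟨hale j hj, hble j hj⟩) hdisj φ m hm0 hm L q hL hq
  have hpart' : ∑ j ∈ J, (‖pp (j, false)‖ + ‖pp (j, true)‖) =
      ∑ i ∈ J ×ˢ (Finset.univ : Finset Bool), ‖pp i‖ := by
    rw [Finset.sum_product]
    apply sum_congr rfl
    intro j _
    rw [Fintype.sum_bool]
    ring
  -- first reduction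
  have hfirst : ∑ j ∈ J, ‖pairX X (cutK (α j) (β j)) φ‖ ≤
      ∑ i ∈ J ×ˢ (Finset.univ : Finset Bool), ‖pp i‖ +
        ∑ j ∈ J', ‖pairX X (cutK ((2 : ℤ) ^ a j) ((2 : ℤ) ^ b j)) φ‖ := by
    rw [← hpart']
    have h2 : ∑ j ∈ J', ‖pairX X (cutK ((2 : ℤ) ^ a j) ((2 : ℤ) ^ b j)) φ‖ =
        ∑ j ∈ J, ‖pairX X (cutK ((2 : ℤ) ^ a j) ((2 : ℤ) ^ b j)) φ‖ := by
      apply Finset.sum_subset hJ'sub
      intro j hj hnot
      rw [hzero j hj hnot, norm_zero]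
    rw [h2, ← sum_add_distrib]
    apply sum_le_sum
    intro j hj
    rw [hsplit j hj]
    refine (norm_add_le _ _).trans ?_
    have := norm_add_le (pp (j, false)) (pairX X (cutK ((2 : ℤ) ^ a j) ((2 : ℤ) ^ b j)) φ)
    linarith
  -- long pieces
  have hlong : ∀ j ∈ J', ‖pairX X (cutK ((2 : ℤ) ^ a j) ((2 : ℤ) ^ b j)) φ‖ ≤
      ‖c₀‖⁻¹ * (‖∑ k ∈ Finset.Ico (a j) (b j), pairX X (K k) φ‖ + ‖pairX X (Ehat (a j)) φ‖ +
          ‖pairX X (Ehat (b j)) φ‖ +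
          ∑ k ∈ Finset.Ico (a j) (b j), ∑ t ∈ Finset.Icc (-X) X, ‖err k t‖ * ‖φ t‖) +
      (∑ t ∈ Finset.Icc (-X) X,
          (if (2 : ℤ) ^ a j ≤ |t| ∧ |t| < (2 : ℤ) ^ b j then ‖φ t‖ / (t : ℝ) ^ 2 else 0) +
        ((2 : ℝ) ^ a j)⁻¹ * ‖φ (-(2 : ℤ) ^ a j)‖ +
        2 * ((2 : ℝ) ^ b j)⁻¹ * ‖φ (-(2 : ℤ) ^ b j)‖) := by
    intro j hj
    obtain ⟨hjJ, hab⟩ := hJ'mem j hj
    exact long_bound X (a j) (b j) kmin kmax hab (hage j hjJ) (hble j hjJ) K Ehat err c₀ hc₀ hker φ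
  -- the E terms
  have hinja : Set.InjOn a (J' : Finset ι) := by
    intro j hj j' hj' heq
    by_contra hne
    obtain ⟨hjJ, hab⟩ := hJ'mem j hj
    obtain ⟨hjJ', hab'⟩ := hJ'mem j' hj'
    rcases hsep j hjJ j' hjJ' hne with h | h <;> omega
  have hinjb : Set.InjOn b (J' : Finset ι) := by
    intro j hj j' hj' heq
    by_contra hne
    obtain ⟨hjJ, hab⟩ := hJ'mem j hj
    obtain ⟨hjJ', hab'⟩ := hJ'mem j' hj'
    rcases hsep j hjJ j' hjJ' hne with h | h <;> omega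
  have hamem : ∀ j ∈ J', a j ∈ Finset.Icc kmin kmax := fun j hj => by
    obtain ⟨hjJ, hab⟩ := hJ'mem j hj
    exact Finset.mem_Icc.mpr ⟨hage j hjJ, hale j hjJ⟩
  have hbmem : ∀ j ∈ J', b j ∈ Finset.Icc kmin kmax := fun j hj => by
    obtain ⟨hjJ, hab⟩ := hJ'mem j hj
    have := hage j hjJ
    exact Finset.mem_Icc.mpr ⟨by omega, hble j hjJ⟩
  have hEa := E_family_bound J' a hinja kmin kmax hamem Ehat JE hJE c₂ c₃ hc₂ hE X hX φ m hm0 hm L q hL hq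
  have hEb := E_family_bound J' b hinjb kmin kmax hbmem Ehat JE hJE c₂ c₃ hc₂ hE X hX φ m hm0 hm L q hL hq
  set CE : ℝ := Real.sqrt (16 * c₂ ^ 2 + 9 * c₃ ^ 2) + 240 * c₂ with hCE
  have hCE0 : 0 ≤ CE := by positivity
  have hcardle : (J'.card : ℝ) ≤ J.card := by exact_mod_cast Finset.card_le_card hJ'sub
  have hsqrtle : Real.sqrt J'.card ≤ Real.sqrt J.card := Real.sqrt_le_sqrt hcardle
  have hEa' : ∑ j ∈ J', ‖pairX X (Ehat (a j)) φ‖ ≤
      CE * Real.sqrt J.card * S + 378 * c₂ * m * J.card / 2 ^ L := by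
    refine hEa.trans ?_
    gcongr
  have hEb' : ∑ j ∈ J', ‖pairX X (Ehat (b j)) φ‖ ≤
      CE * Real.sqrt J.card * S + 378 * c₂ * m * J.card / 2 ^ L := by
    refine hEb.trans ?_
    gcongr
  -- error term: disjoint level sets
  have herr : ∑ j ∈ J', ∑ k ∈ Finset.Ico (a j) (b j),
      ∑ t ∈ Finset.Icc (-X) X, ‖err k t‖ * ‖φ t‖ ≤
      ∑ k ∈ Finset.Ico kmin kmax, ∑ t ∈ Finset.Icc (-X) X, ‖err k t‖ * ‖φ t‖ := by
    rw [← Finset.sum_biUnion]
    · apply Finset.sum_le_sum_of_subset_of_nonneg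
      · intro k hk
        rw [Finset.mem_biUnion] at hk
        obtain ⟨j, hj, hk⟩ := hk
        have h1 := Finset.mem_Icc.mp (hamem j hj)
        have h2 := Finset.mem_Icc.mp (hbmem j hj)
        rw [Finset.mem_Ico] at hk ⊢
        omega
      · intro k _ _
        exact sum_nonneg fun t _ => by positivity
    · intro j hj j' hj' hne
      obtain ⟨hjJ, hab⟩ := hJ'mem j hj
      obtain ⟨hjJ', hab'⟩ := hJ'mem j' hj'
      rw [Function.onFun, Finset.disjoint_left]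
      intro k hk hk'
      rw [Finset.mem_Ico] at hk hk'
      rcases hsep j hjJ j' hjJ' hne with h | h <;> omega
  -- the t² term
  have htsq : ∑ j ∈ J', ∑ t ∈ Finset.Icc (-X) X,
      (if (2 : ℤ) ^ a j ≤ |t| ∧ |t| < (2 : ℤ) ^ b j then ‖φ t‖ / (t : ℝ) ^ 2 else 0) ≤
      ∑ t ∈ Finset.Icc (-X) X, (if (2 : ℤ) ^ kmin ≤ |t| then ‖φ t‖ / (t : ℝ) ^ 2 else 0) := by
    rw [sum_comm]
    apply sum_le_sum
    intro t _
    by_cases hact : (2 : ℤ) ^ kmin ≤ |t|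
    · rw [if_pos hact]
      apply sum_ite_le_single
      · positivity
      · intro j hj j' hj' hP hP'
        by_contra hne
        obtain ⟨hjJ, hab⟩ := hJ'mem j hj
        obtain ⟨hjJ', hab'⟩ := hJ'mem j' hj'
        have hlt : ∀ u v : ℕ, u ≤ v → (2 : ℤ) ^ u ≤ (2 : ℤ) ^ v := fun u v h =>
          pow_le_pow_right₀ (by norm_num) h
        rcases hsep j hjJ j' hjJ' hne with h | h
        · have := hlt _ _ h
          omega
        · have := hlt _ _ h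
          omega
    · rw [if_neg hact]
      apply le_of_eq
      apply sum_eq_zero
      intro j hj
      rw [if_neg]
      intro hP
      obtain ⟨hjJ, hab⟩ := hJ'mem j hj
      have : (2 : ℤ) ^ kmin ≤ (2 : ℤ) ^ a j := pow_le_pow_right₀ (by norm_num) (hage j hjJ)
      omega
  -- spikes
  set sk : ℕ → ℝ := fun k => ((2 : ℝ) ^ k)⁻¹ * ‖φ (-(2 : ℤ) ^ k)‖ with hsk
  have hsk0 : ∀ k, 0 ≤ sk k := fun k => by positivity
  have hspa : ∑ j ∈ J', sk (a j) ≤ ∑ k ∈ Finset.Icc kmin kmax, sk k := by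
    rw [← Finset.sum_image (f := sk) hinja]
    apply Finset.sum_le_sum_of_subset_of_nonneg
    · intro k hk
      rw [Finset.mem_image] at hk
      obtain ⟨j, hj, rfl⟩ := hk
      exact hamem j hj
    · intro k _ _
      exact hsk0 k
  have hspb : ∑ j ∈ J', sk (b j) ≤ ∑ k ∈ Finset.Icc kmin kmax, sk k := by
    rw [← Finset.sum_image (f := sk) hinjb]
    apply Finset.sum_le_sum_of_subset_of_nonneg
    · intro k hk
      rw [Finset.mem_image] at hk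
      obtain ⟨j, hj, rfl⟩ := hk
      exact hbmem j hj
    · intro k _ _
      exact hsk0 k
  -- the K term
  have hKterm : ∑ j ∈ J', ‖∑ k ∈ Finset.Ico (a j) (b j), pairX X (K k) φ‖ ≤
      ∑ j ∈ J, ‖∑ k ∈ Finset.Ico (kA (α j)) (kB (β j)), pairX X (K k) φ‖ := by
    apply Finset.sum_le_sum_of_subset_of_nonneg hJ'sub
    intro j _ _
    exact norm_nonneg _
  -- assemble the long sum
  have hlongsum : ∑ j ∈ J', ‖pairX X (cutK ((2 : ℤ) ^ a j) ((2 : ℤ) ^ b j)) φ‖ ≤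
      ‖c₀‖⁻¹ * (∑ j ∈ J', ‖∑ k ∈ Finset.Ico (a j) (b j), pairX X (K k) φ‖ +
          ∑ j ∈ J', ‖pairX X (Ehat (a j)) φ‖ + ∑ j ∈ J', ‖pairX X (Ehat (b j)) φ‖ +
          ∑ j ∈ J', ∑ k ∈ Finset.Ico (a j) (b j), ∑ t ∈ Finset.Icc (-X) X, ‖err k t‖ * ‖φ t‖) +
      (∑ j ∈ J', ∑ t ∈ Finset.Icc (-X) X,
          (if (2 : ℤ) ^ a j ≤ |t| ∧ |t| < (2 : ℤ) ^ b j then ‖φ t‖ / (t : ℝ) ^ 2 else 0) +
        ∑ j ∈ J', sk (a j) + 2 * ∑ j ∈ J', sk (b j)) := by
    refine (sum_le_sum hlong).trans (le_of_eq ?_)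
    simp only [sum_add_distrib, ← mul_sum, hsk]
    rw [mul_sum (s := J') (a := (2 : ℝ))]
    congr 2
    apply sum_congr rfl
    intro j _
    ring
  -- final arithmetic
  have hbig : ‖c₀‖⁻¹ * (∑ j ∈ J', ‖∑ k ∈ Finset.Ico (a j) (b j), pairX X (K k) φ‖ +
          ∑ j ∈ J', ‖pairX X (Ehat (a j)) φ‖ + ∑ j ∈ J', ‖pairX X (Ehat (b j)) φ‖ +
          ∑ j ∈ J', ∑ k ∈ Finset.Ico (a j) (b j), ∑ t ∈ Finset.Icc (-X) X, ‖err k t‖ * ‖φ t‖) ≤
      ‖c₀‖⁻¹ * (∑ j ∈ J, ‖∑ k ∈ Finset.Ico (kA (α j)) (kB (β j)), pairX X (K k) φ‖ +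
          (CE * Real.sqrt J.card * S + 378 * c₂ * m * J.card / 2 ^ L) +
          (CE * Real.sqrt J.card * S + 378 * c₂ * m * J.card / 2 ^ L) +
          ∑ k ∈ Finset.Ico kmin kmax, ∑ t ∈ Finset.Icc (-X) X, ‖err k t‖ * ‖φ t‖) := by
    apply mul_le_mul_of_nonneg_left _ hcinv
    linarith
  have hfinal := hfirst.trans (add_le_add hpart (hlongsum.trans (add_le_add hbig
    (add_le_add (add_le_add htsq hspa) (mul_le_mul_of_nonneg_left hspb (by norm_num))))))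
  refine hfinal.trans (le_of_eq ?_)
  have hpow : ∑ k ∈ Finset.Icc kmin kmax, sk k =
      ∑ k ∈ Finset.Icc kmin kmax, ((2 : ℝ) ^ k)⁻¹ * ‖φ (-(2 : ℤ) ^ k)‖ := rfl
  rw [hpow]
  field_simp
  ring

end Pieces

end Crest.Agent.TriRL.Cal
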